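import Crest.Agent.R163.Log4

/-! R163: the symmetrised merge `avg` as an explicit finite sum in coordinates. -/

set_option autoImplicit false
set_option linter.unusedVariables false

namespace Crest.Agent.R163

/-! three states: `y = (1+a, 1+b, 1-a-b)`, `z = (1+d, 1+e, 1-d-e)` -/

noncomputable def jH (a b : ℝ) : ℝ := (a ^ 2 + b ^ 2 + (a + b) ^ 2) / 3
noncomputable def jT (a b : ℝ) : ℝ := -(a * b * (a + b))
noncomputable def jS (a b d e : ℝ) : ℝ := (a * d + b * e + (a + b) * (d + e)) / 3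
noncomputable def jN (a b d e : ℝ) : ℝ := jH (a + d + a * d - jS a b d e) (b + e + b * e - jS a b d e)
noncomputable def jM (a b d e : ℝ) : ℝ := jT (a + d + a * d - jS a b d e) (b + e + b * e - jS a b d e)
noncomputable def s6 (G : ℝ → ℝ → ℝ) (d e : ℝ) : ℝ :=
  G d e + G e d + G d (-d - e) + G (-d - e) d + G e (-d - e) + G (-d - e) e

theorem av3_two {y : Fin 3 → ℝ} (hy : Simp y) : y 2 = 3 - y 0 - y 1 := by
  have h := hy.2
  rw [Fin.sum_univ_three] at h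
  push_cast at h
  linarith

theorem fH_eq3 {y : Fin 3 → ℝ} (hy : Simp y) : fH y = jH (y 0 - 1) (y 1 - 1) := by
  simp only [fH, jH, Fin.sum_univ_three, av3_two hy]
  push_cast
  ring

theorem fT_eq3 {y : Fin 3 → ℝ} (hy : Simp y) : fT y = jT (y 0 - 1) (y 1 - 1) := by
  simp only [fT, jT, Fin.sum_univ_three, av3_two hy]
  push_cast
  ring

theorem av3_sum {y z : Fin 3 → ℝ} (hy : Simp y) (hz : Simp z) :
    ∑ j, y j * z j = 3 * (1 + jS (y 0 - 1) (y 1 - 1) (z 0 - 1) (z 1 - 1)) := by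
  simp only [jS, Fin.sum_univ_three, av3_two hy, av3_two hz]
  ring

theorem av3_sum_le {y z : Fin 3 → ℝ} (hy : Simp y) (hz : Simp z) : ∑ j, y j * z j ≤ 9 := by
  have hz3 : ∀ j, z j ≤ 3 := fun j => by
    have h1 : z j ≤ ∑ i, z i := Finset.single_le_sum (fun i _ => hz.1 i) (Finset.mem_univ j)
    rw [hz.2] at h1
    exact_mod_cast h1
  calc ∑ j, y j * z j ≤ ∑ j, y j * 3 :=
        Finset.sum_le_sum fun j _ => mul_le_mul_of_nonneg_left (hz3 j) (hy.1 j)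
    _ = 9 := by
        rw [← Finset.sum_mul, hy.2]
        norm_num

theorem av3_jH (x a b : ℝ) : x ^ 2 * jH a b = jH (x * a) (x * b) := by
  simp only [jH]
  ring

theorem av3_jT (x a b : ℝ) : x ^ 3 * jT a b = jT (x * a) (x * b) := by
  simp only [jT]
  ring

/-- the bound for one product -/
theorem av3_hom {F : (Fin 3 → ℝ) → ℝ} (Φ : ℝ → ℝ → ℝ → ℝ)
    (h : ∀ (s : ℝ) (W : Fin 3 → ℝ), -1 ≤ s → s ≤ 2 → Simp W →
      (1 + s) * F W ≤ Φ s ((1 + s) ^ 2 * fH W) ((1 + s) ^ 3 * fT W))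
    {y z : Fin 3 → ℝ} (hy : Simp y) (hz : Simp z) :
    hom F (fun i => y i * z i) ≤
      Φ (jS (y 0 - 1) (y 1 - 1) (z 0 - 1) (z 1 - 1)) (jN (y 0 - 1) (y 1 - 1) (z 0 - 1) (z 1 - 1))
        (jM (y 0 - 1) (y 1 - 1) (z 0 - 1) (z 1 - 1)) := by
  have hnn : NN fun i => y i * z i := fun i => mul_nonneg (hy.1 i) (hz.1 i)
  have hs := av3_sum hy hz
  have hle := av3_sum_le hy hz
  have h0 : 0 ≤ ∑ j, y j * z j := Finset.sum_nonneg fun j _ => hnn j
  simp only [jN, jM]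
  set s := jS (y 0 - 1) (y 1 - 1) (z 0 - 1) (z 1 - 1) with hsdef
  have ea : y 0 - 1 + (z 0 - 1) + (y 0 - 1) * (z 0 - 1) - s = y 0 * z 0 - (1 + s) := by ring
  have eb : y 1 - 1 + (z 1 - 1) + (y 1 - 1) * (z 1 - 1) - s = y 1 * z 1 - (1 + s) := by ring
  rw [ea, eb]
  rcases h0.eq_or_lt with h0 | h0
  · have hw : ∀ j, y j * z j = 0 := fun j =>
      (Finset.sum_eq_zero_iff_of_nonneg fun i _ => hnn i).1 h0.symm j (Finset.mem_univ j)
    have hs1 : s = -1 := by linarith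
    have hone : Simp (fun _ : Fin 3 => (1 : ℝ)) := ⟨fun _ => zero_le_one, by simp⟩
    have h1 := h (-1) _ le_rfl (by norm_num) hone
    simp only [hom, hw, hs1, jH, jT]
    norm_num at h1 ⊢
    exact h1
  · have hW := simp_normalize (by norm_num : 0 < 3) hnn h0
    have hx : 0 < 1 + s := by linarith
    have h1 := h s _ (by linarith) (by linarith) hW
    rw [fH_eq3 hW, fT_eq3 hW, av3_jH, av3_jT] at h1
    have e0 : hom F (fun i => y i * z i) =
        (1 + s) * F fun i => ((3 : ℕ) : ℝ) * (y i * z i) / ∑ j, y j * z j := by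
      simp only [hom]
      congr 1
      rw [hs]
      push_cast
      ring
    have e1 : ∀ i, (1 + s) * (((3 : ℕ) : ℝ) * (y i * z i) / ∑ j, y j * z j - 1) =
        y i * z i - (1 + s) := fun i => by
      rw [hs]
      push_cast
      field_simp
    rw [e1 0, e1 1] at h1
    rw [e0]
    exact h1

theorem av3_tuples : (Finset.univ : Finset (Equiv.Perm (Fin 3))).val.map
    (fun π => ((π 0, π 1) : Fin 3 × Fin 3)) =
    (([(0, 1), (1, 0), (0, 2), (2, 0), (1, 2), (2, 1)] : List (Fin 3 × Fin 3)) :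
      Multiset (Fin 3 × Fin 3)) := by
  decide +kernel

theorem av3_sum_perm (H : Fin 3 × Fin 3 → ℝ) :
    ∑ π : Equiv.Perm (Fin 3), H (π 0, π 1) =
    (([(0, 1), (1, 0), (0, 2), (2, 0), (1, 2), (2, 1)] : List (Fin 3 × Fin 3)).map H).sum := by
  have h := congrArg (fun m => (Multiset.map H m).sum) av3_tuples
  simp only [Multiset.map_map, Multiset.map_coe, Multiset.sum_coe] at h
  exact h

theorem av3_perm (G : ℝ → ℝ → ℝ) {z : Fin 3 → ℝ} (hz : Simp z) :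
    ∑ π : Equiv.Perm (Fin 3), G (z (π 0) - 1) (z (π 1) - 1) = s6 G (z 0 - 1) (z 1 - 1) := by
  have h := av3_sum_perm fun t => G (z t.1 - 1) (z t.2 - 1)
  refine Eq.trans h ?_
  have e : -(z 0 - 1) - (z 1 - 1) = z 2 - 1 := by
    rw [av3_two hz]
    ring
  simp only [List.map_cons, List.map_nil, List.sum_cons, List.sum_nil, s6, e]
  ring

/-- For each permutation, `w i = y i * z (π i)`, `x = (∑ w)/3 = 1 + s ∈ [0, 3]`. If `x > 0`, `W = w/x` is in the simplex,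
`hom F w = x * F W`, `x² fH W = ∑ (w i - x)²/3 = jN`, `x³ fT W = jM`. If `x = 0` then `w = 0`, `hom F w = 0`, `jN = jM = 0`:
use `h` at `s = -1`, `W = 1`. -/
theorem avg_le3 {F : (Fin 3 → ℝ) → ℝ} (Φ : ℝ → ℝ → ℝ → ℝ)
    (h : ∀ (s : ℝ) (W : Fin 3 → ℝ), -1 ≤ s → s ≤ 2 → Simp W →
      (1 + s) * F W ≤ Φ s ((1 + s) ^ 2 * fH W) ((1 + s) ^ 3 * fT W))
    {y z : Fin 3 → ℝ} (hy : Simp y) (hz : Simp z) :
    avg F y z ≤ s6 (fun d e => Φ (jS (y 0 - 1) (y 1 - 1) d e) (jN (y 0 - 1) (y 1 - 1) d e)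
      (jM (y 0 - 1) (y 1 - 1) d e)) (z 0 - 1) (z 1 - 1) / 6 := by
  rw [← av3_perm _ hz]
  have e : ((Nat.factorial 3 : ℕ) : ℝ) = 6 := by norm_num [Nat.factorial]
  simp only [avg, e]
  refine div_le_div_of_nonneg_right (Finset.sum_le_sum fun π _ => ?_) (by norm_num)
  have hz' : Simp fun i => z (π i) := ⟨fun i => hz.1 _, by rw [Equiv.sum_comp π z]; exact hz.2⟩
  exact av3_hom Φ h hy hz'

theorem avg_neg {q : ℕ} (F : (Fin q → ℝ) → ℝ) (y z : Fin q → ℝ) :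
    avg (fun W => -F W) y z = -avg F y z := by
  simp only [avg, hom, mul_neg, Finset.sum_neg_distrib, neg_div]

/-! four states, Klein coordinates: `y = (1+a+b+c, 1+a-b-c, 1-a+b-c, 1-a-b+c)` -/

noncomputable def ka (y : Fin 4 → ℝ) : ℝ := (y 0 + y 1 - y 2 - y 3) / 4
noncomputable def kb (y : Fin 4 → ℝ) : ℝ := (y 0 - y 1 + y 2 - y 3) / 4
noncomputable def kc (y : Fin 4 → ℝ) : ℝ := (y 0 - y 1 - y 2 + y 3) / 4

def kS (a b c d e f : ℝ) : ℝ := a * d + b * e + c * f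
def kA (a b c d e f : ℝ) : ℝ := a + d + (b * f + c * e)
def kB (a b c d e f : ℝ) : ℝ := b + e + (a * f + c * d)
def kC (a b c d e f : ℝ) : ℝ := c + f + (a * e + b * d)
def iH (a b c : ℝ) : ℝ := a ^ 2 + b ^ 2 + c ^ 2
def iT (a b c : ℝ) : ℝ := 6 * (a * b * c)
def iP (a b c : ℝ) : ℝ := a ^ 2 * b ^ 2 + b ^ 2 * c ^ 2 + c ^ 2 * a ^ 2
def kN (a b c d e f : ℝ) : ℝ := iH (kA a b c d e f) (kB a b c d e f) (kC a b c d e f)
def kT (a b c d e f : ℝ) : ℝ := iT (kA a b c d e f) (kB a b c d e f) (kC a b c d e f)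
def kP (a b c d e f : ℝ) : ℝ := iP (kA a b c d e f) (kB a b c d e f) (kC a b c d e f)
def s4 (G : ℝ → ℝ → ℝ → ℝ) (d e f : ℝ) : ℝ := G d e f + G d (-e) (-f) + G (-d) e (-f) + G (-d) (-e) f
def s24 (G : ℝ → ℝ → ℝ → ℝ) (d e f : ℝ) : ℝ :=
  s4 G d e f + s4 G d f e + s4 G e d f + s4 G e f d + s4 G f d e + s4 G f e d

theorem av4_three {y : Fin 4 → ℝ} (hy : Simp y) : y 3 = 4 - y 0 - y 1 - y 2 := by
  have h := hy.2
  rw [Fin.sum_univ_four] at h
  push_cast at h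
  linarith

theorem fH_eq4 {y : Fin 4 → ℝ} (hy : Simp y) : fH y = iH (ka y) (kb y) (kc y) := by
  simp only [fH, iH, ka, kb, kc, Fin.sum_univ_four, av4_three hy]
  push_cast
  ring

theorem fT_eq4 {y : Fin 4 → ℝ} (hy : Simp y) : fT y = iT (ka y) (kb y) (kc y) := by
  simp only [fT, iT, ka, kb, kc, Fin.sum_univ_four, av4_three hy]
  push_cast
  ring

theorem fP_eq4 {y : Fin 4 → ℝ} (hy : Simp y) : Bil.fP y = iP (ka y) (kb y) (kc y) := by
  simp only [Bil.fP, fH, iP, ka, kb, kc, Fin.sum_univ_four, av4_three hy]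
  push_cast
  ring

theorem av4_sum {y z : Fin 4 → ℝ} (hy : Simp y) (hz : Simp z) :
    ∑ j, y j * z j = 4 * (1 + kS (ka y) (kb y) (kc y) (ka z) (kb z) (kc z)) := by
  simp only [kS, ka, kb, kc, Fin.sum_univ_four, av4_three hy, av4_three hz]
  ring

theorem av4_ka {y z : Fin 4 → ℝ} (hy : Simp y) (hz : Simp z) :
    ka (fun j => y j * z j) = kA (ka y) (kb y) (kc y) (ka z) (kb z) (kc z) := by
  simp only [kA, ka, kb, kc, av4_three hy, av4_three hz]
  ring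

theorem av4_kb {y z : Fin 4 → ℝ} (hy : Simp y) (hz : Simp z) :
    kb (fun j => y j * z j) = kB (ka y) (kb y) (kc y) (ka z) (kb z) (kc z) := by
  simp only [kB, ka, kb, kc, av4_three hy, av4_three hz]
  ring

theorem av4_kc {y z : Fin 4 → ℝ} (hy : Simp y) (hz : Simp z) :
    kc (fun j => y j * z j) = kC (ka y) (kb y) (kc y) (ka z) (kb z) (kc z) := by
  simp only [kC, ka, kb, kc, av4_three hy, av4_three hz]
  ring

theorem av4_sum_le {y z : Fin 4 → ℝ} (hy : Simp y) (hz : Simp z) : ∑ j, y j * z j ≤ 16 := by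
  have hz4 : ∀ j, z j ≤ 4 := fun j => by
    have h1 : z j ≤ ∑ i, z i := Finset.single_le_sum (fun i _ => hz.1 i) (Finset.mem_univ j)
    rw [hz.2] at h1
    exact_mod_cast h1
  calc ∑ j, y j * z j ≤ ∑ j, y j * 4 :=
        Finset.sum_le_sum fun j _ => mul_le_mul_of_nonneg_left (hz4 j) (hy.1 j)
    _ = 16 := by
        rw [← Finset.sum_mul, hy.2]
        norm_num

/-- the bound for one product -/
theorem av4_hom {F : (Fin 4 → ℝ) → ℝ} (Φ : ℝ → ℝ → ℝ → ℝ → ℝ)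
    (h : ∀ (s : ℝ) (W : Fin 4 → ℝ), -1 ≤ s → s ≤ 3 → Simp W →
      (1 + s) * F W ≤ Φ s ((1 + s) ^ 2 * fH W) ((1 + s) ^ 3 * fT W) ((1 + s) ^ 4 * Bil.fP W))
    {y z : Fin 4 → ℝ} (hy : Simp y) (hz : Simp z) :
    hom F (fun i => y i * z i) ≤
      Φ (kS (ka y) (kb y) (kc y) (ka z) (kb z) (kc z)) (kN (ka y) (kb y) (kc y) (ka z) (kb z) (kc z))
        (kT (ka y) (kb y) (kc y) (ka z) (kb z) (kc z)) (kP (ka y) (kb y) (kc y) (ka z) (kb z) (kc z)) := by
  have hnn : NN fun i => y i * z i := fun i => mul_nonneg (hy.1 i) (hz.1 i)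
  have hs := av4_sum hy hz
  have hle := av4_sum_le hy hz
  have ha := av4_ka hy hz
  have hb := av4_kb hy hz
  have hc := av4_kc hy hz
  have h0 : 0 ≤ ∑ j, y j * z j := Finset.sum_nonneg fun j _ => hnn j
  set s := kS (ka y) (kb y) (kc y) (ka z) (kb z) (kc z) with hsdef
  simp only [kN, kT, kP]
  rw [← ha, ← hb, ← hc]
  rcases h0.eq_or_lt with h0 | h0
  · have hw : ∀ j, y j * z j = 0 := fun j =>
      (Finset.sum_eq_zero_iff_of_nonneg fun i _ => hnn i).1 h0.symm j (Finset.mem_univ j)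
    have hs1 : s = -1 := by linarith
    have hone : Simp (fun _ : Fin 4 => (1 : ℝ)) := ⟨fun _ => zero_le_one, by simp⟩
    have h1 := h (-1) _ le_rfl (by norm_num) hone
    simp only [hom, ka, kb, kc, hw, hs1, iH, iT, iP]
    norm_num at h1 ⊢
    exact h1
  · have hW := simp_normalize (by norm_num : 0 < 4) hnn h0
    have hx : 0 < 1 + s := by linarith
    have h1 := h s _ (by linarith) (by linarith) hW
    rw [fH_eq4 hW, fT_eq4 hW, fP_eq4 hW] at h1
    have e0 : hom F (fun i => y i * z i) =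
        (1 + s) * F fun i => ((4 : ℕ) : ℝ) * (y i * z i) / ∑ j, y j * z j := by
      simp only [hom]
      congr 1
      rw [hs]
      push_cast
      ring
    have ea : ka (fun i => ((4 : ℕ) : ℝ) * (y i * z i) / ∑ j, y j * z j) =
        ka (fun i => y i * z i) / (1 + s) := by
      simp only [ka, hs]
      push_cast
      field_simp
    have eb : kb (fun i => ((4 : ℕ) : ℝ) * (y i * z i) / ∑ j, y j * z j) =
        kb (fun i => y i * z i) / (1 + s) := by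
      simp only [kb, hs]
      push_cast
      field_simp
    have ec : kc (fun i => ((4 : ℕ) : ℝ) * (y i * z i) / ∑ j, y j * z j) =
        kc (fun i => y i * z i) / (1 + s) := by
      simp only [kc, hs]
      push_cast
      field_simp
    rw [ea, eb, ec] at h1
    rw [e0]
    refine h1.trans (le_of_eq ?_)
    congr 1
    · simp only [iH]
      field_simp
    · simp only [iT]
      field_simp
    · simp only [iP]
      field_simp

theorem av4_tuples : (Finset.univ : Finset (Equiv.Perm (Fin 4))).val.map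
    (fun π => ((π 0, π 1, π 2, π 3) : Fin 4 × Fin 4 × Fin 4 × Fin 4)) =
    (([
      (0, 1, 2, 3), (0, 1, 3, 2), (0, 2, 1, 3), (0, 2, 3, 1), (0, 3, 1, 2), (0, 3, 2, 1),
      (1, 0, 2, 3), (1, 0, 3, 2), (1, 2, 0, 3), (1, 2, 3, 0), (1, 3, 0, 2), (1, 3, 2, 0),
      (2, 0, 1, 3), (2, 0, 3, 1), (2, 1, 0, 3), (2, 1, 3, 0), (2, 3, 0, 1), (2, 3, 1, 0),
      (3, 0, 1, 2), (3, 0, 2, 1), (3, 1, 0, 2), (3, 1, 2, 0), (3, 2, 0, 1), (3, 2, 1, 0)] :
      List (Fin 4 × Fin 4 × Fin 4 × Fin 4)) : Multiset (Fin 4 × Fin 4 × Fin 4 × Fin 4)) := by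
  decide +kernel

theorem av4_sum_perm (H : Fin 4 × Fin 4 × Fin 4 × Fin 4 → ℝ) :
    ∑ π : Equiv.Perm (Fin 4), H (π 0, π 1, π 2, π 3) =
    (([
      (0, 1, 2, 3), (0, 1, 3, 2), (0, 2, 1, 3), (0, 2, 3, 1), (0, 3, 1, 2), (0, 3, 2, 1),
      (1, 0, 2, 3), (1, 0, 3, 2), (1, 2, 0, 3), (1, 2, 3, 0), (1, 3, 0, 2), (1, 3, 2, 0),
      (2, 0, 1, 3), (2, 0, 3, 1), (2, 1, 0, 3), (2, 1, 3, 0), (2, 3, 0, 1), (2, 3, 1, 0),
      (3, 0, 1, 2), (3, 0, 2, 1), (3, 1, 0, 2), (3, 1, 2, 0), (3, 2, 0, 1), (3, 2, 1, 0)] :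
      List (Fin 4 × Fin 4 × Fin 4 × Fin 4)).map H).sum := by
  have h := congrArg (fun m => (Multiset.map H m).sum) av4_tuples
  simp only [Multiset.map_map, Multiset.map_coe, Multiset.sum_coe] at h
  exact h

theorem av4_perm (G : ℝ → ℝ → ℝ → ℝ) (z : Fin 4 → ℝ) :
    ∑ π : Equiv.Perm (Fin 4), G (ka fun i => z (π i)) (kb fun i => z (π i)) (kc fun i => z (π i)) =
      s24 G (ka z) (kb z) (kc z) := by
  have h := av4_sum_perm fun t => G ((z t.1 + z t.2.1 - z t.2.2.1 - z t.2.2.2) / 4)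
    ((z t.1 - z t.2.1 + z t.2.2.1 - z t.2.2.2) / 4) ((z t.1 - z t.2.1 - z t.2.2.1 + z t.2.2.2) / 4)
  refine Eq.trans h ?_
  simp only [List.map_cons, List.map_nil, List.sum_cons, List.sum_nil, s24, s4, ka, kb, kc]
  ring_nf

/-- As `avg_le3`. For `w i = y i * z' i` (`z' = z ∘ π`) the mean is `1 + kS` and the Klein coordinates of `w` are
`kA kB kC` of those of `y` and `z'`; the 24 permutations act on `(ka z, kb z, kc z)` by the permutations and even sign changes.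
Suggested: first a bound `hom F (y * z') ≤ G (ka z') (kb z') (kc z')` for every `z'` in the simplex, then the identity
`∑ π, G (ka (z∘π)) (kb (z∘π)) (kc (z∘π)) = s24 G (ka z) (kb z) (kc z)` for an arbitrary `G`. -/
theorem avg_le4 {F : (Fin 4 → ℝ) → ℝ} (Φ : ℝ → ℝ → ℝ → ℝ → ℝ)
    (h : ∀ (s : ℝ) (W : Fin 4 → ℝ), -1 ≤ s → s ≤ 3 → Simp W →
      (1 + s) * F W ≤ Φ s ((1 + s) ^ 2 * fH W) ((1 + s) ^ 3 * fT W) ((1 + s) ^ 4 * Bil.fP W))
    {y z : Fin 4 → ℝ} (hy : Simp y) (hz : Simp z) :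
    avg F y z ≤ s24 (fun d e f => Φ (kS (ka y) (kb y) (kc y) d e f) (kN (ka y) (kb y) (kc y) d e f)
      (kT (ka y) (kb y) (kc y) d e f) (kP (ka y) (kb y) (kc y) d e f)) (ka z) (kb z) (kc z) / 24 := by
  rw [← av4_perm]
  have e : ((Nat.factorial 4 : ℕ) : ℝ) = 24 := by norm_num [Nat.factorial]
  simp only [avg, e]
  refine div_le_div_of_nonneg_right (Finset.sum_le_sum fun π _ => ?_) (by norm_num)
  have hz' : Simp fun i => z (π i) := ⟨fun i => hz.1 _, by rw [Equiv.sum_comp π z]; exact hz.2⟩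
  exact av4_hom Φ h hy hz'

end Crest.Agent.R163
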