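import Crest.Agent.R163.BasicA

/-! R163: calculus of `val`. All elementary (`tsum` of absolutely summable real families). -/

set_option autoImplicit false
set_option linter.unusedVariables false
open Crest.ProbabilityR.Broadcast Crest.ProbabilityR.TreeBroadcast

namespace Crest.Agent.R163

variable {q : ℕ}

/-! ### part a: see `BasicA.lean` -/

/-! ### part b: values of the constructions -/

theorem val_pt {v : Fin q → ℝ} (hv : NN v) (g : (Fin q → ℝ) → ℝ) : val (Ex.pt v) g = g v := by
  have e : (fun i => max (v i) 0) = v := funext fun i => max_eq_left (hv i)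
  simp [val, Ex.pt, e]

theorem val_one (g : (Fin q → ℝ) → ℝ) : val Ex.one g = g fun _ => 1 := by
  exact val_pt (fun _ => zero_le_one) g

theorem val_vert (g : (Fin q → ℝ) → ℝ) :
    val Ex.vert g = ∑ o : Fin q, g fun i => if o = i then 1 else 0 := by
  show ∑' o : Fin q, g (fun i => if o = i then 1 else 0) = _
  exact tsum_fintype _

theorem val_fin {κ : Type*} [Fintype κ] {v : κ → Fin q → ℝ} (hv : ∀ k, NN (v k))
    (g : (Fin q → ℝ) → ℝ) : val (Ex.fin v) g = ∑ k, g (v k) := by
  have e : ∀ k, (fun i => max (v k i) 0) = v k := fun k => funext fun i => max_eq_left (hv k i)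
  have h1 : val (Ex.fin v) g = ∑ o : Fin (Fintype.card κ), g (v ((Fintype.equivFin κ).symm o)) := by
    show ∑' o : Fin (Fintype.card κ), g (fun i => max (v ((Fintype.equivFin κ).symm o) i) 0) = _
    simp only [e, tsum_fintype]
  rw [h1]
  exact (Fintype.equivFin κ).symm.sum_comp fun k => g (v k)

theorem val_add (E F : Ex q) {g : (Fin q → ℝ) → ℝ} (hg : Adm g) :
    val (E.add F) g = val E g + val F g := by
  exact (HasSum.sum (f := fun o : E.ι ⊕ F.ι => g (Sum.elim E.P F.P o))
    (summable_val E hg).hasSum (summable_val F hg).hasSum).tsum_eq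

theorem val_smul (E : Ex q) {c : ℝ} (hc : 0 ≤ c) {g : (Fin q → ℝ) → ℝ} (hg : Hom g) :
    val (E.smul c) g = c * val E g := by
  unfold val
  rw [← tsum_mul_left]
  refine tsum_congr fun o => ?_
  show g (fun i => max c 0 * E.P o i) = _
  rw [max_eq_left hc]
  exact hg c _ hc (E.nonneg o)

theorem chan_P (E : Ex q) {lam : ℝ} (hl : LamOK q lam) (o : E.ι) :
    (E.chan lam).P o = chL lam (E.P o) := by
  funext i
  show ∑ j, max (channel q lam i j) 0 * E.P o j = ∑ j, channel q lam i j * E.P o j
  exact Finset.sum_congr rfl fun j _ => by rw [max_eq_left (hl i j)]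

theorem val_chan (E : Ex q) {lam : ℝ} (hl : LamOK q lam) (g : (Fin q → ℝ) → ℝ) :
    val (E.chan lam) g = val E fun P => g (chL lam P) := by
  exact tsum_congr fun o => by rw [chan_P E hl]

/-- the inner function of Fubini is a test function -/
theorem Test.inner {g : (Fin q → ℝ) → ℝ} (hg : Test g) (F : Ex q) :
    Test fun P => val F fun Q => g fun i => P i * Q i := by
  obtain ⟨C, hC⟩ := hg.adm
  refine ⟨fun c P hc hP => ?_, ⟨|C| * ∑ j, mass F j, fun P hP => ?_⟩⟩
  · rw [← val_mul_fun]
    refine val_congr F fun Q hQ => ?_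
    rw [← hg.hom c _ hc fun i => mul_nonneg (hP i) (hQ i)]
    simp only [mul_assoc]
  · refine (abs_val_le F (C := |C| * ∑ i, P i) fun Q hQ => ?_).trans (le_of_eq (by ring))
    refine (hC _ fun i => mul_nonneg (hP i) (hQ i)).trans ?_
    have h0 : 0 ≤ ∑ i, P i * Q i := Finset.sum_nonneg fun i _ => mul_nonneg (hP i) (hQ i)
    have h1 : ∑ i, P i * Q i ≤ (∑ i, P i) * ∑ i, Q i := by
      rw [Finset.mul_sum]
      exact Finset.sum_le_sum fun i _ => mul_le_mul_of_nonneg_right
        (Finset.single_le_sum (fun j _ => hP j) (Finset.mem_univ i)) (hQ i)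
    rw [mul_assoc]
    exact mul_le_mul (le_abs_self C) h1 h0 (abs_nonneg C)

/-- Fubini -/
theorem val_mul (E F : Ex q) {g : (Fin q → ℝ) → ℝ} (hg : Adm g) :
    val (E.mul F) g = val E fun P => val F fun Q => g fun i => P i * Q i := by
  exact (summable_val (E.mul F) hg).tsum_prod

theorem val_mul_comm (E F : Ex q) (g : (Fin q → ℝ) → ℝ) : val (E.mul F) g = val (F.mul E) g := by
  refine ((Equiv.prodComm F.ι E.ι).tsum_eq fun o => g ((E.mul F).P o)).symm.trans ?_
  exact tsum_congr fun o => congrArg g (funext fun i => mul_comm _ _)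

theorem hasSum_val_gen (ω : Off) (E : Ex q) {g : (Fin q → ℝ) → ℝ} (hg : Test g) :
    HasSum (fun k => ω.p k * val (E.pow k) g) (val (E.gen ω) g) := by
  refine (summable_val (E.gen ω) hg.adm).hasSum.sigma fun k => ?_
  have h := (summable_val (E.pow k) hg.adm).hasSum.mul_left (ω.p k)
  refine h.congr_fun fun o => ?_
  exact hg.hom _ _ (ω.nonneg k) ((E.pow k).nonneg o)

theorem val_gen_reg (b : ℕ) (E : Ex q) {g : (Fin q → ℝ) → ℝ} (hg : Test g) :
    val (E.gen (Off.reg b)) g = val (E.pow b) g := by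
  refine (hasSum_val_gen (Off.reg b) E hg).unique ?_
  have h := hasSum_ite_eq b (val (E.pow b) g)
  refine h.congr_fun fun k => ?_
  by_cases hk : k = b
  · simp [Off.reg, hk]
  · simp [Off.reg, hk]

/-! ### part c: `Eqv`, `Good` -/

theorem Eqv.refl (E : Ex q) : Eqv E E := fun _ _ => rfl
theorem Eqv.symm {E F : Ex q} (h : Eqv E F) : Eqv F E := fun g hg => (h g hg).symm
theorem Eqv.trans {E F G : Ex q} (h : Eqv E F) (h' : Eqv F G) : Eqv E G :=
  fun g hg => (h g hg).trans (h' g hg)

theorem Eqv.mul {E E' F F' : Ex q} (h : Eqv E E') (h' : Eqv F F') : Eqv (E.mul F) (E'.mul F') := by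
  intro g hg
  rw [val_mul _ _ hg.adm, val_mul _ _ hg.adm, ← h _ (hg.inner F')]
  exact val_congr _ fun P hP => h' _ (hg.mulv hP)

theorem Eqv.chan {E E' : Ex q} (h : Eqv E E') {lam : ℝ} (hl : LamOK q lam) :
    Eqv (E.chan lam) (E'.chan lam) := by
  intro g hg
  rw [val_chan _ hl, val_chan _ hl, h _ (hg.chL hl)]

theorem Eqv.pow {E E' : Ex q} (h : Eqv E E') (k : ℕ) : Eqv (E.pow k) (E'.pow k) := by
  induction k with
  | zero => exact Eqv.refl _
  | succ k ih => exact ih.mul h

theorem Eqv.gen {E E' : Ex q} (h : Eqv E E') (ω : Off) : Eqv (E.gen ω) (E'.gen ω) := by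
  intro g hg
  refine (hasSum_val_gen ω E hg).unique ?_
  simpa only [fun k => h.pow k g hg] using hasSum_val_gen ω E' hg

theorem eqv_mul_assoc (E F G : Ex q) : Eqv ((E.mul F).mul G) (E.mul (F.mul G)) := by
  intro g hg
  rw [val_mul _ _ hg.adm, val_mul _ _ (hg.inner G).adm, val_mul _ _ hg.adm]
  refine val_congr _ fun P hP => ?_
  rw [val_mul _ _ (hg.mulv hP).adm]
  simp only [mul_assoc]

theorem eqv_mul_one (E : Ex q) : Eqv (E.mul Ex.one) E := by
  intro g hg
  rw [val_mul _ _ hg.adm]
  simp only [val_one, mul_one]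

theorem good_one : Good (Ex.one : Ex q) := by
  exact ⟨fun i => val_one fun P => P i, fun π g _ => by rw [val_one, val_one]⟩

theorem good_vert : Good (Ex.vert : Ex q) := by
  refine ⟨fun i => (val_vert fun P => P i).trans (by simp), fun π g _ => ?_⟩
  rw [val_vert, val_vert, ← Equiv.sum_comp π]
  simp only [EmbeddingLike.apply_eq_iff_eq]

theorem Good.mul {E F : Ex q} (hE : Good E) (hF : Good F) : Good (E.mul F) := by
  refine ⟨fun i => (val_mul E F (test_coord i).adm).trans ?_, fun π g hg => ?_⟩
  · have h1 : val F (fun Q => Q i) = 1 := hF.norm i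
    simp only [val_mul_fun, h1, mul_one]
    exact hE.norm i
  · rw [val_mul _ _ (hg.perm π).adm, val_mul _ _ hg.adm, ← hE.sym π _ (hg.inner F)]
    exact val_congr _ fun P hP => hF.sym π _ (hg.mulv fun i => hP (π i))

theorem Good.chan {E : Ex q} (hE : Good E) {lam : ℝ} (hl : LamOK q lam) : Good (E.chan lam) := by
  refine ⟨fun i => (val_chan E hl fun P => P i).trans ?_, fun π g hg => ?_⟩
  · have h1 : val E (fun Q => Q i) = 1 := hE.norm i
    have hq : (q : ℝ) ≠ 0 := Nat.cast_ne_zero.2 i.pos.ne'
    simp only [chL_apply]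
    rw [val_add_fun _ ((test_coord i).const_mul _).adm (test_tot.const_mul _).adm, val_mul_fun,
      val_mul_fun, h1, val_tot, Finset.sum_congr rfl fun j _ => hE.norm j]
    simp only [Finset.sum_const, Finset.card_univ, Fintype.card_fin, nsmul_eq_mul]
    field_simp
    ring
  · rw [val_chan _ hl, val_chan _ hl, ← hE.sym π _ (hg.chL hl)]
    refine val_congr _ fun P _ => congrArg g (funext fun i => ?_)
    rw [chL_apply, chL_apply, Equiv.sum_comp π]

theorem Good.pow {E : Ex q} (hE : Good E) (k : ℕ) : Good (E.pow k) := by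
  induction k with
  | zero => exact good_one
  | succ k ih => exact ih.mul hE

theorem Good.gen {E : Ex q} (hE : Good E) (ω : Off) : Good (E.gen ω) := by
  refine ⟨fun i => (hasSum_val_gen ω E (test_coord i)).unique ?_, fun π g hg => ?_⟩
  · have h1 : ∀ k, val (E.pow k) (fun Q => Q i) = 1 := fun k => (hE.pow k).norm i
    simpa only [h1, mul_one] using ω.sum1
  · refine (hasSum_val_gen ω E (hg.perm π)).unique ?_
    simpa only [fun k => (hE.pow k).sym π g hg] using hasSum_val_gen ω E hg

theorem good_prodL {l : List (Ex q)} (h : ∀ E ∈ l, Good E) : Good (Ex.prodL l) := by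
  induction l with
  | nil => exact good_one
  | cons E l ih =>
    exact (ih fun F hF => h F (List.mem_cons_of_mem _ hF)).mul (h E List.mem_cons_self)

theorem good_mu {lam : ℝ} (hl : LamOK q lam) (ω : Off) (n : ℕ) : Good (mu q lam ω n) := by
  induction n with
  | zero => exact good_vert
  | succ n ih => exact (ih.chan hl).gen ω

theorem good_sub {V : Type*} [DecidableEq V] (T : LocFinTree V) {lam : ℝ} (hl : LamOK q lam)
    {L : V → Ex q} (hL : ∀ v, Good (L v)) (k : ℕ) (v : V) : Good (sub T lam L k v) := by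
  induction k generalizing v with
  | zero => exact hL v
  | succ k ih =>
    refine good_prodL fun E hE => ?_
    obtain ⟨c, -, rfl⟩ := List.mem_map.1 hE
    exact (ih c).chan hl

end Crest.Agent.R163
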