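import Crest.Agent.R163.Defs

/-! R163: calculus of `val`, part a: test functions, linearity in the test function. -/

set_option autoImplicit false
set_option linter.unusedVariables false
open Crest.ProbabilityR.Broadcast Crest.ProbabilityR.TreeBroadcast

namespace Crest.Agent.R163

variable {q : ℕ}

theorem summable_tot (E : Ex q) : Summable fun o => ∑ i, E.P o i :=
  summable_sum fun i _ => E.summ i

theorem summable_val (E : Ex q) {g : (Fin q → ℝ) → ℝ} (hg : Adm g) :
    Summable fun o => g (E.P o) := by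
  obtain ⟨C, hC⟩ := hg
  exact Summable.of_norm_bounded ((summable_tot E).mul_left C) fun o => hC _ (E.nonneg o)

theorem Adm.add {f g : (Fin q → ℝ) → ℝ} (hf : Adm f) (hg : Adm g) : Adm fun P => f P + g P := by
  obtain ⟨C, hC⟩ := hf
  obtain ⟨D, hD⟩ := hg
  refine ⟨C + D, fun P hP => ?_⟩
  rw [add_mul]
  exact (abs_add_le _ _).trans (add_le_add (hC P hP) (hD P hP))

theorem Adm.const_mul {f : (Fin q → ℝ) → ℝ} (hf : Adm f) (c : ℝ) : Adm fun P => c * f P := by
  obtain ⟨C, hC⟩ := hf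
  refine ⟨|c| * C, fun P hP => ?_⟩
  rw [abs_mul, mul_assoc]
  exact mul_le_mul_of_nonneg_left (hC P hP) (abs_nonneg _)

theorem Test.add {f g : (Fin q → ℝ) → ℝ} (hf : Test f) (hg : Test g) :
    Test fun P => f P + g P :=
  ⟨fun c P hc hP => by simp only [hf.hom c P hc hP, hg.hom c P hc hP, mul_add], hf.adm.add hg.adm⟩

theorem Test.const_mul {f : (Fin q → ℝ) → ℝ} (hf : Test f) (c : ℝ) : Test fun P => c * f P :=
  ⟨fun d P hd hP => by simp only [hf.hom d P hd hP]; ring, hf.adm.const_mul c⟩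

theorem Test.sub {f g : (Fin q → ℝ) → ℝ} (hf : Test f) (hg : Test g) :
    Test fun P => f P - g P := by
  have := hf.add (hg.const_mul (-1))
  simpa only [neg_mul, one_mul, ← sub_eq_add_neg] using this

theorem test_zero : Test fun _ : Fin q → ℝ => (0 : ℝ) :=
  ⟨fun c P _ _ => by simp, ⟨0, fun P _ => by simp⟩⟩

theorem Test.sum {κ : Type*} (s : Finset κ) {f : κ → (Fin q → ℝ) → ℝ} (hf : ∀ k ∈ s, Test (f k)) :
    Test fun P => ∑ k ∈ s, f k P := by
  classical
  induction s using Finset.induction_on with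
  | empty => simpa using test_zero
  | insert a s ha ih =>
    simp only [Finset.sum_insert ha]
    exact (hf a (Finset.mem_insert_self _ _)).add (ih fun k hk => hf k (Finset.mem_insert_of_mem hk))

theorem test_coord (i : Fin q) : Test fun P : Fin q → ℝ => P i :=
  ⟨fun c P _ _ => rfl, ⟨1, fun P hP => by
    rw [abs_of_nonneg (hP i), one_mul]
    exact Finset.single_le_sum (fun j _ => hP j) (Finset.mem_univ i)⟩⟩

theorem test_tot : Test fun P : Fin q → ℝ => ∑ i, P i :=
  Test.sum _ fun i _ => test_coord i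

theorem Test.perm {g : (Fin q → ℝ) → ℝ} (hg : Test g) (π : Equiv.Perm (Fin q)) :
    Test fun P => g fun i => P (π i) := by
  refine ⟨fun c P hc hP => hg.hom c (fun i => P (π i)) hc fun i => hP _, ?_⟩
  obtain ⟨C, hC⟩ := hg.adm
  refine ⟨C, fun P hP => ?_⟩
  rw [← Equiv.sum_comp π P]
  exact hC _ fun i => hP _

theorem Test.mulv {g : (Fin q → ℝ) → ℝ} (hg : Test g) {Q : Fin q → ℝ} (hQ : NN Q) :
    Test fun P => g fun i => Q i * P i := by
  refine ⟨fun c P hc hP => ?_, ?_⟩
  · have := hg.hom c (fun i => Q i * P i) hc fun i => mul_nonneg (hQ i) (hP i)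
    simp only [← this]
    congr 1
    funext i
    ring
  · obtain ⟨C, hC⟩ := hg.adm
    refine ⟨|C| * ∑ j, Q j, fun P hP => ?_⟩
    refine (hC _ fun i => mul_nonneg (hQ i) (hP i)).trans ?_
    have h1 : ∑ i, Q i * P i ≤ (∑ j, Q j) * ∑ i, P i := by
      rw [Finset.mul_sum]
      exact Finset.sum_le_sum fun i _ => mul_le_mul_of_nonneg_right
        (Finset.single_le_sum (fun j _ => hQ j) (Finset.mem_univ i)) (hP i)
    have h0 : 0 ≤ ∑ i, Q i * P i := Finset.sum_nonneg fun i _ => mul_nonneg (hQ i) (hP i)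
    calc C * ∑ i, Q i * P i ≤ |C| * ∑ i, Q i * P i := mul_le_mul_of_nonneg_right (le_abs_self C) h0
      _ ≤ |C| * ((∑ j, Q j) * ∑ i, P i) := mul_le_mul_of_nonneg_left h1 (abs_nonneg C)
      _ = _ := by ring

theorem NN.chL {lam : ℝ} (hl : LamOK q lam) {P : Fin q → ℝ} (hP : NN P) : NN (chL lam P) :=
  fun i => Finset.sum_nonneg fun j _ => mul_nonneg (hl i j) (hP j)

theorem chL_apply (lam : ℝ) (P : Fin q → ℝ) (i : Fin q) :
    chL lam P i = lam * P i + (1 - lam) / q * ∑ j, P j := by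
  simp only [chL, channel, add_mul, Finset.sum_add_distrib, ite_mul, zero_mul, Finset.sum_ite_eq,
    Finset.mem_univ, if_true, Finset.mul_sum]

theorem sum_chL (lam : ℝ) (P : Fin q → ℝ) : ∑ i, chL lam P i = ∑ i, P i := by
  rcases Nat.eq_zero_or_pos q with rfl | hq
  · simp
  have hq' : (q : ℝ) ≠ 0 := by exact_mod_cast hq.ne'
  simp only [chL_apply, Finset.sum_add_distrib, ← Finset.mul_sum, Finset.sum_const, Finset.card_univ,
    Fintype.card_fin, nsmul_eq_mul]
  field_simp
  ring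

theorem Test.chL {g : (Fin q → ℝ) → ℝ} (hg : Test g) {lam : ℝ} (hl : LamOK q lam) :
    Test fun P => g (chL lam P) := by
  refine ⟨fun c P hc hP => ?_, ?_⟩
  · have := hg.hom c (R163.chL lam P) hc (hP.chL hl)
    simp only [← this]
    congr 1
    funext i
    simp only [R163.chL, Finset.mul_sum]
    exact Finset.sum_congr rfl fun j _ => by ring
  · obtain ⟨C, hC⟩ := hg.adm
    refine ⟨C, fun P hP => ?_⟩
    rw [← sum_chL lam P]
    exact hC _ (hP.chL hl)

theorem lamOK_of_mem {lam : ℝ} (h0 : 0 ≤ lam) (h1 : lam ≤ 1) : LamOK q lam := fun i j => by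
  unfold channel
  have : 0 ≤ (1 - lam) / q := div_nonneg (by linarith) (Nat.cast_nonneg _)
  split_ifs <;> linarith

theorem lamOK_three {lam : ℝ} (h0 : -(1 / 2 : ℝ) ≤ lam) (h1 : lam ≤ 1) : LamOK 3 lam := fun i j => by
  unfold channel
  push_cast
  split_ifs <;> linarith

theorem val_congr (E : Ex q) {f g : (Fin q → ℝ) → ℝ} (h : ∀ P, NN P → f P = g P) :
    val E f = val E g :=
  tsum_congr fun o => h _ (E.nonneg o)

theorem val_mono (E : Ex q) {f g : (Fin q → ℝ) → ℝ} (hf : Adm f) (hg : Adm g)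
    (h : ∀ o, f (E.P o) ≤ g (E.P o)) : val E f ≤ val E g :=
  (summable_val E hf).tsum_le_tsum h (summable_val E hg)

theorem val_nonneg (E : Ex q) {f : (Fin q → ℝ) → ℝ} (h : ∀ P, NN P → 0 ≤ f P) : 0 ≤ val E f :=
  tsum_nonneg fun o => h _ (E.nonneg o)

theorem val_add_fun (E : Ex q) {f g : (Fin q → ℝ) → ℝ} (hf : Adm f) (hg : Adm g) :
    val E (fun P => f P + g P) = val E f + val E g :=
  (summable_val E hf).tsum_add (summable_val E hg)

theorem val_sub_fun (E : Ex q) {f g : (Fin q → ℝ) → ℝ} (hf : Adm f) (hg : Adm g) :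
    val E (fun P => f P - g P) = val E f - val E g :=
  (summable_val E hf).tsum_sub (summable_val E hg)

theorem val_mul_fun (E : Ex q) (c : ℝ) (f : (Fin q → ℝ) → ℝ) :
    val E (fun P => c * f P) = c * val E f :=
  tsum_mul_left

theorem val_sum_fun (E : Ex q) {κ : Type*} (s : Finset κ) {f : κ → (Fin q → ℝ) → ℝ}
    (hf : ∀ k ∈ s, Adm (f k)) : val E (fun P => ∑ k ∈ s, f k P) = ∑ k ∈ s, val E (f k) :=
  Summable.tsum_finsetSum fun k hk => summable_val E (hf k hk)

theorem val_tot (E : Ex q) : val E (fun P => ∑ i, P i) = ∑ i, mass E i :=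
  Summable.tsum_finsetSum fun i _ => E.summ i

theorem abs_val_le (E : Ex q) {g : (Fin q → ℝ) → ℝ} {C : ℝ}
    (h : ∀ P, NN P → |g P| ≤ C * ∑ i, P i) : |val E g| ≤ C * ∑ i, mass E i := by
  rw [← val_tot, ← val_mul_fun]
  have ha : Adm fun P : Fin q → ℝ => C * ∑ i, P i := test_tot.adm.const_mul C
  rw [abs_le]
  constructor
  · rw [← neg_one_mul, ← val_mul_fun]
    exact val_mono E (ha.const_mul _) ⟨C, h⟩ fun o => by
      have := (abs_le.1 (h _ (E.nonneg o))).1
      linarith
  · exact val_mono E ⟨C, h⟩ ha fun o => (abs_le.1 (h _ (E.nonneg o))).2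

end Crest.Agent.R163
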