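import Crest.Agent.R163.Basic

/-! R163: the advantages of the regular and Poisson models as values of `mu`. -/

set_option autoImplicit false
set_option linter.unusedVariables false
open Crest.ProbabilityR.Broadcast Crest.ProbabilityR.TreeBroadcast

namespace Crest.Agent.R163

variable {q : ℕ}

theorem test_advF : Test (advF : (Fin q → ℝ) → ℝ) := by
  refine ⟨fun c P hc _ => ?_, 2, fun P hP => ?_⟩
  · simp only [advF, Finset.mul_sum _ (fun i => |P i - 1 / q * ∑ j, P j|)]
    refine Finset.sum_congr rfl fun i _ => ?_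
    rw [← Finset.mul_sum, show c * P i - 1 / q * (c * ∑ j, P j) = c * (P i - 1 / q * ∑ j, P j) by ring,
      abs_mul, abs_of_nonneg hc]
  · have h0 : 0 ≤ ∑ j, P j := Finset.sum_nonneg fun j _ => hP j
    have h1 : 0 ≤ 1 / (q : ℝ) * ∑ j, P j := by positivity
    rw [advF, abs_of_nonneg (Finset.sum_nonneg fun _ _ => abs_nonneg _)]
    refine (Finset.sum_le_sum (g := fun i => P i + 1 / (q : ℝ) * ∑ j, P j) fun i _ => ?_).trans ?_
    · have := hP i
      exact abs_le.2 ⟨by linarith, by linarith⟩
    · rw [Finset.sum_add_distrib, Finset.sum_const, Finset.card_univ, Fintype.card_fin,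
        nsmul_eq_mul, ← mul_assoc]
      have h2 : (q : ℝ) * (1 / q) ≤ 1 := by
        rw [mul_one_div]
        exact div_self_le_one _
      nlinarith

private theorem lk_pow (E : Ex q) (b : ℕ) : ∃ e : (Fin b → E.ι) ≃ (E.pow b).ι,
    ∀ f i, (E.pow b).P (e f) i = ∏ m, E.P (f m) i := by
  induction b with
  | zero => exact ⟨Equiv.equivPUnit _, fun f i => by simp [Ex.pow, Ex.one, Ex.pt]⟩
  | succ b ih =>
    obtain ⟨e, he⟩ := ih
    refine ⟨((Fin.consEquiv fun _ => E.ι).symm.trans (Equiv.prodComm _ _)).trans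
      (e.prodCongr (Equiv.refl _)), fun f i => ?_⟩
    rw [Fin.prod_univ_succ, mul_comm, ← he]
    rfl

private theorem lk_nonneg (b : ℕ) {lam : ℝ} (hl : LamOK q lam) (n : ℕ) (i : Fin q)
    (τ : (Fin n → Fin b) → Fin q) : 0 ≤ leafLaw q b lam n i τ := by
  induction n generalizing i with
  | zero => rw [leafLaw]; split_ifs <;> norm_num
  | succ n ih =>
    rw [leafLaw]
    exact Finset.prod_nonneg fun m _ => Finset.sum_nonneg fun j _ => mul_nonneg (hl i j) (ih _ _)

private noncomputable def lkL (b : ℕ) {lam : ℝ} (hl : LamOK q lam) (n : ℕ) : Ex q where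
  ι := (Fin n → Fin b) → Fin q
  P := fun τ i => leafLaw q b lam n i τ
  nonneg := fun τ i => lk_nonneg b hl n i τ
  summ := fun _ => Summable.of_finite

private theorem lk_eqv (b : ℕ) {lam : ℝ} (hl : LamOK q lam) (n : ℕ) :
    Eqv (lkL b hl n) (mu q lam (Off.reg b) n) := by
  induction n with
  | zero =>
    intro g _
    refine Eq.trans ?_ ((Equiv.funUnique (Fin 0 → Fin b) (Fin q)).tsum_eq
      fun o => g ((Ex.vert : Ex q).P o))
    refine tsum_congr fun τ => congrArg g (funext fun i => ?_)
    exact if_congr (by rw [Equiv.funUnique_apply, Subsingleton.elim default Fin.elim0]) rfl rfl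
  | succ n ih =>
    intro g hg
    rw [mu, val_gen_reg _ _ hg, ← (ih.chan hl).pow b g hg]
    obtain ⟨e, he⟩ := lk_pow ((lkL b hl n).chan lam) b
    refine Eq.trans ?_ ((((((Fin.consEquiv fun _ => Fin b).symm.arrowCongr
      (Equiv.refl (Fin q))).trans (Equiv.curry _ _ _))).trans e).tsum_eq
        fun o => g ((((lkL b hl n).chan lam).pow b).P o))
    refine tsum_congr fun τ => congrArg g (funext fun i => ?_)
    have h1 := he (fun m w => τ (Fin.cons m w)) i
    simp only [chan_P _ hl] at h1
    exact h1.symm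

/-- Induction on `n` for all test `g`: `∑ τ, g (leafLaw q b lam n · τ) = val (mu q lam (reg b) n) g`.
Step: `((Fin (n+1) → Fin b) → Fin q) ≃ (Fin b → ((Fin n → Fin b) → Fin q))` (via `Fin.consEquiv`, currying);
for a finite family `v : κ → Fin q → ℝ`,
`∑ f : Fin b → κ, g (∏ m, v (f m) ·) = val ((Ex.fin v).pow b) g` (induction on `b`, `Fin.snocEquiv`/`consEquiv`),
then `Eqv.chan`, `Eqv.pow`, `val_gen_reg`. -/
theorem link_reg (b : ℕ) {lam : ℝ} (hl : LamOK q lam) (n : ℕ) :
    advantage q b lam n = 1 / (2 * q) * val (mu q lam (Off.reg b) n) advF := by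
  rw [← lk_eqv b hl n advF test_advF, advantage]
  congr 1
  have h : ∑' τ : (Fin n → Fin b) → Fin q, advF (fun i => leafLaw q b lam n i τ) =
      ∑ τ : (Fin n → Fin b) → Fin q, advF (fun i => leafLaw q b lam n i τ) := tsum_fintype _
  exact h.symm

private theorem lk_poi {lam d : ℝ} (hl : LamOK q lam) (hd : 0 ≤ d) (n : ℕ) :
    ∃ e : PObs q n ≃ (mu q lam (Off.poi d) n).ι,
      ∀ o i, (mu q lam (Off.poi d) n).P (e o) i = gwLaw q lam d n i o := by
  induction n with
  | zero => exact ⟨Equiv.refl _, fun o i => rfl⟩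
  | succ n ih =>
    obtain ⟨e, he⟩ := ih
    choose e' he' using lk_pow ((mu q lam (Off.poi d) n).chan lam)
    refine ⟨List.equivSigmaTuple.trans (Equiv.sigmaCongrRight fun k =>
      (Equiv.arrowCongr (Equiv.refl (Fin k)) e).trans (e' k)), fun o i => ?_⟩
    have h1 := he' o.length (fun m => e (o.get m)) i
    simp only [chan_P _ hl, chL, he] at h1
    rw [gwLaw, ← Fin.prod_univ_fun_getElem]
    refine Eq.trans (congrArg (fun t => Real.exp (-|d|) * |d| ^ o.length / o.length.factorial * t)
      h1) ?_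
    rw [abs_of_nonneg hd]
    rfl

/-- Induction on `n`: the family `o ↦ gwLaw q lam d n · o` on `PObs q n` is an `Ex` (nonnegative, summable)
`Eqv` to `mu q lam (poi d) n`. Step: for `E : Ex q`, `List E.ι ≃ Σ k, (E.pow k).ι` compatible with products
(`List.equivSigmaTuple`, or a direct recursion); transport `Summable`/`tsum` along the equivalence. -/
theorem link_poi {lam d : ℝ} (hl : LamOK q lam) (hd : 0 ≤ d) (n : ℕ) :
    gwAdvantage q lam d n = 1 / (2 * q) * val (mu q lam (Off.poi d) n) advF := by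
  obtain ⟨e, he⟩ := lk_poi hl hd n
  rw [gwAdvantage, val, ← e.tsum_eq]
  simp only [advF, he]

end Crest.Agent.R163
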