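import Crest.Agent.R163.Two
import Crest.Agent.R163.Link

/-! R163: the Blackwell type order `Le`. -/

set_option autoImplicit false
set_option linter.unusedVariables false
open Crest.ProbabilityR.Broadcast Crest.ProbabilityR.TreeBroadcast

namespace Crest.Agent.R163

variable {q : ℕ}

/-! ### part a -/

theorem Le.refl (E : Ex q) : Le E E := fun _ _ => le_rfl
theorem Le.trans {E F G : Ex q} (h : Le E F) (h' : Le F G) : Le E G :=
  fun g hg => (h g hg).trans (h' g hg)
theorem Eqv.le {E F : Ex q} (h : Eqv E F) : Le E F := fun g hg => (h g hg.toTest).le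

/-- superadditive nonnegative functions are monotone -/
theorem Sup.mono {g : (Fin q → ℝ) → ℝ} (hg : Sup g) {P Q : Fin q → ℝ} (hP : NN P)
    (h : ∀ i, P i ≤ Q i) : g P ≤ g Q := by
  have h1 : NN fun i => Q i - P i := fun i => sub_nonneg.2 (h i)
  have h2 := hg.sup P _ hP h1
  have h3 := hg.pos _ h1
  simp only [add_sub_cancel] at h2
  exact le_trans (by linarith) h2

theorem Sup.sum_le {g : (Fin q → ℝ) → ℝ} (hg : Sup g) {κ : Type*} (s : Finset κ)
    {P : κ → Fin q → ℝ} (hP : ∀ k ∈ s, NN (P k)) :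
    ∑ k ∈ s, g (P k) ≤ g fun i => ∑ k ∈ s, P k i := by
  classical
  induction s using Finset.induction_on with
  | empty => exact hg.pos _ fun _ => by simp
  | insert a s ha ih =>
    simp only [Finset.sum_insert ha]
    have h1 : ∀ k ∈ s, NN (P k) := fun k hk => hP k (Finset.mem_insert_of_mem hk)
    exact (add_le_add_right (ih h1) _).trans (hg.sup _ _ (hP a (Finset.mem_insert_self _ _))
      fun i => Finset.sum_nonneg fun k hk => h1 k hk i)

theorem Sup.mulv {g : (Fin q → ℝ) → ℝ} (hg : Sup g) {Q : Fin q → ℝ} (hQ : NN Q) :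
    Sup fun P => g fun i => Q i * P i := by
  refine ⟨⟨hg.toTest.mulv hQ, fun P hP => hg.pos _ fun i => mul_nonneg (hQ i) (hP i)⟩,
    fun P P' hP hP' => ?_⟩
  simp only [mul_add]
  exact hg.sup _ _ (fun i => mul_nonneg (hQ i) (hP i)) fun i => mul_nonneg (hQ i) (hP' i)

theorem Sup.chL {g : (Fin q → ℝ) → ℝ} (hg : Sup g) {lam : ℝ} (hl : LamOK q lam) :
    Sup fun P => g (chL lam P) := by
  refine ⟨⟨hg.toTest.chL hl, fun P hP => hg.pos _ (hP.chL hl)⟩, fun P P' hP hP' => ?_⟩
  refine (hg.sup _ _ (hP.chL hl) (hP'.chL hl)).trans (le_of_eq (congrArg g (funext fun i => ?_)))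
  simp only [R163.chL, mul_add, Finset.sum_add_distrib]

theorem Sup.perm {g : (Fin q → ℝ) → ℝ} (hg : Sup g) (π : Equiv.Perm (Fin q)) :
    Sup fun P => g fun i => P (π i) := by
  exact ⟨⟨hg.toTest.perm π, fun P hP => hg.pos _ fun i => hP _⟩,
    fun P P' hP hP' => hg.sup _ _ (fun i => hP _) fun i => hP' _⟩

theorem Sup.inner {g : (Fin q → ℝ) → ℝ} (hg : Sup g) (F : Ex q) :
    Sup fun P => val F fun Q => g fun i => P i * Q i := by
  refine ⟨⟨hg.toTest.inner F, fun P hP => val_nonneg F fun Q hQ =>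
    hg.pos _ fun i => mul_nonneg (hP i) (hQ i)⟩, fun P P' hP hP' => ?_⟩
  rw [← val_add_fun F (hg.toTest.mulv hP).adm (hg.toTest.mulv hP').adm]
  refine val_mono F ((hg.toTest.mulv hP).add (hg.toTest.mulv hP')).adm
    (hg.toTest.mulv fun i => add_nonneg (hP i) (hP' i)).adm fun o => ?_
  simp only [add_mul]
  exact hg.sup _ _ (fun i => mul_nonneg (hP i) (F.nonneg o i))
    fun i => mul_nonneg (hP' i) (F.nonneg o i)

theorem Le.mul {E E' F F' : Ex q} (h : Le E E') (h' : Le F F') : Le (E.mul F) (E'.mul F') := by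
  intro g hg
  calc val (E.mul F) g ≤ val (E'.mul F) g := by
        rw [val_mul _ _ hg.adm, val_mul _ _ hg.adm]
        exact h _ (hg.inner F)
    _ ≤ val (E'.mul F') g := by
        rw [val_mul_comm E' F, val_mul_comm E' F', val_mul _ _ hg.adm, val_mul _ _ hg.adm]
        exact h' _ (hg.inner E')

theorem Le.chan {E E' : Ex q} (h : Le E E') {lam : ℝ} (hl : LamOK q lam) :
    Le (E.chan lam) (E'.chan lam) := by
  intro g hg
  rw [val_chan _ hl, val_chan _ hl]
  exact h _ (hg.chL hl)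

theorem Le.pow {E E' : Ex q} (h : Le E E') (k : ℕ) : Le (E.pow k) (E'.pow k) := by
  induction k with
  | zero => exact Le.refl _
  | succ k ih => exact ih.mul h

theorem Le.gen {E E' : Ex q} (h : Le E E') (ω : Off) : Le (E.gen ω) (E'.gen ω) := by
  intro g hg
  exact hasSum_le (fun k => mul_le_mul_of_nonneg_left (h.pow k g hg) (ω.nonneg k))
    (hasSum_val_gen ω E hg.toTest) (hasSum_val_gen ω E' hg.toTest)

theorem le_prodL {κ : Type*} (l : List κ) {E F : κ → Ex q} (h : ∀ k ∈ l, Le (E k) (F k)) :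
    Le (Ex.prodL (l.map E)) (Ex.prodL (l.map F)) := by
  induction l with
  | nil => exact Le.refl _
  | cons a l ih =>
    exact (ih fun k hk => h k (List.mem_cons_of_mem _ hk)).mul (h a List.mem_cons_self)

/-- finite partial sums of the atoms are below `(1,…,1)`; use `Sup.sum_le`, `Sup.mono` -/
theorem le_one {E : Ex q} (hE : Norm E) : Le E Ex.one := by
  intro g hg
  rw [val_one]
  refine (summable_val E hg.adm).tsum_le_of_sum_le fun s => ?_
  refine (hg.sum_le s fun o _ => E.nonneg o).trans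
    (hg.mono (fun i => Finset.sum_nonneg fun o _ => E.nonneg o i) fun i => ?_)
  exact ((E.summ i).sum_le_tsum s fun o _ => E.nonneg o i).trans (hE i).le

/-- `g P ≥ ∑ i, P i * g (e i)` -/
theorem vert_le {E : Ex q} (hE : Norm E) : Le Ex.vert E := by
  intro g hg
  have h0 : ∀ o : Fin q, NN fun i => if o = i then (1 : ℝ) else 0 := fun o i => by
    dsimp only
    split_ifs <;> norm_num
  have h1 : val Ex.vert g
      = val E fun P => ∑ o : Fin q, (g fun i => if o = i then 1 else 0) * P o := by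
    rw [val_vert, val_sum_fun E _ fun o _ => ((test_coord o).const_mul _).adm]
    refine Finset.sum_congr rfl fun o _ => ?_
    rw [val_mul_fun, show val E (fun P => P o) = 1 from hE o, mul_one]
  rw [h1]
  refine val_mono E (Test.sum _ fun o _ => (test_coord o).const_mul _).adm hg.adm fun k => ?_
  have h2 := hg.sum_le Finset.univ
    (P := fun o i => E.P k o * if o = i then (1 : ℝ) else 0)
    fun o _ i => mul_nonneg (E.nonneg k o) (h0 o i)
  simp only [hg.hom _ _ (E.nonneg k _) (h0 _)] at h2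
  simpa [mul_comm] using h2

theorem mu_mono {lam : ℝ} (hl : LamOK q lam) (ω : Off) (n : ℕ) :
    Le (mu q lam ω n) (mu q lam ω (n + 1)) := by
  induction n with
  | zero => exact vert_le (good_mu hl ω 1).norm
  | succ n ih => exact (ih.chan hl).gen ω

theorem sub_le {V : Type*} [DecidableEq V] (T : LocFinTree V) {lam : ℝ} (hl : LamOK q lam)
    {L L' : V → Ex q} (h : ∀ v, Le (L v) (L' v)) (k : ℕ) (v : V) :
    Le (sub T lam L k v) (sub T lam L' k v) := by
  induction k generalizing v with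
  | zero => exact h v
  | succ k ih => exact le_prodL _ fun c _ => (ih c).chan hl

/-- `P ↦ 2 * ∑ P - advF P` is `Sup` -/
theorem Le.advF {E F : Ex q} (h : Le E F) (hE : Norm E) (hF : Norm F) :
    val F advF ≤ val E advF := by
  have ht : Test fun P : Fin q → ℝ => 2 * ∑ i, P i := test_tot.const_mul 2
  have hs : Sup fun P : Fin q → ℝ => 2 * ∑ i, P i - R163.advF P := by
    refine ⟨⟨ht.sub test_advF, fun P hP => sub_nonneg.2 ?_⟩, fun P Q hP hQ => ?_⟩
    · have h0 : 0 ≤ ∑ j, P j := Finset.sum_nonneg fun j _ => hP j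
      have h1 : 0 ≤ 1 / (q : ℝ) * ∑ j, P j := by positivity
      refine (Finset.sum_le_sum (g := fun i => P i + 1 / (q : ℝ) * ∑ j, P j) fun i _ => ?_).trans ?_
      · have := hP i
        exact abs_le.2 ⟨by linarith, by linarith⟩
      · rw [Finset.sum_add_distrib, Finset.sum_const, Finset.card_univ, Fintype.card_fin,
          nsmul_eq_mul, ← mul_assoc]
        have h2 : (q : ℝ) * (1 / q) ≤ 1 := by
          rw [mul_one_div]
          exact div_self_le_one _
        nlinarith
    · have h1 : R163.advF (fun i => P i + Q i) ≤ R163.advF P + R163.advF Q := by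
        simp only [R163.advF, ← Finset.sum_add_distrib]
        refine Finset.sum_le_sum fun i _ => le_trans (le_of_eq ?_) (abs_add_le _ _)
        rw [Finset.sum_add_distrib]
        congr 1
        ring
      rw [Finset.sum_add_distrib]
      linarith
  have h1 := h _ hs
  rw [val_sub_fun _ ht.adm test_advF.adm, val_sub_fun _ ht.adm test_advF.adm, val_mul_fun,
    val_mul_fun, val_tot, val_tot, Finset.sum_congr rfl fun i _ => hE i,
    Finset.sum_congr rfl fun i _ => hF i] at h1
  linarith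

private theorem od_hom_fH (hq : 0 < q) (P : Fin q → ℝ) :
    hom fH P = (∑ i, P i ^ 2) / (∑ i, P i) - (∑ i, P i) / q := by
  have h : (q : ℝ) ≠ 0 := Nat.cast_ne_zero.2 hq.ne'
  by_cases h0 : ∑ i, P i = 0
  · simp [hom, h0]
  · have h1 : ∑ i, (q * P i / ∑ j, P j - 1) ^ 2 = ∑ i, ((q / ∑ j, P j) ^ 2 * P i ^ 2
      - 2 * (q / ∑ j, P j) * P i + 1) := Finset.sum_congr rfl fun i _ => by ring
    rw [hom, fH, h1, Finset.sum_add_distrib, Finset.sum_sub_distrib, ← Finset.mul_sum,
      ← Finset.mul_sum]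
    simp only [Finset.sum_const, Finset.card_univ, Fintype.card_fin, nsmul_eq_mul]
    generalize ∑ i, P i ^ 2 = A
    generalize ∑ i, P i = S at h0
    field_simp
    ring

/-- `hom fH P = q * (∑ P²)/(∑ P) / q ...`: `P ↦ (q-1)/q * ∑ P - hom fH P = ∑ P - (∑ P²)/(∑ P)` is `Sup`
(Cauchy-Schwarz: `a²/s + b²/t ≥ (a+b)²/(s+t)`). -/
theorem Le.hh {E F : Ex q} (hq : 0 < q) (h : Le E F) (hE : Norm E) (hF : Norm F) : hh F ≤ hh E := by
  have hq' : (0 : ℝ) < q := Nat.cast_pos.2 hq
  have ht : Test fun P : Fin q → ℝ => (q - 1) / q * ∑ i, P i := test_tot.const_mul _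
  have e : ∀ P : Fin q → ℝ, (q - 1) / q * ∑ i, P i - hom fH P
      = ∑ i, P i - (∑ i, P i ^ 2) / ∑ i, P i := fun P => by
    rw [od_hom_fH hq]
    field_simp
    ring
  have hz : ∀ P : Fin q → ℝ, NN P → ∑ j, P j = 0 → ∀ i, P i = 0 := fun P hP h i =>
    (Finset.sum_eq_zero_iff_of_nonneg fun j _ => hP j).1 h i (Finset.mem_univ i)
  have hs : Sup fun P : Fin q → ℝ => (q - 1) / q * ∑ i, P i - hom fH P := by
    refine ⟨⟨ht.sub (test_hom hq bdd_fH), fun P hP => ?_⟩, fun P Q hP hQ => ?_⟩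
    · rw [e, sub_nonneg]
      have h0 : 0 ≤ ∑ j, P j := Finset.sum_nonneg fun j _ => hP j
      refine div_le_of_le_mul₀ h0 h0 ?_
      rw [← sq]
      exact Finset.sum_sq_le_sq_sum_of_nonneg fun j _ => hP j
    · simp only [e]
      have hP0 : 0 ≤ ∑ j, P j := Finset.sum_nonneg fun j _ => hP j
      have hQ0 : 0 ≤ ∑ j, Q j := Finset.sum_nonneg fun j _ => hQ j
      rcases hP0.eq_or_lt with h1 | h1
      · simp [hz P hP h1.symm]
      rcases hQ0.eq_or_lt with h2 | h2
      · simp [hz Q hQ h2.symm]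
      have h3 : (∑ i, (P i + Q i) ^ 2) / (∑ i, P i + ∑ i, Q i)
          ≤ (∑ i, P i ^ 2) / (∑ i, P i) + (∑ i, Q i ^ 2) / ∑ i, Q i := by
        generalize ∑ j, P j = S at h1
        generalize ∑ j, Q j = T at h2
        rw [Finset.sum_div, Finset.sum_div, Finset.sum_div, ← Finset.sum_add_distrib]
        refine Finset.sum_le_sum fun i _ => ?_
        rw [div_add_div _ _ h1.ne' h2.ne', div_le_div_iff₀ (by positivity) (by positivity)]
        nlinarith [sq_nonneg (P i * T - Q i * S)]
      rw [Finset.sum_add_distrib]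
      linarith
  have h1 := h _ hs
  rw [val_sub_fun _ ht.adm (test_hom hq bdd_fH).adm, val_sub_fun _ ht.adm (test_hom hq bdd_fH).adm,
    val_mul_fun, val_mul_fun, val_tot, val_tot, Finset.sum_congr rfl fun i _ => hE i,
    Finset.sum_congr rfl fun i _ => hF i] at h1
  simp only [R163.hh, ev]
  linarith

/-! ### part b: domination between parameters -/

theorem lamOK_neg {η η' : ℝ} (h0 : 0 ≤ η) (h1 : η ≤ η') (hl : LamOK q (-η')) : LamOK q (-η) := by
  intro i j
  have hq : (1 : ℝ) ≤ q := by exact_mod_cast i.pos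
  have h2 := hl i i
  simp only [channel, if_true] at h2 ⊢
  have h3 : (q : ℝ)⁻¹ ≤ 1 := inv_le_one_of_one_le₀ hq
  have h4 : 0 ≤ (q : ℝ)⁻¹ := by positivity
  rw [div_eq_mul_inv] at h2 ⊢
  split_ifs <;> nlinarith

/-- `chL (-η) P = (η/η') • chL (-η') P + (1-η/η') • (mean of P) • 1` and superadditivity. -/
theorem chan_dom {E : Ex q} (hq : 0 < q) (hE : Norm E) {η η' : ℝ} (h0 : 0 ≤ η) (h1 : η ≤ η')
    (h2 : 0 < η') (hl : LamOK q (-η')) {g : (Fin q → ℝ) → ℝ} (hg : Sup g) :
    η / η' * val (E.chan (-η')) g + (1 - η / η') * g (fun _ => 1) ≤ val (E.chan (-η)) g := by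
  have hl' := lamOK_neg h0 h1 hl
  have hθ0 : 0 ≤ η / η' := by positivity
  have hθ1 : 0 ≤ 1 - η / η' := sub_nonneg.2 ((div_le_one h2).2 h1)
  have hq' : (0 : ℝ) < q := by exact_mod_cast hq
  have t1 := (hg.toTest.chL hl).const_mul (η / η')
  have t2 := (test_tot (q := q)).const_mul ((1 - η / η') / q * g fun _ => 1)
  have h3 := val_mono E (t1.add t2).adm (hg.toTest.chL hl').adm fun o => by
    have hP : NN (E.P o) := E.nonneg o
    have hS : 0 ≤ ∑ j, E.P o j := Finset.sum_nonneg fun j _ => hP j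
    have hc : 0 ≤ (1 - η / η') / q * ∑ j, E.P o j := by positivity
    have a1 := hg.hom (η / η') _ hθ0 (hP.chL hl)
    have a2 := hg.hom _ (fun _ => 1) hc fun _ => zero_le_one
    have a3 := hg.sup (fun i => η / η' * chL (-η') (E.P o) i)
      (fun _ => ((1 - η / η') / q * ∑ j, E.P o j) * 1) (fun i => mul_nonneg hθ0 (hP.chL hl i))
      fun _ => by positivity
    have a4 : (fun i => η / η' * chL (-η') (E.P o) i + ((1 - η / η') / q * ∑ j, E.P o j) * 1)
        = chL (-η) (E.P o) := by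
      funext i
      rw [chL_apply, chL_apply]
      field_simp
      ring
    rw [a1, a2, a4] at a3
    linarith
  rw [val_add_fun E t1.adm t2.adm, val_mul_fun, val_mul_fun, val_tot, ← val_chan E hl,
    ← val_chan E hl'] at h3
  have h4 : ∑ i, mass E i = q := by simp [hE _]
  rw [h4] at h3
  have h5 : (1 - η / η') / q * g (fun _ => 1) * q = (1 - η / η') * g fun _ => 1 := by field_simp
  linarith

/-- more copies are more informative -/
theorem pow_le_pow {E : Ex q} (hE : Norm E) {b b' : ℕ} (h : b ≤ b') : Le (E.pow b') (E.pow b) := by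
  induction b', h using Nat.le_induction with
  | base => exact Le.refl _
  | succ k _ ih => exact (((Le.refl _).mul (le_one hE)).trans (eqv_mul_one _).le).trans ih

theorem ordB_val_le_one {E : Ex q} (hE : Norm E) {g : (Fin q → ℝ) → ℝ} (hg : Sup g) :
    val E g ≤ g fun _ => 1 := by
  rw [← val_one g]
  exact le_one hE g hg

theorem dom_reg (hq : 0 < q) {η η' : ℝ} (h0 : 0 ≤ η) (h1 : η ≤ η') (h2 : 0 < η') (hl : LamOK q (-η'))
    {b b' : ℕ} (hb : b ≤ b') (n : ℕ) :
    Le (mu q (-η') (Off.reg b') n) (mu q (-η) (Off.reg b) n) := by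
  have hl' := lamOK_neg h0 h1 hl
  induction n with
  | zero => exact Le.refl _
  | succ n ih =>
    have hA := good_mu hl' (Off.reg b) n
    have h3 : Le ((mu q (-η) (Off.reg b) n).chan (-η')) ((mu q (-η) (Off.reg b) n).chan (-η)) := by
      intro g hg
      have a1 := chan_dom hq hA.norm h0 h1 h2 hl hg
      have a2 := ordB_val_le_one (hA.chan hl).norm hg
      have a3 : 0 ≤ 1 - η / η' := sub_nonneg.2 ((div_le_one h2).2 h1)
      nlinarith
    have h4 := (pow_le_pow ((good_mu hl (Off.reg b') n).chan hl).norm hb).trans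
      (((ih.chan hl).trans h3).pow b)
    intro g hg
    rw [mu, mu, val_gen_reg _ _ hg.toTest, val_gen_reg _ _ hg.toTest]
    exact h4 g hg

theorem ordB_val_mix (E : Ex q) {θ : ℝ} (h0 : 0 ≤ θ) (h1 : θ ≤ 1) {g : (Fin q → ℝ) → ℝ}
    (hg : Test g) :
    val ((E.smul θ).add (Ex.one.smul (1 - θ))) g = θ * val E g + (1 - θ) * g fun _ => 1 := by
  rw [val_add _ _ hg.adm, val_smul _ h0 hg.hom, val_smul _ (sub_nonneg.2 h1) hg.hom, val_one]

theorem ordB_mix_pow (E : Ex q) {θ : ℝ} (h0 : 0 ≤ θ) (h1 : θ ≤ 1) (k : ℕ) :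
    ∀ g : (Fin q → ℝ) → ℝ, Test g → val (((E.smul θ).add (Ex.one.smul (1 - θ))).pow k) g
      = ∑ p ∈ Finset.HasAntidiagonal.antidiagonal k,
        (k.choose p.1 : ℝ) * (θ ^ p.1 * (1 - θ) ^ p.2 * val (E.pow p.1) g) := by
  induction k with
  | zero => intro g _; simp [Ex.pow]
  | succ k ih =>
    intro g hg
    have t1 := hg.inner E
    rw [Finset.sum_antidiagonal_choose_succ_mul
      (fun i j => θ ^ i * (1 - θ) ^ j * val (E.pow i) g), Ex.pow, val_mul _ _ hg.adm,
      val_congr _ (g := fun P => θ * val E (fun Q => g fun i => P i * Q i) + (1 - θ) * g P)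
        (fun P hP => by rw [ordB_val_mix E h0 h1 (hg.mulv hP)]; simp),
      val_add_fun _ (t1.const_mul θ).adm (hg.const_mul _).adm, val_mul_fun, val_mul_fun, ih _ t1,
      ih _ hg, add_comm, Finset.mul_sum, Finset.mul_sum]
    congr 1
    · exact Finset.sum_congr rfl fun p _ => by ring
    · refine Finset.sum_congr rfl fun p hp => ?_
      rw [Ex.pow, val_mul _ _ hg.adm, ← Finset.HasAntidiagonal.mem_antidiagonal.1 hp, Nat.choose_symm_add]
      ring

/-- Poisson thinning. With `x k = val (E.pow k) g`, the value of the `k`-th power of the mixture is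
`∑ j, C(k,j) θ^j (1-θ)^(k-j) x j` (induction on `k`, for all test `g`), then exchange the sums. -/
theorem thin (E : Ex q) {θ D : ℝ} (h0 : 0 ≤ θ) (h1 : θ ≤ 1) (hD : 0 ≤ D) :
    Eqv (((E.smul θ).add (Ex.one.smul (1 - θ))).gen (Off.poi D)) (E.gen (Off.poi (θ * D))) := by
  intro g hg
  have a1 := hasSum_val_gen (Off.poi (θ * D)) E hg
  have a2 := (Off.poi ((1 - θ) * D)).sum1
  have a3 := tsum_mul_tsum_eq_tsum_sum_antidiagonal_of_summable_norm a1.summable.norm
    a2.summable.norm
  rw [a1.tsum_eq, a2.tsum_eq, mul_one] at a3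
  rw [a3, ← (hasSum_val_gen (Off.poi D) _ hg).tsum_eq]
  refine tsum_congr fun k => ?_
  rw [ordB_mix_pow E h0 h1 k g hg, Finset.mul_sum]
  refine Finset.sum_congr rfl fun p hp => ?_
  have hθ : 0 ≤ 1 - θ := sub_nonneg.2 h1
  have e : Real.exp (-D) = Real.exp (-(θ * D)) * Real.exp (-((1 - θ) * D)) := by
    rw [← Real.exp_add]; congr 1; ring
  simp only [Off.poi]
  rw [abs_of_nonneg hD, abs_of_nonneg (mul_nonneg h0 hD), abs_of_nonneg (mul_nonneg hθ hD),
    ← Finset.HasAntidiagonal.mem_antidiagonal.1 hp, Nat.cast_add_choose, e, mul_pow, mul_pow, pow_add]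
  field_simp

/-- compound Poisson experiments are ordered by their Lévy measures (thin both to `D = d + d' + 1`) -/
theorem poi_le {E E' : Ex q} {d d' : ℝ} (hd : 0 ≤ d) (hd' : 0 ≤ d')
    (h : ∀ g, Sup g → d' * (val E' g - g fun _ => 1) ≤ d * (val E g - g fun _ => 1)) :
    Le (E'.gen (Off.poi d')) (E.gen (Off.poi d)) := by
  have hD : 0 < d + d' + 1 := by positivity
  have a0 : 0 ≤ d / (d + d' + 1) := by positivity
  have a1 : d / (d + d' + 1) ≤ 1 := (div_le_one hD).2 (by linarith)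
  have b0 : 0 ≤ d' / (d + d' + 1) := by positivity
  have b1 : d' / (d + d' + 1) ≤ 1 := (div_le_one hD).2 (by linarith)
  have h1 := thin E a0 a1 hD.le
  have h2 := thin E' b0 b1 hD.le
  rw [div_mul_cancel₀ _ hD.ne'] at h1 h2
  refine (h2.symm.le.trans (Le.gen (fun g hg => ?_) _)).trans h1.le
  rw [ordB_val_mix E a0 a1 hg.toTest, ordB_val_mix E' b0 b1 hg.toTest]
  have h3 := div_le_div_of_nonneg_right (h g hg) hD.le
  rw [mul_div_right_comm, mul_div_right_comm] at h3
  linarith

theorem dom_poi (hq : 0 < q) {η η' d d' : ℝ} (h0 : 0 ≤ η) (h1 : η ≤ η') (h2 : 0 < η')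
    (hl : LamOK q (-η')) (hd : 0 ≤ d) (hdd : d * η ≤ d' * η') (n : ℕ) :
    Le (mu q (-η') (Off.poi d') n) (mu q (-η) (Off.poi d) n) := by
  have hl' := lamOK_neg h0 h1 hl
  have hd1 : d * (η / η') ≤ d' := by rwa [← mul_div_assoc, div_le_iff₀ h2]
  have hd' : 0 ≤ d' := le_trans (by positivity) hd1
  induction n with
  | zero => exact Le.refl _
  | succ n ih =>
    refine poi_le hd hd' fun g hg => ?_
    have hA := good_mu hl' (Off.poi d) n
    have a1 := chan_dom hq hA.norm h0 h1 h2 hl hg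
    have a2 := ordB_val_le_one (hA.chan hl).norm hg
    have a3 := ih.chan hl g hg
    have a4 := mul_le_mul_of_nonneg_left a1 hd
    have a5 := mul_le_mul_of_nonneg_left a3 hd'
    have a6 := mul_le_mul_of_nonneg_right hd1 (sub_nonneg.2 a2)
    nlinarith

end Crest.Agent.R163
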