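import Crest.Agent.R163.Cone3
import Crest.Agent.R163.Order

/-! R163: three states, negative `lam = -η`: the basin of attraction of the trivial fixed point. -/

set_option autoImplicit false
set_option linter.unusedVariables false
open Finset

namespace Crest.Agent.R163

/-! ### part a -/

/-- from `hh_mul_le` by induction -/
theorem hh_pow_le {ν : Ex 3} (hν : Good ν) {ε : ℝ} (hε : C3 * hh ν ≤ ε) (j : ℕ) :
    C3 * hh (ν.pow j) ≤ (1 + ε) ^ j - 1 := by
  have hC : 0 < C3 := by norm_num [C3]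
  induction j with
  | zero => simp [Ex.pow, hh_one (q := 3) (by norm_num)]
  | succ j ih =>
    have h1 := mul_le_mul_of_nonneg_left (hh_mul_le (hν.pow j) hν) hC.le
    have h2 := mul_nonneg hC.le (hh_nonneg (by norm_num) (ν.pow j))
    have h3 := mul_nonneg hC.le (hh_nonneg (by norm_num) ν)
    have h4 : (1 + C3 * hh (ν.pow j)) * (1 + C3 * hh ν) ≤ (1 + ε) ^ j * (1 + ε) :=
      mul_le_mul (by linarith) (by linarith) (by linarith) (by linarith)
    rw [pow_succ]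
    change C3 * hh ((ν.pow j).mul ν) ≤ _
    nlinarith

/-- `ev (ν.pow k) g3 ≤ k * ev ν g3 + (∑ j<k, hh (ν.pow j)) * ev ν Q3` (`g3_mul_le`), then sum with the weights
(`hasSum_ev_gen`; `ev ν Q3 ≥ 0`; summability from `ω.ent`). -/
theorem g3_gen_le {μ : Ex 3} (hμ : Good μ) {η d ε S : ℝ} (h0 : 0 ≤ η) (h1 : η ≤ 1 / 2) (ω : Off)
    (hd : HasSum (fun k : ℕ => (k : ℝ) * ω.p k) d) (hε : C3 * hh (μ.chan (-η)) ≤ ε)
    (hS : ∑' k, ω.p k * ∑ j ∈ range k, ((1 + ε) ^ j - 1) ≤ C3 * S) :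
    ev ((μ.chan (-η)).gen ω) g3 ≤ d * ev (μ.chan (-η)) g3 + S * ev (μ.chan (-η)) Q3 := by
  have hC : 0 < C3 := by norm_num [C3]
  have hν : Good (μ.chan (-η)) := hμ.chan (lamOK_three (by linarith) (by linarith))
  have hε0 : 0 ≤ ε := (mul_nonneg hC.le (hh_nonneg (by norm_num) _)).trans hε
  have hQ : 0 ≤ ev (μ.chan (-η)) Q3 := ev_nonneg (by norm_num) _ Q3_nonneg
  have h2 : ∀ k : ℕ, C3 * ev ((μ.chan (-η)).pow k) g3 ≤ C3 * (k * ev (μ.chan (-η)) g3)
      + (∑ j ∈ range k, ((1 + ε) ^ j - 1)) * ev (μ.chan (-η)) Q3 := by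
    intro k
    induction k with
    | zero => simp [Ex.pow, ev_one (q := 3) (by norm_num), g3, fT, fH]
    | succ k ih =>
      have h3 := mul_le_mul_of_nonneg_left (g3_mul_le (hν.pow k) hμ h0 h1) hC.le
      have h4 := mul_le_mul_of_nonneg_right (hh_pow_le hν hε k) hQ
      rw [sum_range_succ]
      push_cast
      change C3 * ev (((μ.chan (-η)).pow k).mul (μ.chan (-η))) g3 ≤ _
      nlinarith
  have h3 : ∀ k : ℕ, ∑ j ∈ range k, ((1 + ε) ^ j - 1) ≤ (2 + ε) ^ k := by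
    intro k
    induction k with
    | zero => simp
    | succ k ih =>
      have h4 : (1 + ε) ^ k ≤ (2 + ε) ^ k := pow_le_pow_left₀ (by linarith) (by linarith) k
      have h5 : 0 ≤ (2 + ε) ^ k * ε := by positivity
      rw [sum_range_succ, pow_succ]
      nlinarith
  have h4 : Summable fun k => ω.p k * ∑ j ∈ range k, ((1 + ε) ^ j - 1) :=
    (ω.ent (2 + ε) (by linarith)).of_nonneg_of_le
      (fun k => mul_nonneg (ω.nonneg k) (sum_nonneg fun j _ =>
        sub_nonneg.2 (one_le_pow₀ (by linarith))))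
      fun k => mul_le_mul_of_nonneg_left (h3 k) (ω.nonneg k)
  have h5 := hasSum_le (fun k => by
      have := mul_le_mul_of_nonneg_left (h2 k) (ω.nonneg k)
      linarith)
    ((hasSum_ev_gen (by norm_num) ω (μ.chan (-η)) bdd_g3).mul_left C3)
    (((hd.mul_right (ev (μ.chan (-η)) g3)).mul_left C3).add
      (h4.hasSum.mul_right (ev (μ.chan (-η)) Q3)))
  have h6 := mul_le_mul_of_nonneg_right hS hQ
  refine le_of_mul_le_mul_left ?_ hC
  linarith

/-- `∑ j<k, ((1+ε)^j - 1) = ((1+ε)^k - 1)/ε - k`, so the sum is `(exp (d ε) - 1 - d ε)/ε`;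
`Real.exp_bound'` with `n = 4`. -/
theorem S_poi {d ε x : ℝ} (hd : 0 < d) (hε : 0 < ε) (hx : d * ε = x) (hx1 : x ≤ 1) :
    ∑' k, (Off.poi d).p k * ∑ j ∈ range k, ((1 + ε) ^ j - 1) ≤ d * (x / 2 + x ^ 2 / 6 + x ^ 3 / 18) := by
  have h1 : HasSum (fun k => (Off.poi d).p k * (1 + ε) ^ k) (Real.exp x) := by
    have h := (NormedSpace.expSeries_div_hasSum_exp (d * (1 + ε))).mul_left (Real.exp (-d))
    rw [← Real.exp_eq_exp_ℝ, ← Real.exp_add, show -d + d * (1 + ε) = x by rw [← hx]; ring] at h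
    refine (funext fun k => ?_ : (fun k => (Off.poi d).p k * (1 + ε) ^ k) = _) ▸ h
    simp only [Off.poi, abs_of_pos hd, mul_pow]
    ring
  have h2 := ((h1.sub (Off.poi d).sum1).div_const ε).sub (mean_poi hd.le)
  have h3 : (fun k => (Off.poi d).p k * ∑ j ∈ range k, ((1 + ε) ^ j - 1)) = fun k : ℕ =>
      ((Off.poi d).p k * (1 + ε) ^ k - (Off.poi d).p k) / ε - k * (Off.poi d).p k := by
    funext k
    rw [sum_sub_distrib, geom_sum_eq (by linarith), add_sub_cancel_left]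
    simp only [sum_const, card_range, nsmul_eq_mul]
    ring
  rw [h3, h2.tsum_eq, sub_le_iff_le_add, div_le_iff₀ hε]
  have hx0 : 0 ≤ x := by rw [← hx]; positivity
  have h4 := Real.exp_bound' hx0 hx1 (n := 4) (by norm_num)
  simp only [sum_range_succ, range_zero, sum_empty, Nat.factorial] at h4
  norm_num at h4
  have h5 : (d * (x / 2 + x ^ 2 / 6 + x ^ 3 / 18) + d) * ε
      = x * (x / 2 + x ^ 2 / 6 + x ^ 3 / 18) + x := by rw [← hx]; ring
  have h6 : 0 ≤ x ^ 4 := by positivity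
  rw [h5]
  nlinarith

/-- `∑ j<b, ((1+ε)^j - 1) = ∑ i ≥ 1, C(b,i+1) ε^i` and `C(b,i+1) ≤ (b-1) b^i/(i+1)!`. -/
theorem S_reg {b : ℕ} {ε x : ℝ} (hb : 1 ≤ b) (hε : 0 < ε) (hx : b * ε = x) (hx1 : x ≤ 1) :
    ∑' k, (Off.reg b).p k * ∑ j ∈ range k, ((1 + ε) ^ j - 1)
      ≤ (b - 1) * (x / 2 + x ^ 2 / 6 + x ^ 3 / 18) := by
  have h1 : ∑' k, (Off.reg b).p k * ∑ j ∈ range k, ((1 + ε) ^ j - 1)
      = ∑ j ∈ range b, ((1 + ε) ^ j - 1) := by
    rw [tsum_eq_single b fun k hk => by simp [Off.reg, hk]]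
    simp [Off.reg]
  have h2 : ∀ n : ℕ, ∑ j ∈ range n, ((j : ℝ) * ε + (j * ε) ^ 2 / 2 + 2 / 9 * (j * ε) ^ 3)
      = ε * n * (n - 1) / 2 + ε ^ 2 * (n - 1) * n * (2 * n - 1) / 12
        + ε ^ 3 * n ^ 2 * (n - 1) ^ 2 / 18 := by
    intro n
    induction n with
    | zero => simp
    | succ n ih => rw [sum_range_succ, ih]; push_cast; ring
  have hb' : (1 : ℝ) ≤ b := Nat.one_le_cast.2 hb
  rw [h1]
  refine (sum_le_sum (g := fun j : ℕ => (j : ℝ) * ε + (j * ε) ^ 2 / 2 + 2 / 9 * (j * ε) ^ 3)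
    fun j hj => ?_).trans ?_
  · have h3 : (j : ℝ) * ε ≤ 1 := by
      have : (j : ℝ) ≤ b := Nat.cast_le.2 (mem_range.1 hj).le
      nlinarith
    have h4 := Real.exp_bound' (x := j * ε) (by positivity) h3 (n := 3) (by norm_num)
    simp only [sum_range_succ, range_zero, sum_empty, Nat.factorial] at h4
    norm_num at h4
    have h5 : (1 + ε) ^ j ≤ Real.exp (j * ε) := by
      rw [Real.exp_nat_mul]
      exact pow_le_pow_left₀ (by linarith) (by linarith [Real.add_one_le_exp ε]) j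
    linarith
  · rw [h2, ← hx]
    have h3 : 0 ≤ ((b : ℝ) - 1) * b * ε ^ 2 := by
      have : 0 ≤ (b : ℝ) - 1 := by linarith
      positivity
    have h4 : 0 ≤ ((b : ℝ) - 1) * b ^ 2 * ε ^ 3 := by
      have : 0 ≤ (b : ℝ) - 1 := by linarith
      positivity
    nlinarith

/-- the closing inequality from a numerical criterion: `|T| ≤ l H/2 + H²/(4 l)` (from `fT_sq_le`), `0 ≤ H ≤ 2` -/
theorem close_of {k0 k1 k2 κ l : ℝ} (hl : 0 < l) (hκ : |k1| ≤ κ) (h1 : κ * l / 2 ≤ k0)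
    (h2 : 0 ≤ k0 - κ * l / 2 + 2 * (k2 - κ / (4 * l))) (y : Fin 3 → ℝ) (hy : Simp y) :
    0 ≤ k0 * fH y + k1 * fT y + k2 * fH y ^ 2 := by
  have h3 := fH_nonneg y
  have h4 : fH y ≤ 2 := (fH_le (by norm_num) hy).trans (by norm_num)
  have h5 := fT_sq_le y hy
  have h6 : |fT y| ≤ l * fH y / 2 + fH y ^ 2 / (4 * l) := by
    refine abs_le_of_sq_le_sq (h5.trans ?_) (by positivity)
    have e : fH y ^ 3 / 2 = 4 * (l * fH y / 2) * (fH y ^ 2 / (4 * l)) := by
      field_simp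
    rw [e]
    nlinarith [sq_nonneg (l * fH y / 2 - fH y ^ 2 / (4 * l))]
  have h7 : |k1 * fT y| ≤ κ * (l * fH y / 2 + fH y ^ 2 / (4 * l)) := by
    rw [abs_mul]
    exact mul_le_mul hκ h6 (abs_nonneg _) ((abs_nonneg _).trans hκ)
  have h8 := neg_abs_le (k1 * fT y)
  have h9 : 0 ≤ fH y * ((1 - fH y / 2) * (k0 - κ * l / 2)
      + fH y / 2 * (k0 - κ * l / 2 + 2 * (k2 - κ / (4 * l)))) :=
    mul_nonneg h3 (add_nonneg (mul_nonneg (by linarith) (by linarith)) (mul_nonneg (by linarith) h2))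
  have e : fH y * ((1 - fH y / 2) * (k0 - κ * l / 2)
      + fH y / 2 * (k0 - κ * l / 2 + 2 * (k2 - κ / (4 * l))))
      = k0 * fH y + k2 * fH y ^ 2 - κ * (l * fH y / 2 + fH y ^ 2 / (4 * l)) := by ring
  linarith

/-! ### part b -/

theorem basin_ev (E : Ex 3) (a b c : ℝ) (f : (Fin 3 → ℝ) → ℝ)
    (hf : ∀ y, f y = a * fH y + b * fT y + c * fH y ^ 2) :
    ev E f = a * hh E + b * ev E fT + c * ev E fun y => fH y ^ 2 := by
  have h3 : 0 < 3 := by norm_num
  rw [funext hf, ev_add h3 E (((bdd_const a).mul bdd_fH).add ((bdd_const b).mul bdd_fT))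
    ((bdd_const c).mul (bdd_fH.pow 2)), ev_add h3 E ((bdd_const a).mul bdd_fH)
    ((bdd_const b).mul bdd_fT), ev_const_mul, ev_const_mul, ev_const_mul, hh]

theorem basin_chan (E : Ex 3) {lam : ℝ} (hl : LamOK 3 lam) (a b c : ℝ) (f : (Fin 3 → ℝ) → ℝ)
    (hf : ∀ y, f y = a * fH y + b * fT y + c * fH y ^ 2) :
    ev (E.chan lam) f =
      a * lam ^ 2 * hh E + b * lam ^ 3 * ev E fT + c * lam ^ 4 * ev E fun y => fH y ^ 2 := by
  rw [ev_chan (by norm_num) E hl]
  refine basin_ev E _ _ _ _ fun y => ?_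
  rw [hf, fH_chan, fT_chan]
  ring

/-- Let `μ n = mu 3 (-η) ω n`, `ν n = (μ n).chan (-η)`, `h n = hh (μ n)` (antitone: `mu_mono`, `Le.hh`),
`G n = α * ev (μ n) g3` (bounded). For `n ≥ N`, `g3_gen_le` (with `ε = C3 η² h0`, `S = s/η²`), `ev_chan`, `fH_chan`, `fT_chan`
and `hclose` give `ev (ν n) psi3 / η² ≥ m * h n + G (n+1) - G n`. Suppose `h n ≥ e > 0` for all `n`. If
`G (n+1) - G n ≥ - m e` then `K3 (ν n)` and `Cone.hh_gen` gives `h (n+1) ≤ h n - κ e³`; otherwise `G` drops by `m e`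
and `h` does not increase. So `L * h n + G n` drops by a fixed amount at each step for large `L`: contradiction. -/
theorem basin {η d s α m h0 : ℝ} (ω : Off) (hη0 : 0 < η) (hη : η ≤ 1 / 2)
    (hd : HasSum (fun k : ℕ => (k : ℝ) * ω.p k) d) (hcrit : d * η ^ 2 = 1)
    (h2 : ω.p 0 + ω.p 1 < 1) (hα : 0 ≤ α) (hm : 0 < m)
    (hS : η ^ 2 * ∑' k, ω.p k * ∑ j ∈ range k, ((1 + C3 * η ^ 2 * h0) ^ j - 1) ≤ C3 * s)
    (hclose : ∀ y : Fin 3 → ℝ, Simp y →
      0 ≤ (11 / 50 - m - s * α * q31) * fH y + (α * (1 + η) - η + s * α * q32 * η) * fT y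
        + (α * rho3 * (1 - η ^ 2) - η ^ 2 / 2 - s * α * q33 * η ^ 2) * fH y ^ 2)
    (hN : ∃ N, hh (mu 3 (-η) ω N) ≤ h0) :
    Filter.Tendsto (fun n => hh (mu 3 (-η) ω n)) Filter.atTop (nhds 0) := by
  have h3 : 0 < 3 := by norm_num
  have hl : LamOK 3 (-η) := lamOK_three (by linarith) (by linarith)
  have hg := good_mu hl ω
  set h : ℕ → ℝ := fun n => hh (mu 3 (-η) ω n) with hh_def
  have hanti : Antitone h := antitone_nat_of_succ_le fun n =>
    (mu_mono hl ω n).hh h3 (hg n).norm (hg (n + 1)).norm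
  have hpos : ∀ n, 0 ≤ h n := fun n => hh_nonneg h3 _
  obtain ⟨N, hN⟩ := hN
  obtain ⟨C, hC⟩ := bdd_g3
  set G : ℕ → ℝ := fun n => α * ev (mu 3 (-η) ω n) g3 with G_def
  have hG : ∀ n, -(α * C) ≤ G n ∧ G n ≤ α * C := fun n => by
    have h1 := ev_mono h3 (mu 3 (-η) ω n) bdd_g3 (bdd_const C) fun y hy => (abs_le.1 (hC y hy)).2
    have h1' := ev_mono h3 (mu 3 (-η) ω n) (bdd_const (-C)) bdd_g3
      fun y hy => (abs_le.1 (hC y hy)).1
    rw [ev_const h3 (hg n).norm] at h1 h1'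
    exact ⟨by simpa using mul_le_mul_of_nonneg_left h1' hα, mul_le_mul_of_nonneg_left h1 hα⟩
  have hη2 : 0 < η ^ 2 := by positivity
  have key : ∀ n, N ≤ n →
      η ^ 2 * (m * h n + G (n + 1) - G n) ≤ ev ((mu 3 (-η) ω n).chan (-η)) psi3 := by
    intro n hn
    have h1 := g3_gen_le (S := s / η ^ 2) (ε := C3 * η ^ 2 * h0) (hg n) hη0.le hη ω hd (by
        rw [hh_chan h3 _ hl, neg_sq, mul_assoc]
        exact mul_le_mul_of_nonneg_left (mul_le_mul_of_nonneg_left ((hanti hn).trans hN) hη2.le)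
          (by norm_num [C3]))
      (by rw [← mul_div_assoc, le_div_iff₀' hη2]; exact hS)
    have h4 := ev_nonneg h3 (mu 3 (-η) ω n) hclose
    have e1 := basin_chan (mu 3 (-η) ω n) hl (11 / 50) 1 (-(1 / 2)) psi3 fun y => by
      rw [psi3]; ring
    have e2 := basin_chan (mu 3 (-η) ω n) hl 0 1 rho3 g3 fun y => by rw [g3]; ring
    have e3 := basin_chan (mu 3 (-η) ω n) hl q31 q32 q33 Q3 fun y => rfl
    have e4 := basin_ev (mu 3 (-η) ω n) 0 1 rho3 g3 fun y => by rw [g3]; ring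
    rw [basin_ev _ _ _ _ _ fun y => rfl] at h4
    rw [e2, e3] at h1
    rw [e1]
    simp only [G, h, e4]
    change η ^ 2 * (m * _ + α * ev (((mu 3 (-η) ω n).chan (-η)).gen ω) g3 - _) ≤ _
    generalize ev (((mu 3 (-η) ω n).chan (-η)).gen ω) g3 = X at *
    generalize hh (mu 3 (-η) ω n) = H at *
    generalize ev (mu 3 (-η) ω n) fT = T at *
    generalize ev (mu 3 (-η) ω n) (fun y => fH y ^ 2) = K at *
    have h5 : X ≤ -η * T + rho3 * η ^ 2 * K + s * (q31 * H - q32 * η * T + q33 * η ^ 2 * K) := by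
      refine h1.trans (le_of_eq ?_)
      have hd' : d = 1 / η ^ 2 := by rw [eq_div_iff hη2.ne', hcrit]
      rw [hd']
      field_simp
      ring
    have h6 := mul_le_mul_of_nonneg_left h5 hα
    have h7 : m * H + α * X - α * (0 * H + 1 * T + rho3 * K) ≤ 11 / 50 * H - η * T - η ^ 2 / 2 * K := by
      nlinarith
    refine (mul_le_mul_of_nonneg_left h7 hη2.le).trans (le_of_eq ?_)
    ring
  refine tendsto_order.2 ⟨fun e he => Filter.Eventually.of_forall fun n => he.trans_le (hpos n),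
    fun e he => ?_⟩
  suffices ∃ n, h n < e by
    obtain ⟨n, hn⟩ := this
    exact Filter.eventually_atTop.2 ⟨n, fun k hk => (hanti hk).trans_lt hn⟩
  by_contra! hcon
  set a := 2 * (1 / 400) * (1 - ω.p 0 - ω.p 1) * (η ^ 2 * e) ^ 3 with ha
  have hp : 0 < 1 - ω.p 0 - ω.p 1 := by linarith
  have ha0 : 0 < a := by positivity
  have hαC : 0 ≤ α * C := by linarith [(hG 0).1, (hG 0).2]
  have hme : 0 < m * e := by positivity
  set L := (2 * (α * C) + m * e) / a with hL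
  have hL0 : 0 ≤ L := by positivity
  have hLa : L * a = 2 * (α * C) + m * e := div_mul_cancel₀ _ ha0.ne'
  have step : ∀ n, N ≤ n → L * h (n + 1) + G (n + 1) ≤ L * h n + G n - m * e := by
    intro n hn
    by_cases hc : G (n + 1) - G n ≤ -(m * e)
    · have := mul_le_mul_of_nonneg_left (hanti (Nat.le_succ n)) hL0
      linarith
    · have h1 : m * e ≤ m * h n := mul_le_mul_of_nonneg_left (hcon n) hm.le
      have hK : K3 ((mu 3 (-η) ω n).chan (-η)) :=
        ⟨(hg n).chan hl, le_trans (mul_nonneg hη2.le (by linarith)) (key n hn)⟩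
      have h4 := cone3.hh_gen h3 hK ω hd
      rw [hh_chan h3 _ hl, neg_sq, ← mul_assoc d, hcrit, one_mul] at h4
      have h5 : a ≤ 2 * (1 / 400) * (1 - ω.p 0 - ω.p 1) * (η ^ 2 * h n) ^ 3 := by
        rw [ha]
        gcongr
        exact hcon n
      have h6 : h (n + 1) ≤ h n - a := le_trans h4 (by linarith)
      have h7 := mul_le_mul_of_nonneg_left h6 hL0
      rw [mul_sub, hLa] at h7
      linarith [(hG n).1, (hG (n + 1)).2]
  have iter : ∀ k : ℕ, L * h (N + k) + G (N + k) ≤ L * h N + G N - k * (m * e) := by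
    intro k
    induction k with
    | zero => simp
    | succ k ih =>
      have := step (N + k) (Nat.le_add_right _ _)
      rw [← add_assoc]
      push_cast
      linarith
  obtain ⟨k, hk⟩ := exists_nat_gt ((L * h N + G N + α * C) / (m * e))
  rw [div_lt_iff₀ hme] at hk
  have := mul_nonneg hL0 (hpos (N + k))
  linarith [iter k, (hG (N + k)).1]

end Crest.Agent.R163
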