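import Crest.Agent.R163.BilDef

/-! R163: the domains of the bilinear checker. -/

set_option autoImplicit false
set_option linter.unusedVariables false
open Finset

namespace Crest.Agent.R163.Bil

theorem bc_sort {q : ℕ} (y : Fin q → ℝ) : ∃ z : Fin q → ℝ, Monotone z ∧ (∀ i, ∃ j, z i = y j) ∧
    ∀ g : ℝ → ℝ, ∑ i, g (y i) = ∑ i, g (z i) :=
  ⟨y ∘ Tuple.sort y, Tuple.monotone_sort y, fun _ => ⟨_, rfl⟩,
    fun g => (Equiv.sum_comp (Tuple.sort y) fun i => g (y i)).symm⟩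

theorem bc_three {y : Fin 3 → ℝ} (hy : Simp y) : ∃ a b : ℝ, 0 ≤ a ∧ 0 ≤ b ∧ a + 2 * b ≤ 1 ∧
    (∃ j, y j = 1 + 2 * a + b) ∧ fH y / 2 = a * a + a * b + b * b ∧ fT y = (a - b) * (a + a + b) * (a + b + b) := by
  obtain ⟨z, hz, h1, h2⟩ := bc_sort y
  have h01 : z 0 ≤ z 1 := hz (by decide)
  have h12 : z 1 ≤ z 2 := hz (by decide)
  have h0 : 0 ≤ z 0 := by obtain ⟨j, hj⟩ := h1 0; rw [hj]; exact hy.1 j
  have hs := (h2 id).symm.trans hy.2
  simp only [id, Fin.sum_univ_three, Nat.cast_ofNat] at hs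
  obtain ⟨j, hj⟩ := h1 2
  refine ⟨(z 2 - z 1) / 3, (z 1 - z 0) / 3, by linarith, by linarith, by linarith, ⟨j, by linarith⟩, ?_, ?_⟩
  · rw [fH, h2 fun t => (t - 1) ^ 2, Fin.sum_univ_three, show z 2 = 3 - z 0 - z 1 by linarith]
    push_cast; ring
  · rw [fT, h2 fun t => (t - 1) ^ 3, Fin.sum_univ_three, show z 2 = 3 - z 0 - z 1 by linarith]
    push_cast; ring

theorem bc_side3 {y : Fin 3 → ℝ} (hy : Simp y) :
    InCell 3 false r3p (fH y / 2) (fT y) 1 ∨ InCell 3 true r3n (fH y / 2) (fT y) 1 := by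
  obtain ⟨a, b, ha, hb, h1, -, h2, h3⟩ := bc_three hy
  rw [h2, h3]
  rcases le_total b a with h | h
  · refine Or.inl ⟨b, a - b, 0, 1 - a - 2 * b, hb, by linarith, le_rfl, by linarith, ?_, ?_, ?_, ?_⟩ <;>
      simp [GA, GB, GC, gA, gB, gC, fa, fb, fc, fs, lf, r3p, z0, o1, sg] <;> ring
  · refine Or.inr ⟨a, b - a, 0, 1 - a - 2 * b, ha, by linarith, le_rfl, by linarith, ?_, ?_, ?_, ?_⟩ <;>
      simp [GA, GB, GC, gA, gB, gC, fa, fb, fc, fs, lf, r3n, z0, o1, sg] <;> ring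

theorem bc_side3s {y : Fin 3 → ℝ} (hy : Simp y) (h : ∀ i, y i ≤ 3 / 2) :
    InCell 3 false r3sp (fH y / 2) (fT y) 1 ∨ InCell 3 true r3sn (fH y / 2) (fT y) 1 := by
  obtain ⟨a, b, ha, hb, h1, ⟨j, hj⟩, h2, h3⟩ := bc_three hy
  have := h j
  rw [h2, h3]
  rcases le_total b a with h | h
  · refine Or.inl ⟨b, a - b, 0, 1 - 4 * a - 2 * b, hb, by linarith, le_rfl, by linarith, ?_, ?_, ?_, ?_⟩ <;>
      simp [GA, GB, GC, gA, gB, gC, fa, fb, fc, fs, lf, r3sp, z0, o1, sg] <;> ring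
  · refine Or.inr ⟨a, b - a, 0, 1 - 4 * a - 2 * b, ha, by linarith, le_rfl, by linarith, ?_, ?_, ?_, ?_⟩ <;>
      simp [GA, GB, GC, gA, gB, gC, fa, fb, fc, fs, lf, r3sn, z0, o1, sg] <;> ring

theorem bc_four {y : Fin 4 → ℝ} (hy : Simp y) : ∃ a b c : ℝ, b ≤ a ∧ c ≤ b ∧ -c ≤ b ∧ a + b - c ≤ 1 ∧
    fH y = a * a + b * b + c * c ∧ fT y / 6 = a * b * c ∧
    fP y = a * a * (b * b) + b * b * (c * c) + c * c * (a * a) := by
  obtain ⟨z, hz, h1, h2⟩ := bc_sort y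
  have h01 : z 0 ≤ z 1 := hz (by decide)
  have h12 : z 1 ≤ z 2 := hz (by decide)
  have h23 : z 2 ≤ z 3 := hz (by decide)
  have h0 : 0 ≤ z 0 := by obtain ⟨j, hj⟩ := h1 0; rw [hj]; exact hy.1 j
  have hs := (h2 id).symm.trans hy.2
  simp only [id, Fin.sum_univ_four, Nat.cast_ofNat] at hs
  refine ⟨(z 3 + z 2 - z 1 - z 0) / 4, (z 3 - z 2 + z 1 - z 0) / 4, (z 3 - z 2 - z 1 + z 0) / 4,
    by linarith, by linarith, by linarith, by linarith, ?_, ?_, ?_⟩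
  · rw [fH, h2 fun t => (t - 1) ^ 2, Fin.sum_univ_four, show z 3 = 4 - z 0 - z 1 - z 2 by linarith]
    push_cast; ring
  · rw [fT, h2 fun t => (t - 1) ^ 3, Fin.sum_univ_four, show z 3 = 4 - z 0 - z 1 - z 2 by linarith]
    push_cast; ring
  · rw [fP, fH, h2 fun t => (t - 1) ^ 2, h2 fun t => (t - 1) ^ 4, Fin.sum_univ_four, Fin.sum_univ_four,
      show z 3 = 4 - z 0 - z 1 - z 2 by linarith]
    push_cast; ring

theorem bc_side4 {y : Fin 4 → ℝ} (hy : Simp y) :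
    InCell 4 false r4p (fH y) (fT y / 6) (fP y) ∨ InCell 4 true r4n (fH y) (fT y / 6) (fP y) := by
  obtain ⟨a, b, c, h1, h2, h3, h4, h5, h6, h7⟩ := bc_four hy
  rw [h5, h6, h7]
  rcases le_total 0 c with h | h
  · refine Or.inl ⟨c, b - c, a - b, 1 - a - b + c, h, by linarith, by linarith, by linarith, ?_, ?_, ?_, ?_⟩ <;>
      simp [GA, GB, GC, gA, gB, gC, fa, fb, fc, fs, lf, r4p, o1, sg] <;> ring
  · refine Or.inr ⟨-c, b + c, a - b, 1 - a - b + c, by linarith, by linarith, by linarith, by linarith,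
      ?_, ?_, ?_, ?_⟩ <;> simp [GA, GB, GC, gA, gB, gC, fa, fb, fc, fs, lf, r4n, o1, sg] <;> ring

theorem bc_int (ε : Bool) {p p' r : ℕ} (hp : p < p') (hr : 0 < r) {x : ℝ} (h1 : (p : ℝ) / r ≤ x)
    (h2 : x ≤ (p' : ℝ) / r) : InCell 1 ε (rI p p' r) 1 (sg ε * x) 1 := by
  have hr' : (0 : ℝ) < r := by exact_mod_cast hr
  have hp' : (0 : ℝ) < p' - p := sub_pos.2 (by exact_mod_cast hp)
  have hs : fs (rI p p' r) ((x - p / r) / (p' - p)) 0 0 ((p' / r - x) / (p' - p)) = 1 := by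
    simp [fs, lf, rI]; field_simp; ring
  refine ⟨(x - p / r) / (p' - p), 0, 0, (p' / r - x) / (p' - p), div_nonneg (by linarith) hp'.le, le_rfl, le_rfl,
    div_nonneg (by linarith) hp'.le, by simp [GA, gA, hs], ?_, by simp [GC, gC, hs], hs⟩
  congr 1
  simp [GB, gB, fa, lf, rI]; field_simp; ring

end Crest.Agent.R163.Bil
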