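import Crest.Agent.R163.BilDef
import Crest.Agent.R163.BilC

/-! R163: soundness of the bilinear checker. -/

set_option autoImplicit false
set_option linter.unusedVariables false
open Finset

namespace Crest.Agent.R163.Bil

/-! ### part a: digits and the tree -/

theorem dg_eq (B X r : ℕ) : dg B X r = X / 2 ^ (B * r) % 2 ^ B := by
  unfold dg
  rw [← Nat.shiftRight_eq_div_pow, ← Nat.one_shiftLeft]
  rfl

theorem ba_sum_lt (B P : ℕ) (a : ℕ → ℕ) (ha : ∀ r < P, a r < 2 ^ B) :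
    ∑ i ∈ range P, a i * 2 ^ (B * i) < 2 ^ (B * P) := by
  induction P with
  | zero => simp
  | succ P ih =>
    have h1 := ih fun r hr => ha r (by omega)
    have h2 := Nat.mul_le_mul_right (2 ^ (B * P)) (Nat.succ_le_of_lt (ha P (by omega)))
    rw [sum_range_succ, mul_add, pow_add, mul_one, mul_comm (2 ^ (B * P))]
    rw [Nat.succ_mul] at h2
    omega

theorem dg_sum (B P : ℕ) (a : ℕ → ℕ) (ha : ∀ r < P, a r < 2 ^ B) (t r : ℕ) (hr : r < P) :
    dg B (∑ i ∈ range P, a i * 2 ^ (B * i) + t * 2 ^ (B * P)) r = a r := by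
  induction P generalizing t with
  | zero => omega
  | succ P ih =>
    have e : ∑ i ∈ range (P + 1), a i * 2 ^ (B * i) + t * 2 ^ (B * (P + 1)) =
        ∑ i ∈ range P, a i * 2 ^ (B * i) + (a P + 2 ^ B * t) * 2 ^ (B * P) := by
      rw [sum_range_succ]; ring
    rw [e]
    rcases Nat.lt_succ_iff_lt_or_eq.1 hr with h | rfl
    · exact ih (fun r hr => ha r (by omega)) _ h
    · rw [dg_eq, Nat.add_mul_div_right _ _ (by positivity),
        Nat.div_eq_of_lt (ba_sum_lt B r a fun i hi => ha i (by omega)), zero_add,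
        Nat.add_mul_mod_self_left, Nat.mod_eq_of_lt (ha r hr)]

theorem ba_expand (B X Q : ℕ) :
    X = ∑ i ∈ range Q, dg B X i * 2 ^ (B * i) + X / 2 ^ (B * Q) * 2 ^ (B * Q) := by
  induction Q with
  | zero => simp
  | succ Q ih =>
    have h2 := Nat.mod_add_div (X / 2 ^ (B * Q)) (2 ^ B)
    rw [Nat.div_div_eq_div_mul, ← pow_add, ← dg_eq, ← Nat.mul_succ] at h2
    rw [sum_range_succ, add_assoc]
    refine ih.trans ?_
    rw [← h2]
    ring

theorem ba_hi {B : ℕ} (hB : 1 ≤ B) (P : ℕ) : hi B P = ∑ i ∈ range P, 2 ^ (B - 1) * 2 ^ (B * i) := by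
  induction P with
  | zero => rfl
  | succ P ih =>
    have : hi B (P + 1) = hi B P <<< B + 1 <<< (B - 1) := rfl
    rw [this, ih, Nat.shiftLeft_eq, Nat.one_shiftLeft, sum_range_succ', sum_mul]
    simp only [mul_add, pow_add, mul_one, mul_zero, pow_zero, mul_assoc]

/-- `x + hi - y` has, below slot `P`, the digits `dg x r + 2^(B-1) - dg y r ∈ (0, 2^B)`, whose top bit is set iff
`dg y r ≤ dg x r`; from slot `P` on the digits of `y` vanish. (Compare `Eng.dig_land_shift` in `EngA.lean`.) -/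
theorem slotLe_sound {B P x y : ℕ} (hB : 1 ≤ B) (hx : ∀ r, dg B x r < 2 ^ (B - 1))
    (hy : ∀ r, dg B y r < 2 ^ (B - 1)) (h : slotLe B P x y = true) (r : ℕ) : dg B y r ≤ dg B x r := by
  have h' : y / 2 ^ (B * P) = 0 ∧ (x + hi B P - y) &&& hi B P = hi B P := by
    unfold slotLe at h
    cases h0 : Nat.beq (Nat.shiftRight y (Nat.mul B P)) 0
    · rw [h0] at h
      cases h
    · rw [h0] at h
      exact ⟨(Nat.shiftRight_eq_div_pow _ _).symm.trans (Nat.eq_of_beq_eq_true h0),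
        Nat.eq_of_beq_eq_true h⟩
  obtain ⟨h0, h1⟩ := h'
  have e2 : 2 ^ B = 2 * 2 ^ (B - 1) := by rw [← pow_succ', Nat.sub_add_cancel hB]
  rcases lt_or_ge r P with hr | hr
  · have e1 : x + hi B P - y = ∑ i ∈ range P, (dg B x i + 2 ^ (B - 1) - dg B y i) * 2 ^ (B * i) +
        x / 2 ^ (B * P) * 2 ^ (B * P) := by
      refine Nat.sub_eq_of_eq_add ?_
      have e : ∑ i ∈ range P, (dg B x i + 2 ^ (B - 1) - dg B y i) * 2 ^ (B * i) +
          ∑ i ∈ range P, dg B y i * 2 ^ (B * i) =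
          ∑ i ∈ range P, dg B x i * 2 ^ (B * i) + ∑ i ∈ range P, 2 ^ (B - 1) * 2 ^ (B * i) := by
        rw [← sum_add_distrib, ← sum_add_distrib]
        refine sum_congr rfl fun i _ => ?_
        rw [← add_mul, ← add_mul, Nat.sub_add_cancel ((hy i).le.trans (Nat.le_add_left _ _))]
      have ex := ba_expand B x P
      have ey := ba_expand B y P
      rw [h0, zero_mul, add_zero] at ey
      rw [ba_hi hB]
      omega
    have h2 : dg B ((x + hi B P - y) &&& hi B P) r = dg B (x + hi B P - y) r &&& dg B (hi B P) r := by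
      rw [dg_eq, dg_eq, dg_eq, Nat.and_div_two_pow, Nat.and_mod_two_pow]
    have h3 : dg B (hi B P) r = 2 ^ (B - 1) := by
      have := dg_sum B P (fun _ => 2 ^ (B - 1))
        (fun _ _ => Nat.pow_lt_pow_right (by omega) (by omega)) 0 r hr
      rwa [zero_mul, add_zero, ← ba_hi hB] at this
    rw [h1, h3, e1, dg_sum B P _ (fun i _ => by have := hx i; omega) _ r hr] at h2
    have h4 := h2.le.trans Nat.and_le_left
    have := hy r
    omega
  · have h2 : y < 2 ^ (B * r) := ((Nat.div_eq_zero_iff_lt (by positivity)).1 h0).trans_le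
      (Nat.pow_le_pow_right (by omega) (Nat.mul_le_mul_left _ hr))
    rw [dg_eq, Nat.div_eq_of_lt h2, Nat.zero_mod]
    exact Nat.zero_le _

theorem dot_eq (x y : List ℕ) : dot x y = (List.zipWith (· * ·) x y).sum := by
  induction x generalizing y with
  | nil => rfl
  | cons a x ih =>
    cases y with
    | nil => rfl
    | cons b y => exact congrArg (a * b + ·) (ih y)

theorem allLt_sound {n : ℕ} {f : ℕ → Bool} (h : allLt n f = true) (i : ℕ) (hi : i < n) : f i = true := by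
  induction n with
  | zero => omega
  | succ n ih =>
    have e : allLt (n + 1) f = @Bool.rec (fun _ => Bool) false (allLt n f) (f n) := rfl
    rw [e] at h
    cases h0 : f n
    · rw [h0] at h
      cases h
    · rw [h0] at h
      rcases Nat.lt_succ_iff_lt_or_eq.1 hi with h1 | rfl
      · exact ih h h1
      · exact h0

noncomputable def ba_form (π : Vx → ℕ) (L : Cell) (m : Fin 4 → ℝ) : ℝ := ∑ t, π (L.get t) * m t

theorem ba_inCell {k : ℕ} {ε : Bool} {L : Cell} {x1 x2 x3 : ℝ} : InCell k ε L x1 x2 x3 ↔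
    ∃ m : Fin 4 → ℝ, (∀ t, 0 ≤ m t) ∧
      gA k (ba_form Vx.a L m) (ba_form Vx.b L m) (ba_form Vx.c L m) (ba_form Vx.s L m) = x1 ∧
      sg ε * gB k (ba_form Vx.a L m) (ba_form Vx.b L m) (ba_form Vx.c L m) (ba_form Vx.s L m) = x2 ∧
      gC k (ba_form Vx.a L m) (ba_form Vx.b L m) (ba_form Vx.c L m) (ba_form Vx.s L m) = x3 ∧
      ba_form Vx.s L m = 1 := by
  simp only [ba_form, Fin.sum_univ_four]
  constructor
  · rintro ⟨m0, m1, m2, m3, h0, h1, h2, h3, h⟩
    exact ⟨![m0, m1, m2, m3], fun t => by fin_cases t <;> assumption, h⟩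
  · rintro ⟨m, hm, h⟩
    exact ⟨m 0, m 1, m 2, m 3, hm _, hm _, hm _, hm _, h⟩

theorem ba_get_set (L : Cell) (j : Fin 4) (v : Vx) (t : Fin 4) :
    (L.set j v).get t = if t = j then v else L.get t := by
  fin_cases j <;> fin_cases t <;> rfl

theorem ba_key (c m : Fin 4 → ℝ) {i j : Fin 4} (hij : i ≠ j) (l P R : ℝ) (h : m j = l * R) :
    ∑ t, (if t = j then P * c i + R * c j else c t) *
      (if t = j then l else if t = i then m i - l * P else m t) = ∑ t, c t * m t := by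
  rw [← sub_eq_zero, ← sum_sub_distrib, Fintype.sum_eq_add i j hij fun t ht => by simp [ht.1, ht.2]]
  simp only [hij, if_true, if_false, h]
  ring

/-- if `m i * (r+1) ≥ m j * (p+1)` then `m i V i + m j V j = (m i - m j (p+1)/(r+1)) V i + (m j/(r+1)) mid`, and
symmetrically; the four linear forms keep their values. -/
theorem InCell.split {k : ℕ} {ε : Bool} {L : Cell} {x1 x2 x3 : ℝ} (h : InCell k ε L x1 x2 x3)
    {i j : Fin 4} (hij : i ≠ j) (p r : ℕ) :
    InCell k ε (L.set j (L.mid i j p r)) x1 x2 x3 ∨ InCell k ε (L.set i (L.mid i j p r)) x1 x2 x3 := by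
  obtain ⟨m, hm, h⟩ := ba_inCell.1 h
  have hp : (0 : ℝ) < p + 1 := by positivity
  have hr : (0 : ℝ) < r + 1 := by positivity
  rcases le_total (m j / (r + 1) * (p + 1)) (m i) with hle | hle
  · refine Or.inl (ba_inCell.2 ⟨fun t => if t = j then m j / (r + 1) else
      if t = i then m i - m j / (r + 1) * (p + 1) else m t, fun t => ?_, ?_⟩)
    · have := hm j
      have := hm t
      dsimp only
      split_ifs
      · positivity
      · linarith
      · assumption
    · have key : ∀ π : Vx → ℕ, (∀ a b u v, π (Vx.comb a b u v) = a * π u + b * π v) →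
          ba_form π (L.set j (L.mid i j p r)) (fun t => if t = j then m j / (r + 1) else
            if t = i then m i - m j / (r + 1) * (p + 1) else m t) = ba_form π L m := by
        intro π hπ
        refine Eq.trans ?_ (ba_key (fun t => (π (L.get t) : ℝ)) m hij (m j / (r + 1)) (p + 1) (r + 1)
          (by field_simp))
        refine sum_congr rfl fun t _ => ?_
        rw [ba_get_set, apply_ite π, Cell.mid, hπ]
        push_cast
        rfl
      rwa [key _ fun _ _ _ _ => rfl, key _ fun _ _ _ _ => rfl, key _ fun _ _ _ _ => rfl,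
        key _ fun _ _ _ _ => rfl]
  · refine Or.inr (ba_inCell.2 ⟨fun t => if t = i then m i / (p + 1) else
      if t = j then m j - m i / (p + 1) * (r + 1) else m t, fun t => ?_, ?_⟩)
    · have := hm i
      have := hm t
      dsimp only
      split_ifs
      · positivity
      · rw [div_mul_eq_mul_div, le_div_iff₀ hr] at hle
        rw [sub_nonneg, div_mul_eq_mul_div, div_le_iff₀ hp]
        exact hle
      · assumption
    · have key : ∀ π : Vx → ℕ, (∀ a b u v, π (Vx.comb a b u v) = a * π u + b * π v) →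
          ba_form π (L.set i (L.mid i j p r)) (fun t => if t = i then m i / (p + 1) else
            if t = j then m j - m i / (p + 1) * (r + 1) else m t) = ba_form π L m := by
        intro π hπ
        refine Eq.trans ?_ (ba_key (fun t => (π (L.get t) : ℝ)) m hij.symm (m i / (p + 1)) (r + 1) (p + 1)
          (by field_simp))
        refine sum_congr rfl fun t _ => ?_
        rw [ba_get_set, apply_ite π, Cell.mid, hπ, add_comm]
        push_cast
        rfl
      rwa [key _ fun _ _ _ _ => rfl, key _ fun _ _ _ _ => rfl, key _ fun _ _ _ _ => rfl,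
        key _ fun _ _ _ _ => rfl]

/-! ### part b: one leaf -/

def bb_T (n : ℕ) : Finset (Σ _ : ℕ, Σ _ : ℕ, ℕ) :=
  (range (n + 1)).sigma fun i => (range (n + 1 - i)).sigma fun j => range (n + 1 - i - j)

theorem bb_mem {n : ℕ} {t : Σ _ : ℕ, Σ _ : ℕ, ℕ} : t ∈ bb_T n ↔ t.1 + t.2.1 + t.2.2 ≤ n := by
  simp only [bb_T, mem_sigma, mem_range]
  omega

noncomputable def bb_ex (n : ℕ) (t : Σ _ : ℕ, Σ _ : ℕ, ℕ) : Fin 4 →₀ ℕ :=
  Finsupp.equivFunOnFinite.symm ![t.1, t.2.1, t.2.2, n - t.1 - t.2.1 - t.2.2]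

theorem bb_inj {N a b a' b' : ℕ} (ha : a < N) (ha' : a' < N) (h : a + N * b = a' + N * b') :
    a = a' ∧ b = b' := by
  have h1 := congrArg (· % N) h
  simp only [Nat.add_mul_mod_self_left, Nat.mod_eq_of_lt ha, Nat.mod_eq_of_lt ha'] at h1
  subst h1
  exact ⟨rfl, Nat.eq_of_mul_eq_mul_left (by omega) (Nat.add_left_cancel h)⟩

theorem bb_eval {n : ℕ} {p : MvPolynomial (Fin 4) ℕ} (hp : p.IsHomogeneous n) {R : Type} [CommSemiring R]
    (φ : ℕ →+* R) (x0 x1 x2 x3 : R) : MvPolynomial.eval₂ φ ![x0, x1, x2, x3] p =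
      ∑ t ∈ bb_T n, φ (p.coeff (bb_ex n t)) *
        (x0 ^ t.1 * x1 ^ t.2.1 * x2 ^ t.2.2 * x3 ^ (n - t.1 - t.2.1 - t.2.2)) := by
  have hd : ∀ d ∈ p.support, d 0 + d 1 + d 2 + d 3 = n := fun d hd => by
    have := hp (MvPolynomial.mem_support_iff.1 hd)
    simpa [Finsupp.weight_apply, Finsupp.sum_fintype, Fin.sum_univ_four] using this
  have he : ∀ d ∈ p.support, bb_ex n ⟨d 0, d 1, d 2⟩ = d := fun d h => by
    have := hd d h
    ext i
    fin_cases i <;> simp [bb_ex]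
    omega
  rw [MvPolynomial.eval₂_eq']
  refine sum_of_injOn (fun d => ⟨d 0, d 1, d 2⟩) (fun d h d' h' e => ?_) (fun d h => ?_)
    (fun t _ h => ?_) fun d h => ?_
  · rw [← he d h, ← he d' h']
    exact congrArg _ e
  · have := hd d h
    refine bb_mem.2 ?_
    dsimp only
    omega
  · have : p.coeff (bb_ex n t) = 0 := by
      by_contra h0
      exact h ⟨_, MvPolynomial.mem_support_iff.2 h0, rfl⟩
    rw [this, map_zero, zero_mul]
  · have := hd d h
    rw [he d h, Fin.prod_univ_four, show d 3 = n - d 0 - d 1 - d 2 by omega]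
    rfl

/-- Kronecker decoding of a homogeneous polynomial with natural coefficients: the monomial
`X0^i X1^j X2^l X3^(n-i-j-l)` sits in slot `i + (n+1) j + (n+1)² l`; all coefficients are at most `eval 1 p`. -/
theorem decode (B n : ℕ) (p : MvPolynomial (Fin 4) ℕ) (hp : p.IsHomogeneous n) {c : ℕ} (hc : c ≤ 2 ^ B)
    (h1 : MvPolynomial.eval ![1, 1, 1, 1] p < c) :
    (∀ r, dg B (MvPolynomial.eval ![2 ^ B, 2 ^ (B * (n + 1)), 2 ^ (B * (n + 1) * (n + 1)), 1] p) r < c) ∧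
    ∀ m0 m1 m2 m3 : ℝ, MvPolynomial.aeval ![m0, m1, m2, m3] p =
      ∑ i ∈ range (n + 1), ∑ j ∈ range (n + 1 - i), ∑ l ∈ range (n + 1 - i - j),
        (dg B (MvPolynomial.eval ![2 ^ B, 2 ^ (B * (n + 1)), 2 ^ (B * (n + 1) * (n + 1)), 1] p)
          (i + (n + 1) * j + (n + 1) * (n + 1) * l) : ℝ) * (m0 ^ i * m1 ^ j * m2 ^ l * m3 ^ (n - i - j - l)) := by
  obtain ⟨a, ha⟩ : ∃ a : (Σ _ : ℕ, Σ _ : ℕ, ℕ) → ℕ, ∀ t, a t = p.coeff (bb_ex n t) := ⟨_, fun _ => rfl⟩
  obtain ⟨sl, hsl⟩ : ∃ sl : (Σ _ : ℕ, Σ _ : ℕ, ℕ) → ℕ,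
      ∀ t, sl t = t.1 + (n + 1) * t.2.1 + (n + 1) * (n + 1) * t.2.2 := ⟨_, fun _ => rfl⟩
  obtain ⟨P, hP⟩ : ∃ P, ∀ t ∈ bb_T n, sl t ∈ range P :=
    ⟨(bb_T n).sup sl + 1, fun t ht => mem_range.2 (Nat.lt_succ_of_le (le_sup ht))⟩
  have e1 : MvPolynomial.eval ![1, 1, 1, 1] p = ∑ t ∈ bb_T n, a t := by
    have := bb_eval hp (RingHom.id ℕ) 1 1 1 1
    simpa [ha] using this
  have e2 : MvPolynomial.eval ![2 ^ B, 2 ^ (B * (n + 1)), 2 ^ (B * (n + 1) * (n + 1)), 1] p =
      ∑ r ∈ range P, (∑ t ∈ bb_T n with sl t = r, a t) * 2 ^ (B * r) := by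
    refine (bb_eval hp (RingHom.id ℕ) _ _ _ _).trans ?_
    rw [← sum_fiberwise_of_maps_to hP]
    refine sum_congr rfl fun r _ => ?_
    rw [sum_mul]
    refine sum_congr rfl fun t ht => ?_
    rw [← (mem_filter.1 ht).2, hsl, ha, RingHom.id_apply, one_pow, mul_one, ← pow_mul, ← pow_mul, ← pow_mul,
      ← pow_add, ← pow_add]
    congr 2
    ring
  have hA : ∀ r, ∑ t ∈ bb_T n with sl t = r, a t < c := fun r =>
    (sum_le_sum_of_subset (filter_subset _ _)).trans_lt (e1 ▸ h1)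
  have e3 : ∀ r < P, dg B (MvPolynomial.eval ![2 ^ B, 2 ^ (B * (n + 1)), 2 ^ (B * (n + 1) * (n + 1)), 1] p) r =
      ∑ t ∈ bb_T n with sl t = r, a t := fun r hr => by
    have := dg_sum B P _ (fun r _ => (hA r).trans_le hc) 0 r hr
    rwa [zero_mul, add_zero, ← e2] at this
  refine ⟨fun r => ?_, fun m0 m1 m2 m3 => ?_⟩
  · rcases lt_or_ge r P with hr | hr
    · rw [e3 r hr]
      exact hA r
    · rw [e2, dg_eq, Nat.div_eq_of_lt ((ba_sum_lt B P _ fun r _ => (hA r).trans_le hc).trans_le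
        (Nat.pow_le_pow_right (by omega) (Nat.mul_le_mul_left _ hr))), Nat.zero_mod]
      omega
  · refine (bb_eval hp (algebraMap ℕ ℝ) m0 m1 m2 m3).trans ?_
    simp only [sum_sigma']
    refine sum_congr rfl fun t ht => ?_
    replace ht : t ∈ bb_T n := ht
    rw [← hsl, e3 _ (mem_range.1 (hP t ht)), sum_eq_single_of_mem
      (s := (bb_T n).filter fun t' => sl t' = sl t) t (mem_filter.2 ⟨ht, rfl⟩), ha]
    · rfl
    · intro t' ht' hne
      refine absurd ?_ hne
      have e := (mem_filter.1 ht').2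
      replace ht' := (mem_filter.1 ht').1
      obtain ⟨i, j, l⟩ := t
      obtain ⟨i', j', l'⟩ := t'
      rw [bb_mem] at ht ht'
      rw [hsl, hsl] at e
      dsimp only at *
      have e' : i' + (n + 1) * (j' + (n + 1) * l') = i + (n + 1) * (j + (n + 1) * l) := by
        linear_combination e
      obtain ⟨rfl, e''⟩ := bb_inj (by omega) (by omega) e'
      obtain ⟨rfl, rfl⟩ := bb_inj (by omega) (by omega) e''
      rfl

theorem map_ft {R S : Type} [CommSemiring R] [CommSemiring S] (φ : R →+* S) (k n : ℕ) (L : Cell)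
    (x0 x1 x2 x3 : R) (e : ℕ × ℕ × ℕ) :
    φ (ft k n L x0 x1 x2 x3 e) = ft k n L (φ x0) (φ x1) (φ x2) (φ x3) e := by
  simp only [ft, GA, GB, GC, gA, gB, gC, fa, fb, fc, fs, lf, map_mul, map_pow, map_add, map_natCast,
    apply_ite φ]

theorem ft_homog (k n : ℕ) (L : Cell) (e : ℕ × ℕ × ℕ) (he : wdeg k e ≤ n) :
    (ft k n L (MvPolynomial.X 0) (MvPolynomial.X 1) (MvPolynomial.X 2) (MvPolynomial.X 3) e :
      MvPolynomial (Fin 4) ℕ).IsHomogeneous n := by
  have hl : ∀ c0 c1 c2 c3, (lf c0 c1 c2 c3 (MvPolynomial.X 0) (MvPolynomial.X 1) (MvPolynomial.X 2)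
      (MvPolynomial.X 3) : MvPolynomial (Fin 4) ℕ).IsHomogeneous 1 := fun c0 c1 c2 c3 =>
    (((MvPolynomial.isHomogeneous_C_mul_X _ _).add (MvPolynomial.isHomogeneous_C_mul_X _ _)).add
      (MvPolynomial.isHomogeneous_C_mul_X _ _)).add (MvPolynomial.isHomogeneous_C_mul_X _ _)
  have key : ∀ a b c s : MvPolynomial (Fin 4) ℕ, a.IsHomogeneous 1 → b.IsHomogeneous 1 → c.IsHomogeneous 1 →
      s.IsHomogeneous 1 → (gA k a b c s ^ e.1 * gB k a b c s ^ e.2.1 * gC k a b c s ^ e.2.2 *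
        s ^ (n - wdeg k e)).IsHomogeneous n := by
    intro a b c s ha hb hc hs
    unfold gA gB gC
    unfold wdeg at he ⊢
    split_ifs at he ⊢
    · convert ((((((ha.mul ha).add (hb.mul hb)).add (hc.mul hc)).pow e.1).mul
        (((ha.mul hb).mul hc).pow e.2.1)).mul (((((ha.mul ha).mul (hb.mul hb)).add
          ((hb.mul hb).mul (hc.mul hc))).add ((hc.mul hc).mul (ha.mul ha))).pow e.2.2)).mul
          (hs.pow _) using 1
      omega
    · convert ((((((ha.mul ha).add (ha.mul hb)).add (hb.mul hb)).pow e.1).mul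
        (((hc.mul ((ha.add ha).add hb)).mul ((ha.add hb).add hb)).pow e.2.1)).mul (hs.pow e.2.2)).mul
          (hs.pow _) using 1
      omega
    · convert (((hs.pow e.1).mul (ha.pow e.2.1)).mul (hs.pow e.2.2)).mul (hs.pow _) using 1
      omega
  exact key _ _ _ _ (hl _ _ _ _) (hl _ _ _ _) (hl _ _ _ _) (hl _ _ _ _)

theorem bb_cnd {a b : Bool} (h : @Bool.rec (fun _ => Bool) false b a = true) : a = true ∧ b = true := by
  cases a
  · cases h
  · exact ⟨rfl, h⟩

theorem bb_ev (k n : ℕ) (L : Cell) (x0 x1 x2 x3 : ℕ) (e : ℕ × ℕ × ℕ) : MvPolynomial.eval ![x0, x1, x2, x3]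
    (ft k n L (MvPolynomial.X 0) (MvPolynomial.X 1) (MvPolynomial.X 2) (MvPolynomial.X 3) e) =
    ft k n L x0 x1 x2 x3 e := by
  rw [map_ft]
  simp

theorem bb_aev (k n : ℕ) (L : Cell) (x0 x1 x2 x3 : ℝ) (e : ℕ × ℕ × ℕ) : MvPolynomial.aeval ![x0, x1, x2, x3]
    (ft k n L (MvPolynomial.X 0) (MvPolynomial.X 1) (MvPolynomial.X 2) (MvPolynomial.X 3) e :
      MvPolynomial (Fin 4) ℕ) = ft k n L x0 x1 x2 x3 e := by
  simpa using map_ft (MvPolynomial.aeval ![x0, x1, x2, x3] : MvPolynomial (Fin 4) ℕ →ₐ[ℕ] ℝ).toRingHom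
    k n L (MvPolynomial.X 0) (MvPolynomial.X 1) (MvPolynomial.X 2) (MvPolynomial.X 3) e

theorem bb_mon {k n : ℕ} {ε : Bool} {L : Cell} {x1 x2 x3 m0 m1 m2 m3 : ℝ}
    (h : GA k L m0 m1 m2 m3 = x1 ∧ sg ε * GB k L m0 m1 m2 m3 = x2 ∧ GC k L m0 m1 m2 m3 = x3 ∧
      fs L m0 m1 m2 m3 = 1) (e : ℕ × ℕ × ℕ) :
    mon x1 x2 x3 e = sg (isNeg ε e) * ft k n L m0 m1 m2 m3 e := by
  obtain ⟨rfl, rfl, rfl, h⟩ := h
  have : sg ε ^ e.2.1 = sg (isNeg ε e) := by
    cases ε
    · simp [sg, isNeg]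
    · rcases Nat.even_or_odd e.2.1 with h | h
      · simp [sg, isNeg, h.neg_one_pow, Nat.even_iff.1 h]
      · simp [sg, isNeg, h.neg_one_pow, Nat.odd_iff.1 h]
  rw [mon, ft, h, mul_pow, this]
  ring

theorem bb_zip {α β R : Type} [AddCommMonoid R] (g : α → β → R) (a : α) (b : β) (l : List α) (l' : List β) :
    (List.zipWith g l l').sum = ∑ i ∈ range (min l.length l'.length), g (l.getD i a) (l'.getD i b) := by
  induction l generalizing l' with
  | nil => simp
  | cons x l ih =>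
    cases l' with
    | nil => simp
    | cons y l' =>
      rw [List.zipWith_cons_cons, List.sum_cons, ih, List.length_cons, List.length_cons,
        Nat.add_min_add_right, sum_range_succ', add_comm]
      rfl

theorem bb_getD {α : Type} {l : List α} {a : α} {j N : ℕ} (hj : j ∈ range (min l.length N)) :
    l.getD j a ∈ l := by
  rw [List.getD_eq_getElem _ _ ((mem_range.1 hj).trans_le (min_le_left _ _))]
  exact List.getElem_mem _

/-- the `fl`-part of the bilinear form over a semiring -/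
def bb_gd {R : Type} [CommSemiring R] (sp : Spec) (ε ε' fl : Bool) (U V : ℕ × ℕ × ℕ → R) : R :=
  ∑ j ∈ range (min sp.f.length sp.M.length), U (sp.f.getD j 0) *
    ∑ k ∈ range (min sp.f'.length (sp.M.getD j []).length),
      (part (xor fl (xor (isNeg ε (sp.f.getD j 0)) (isNeg ε' (sp.f'.getD k 0)))) ((sp.M.getD j []).getD k 0) : R) *
        V (sp.f'.getD k 0)

theorem bb_dz {α β γ : Type} (U : α → ℕ) (F : α → β → γ) (G : γ → ℕ) (f : List α) (M : List β) :
    dot (f.map U) ((List.zipWith F f M).map G) = (List.zipWith (fun e r => U e * G (F e r)) f M).sum := by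
  induction f generalizing M with
  | nil => rfl
  | cons e f ih =>
    cases M with
    | nil => rfl
    | cons r M => exact congrArg (U e * G (F e r) + ·) (ih M)

theorem bb_zd {α β : Type} (V : α → ℕ) (F : α → β → ℕ) (f : List α) (M : List β) :
    dot (List.zipWith F f M) (f.map V) = (List.zipWith (fun e r => F e r * V e) f M).sum := by
  induction f generalizing M with
  | nil => rfl
  | cons e f ih =>
    cases M with
    | nil => rfl
    | cons r M => exact congrArg (F e r * V e + ·) (ih M)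

theorem bb_dot (sp : Spec) (ε ε' fl : Bool) (U V : ℕ × ℕ × ℕ → ℕ) :
    dot (sp.f.map U) (Gl sp ε ε' fl (sp.f'.map V)) = bb_gd sp ε ε' fl U V := by
  unfold Gl Mp
  rw [bb_dz, bb_zip _ 0 []]
  refine sum_congr rfl fun j _ => ?_
  rw [bb_zd, bb_zip _ 0 0]
  rfl

theorem bb_dot_zero {α : Type} {U : α → ℕ} {f : List α} (h : dot (f.map U) (f.map U) = 0) :
    ∀ e ∈ f, U e = 0 := by
  induction f with
  | nil => simp
  | cons e f ih =>
    have h' : U e * U e + dot (f.map U) (f.map U) = 0 := h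
    rw [List.forall_mem_cons]
    exact ⟨mul_self_eq_zero.1 (by omega), ih (by omega)⟩

theorem bb_map {R S Φ : Type} [CommSemiring R] [CommSemiring S] [FunLike Φ R S] [RingHomClass Φ R S] (φ : Φ)
    (sp : Spec) (ε ε' fl : Bool) (U V : ℕ × ℕ × ℕ → R) :
    φ (bb_gd sp ε ε' fl U V) = bb_gd sp ε ε' fl (fun e => φ (U e)) fun e => φ (V e) := by
  simp only [bb_gd, map_sum, map_mul, map_natCast]

theorem bb_congr {R : Type} [CommSemiring R] (sp : Spec) (ε ε' fl : Bool) {U U' : ℕ × ℕ × ℕ → R}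
    (V : ℕ × ℕ × ℕ → R) (h : ∀ e ∈ sp.f, U e = U' e) : bb_gd sp ε ε' fl U V = bb_gd sp ε ε' fl U' V :=
  sum_congr rfl fun j hj => by rw [h _ (bb_getD hj)]

theorem bb_mono (sp : Spec) (ε ε' fl : Bool) {U U' : ℕ × ℕ × ℕ → ℕ}
    (V : ℕ × ℕ × ℕ → ℕ) (h : ∀ e ∈ sp.f, U e ≤ U' e) : bb_gd sp ε ε' fl U V ≤ bb_gd sp ε ε' fl U' V :=
  sum_le_sum fun j hj => Nat.mul_le_mul_right _ (h _ (bb_getD hj))

theorem bb_sum (sp : Spec) (ε ε' fl : Bool) (s : Finset ℕ) (U : ℕ → ℕ × ℕ × ℕ → ℝ) (V : ℕ × ℕ × ℕ → ℝ) :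
    bb_gd sp ε ε' fl (fun e => ∑ i ∈ s, U i e) V = ∑ i ∈ s, bb_gd sp ε ε' fl (U i) V := by
  simp only [bb_gd, sum_mul]
  exact sum_comm

theorem bb_mul (sp : Spec) (ε ε' fl : Bool) (U V : ℕ × ℕ × ℕ → ℝ) (w : ℝ) :
    bb_gd sp ε ε' fl (fun e => U e * w) V = bb_gd sp ε ε' fl U V * w := by
  simp only [bb_gd, sum_mul]
  exact sum_congr rfl fun _ _ => mul_right_comm _ _ _

theorem bb_homog (sp : Spec) (ε ε' fl : Bool) (d : ℕ × ℕ × ℕ → ℕ) {n : ℕ}
    {V : ℕ × ℕ × ℕ → MvPolynomial (Fin 4) ℕ} (h : ∀ e ∈ sp.f', (V e).IsHomogeneous n) :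
    (bb_gd sp ε ε' fl (fun e => (d e : MvPolynomial (Fin 4) ℕ)) V).IsHomogeneous n :=
  MvPolynomial.IsHomogeneous.sum _ _ _ fun j _ => MvPolynomial.IsHomogeneous.C_mul
    (MvPolynomial.IsHomogeneous.sum _ _ _ fun k hk => (h _ (bb_getD hk)).C_mul _) _

theorem bb_bil (sp : Spec) (ε ε' : Bool) (U V : ℕ × ℕ × ℕ → ℝ) :
    bil sp.M (sp.f.map fun e => sg (isNeg ε e) * U e) (sp.f'.map fun e => sg (isNeg ε' e) * V e) =
      bb_gd sp ε ε' false U V - bb_gd sp ε ε' true U V := by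
  unfold bil bb_gd
  rw [List.zipWith_map_left, bb_zip _ 0 [], ← sum_sub_distrib]
  refine sum_congr rfl fun j _ => ?_
  rw [List.zipWith_map_left, bb_zip _ 0 0, ← mul_sub, ← sum_sub_distrib, mul_sum, mul_sum]
  refine sum_congr rfl fun k _ => ?_
  generalize isNeg ε _ = s
  generalize isNeg ε' _ = s'
  generalize (sp.M.getD j []).getD k 0 = z
  have : (z : ℝ) = part false z - part true z := by
    rw [← Int.toNat_sub_toNat_neg z]
    push_cast
    rw [Int.toNat_sub_toNat_neg z]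
    rfl
  rw [this]
  cases s <;> cases s' <;> simp only [sg, Bool.false_xor, Bool.true_xor, Bool.not_false, Bool.not_true,
    if_true, Bool.false_eq_true, if_false] <;> ring

/-- Let `q e = ft … X e`, `q' e'` be the feature polynomials. On the cells, `mon x1 x2 x3 e = ± aeval m (q e)` with the sign given by
`isNeg`. By `decode`, `aeval m (q e) = ∑ t, d e t * w t` with `w t ≥ 0`, `d e t ≤ eval 1 (q e)`. For a fixed triple `t`, the numbers
`dot d Gp`, `dot d Gn` are the encodings of the homogeneous polynomials `p± = ∑ j, d j * ∑ k, (Mp ±) j k * q' k`, whose values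
at `1` are `< 2^(B-1)`; `slotLe_sound` and `decode` give `aeval m' p⁻ ≤ aeval m' p⁺`, and
`aeval m' p⁺ - aeval m' p⁻ = ∑ j k, (± d j) M j k (± aeval m' (q' k))`. (Induction over the lists, or `List.zipWith` to `Finset` sums with
`getD`.) -/
theorem leaf_sound (sp : Spec) (hsp : sp.ok = true) {ε ε' : Bool} {L L' : Cell}
    (h : leafChk sp ε ε' L L' = true) {x1 x2 x3 y1 y2 y3 : ℝ} (hx : InCell sp.k ε L x1 x2 x3)
    (hy : InCell sp.k' ε' L' y1 y2 y3) :
    0 ≤ bil sp.M (sp.f.map (mon x1 x2 x3)) (sp.f'.map (mon y1 y2 y3)) := by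
  obtain ⟨m0, m1, m2, m3, h0, h1, h2, h3, hx⟩ := hx
  obtain ⟨m0', m1', m2', m3', h0', h1', h2', h3', hy⟩ := hy
  simp only [Spec.ok, Bool.and_eq_true, List.all_eq_true, Nat.ble_eq] at hsp
  obtain ⟨⟨hf, hf'⟩, hB⟩ := hsp
  have hc : 2 ^ (sp.B - 1) ≤ 2 ^ sp.B := Nat.pow_le_pow_right (by omega) (by omega)
  obtain ⟨hb, hk⟩ := bb_cnd h
  rw [Nat.blt_eq] at hb
  replace hb := hb.trans_eq (Nat.one_shiftLeft _ : _ = 2 ^ (sp.B - 1))
  unfold enc1 at hb
  rw [bb_dot, bb_dot] at hb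
  obtain ⟨d, hd⟩ : ∃ d : ℕ → ℕ × ℕ × ℕ → ℕ, ∀ r e, d r e = dg sp.B (ft sp.k sp.n L (2 ^ sp.B)
    (2 ^ (sp.B * (sp.n + 1))) (2 ^ (sp.B * (sp.n + 1) * (sp.n + 1))) 1 e) r := ⟨_, fun _ _ => rfl⟩
  have hL : ∀ e ∈ sp.f, (∀ r, d r e ≤ ft sp.k sp.n L 1 1 1 1 e) ∧
      ft sp.k sp.n L m0 m1 m2 m3 e = ∑ i ∈ range (sp.n + 1), ∑ j ∈ range (sp.n + 1 - i),
        ∑ l ∈ range (sp.n + 1 - i - j), (d (i + (sp.n + 1) * j + (sp.n + 1) * (sp.n + 1) * l) e : ℝ) *
          (m0 ^ i * m1 ^ j * m2 ^ l * m3 ^ (sp.n - i - j - l)) := by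
    intro e he
    have h4 := List.le_sum_of_mem (List.mem_map_of_mem (f := ft sp.k sp.n L 1 1 1 1) he)
    have := decode sp.B sp.n _ (ft_homog sp.k sp.n L e (hf e he)) (c := ft sp.k sp.n L 1 1 1 1 e + 1)
      (by omega) (by rw [bb_ev]; omega)
    simp only [bb_ev, bb_aev, ← hd] at this
    exact ⟨fun r => Nat.lt_succ_iff.1 (this.1 r), this.2 _ _ _ _⟩
  have key : ∀ r, chk2 sp.B sp.P (digs sp.B (enc sp.B sp.k sp.n sp.f L) r)
      (Gl sp ε ε' false (enc sp.B sp.k' sp.n' sp.f' L')) (Gl sp ε ε' true (enc sp.B sp.k' sp.n' sp.f' L')) = true →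
      bb_gd sp ε ε' true (fun e => (d r e : ℝ)) (ft sp.k' sp.n' L' m0' m1' m2' m3') ≤
        bb_gd sp ε ε' false (fun e => (d r e : ℝ)) (ft sp.k' sp.n' L' m0' m1' m2' m3') := by
    intro r hr
    have e0 : digs sp.B (enc sp.B sp.k sp.n sp.f L) r = sp.f.map (d r) := by
      unfold digs enc
      rw [List.map_map]
      refine List.map_congr_left fun e _ => ?_
      rw [hd, ← Nat.one_shiftLeft, ← Nat.one_shiftLeft, ← Nat.one_shiftLeft]
      rfl
    unfold chk2 at hr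
    rw [e0] at hr
    cases hz : Nat.beq (dot (sp.f.map (d r)) (sp.f.map (d r))) 0
    · rw [hz] at hr
      have hD := fun fl => decode sp.B sp.n' (bb_gd sp ε ε' fl (fun e => (d r e : MvPolynomial (Fin 4) ℕ))
        (ft sp.k' sp.n' L' (MvPolynomial.X 0) (MvPolynomial.X 1) (MvPolynomial.X 2) (MvPolynomial.X 3)))
        (bb_homog sp ε ε' fl (d r) fun e he => ft_homog _ _ _ _ (hf' e he)) hc (by
          rw [bb_map]
          simp only [bb_ev, map_natCast, Nat.cast_id]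
          refine (bb_mono sp ε ε' fl (ft sp.k' sp.n' L' 1 1 1 1) fun e he => (hL e he).1 r).trans_lt ?_
          cases fl <;> omega)
      have e1 : ∀ fl, MvPolynomial.eval ![2 ^ sp.B, 2 ^ (sp.B * (sp.n' + 1)),
          2 ^ (sp.B * (sp.n' + 1) * (sp.n' + 1)), 1] (bb_gd sp ε ε' fl (fun e => (d r e : MvPolynomial (Fin 4) ℕ))
          (ft sp.k' sp.n' L' (MvPolynomial.X 0) (MvPolynomial.X 1) (MvPolynomial.X 2) (MvPolynomial.X 3))) =
          dot (sp.f.map (d r)) (Gl sp ε ε' fl (enc sp.B sp.k' sp.n' sp.f' L')) := fun fl => by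
        unfold enc
        rw [bb_map, bb_dot, ← Nat.one_shiftLeft, ← Nat.one_shiftLeft, ← Nat.one_shiftLeft]
        simp only [bb_ev, map_natCast, Nat.cast_id]
        rfl
      have e2 : ∀ fl, MvPolynomial.aeval ![m0', m1', m2', m3']
          (bb_gd sp ε ε' fl (fun e => (d r e : MvPolynomial (Fin 4) ℕ))
          (ft sp.k' sp.n' L' (MvPolynomial.X 0) (MvPolynomial.X 1) (MvPolynomial.X 2) (MvPolynomial.X 3))) =
          bb_gd sp ε ε' fl (fun e => (d r e : ℝ)) (ft sp.k' sp.n' L' m0' m1' m2' m3') := fun fl => by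
        rw [bb_map]
        simp only [bb_aev, map_natCast]
      simp only [e1] at hD
      rw [← e2, ← e2, (hD true).2, (hD false).2]
      refine sum_le_sum fun i _ => sum_le_sum fun j _ => sum_le_sum fun l _ =>
        mul_le_mul_of_nonneg_right (Nat.cast_le.2 ?_) (by positivity)
      exact slotLe_sound hB (hD false).1 (hD true).1 hr _
    · have hz' := bb_dot_zero (Nat.eq_of_beq_eq_true hz)
      have e1 : ∀ fl, bb_gd sp ε ε' fl (fun e => (d r e : ℝ)) (ft sp.k' sp.n' L' m0' m1' m2' m3') = 0 :=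
        fun fl => sum_eq_zero fun j hj => mul_eq_zero_of_left (Nat.cast_eq_zero.2 (hz' _ (bb_getD hj))) _
      rw [e1, e1]
  rw [List.map_congr_left fun e _ => bb_mon hx e, List.map_congr_left fun e _ => bb_mon hy e, bb_bil,
    bb_congr sp ε ε' false _ fun e he => (hL e he).2, bb_congr sp ε ε' true _ fun e he => (hL e he).2,
    sub_nonneg]
  simp only [bb_sum, bb_mul]
  refine sum_le_sum fun i hi => sum_le_sum fun j hj => sum_le_sum fun l hl =>
    mul_le_mul_of_nonneg_right (key _ ?_) (by positivity)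
  exact allLt_sound (allLt_sound (allLt_sound hk i (mem_range.1 hi)) j (mem_range.1 hj)) l (mem_range.1 hl)

theorem check_sound (sp : Spec) (hsp : sp.ok = true) {ε ε' : Bool} (t : Tr) {L L' : Cell}
    (h : check sp ε ε' t L L' = true) {x1 x2 x3 y1 y2 y3 : ℝ} (hx : InCell sp.k ε L x1 x2 x3)
    (hy : InCell sp.k' ε' L' y1 y2 y3) :
    0 ≤ bil sp.M (sp.f.map (mon x1 x2 x3)) (sp.f'.map (mon y1 y2 y3)) := by
  induction t generalizing L L' with
  | leaf => exact leaf_sound sp hsp h hx hy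
  | sl i j p r t1 t2 ih1 ih2 =>
    by_cases hij : i = j
    · simp [check, hij] at h
    · have h' : check sp ε ε' t1 (L.set j (L.mid i j p r)) L' = true ∧
          check sp ε ε' t2 (L.set i (L.mid i j p r)) L' = true := by
        simp only [check, hij, decide_false] at h ⊢
        revert h
        generalize (Tr.rec (motive := fun _ => Cell → Cell → Bool) _ _ _ t1 : Cell → Cell → Bool) _ _ = b
        cases b <;> simp
      rcases hx.split hij p r with h1 | h1
      · exact ih1 h'.1 h1 hy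
      · exact ih2 h'.2 h1 hy
  | sr i j p r t1 t2 ih1 ih2 =>
    by_cases hij : i = j
    · simp [check, hij] at h
    · have h' : check sp ε ε' t1 L (L'.set j (L'.mid i j p r)) = true ∧
          check sp ε ε' t2 L (L'.set i (L'.mid i j p r)) = true := by
        simp only [check, hij, decide_false] at h ⊢
        revert h
        generalize (Tr.rec (motive := fun _ => Cell → Cell → Bool) _ _ _ t1 : Cell → Cell → Bool) _ _ = b
        cases b <;> simp
      rcases hy.split hij p r with h1 | h1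
      · exact ih1 h'.1 hx h1
      · exact ih2 h'.2 hx h1

/-! ### part c: the domains -/

/-- Sort `y` (`Tuple.sort`, or six cases): `y0 ≥ y1 ≥ y2`, `a = (y0-y1)/3`, `b = (y1-y2)/3`; then `fH = 2(a²+ab+b²)`,
`fT = (a-b)(2a+b)(a+2b)`, `a + 2b + y2 = 1`. If `a ≥ b`: `m0 = b, m1 = a - b, m2 = 0, m3 = y2`; else `m0 = a, m1 = b - a`. -/
theorem side3 {y : Fin 3 → ℝ} (hy : Simp y) :
    InCell 3 false r3p (fH y / 2) (fT y) 1 ∨ InCell 3 true r3n (fH y / 2) (fT y) 1 :=
  bc_side3 hy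

/-- same with `m3 = 1 - 4a - 2b = 3 - 2 y0 ≥ 0` -/
theorem side3s {y : Fin 3 → ℝ} (hy : Simp y) (h : ∀ i, y i ≤ 3 / 2) :
    InCell 3 false r3sp (fH y / 2) (fT y) 1 ∨ InCell 3 true r3sn (fH y / 2) (fT y) 1 :=
  bc_side3s hy h

/-- Sort `y0 ≥ y1 ≥ y2 ≥ y3`; `a = (y0+y1-y2-y3)/4 ≥ b = (y0-y1+y2-y3)/4 ≥ |c|`, `c = (y0-y1-y2+y3)/4`, `y3 = 1-a-b+c`;
`fH = a²+b²+c²`, `fT = 6abc`, `fP = a²b²+b²c²+c²a²`; `m0 = |c|, m1 = b - |c|, m2 = a - b, m3 = y3`. -/
theorem side4 {y : Fin 4 → ℝ} (hy : Simp y) :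
    InCell 4 false r4p (fH y) (fT y / 6) (fP y) ∨ InCell 4 true r4n (fH y) (fT y / 6) (fP y) :=
  bc_side4 hy

theorem sideI {p p' r : ℕ} (hp : p < p') (hr : 0 < r) {x : ℝ} (h1 : (p : ℝ) / r ≤ x) (h2 : x ≤ (p' : ℝ) / r) :
    InCell 1 false (rI p p' r) 1 x 1 := by
  simpa [sg] using bc_int false hp hr h1 h2

theorem sideN {p p' r : ℕ} (hp : p < p') (hr : 0 < r) {x : ℝ} (h1 : (p : ℝ) / r ≤ -x) (h2 : -x ≤ (p' : ℝ) / r) :
    InCell 1 true (rI p p' r) 1 x 1 := by
  simpa [sg] using bc_int true hp hr h1 h2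

end Crest.Agent.R163.Bil
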