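import Crest.Agent.R163.Defs

/-!
R163: a verified checker for bilinear polynomial inequalities `0 ≤ ∑ j k, M j k * f j (x) * f' k (x')`.
Each side ranges over simplicial cones (`Cell`: four vertices, each carrying the values of four linear forms `a b c s`);
the features are monomials in three generators and the homogenising form `s`; on a cell they are, up to a known sign,
homogeneous polynomials with natural coefficients in the conic coordinates `μ`. The check is coefficientwise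
(Bernstein/Pólya test), with Kronecker substitution, on the leaves of a subdivision tree.
-/

set_option autoImplicit false
set_option linter.unusedVariables false

namespace Crest.Agent.R163.Bil

structure Vx where
  a : ℕ
  b : ℕ
  c : ℕ
  s : ℕ

structure Cell where
  v0 : Vx
  v1 : Vx
  v2 : Vx
  v3 : Vx

def Vx.comb (p r : ℕ) (u v : Vx) : Vx :=
  ⟨p * u.a + r * v.a, p * u.b + r * v.b, p * u.c + r * v.c, p * u.s + r * v.s⟩

def Cell.get (L : Cell) : Fin 4 → Vx := ![L.v0, L.v1, L.v2, L.v3]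

def Cell.set (L : Cell) (i : Fin 4) (v : Vx) : Cell :=
  ⟨if i = 0 then v else L.v0, if i = 1 then v else L.v1, if i = 2 then v else L.v2, if i = 3 then v else L.v3⟩

/-- subdivision tree: split the edge `(i, j)` of the left (`sl`) or right (`sr`) cell at `(p+1) V i + (r+1) V j` -/
inductive Tr : Type
  | leaf : Tr
  | sl (i j : Fin 4) (p r : ℕ) (t1 t2 : Tr) : Tr
  | sr (i j : Fin 4) (p r : ℕ) (t1 t2 : Tr) : Tr

def Cell.mid (L : Cell) (i j : Fin 4) (p r : ℕ) : Vx := Vx.comb (p + 1) (r + 1) (L.get i) (L.get j)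

section
variable {R : Type} [CommSemiring R]

def lf (c0 c1 c2 c3 : ℕ) (x0 x1 x2 x3 : R) : R := c0 * x0 + c1 * x1 + c2 * x2 + c3 * x3

def fa (L : Cell) (x0 x1 x2 x3 : R) : R := lf L.v0.a L.v1.a L.v2.a L.v3.a x0 x1 x2 x3
def fb (L : Cell) (x0 x1 x2 x3 : R) : R := lf L.v0.b L.v1.b L.v2.b L.v3.b x0 x1 x2 x3
def fc (L : Cell) (x0 x1 x2 x3 : R) : R := lf L.v0.c L.v1.c L.v2.c L.v3.c x0 x1 x2 x3
def fs (L : Cell) (x0 x1 x2 x3 : R) : R := lf L.v0.s L.v1.s L.v2.s L.v3.s x0 x1 x2 x3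

def gA (k : ℕ) (a b c s : R) : R :=
  if k = 4 then a * a + b * b + c * c else if k = 3 then a * a + a * b + b * b else s
def gB (k : ℕ) (a b c s : R) : R :=
  if k = 4 then a * b * c else if k = 3 then c * (a + a + b) * (a + b + b) else a
def gC (k : ℕ) (a b c s : R) : R :=
  if k = 4 then a * a * (b * b) + b * b * (c * c) + c * c * (a * a) else s

def GA (k : ℕ) (L : Cell) (x0 x1 x2 x3 : R) : R :=
  gA k (fa L x0 x1 x2 x3) (fb L x0 x1 x2 x3) (fc L x0 x1 x2 x3) (fs L x0 x1 x2 x3)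
def GB (k : ℕ) (L : Cell) (x0 x1 x2 x3 : R) : R :=
  gB k (fa L x0 x1 x2 x3) (fb L x0 x1 x2 x3) (fc L x0 x1 x2 x3) (fs L x0 x1 x2 x3)
def GC (k : ℕ) (L : Cell) (x0 x1 x2 x3 : R) : R :=
  gC k (fa L x0 x1 x2 x3) (fb L x0 x1 x2 x3) (fc L x0 x1 x2 x3) (fs L x0 x1 x2 x3)

/-- degree of the monomial `e` in the generators -/
def wdeg (k : ℕ) (e : ℕ × ℕ × ℕ) : ℕ :=
  if k = 4 then 2 * e.1 + 3 * e.2.1 + 4 * e.2.2 else if k = 3 then 2 * e.1 + 3 * e.2.1 + e.2.2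
  else e.1 + e.2.1 + e.2.2

/-- the unsigned homogenised feature -/
def ft (k n : ℕ) (L : Cell) (x0 x1 x2 x3 : R) (e : ℕ × ℕ × ℕ) : R :=
  GA k L x0 x1 x2 x3 ^ e.1 * GB k L x0 x1 x2 x3 ^ e.2.1 * GC k L x0 x1 x2 x3 ^ e.2.2
    * fs L x0 x1 x2 x3 ^ (n - wdeg k e)

end

structure Spec where
  k : ℕ
  n : ℕ
  f : List (ℕ × ℕ × ℕ)
  k' : ℕ
  n' : ℕ
  f' : List (ℕ × ℕ × ℕ)
  M : List (List ℤ)
  B : ℕ
  P : ℕ

def Spec.ok (sp : Spec) : Bool :=
  sp.f.all (fun e => Nat.ble (wdeg sp.k e) sp.n) && sp.f'.all (fun e => Nat.ble (wdeg sp.k' e) sp.n')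
    && Nat.ble 1 sp.B

noncomputable section

local notation "cnd " b:max t:max e:max => @Bool.rec (fun _ => Bool) e t b

def dg (B X r : ℕ) : ℕ := Nat.mod (Nat.shiftRight X (Nat.mul B r)) (Nat.shiftLeft 1 B)

/-- `∑ r < P, 2^(B r + B - 1)` -/
def hi (B P : ℕ) : ℕ :=
  Nat.rec (motive := fun _ => ℕ) 0 (fun _ r => Nat.add (Nat.shiftLeft r B) (Nat.shiftLeft 1 (Nat.pred B))) P

/-- slotwise `y ≤ x` -/
def slotLe (B P x y : ℕ) : Bool :=
  cnd (Nat.beq (Nat.shiftRight y (Nat.mul B P)) 0)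
    (Nat.beq (Nat.land (Nat.sub (Nat.add x (hi B P)) y) (hi B P)) (hi B P)) false

def dot (x y : List ℕ) : ℕ :=
  List.rec (motive := fun _ => List ℕ → ℕ) (fun _ => 0)
    (fun a _ r y => List.casesOn (motive := fun _ => ℕ) y 0 fun b y' => Nat.add (Nat.mul a b) (r y')) x y

/-- is the feature `e` negative on a cell of sign `ε` -/
def isNeg (ε : Bool) (e : ℕ × ℕ × ℕ) : Bool := ε && Nat.beq (e.2.1 % 2) 1

/-- positive (`fl = false`) or negative (`fl = true`) part -/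
def part (fl : Bool) (z : ℤ) : ℕ := cond fl (-z).toNat z.toNat

/-- Kronecker encodings of the features -/
def enc (B k n : ℕ) (f : List (ℕ × ℕ × ℕ)) (L : Cell) : List ℕ :=
  f.map (ft k n L (Nat.shiftLeft 1 B) (Nat.shiftLeft 1 (B * (n + 1))) (Nat.shiftLeft 1 (B * (n + 1) * (n + 1))) 1)

/-- coefficient sums of the features -/
def enc1 (k n : ℕ) (f : List (ℕ × ℕ × ℕ)) (L : Cell) : List ℕ := f.map (ft k n L 1 1 1 1)

/-- the signed matrix part: entry `(j,k)` is the `fl`-part of `ε_j M j k ε'_k` -/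
def Mp (sp : Spec) (ε ε' fl : Bool) : List (List ℕ) :=
  List.zipWith (fun e row => List.zipWith (fun e' m => part (xor fl (xor (isNeg ε e) (isNeg ε' e'))) m) sp.f' row)
    sp.f sp.M

def Gl (sp : Spec) (ε ε' fl : Bool) (x : List ℕ) : List ℕ := (Mp sp ε ε' fl).map fun row => dot row x

def allLt (n : ℕ) (f : ℕ → Bool) : Bool :=
  Nat.rec (motive := fun _ => Bool) true (fun i r => cnd (f i) r false) n

def chk2 (B P : ℕ) (d Gp Gn : List ℕ) : Bool :=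
  cnd (Nat.beq (dot d d) 0) true (slotLe B P (dot d Gp) (dot d Gn))

def digs (B : ℕ) (X : List ℕ) (r : ℕ) : List ℕ := X.map fun x => dg B x r

def chk1 (B P n : ℕ) (X Gp Gn : List ℕ) : Bool :=
  allLt (n + 1) fun i => allLt (n + 1 - i) fun j => allLt (n + 1 - i - j) fun l =>
    chk2 B P (digs B X (i + (n + 1) * j + (n + 1) * (n + 1) * l)) Gp Gn

def leafChk (sp : Spec) (ε ε' : Bool) (L L' : Cell) : Bool :=
  cnd (Nat.blt ((enc1 sp.k sp.n sp.f L).sum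
      + dot (enc1 sp.k sp.n sp.f L) (Gl sp ε ε' false (enc1 sp.k' sp.n' sp.f' L'))
      + dot (enc1 sp.k sp.n sp.f L) (Gl sp ε ε' true (enc1 sp.k' sp.n' sp.f' L'))) (Nat.shiftLeft 1 (Nat.pred sp.B)))
    (chk1 sp.B sp.P sp.n (enc sp.B sp.k sp.n sp.f L) (Gl sp ε ε' false (enc sp.B sp.k' sp.n' sp.f' L'))
      (Gl sp ε ε' true (enc sp.B sp.k' sp.n' sp.f' L'))) false

def check (sp : Spec) (ε ε' : Bool) (t : Tr) : Cell → Cell → Bool :=
  Tr.rec (motive := fun _ => Cell → Cell → Bool) (fun L L' => leafChk sp ε ε' L L')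
    (fun i j p r _ _ c1 c2 L L' =>
      cnd (decide (i = j)) false (cnd (c1 (L.set j (L.mid i j p r)) L') (c2 (L.set i (L.mid i j p r)) L') false))
    (fun i j p r _ _ c1 c2 L L' =>
      cnd (decide (i = j)) false (cnd (c1 L (L'.set j (L'.mid i j p r))) (c2 L (L'.set i (L'.mid i j p r))) false)) t

/-! ### semantics -/

def sg (ε : Bool) : ℝ := if ε then -1 else 1

def mon (x1 x2 x3 : ℝ) (e : ℕ × ℕ × ℕ) : ℝ := x1 ^ e.1 * x2 ^ e.2.1 * x3 ^ e.2.2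

def bil (M : List (List ℤ)) (x y : List ℝ) : ℝ :=
  (List.zipWith (fun a row => a * (List.zipWith (fun b (m : ℤ) => (m : ℝ) * b) y row).sum) x M).sum

/-- the point with invariants `x1 x2 x3` lies in the cell `L` of sign `ε` -/
def InCell (k : ℕ) (ε : Bool) (L : Cell) (x1 x2 x3 : ℝ) : Prop :=
  ∃ m0 m1 m2 m3 : ℝ, 0 ≤ m0 ∧ 0 ≤ m1 ∧ 0 ≤ m2 ∧ 0 ≤ m3 ∧ GA k L m0 m1 m2 m3 = x1 ∧
    sg ε * GB k L m0 m1 m2 m3 = x2 ∧ GC k L m0 m1 m2 m3 = x3 ∧ fs L m0 m1 m2 m3 = 1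

def z0 : Vx := ⟨0, 0, 0, 0⟩
def o1 : Vx := ⟨0, 0, 0, 1⟩

def r3p : Cell := ⟨⟨1, 1, 0, 3⟩, ⟨1, 0, 1, 1⟩, z0, o1⟩
def r3n : Cell := ⟨⟨1, 1, 0, 3⟩, ⟨0, 1, 1, 2⟩, z0, o1⟩
def r3sp : Cell := ⟨⟨1, 1, 0, 6⟩, ⟨1, 0, 1, 4⟩, z0, o1⟩
def r3sn : Cell := ⟨⟨1, 1, 0, 6⟩, ⟨0, 1, 1, 2⟩, z0, o1⟩
def r4p : Cell := ⟨⟨1, 1, 1, 1⟩, ⟨1, 1, 0, 2⟩, ⟨1, 0, 0, 1⟩, o1⟩
def r4n : Cell := ⟨⟨1, 1, 1, 3⟩, ⟨1, 1, 0, 2⟩, ⟨1, 0, 0, 1⟩, o1⟩
/-- the interval `[p/r, p'/r]` -/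
def rI (p p' r : ℕ) : Cell := ⟨⟨p', 0, 0, r⟩, z0, z0, ⟨p, 0, 0, r⟩⟩

end

/-- the fourth invariant for four states -/
noncomputable def fP (y : Fin 4 → ℝ) : ℝ := ((∑ i, (y i - 1) ^ 4) / 4 - fH y ^ 2) / 4

end Crest.Agent.R163.Bil
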