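import Crest.Agent.R163.Bil

/-! R163: splitting a Bernstein check over several declarations. -/

set_option autoImplicit false
set_option linter.unusedVariables false

namespace Crest.Agent.R163.Bil

deriving instance DecidableEq for Vx
deriving instance DecidableEq for Cell

def Ok (sp : Spec) (ε ε' : Bool) (L L' : Cell) : Prop :=
  ∀ ⦃x1 x2 x3 y1 y2 y3 : ℝ⦄, InCell sp.k ε L x1 x2 x3 → InCell sp.k' ε' L' y1 y2 y3 →
    0 ≤ bil sp.M (sp.f.map (mon x1 x2 x3)) (sp.f'.map (mon y1 y2 y3))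

theorem Ok.chk {sp : Spec} {ε ε' : Bool} {L L' : Cell} (B : ℕ) (t : Tr)
    (h : (Spec.ok { sp with B := B } && check { sp with B := B } ε ε' t L L') = true) : Ok sp ε ε' L L' := by
  rw [Bool.and_eq_true] at h
  exact fun _ _ _ _ _ _ hx hy => check_sound { sp with B := B } h.1 t h.2 hx hy

theorem Ok.sl {sp : Spec} {ε ε' : Bool} {L L' L1 L2 : Cell} (i j : Fin 4) (p r : ℕ) (h1 : Ok sp ε ε' L1 L')
    (h2 : Ok sp ε ε' L2 L') (h : i ≠ j ∧ L1 = L.set j (L.mid i j p r) ∧ L2 = L.set i (L.mid i j p r)) :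
    Ok sp ε ε' L L' := by
  obtain ⟨hij, rfl, rfl⟩ := h
  intro _ _ _ _ _ _ hx hy
  rcases hx.split hij p r with h | h
  · exact h1 h hy
  · exact h2 h hy

theorem Ok.sr {sp : Spec} {ε ε' : Bool} {L L' L1 L2 : Cell} (i j : Fin 4) (p r : ℕ) (h1 : Ok sp ε ε' L L1)
    (h2 : Ok sp ε ε' L L2) (h : i ≠ j ∧ L1 = L'.set j (L'.mid i j p r) ∧ L2 = L'.set i (L'.mid i j p r)) :
    Ok sp ε ε' L L' := by
  obtain ⟨hij, rfl, rfl⟩ := h
  intro _ _ _ _ _ _ hx hy
  rcases hy.split hij p r with h | h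
  · exact h1 hx h
  · exact h2 hx h

/-- the four sign combinations -/
theorem Ok.four {sp : Spec} {Lp Ln Lp' Ln' : Cell} (h1 : Ok sp false false Lp Lp') (h2 : Ok sp false true Lp Ln')
    (h3 : Ok sp true false Ln Lp') (h4 : Ok sp true true Ln Ln') {x1 x2 x3 y1 y2 y3 : ℝ}
    (hx : InCell sp.k false Lp x1 x2 x3 ∨ InCell sp.k true Ln x1 x2 x3)
    (hy : InCell sp.k' false Lp' y1 y2 y3 ∨ InCell sp.k' true Ln' y1 y2 y3) :
    0 ≤ bil sp.M (sp.f.map (mon x1 x2 x3)) (sp.f'.map (mon y1 y2 y3)) := by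
  rcases hx with hx | hx <;> rcases hy with hy | hy
  exacts [h1 hx hy, h2 hx hy, h3 hx hy, h4 hx hy]

theorem sideS (n : ℕ) (hn : 0 < n) {s : ℝ} (h1 : -1 ≤ s) (h2 : s ≤ n) :
    InCell 1 false (rI 0 n 1) 1 s 1 ∨ InCell 1 true (rI 0 1 1) 1 s 1 := by
  rcases le_total 0 s with h | h
  · exact Or.inl (sideI hn one_pos (by simpa using h) (by simpa using h2))
  · exact Or.inr (sideN one_pos one_pos (by simpa using h) (by simp; linarith))

/-- one-point inequalities -/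
theorem Ok.two {sp : Spec} {Lp Ln : Cell} (hk : sp.k' = 1) (h1 : Ok sp false false Lp (rI 0 1 1))
    (h2 : Ok sp true false Ln (rI 0 1 1)) {x1 x2 x3 : ℝ}
    (hx : InCell sp.k false Lp x1 x2 x3 ∨ InCell sp.k true Ln x1 x2 x3) :
    0 ≤ bil sp.M (sp.f.map (mon x1 x2 x3)) (sp.f'.map (mon 1 0 1)) := by
  have hy : InCell sp.k' false (rI 0 1 1) 1 0 1 := hk ▸ sideI one_pos one_pos (by norm_num) (by norm_num)
  rcases hx with hx | hx
  exacts [h1 hx hy, h2 hx hy]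

end Crest.Agent.R163.Bil
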