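import Crest.Agent.R163.EngDef
import Crest.Agent.R163.Order

/-! R163 engine, part B: the formal Horner scheme is below the compound experiment. -/

set_option autoImplicit false
set_option linter.unusedVariables false
open Finset

namespace Crest.Agent.R163.Eng

/-- value of a pair of formal arrays -/
noncomputable def fv (ρ : ℝ) (A B : Arr) (g : (Fin 3 → ℝ) → ℝ) : ℝ :=
  (A.coeff.sum fun x c => c * g (atom ρ x.1 x.2)) + B.coeff.sum fun x c => c * ∑ t, g (kill t (atom ρ x.1 x.2))

theorem atom_nn {ρ : ℝ} (hρ : 0 < ρ) (i j : ℤ) : NN (atom ρ i j) := by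
  intro t
  fin_cases t <;> exact (zpow_pos hρ _).le

theorem atom_add {ρ : ℝ} (hρ : 0 < ρ) (i j k l : ℤ) :
    (fun t => atom ρ i j t * atom ρ k l t) = atom ρ (i + k) (j + l) := by
  funext t
  fin_cases t <;> simp only [atom, Fin.zero_eta, Fin.mk_one, Fin.reduceFinMk, Matrix.cons_val] <;>
    rw [← zpow_add₀ hρ.ne'] <;> congr 1 <;> ring

/-- the pairing of a formal array with a function -/
private noncomputable def ebP (A : Arr) (G : ℤ × ℤ → ℝ) : ℝ := A.coeff.sum fun x c => c * G x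

private theorem ebP_zero (G : ℤ × ℤ → ℝ) : ebP 0 G = 0 := by simp [ebP]

private theorem ebP_add (A B : Arr) (G : ℤ × ℤ → ℝ) : ebP (A + B) G = ebP A G + ebP B G := by
  unfold ebP
  rw [AddMonoidAlgebra.coeff_add, Finsupp.sum_add_index' (by simp) (by simp [add_mul])]

private theorem ebP_single (x : ℤ × ℤ) (c : ℝ) (G : ℤ × ℤ → ℝ) :
    ebP (AddMonoidAlgebra.single x c) G = c * G x := by
  unfold ebP
  rw [AddMonoidAlgebra.coeff_single, Finsupp.sum_single_index (by simp)]

private theorem ebP_smul (c : ℝ) (A : Arr) (G : ℤ × ℤ → ℝ) : ebP (c • A) G = c * ebP A G := by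
  unfold ebP
  rw [AddMonoidAlgebra.coeff_smul, Finsupp.sum_smul_index' (by simp), Finsupp.mul_sum]
  simp only [smul_eq_mul, mul_assoc]

private theorem ebP_sum {κ : Type*} (s : Finset κ) (A : κ → Arr) (G : ℤ × ℤ → ℝ) :
    ebP (∑ k ∈ s, A k) G = ∑ k ∈ s, ebP (A k) G := by
  classical
  induction s using Finset.induction_on with
  | empty => simp [ebP_zero]
  | insert k s hk ih => rw [sum_insert hk, sum_insert hk, ebP_add, ih]

private theorem ebP_add' (A : Arr) (G G' : ℤ × ℤ → ℝ) :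
    ebP A (fun x => G x + G' x) = ebP A G + ebP A G' := by
  simp only [ebP, mul_add, Finsupp.sum_add]

private theorem ebP_mul' (A : Arr) (c : ℝ) (G : ℤ × ℤ → ℝ) :
    ebP A (fun x => c * G x) = c * ebP A G := by
  simp only [ebP, Finsupp.mul_sum, mul_left_comm]

private theorem ebP_sum' (A : Arr) (G : Fin 3 → ℤ × ℤ → ℝ) :
    ebP A (fun x => ∑ t, G t x) = ∑ t, ebP A (G t) := by
  simp only [Fin.sum_univ_three, ebP_add']

private theorem ebP_mul (A N : Arr) (G : ℤ × ℤ → ℝ) :
    ebP (A * N) G = ebP A fun x => ebP N fun y => G (x + y) := by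
  induction A using AddMonoidAlgebra.induction_linear with
  | zero => rw [zero_mul, ebP_zero, ebP_zero]
  | add A B hA hB => rw [add_mul, ebP_add, ebP_add, hA, hB]
  | single x c =>
    rw [ebP_single]
    induction N using AddMonoidAlgebra.induction_linear with
    | zero => rw [mul_zero, ebP_zero, ebP_zero, mul_zero]
    | add M N hM hN => rw [mul_add, ebP_add, ebP_add, hM, hN, mul_add]
    | single y d => rw [AddMonoidAlgebra.single_mul_single, ebP_single, ebP_single, mul_assoc]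

private def EbPos (A : Arr) : Prop := ∀ G : ℤ × ℤ → ℝ, (∀ x, 0 ≤ G x) → 0 ≤ ebP A G

private theorem EbPos.mono {A : Arr} (hA : EbPos A) {G G' : ℤ × ℤ → ℝ} (h : ∀ x, G x ≤ G' x) :
    ebP A G ≤ ebP A G' := by
  have h1 := hA (fun x => G' x - G x) fun x => sub_nonneg.2 (h x)
  have h2 := ebP_add' A G fun x => G' x - G x
  simp only [add_sub_cancel] at h2
  have h3 : ebP A (fun x => G' x) = ebP A G' := rfl
  linarith

private theorem ebPos_hf {N : Arr} (hN0 : ∀ x, 0 ≤ N.coeff x) {m : ℝ} (hm : 0 ≤ m) (l : List ℕ) :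
    EbPos (hf N m l).1 ∧ EbPos (hf N m l).2 := by
  have hN : EbPos N := fun G hG => Finset.sum_nonneg fun x _ => mul_nonneg (hN0 x) (hG x)
  induction l with
  | nil => exact ⟨fun G _ => (ebP_zero G).ge, fun G _ => (ebP_zero G).ge⟩
  | cons c l ih =>
    refine ⟨fun G hG => ?_, fun G hG => ?_⟩
    · rw [hf, ebP_add, ebP_mul, ebP_single]
      exact add_nonneg (ih.1 _ fun x => hN _ fun y => hG _) (mul_nonneg (by positivity) (hG _))
    · rw [hf, ebP_add, ebP_mul, ebP_smul, ebP_add]
      exact add_nonneg (ih.2 _ fun x => hN _ fun y => hG _)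
        (mul_nonneg hm (add_nonneg (ih.1 _ hG) (ih.2 _ hG)))

private theorem eb_kill_nn (t : Fin 3) {P : Fin 3 → ℝ} (hP : NN P) : NN (kill t P) := fun i => by
  unfold kill
  split_ifs
  · exact le_rfl
  · exact hP i

private theorem eb_perm3 (g : (Fin 3 → ℝ) → ℝ) (a b c : ℝ) :
    ∑ π : Equiv.Perm (Fin 3), g (fun i => ![a, b, c] (π i)) =
      g ![a, b, c] + g ![b, a, c] + g ![c, b, a] + g ![b, c, a] + g ![a, c, b] + g ![c, a, b] := by
  have h : (univ : Finset (Equiv.Perm (Fin 3))) = {1, Equiv.swap 0 1, Equiv.swap 0 2,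
      Equiv.swap 0 1 * Equiv.swap 1 2, Equiv.swap 1 2, Equiv.swap 1 2 * Equiv.swap 0 1} := by
    decide
  rw [h, sum_insert (by decide), sum_insert (by decide), sum_insert (by decide),
    sum_insert (by decide), sum_insert (by decide), sum_singleton]
  simp only [add_assoc]
  refine congrArg₂ _ ?_ (congrArg₂ _ ?_ (congrArg₂ _ ?_ (congrArg₂ _ ?_ (congrArg₂ _ ?_ ?_)))) <;>
    refine congrArg g (funext fun i => ?_) <;> fin_cases i <;> rfl

private theorem eb_orb (ρ : ℝ) (g : (Fin 3 → ℝ) → ℝ) (k l : ℤ) :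
    ebP (orbF k l) (fun x => g (atom ρ x.1 x.2)) =
      ∑ π : Equiv.Perm (Fin 3), g (fun i => atom ρ k l (π i)) := by
  simp only [orbF, ebP_add, ebP_single, one_mul]
  unfold atom
  rw [eb_perm3]
  ring_nf

private theorem eb_kill (g : (Fin 3 → ℝ) → ℝ) :
    ∑ π : Equiv.Perm (Fin 3), g (fun i => ![1, 1, 0] (π i)) = 2 * ∑ t, g (kill t fun _ => 1) := by
  have h0 : kill 0 (fun _ => 1) = ![0, 1, 1] := by funext i; fin_cases i <;> rfl
  have h1 : kill 1 (fun _ => 1) = ![1, 0, 1] := by funext i; fin_cases i <;> rfl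
  have h2 : kill 2 (fun _ => 1) = ![1, 1, 0] := by funext i; fin_cases i <;> rfl
  rw [eb_perm3, Fin.sum_univ_three, h0, h1, h2]
  ring

/-- Symmetrisation: apply the certificate to `g' P = (∑ π, g (P ∘ π))/6`, which is `Sup` and `SymF`, and
`val ν g' = val ν g` by `Sym ν`. The six permutations of `atom ρ k l` are the atoms of the six points of `orbF k l`,
those of `(1,1,0)` are the three `kill t 1`, each twice. -/
theorem cert_sym {n d An s : ℕ} (hn : 0 < n) (hd : 0 < d) {ν : Ex 3} (hν : Sym ν) (h : Cert n d An s ν)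
    {m : ℝ} (hm : m ≤ 2 * (dig s 0 : ℝ) / 2 ^ 40) {g : (Fin 3 → ℝ) → ℝ} (hg : Sup g) :
    ((NF An s).coeff.sum fun x c => c * g (atom ((n : ℝ) / d) x.1 x.2)) + m * ∑ t, g (kill t fun _ => 1)
      ≤ val ν g := by
  have hp : ∀ π : Equiv.Perm (Fin 3), Sup fun P => g fun i => P (π i) := hg.perm
  have h1 : Sup fun P => 1 / 6 * ∑ π : Equiv.Perm (Fin 3), g fun i => P (π i) :=
    ⟨⟨(Test.sum univ fun π _ => (hp π).toTest).const_mul _, fun P hP =>
      mul_nonneg (by norm_num) (sum_nonneg fun π _ => (hp π).pos P hP)⟩, fun P Q hP hQ => by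
        rw [← mul_add, ← sum_add_distrib]
        exact mul_le_mul_of_nonneg_left (sum_le_sum fun π _ => (hp π).sup P Q hP hQ) (by norm_num)⟩
  have h2 : SymF fun P => 1 / 6 * ∑ π : Equiv.Perm (Fin 3), g fun i => P (π i) := fun σ P =>
    congrArg (1 / 6 * ·)
      (Equiv.sum_comp (Equiv.mulLeft σ) fun π : Equiv.Perm (Fin 3) => g fun i => P (π i))
  have h3 := h.2 _ h1 h2
  rw [val_mul_fun, val_sum_fun ν univ fun π _ => (hp π).adm,
    sum_congr rfl fun π _ => hν π g hg.toTest, sum_const, card_univ, Fintype.card_perm,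
    Fintype.card_fin, nsmul_eq_mul] at h3
  have h4 : (NF An s).coeff.sum (fun x c => c * g (atom ((n : ℝ) / d) x.1 x.2)) =
      6 / 2 ^ 40 * ∑ k ∈ range (An + 1), ∑ l ∈ range (k + 1), (dig s (idx k l) : ℝ) *
        (1 / 6 * ∑ π : Equiv.Perm (Fin 3), g fun i => atom ((n : ℝ) / d) k l (π i)) := by
    change ebP (NF An s) (fun x => g (atom ((n : ℝ) / d) x.1 x.2)) = _
    rw [NF, ebP_sum, mul_sum]
    refine sum_congr rfl fun k _ => ?_
    rw [ebP_sum, mul_sum]
    refine sum_congr rfl fun l _ => ?_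
    rw [ebP_smul, eb_orb]
    ring
  have h5 : 0 ≤ ∑ t, g (kill t fun _ => 1) :=
    sum_nonneg fun t _ => hg.pos _ (eb_kill_nn t fun _ => zero_le_one)
  have h6 := mul_le_mul_of_nonneg_right hm h5
  rw [sem, eb_kill, mul_add, ← h4] at h3
  norm_num [Nat.factorial] at h3 h6 ⊢
  linarith

/-- Induction on `l` for all `Sup g`. With `gν P = val ν (Q ↦ g (P Q))` one has `val (ν.pow (k+1)) g = val (ν.pow k) gν`
(`val_mul`), `gν` is `Sup` (`Sup.inner`), so the right side for `c :: l` and `g` is `c/2^40 * g 1 +` the right side for `l`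
and `gν`, which is `≥ fv A B gν`; and `gν P ≥ ∑ N y * g (P * atom y) + m ∑ t, g (kill t P)` (hypothesis `hN` for `Sup.mulv`).
For `P = kill t (atom x)` keep only the term `kill t (kill t _)`. -/
theorem fv_hf {ρ : ℝ} (hρ : 0 < ρ) {ν : Ex 3} {N : Arr} (hN0 : ∀ x, 0 ≤ N.coeff x) {m : ℝ} (hm : 0 ≤ m)
    (hN : ∀ g, Sup g → (N.coeff.sum fun x c => c * g (atom ρ x.1 x.2)) + m * ∑ t, g (kill t fun _ => 1) ≤ val ν g)
    (l : List ℕ) {g : (Fin 3 → ℝ) → ℝ} (hg : Sup g) :
    fv ρ (hf N m l).1 (hf N m l).2 g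
      ≤ ∑ k ∈ range l.length, ((l.getD k 0 : ℕ) : ℝ) / 2 ^ 40 * val (ν.pow k) g := by
  induction l generalizing g with
  | nil => simp [fv, hf]
  | cons c l ih =>
    have hfv : ∀ (A B : Arr) (g : (Fin 3 → ℝ) → ℝ), fv ρ A B g =
        ebP A (fun x => g (atom ρ x.1 x.2)) + ebP B fun x => ∑ t, g (kill t (atom ρ x.1 x.2)) :=
      fun _ _ _ => rfl
    have h1 := ih (hg.inner ν)
    obtain ⟨hA, hB⟩ := ebPos_hf hN0 hm l
    have h2 : ∀ P, NN P → ebP N (fun y => g fun i => P i * atom ρ y.1 y.2 i) +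
        m * ∑ t, g (kill t P) ≤ val ν fun Q => g fun i => P i * Q i := fun P hP => by
      have h3 := hN _ (hg.mulv hP)
      have h4 : ∀ t, (fun i => P i * kill t (fun _ => 1) i) = kill t P := fun t => by
        funext i
        simp [kill]
      simp only [h4] at h3
      exact h3
    have h3 := hA.mono (G := fun x => ebP N (fun y => g (atom ρ (x + y).1 (x + y).2)) +
        m * ∑ t, g (kill t (atom ρ x.1 x.2)))
      (G' := fun x => val ν fun Q => g fun i => atom ρ x.1 x.2 i * Q i) fun x => by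
        have h4 := h2 _ (atom_nn hρ x.1 x.2)
        simp only [atom_add hρ] at h4
        exact h4
    have h4 := hB.mono (G := fun x => ebP N (fun y => ∑ t, g (kill t (atom ρ (x + y).1 (x + y).2))) +
        m * ∑ t, g (kill t (atom ρ x.1 x.2)))
      (G' := fun x => ∑ t, val ν fun Q => g fun i => kill t (atom ρ x.1 x.2) i * Q i) fun x => by
        rw [ebP_sum', mul_sum, ← sum_add_distrib]
        refine sum_le_sum fun t _ => le_trans ?_ (h2 _ (eb_kill_nn t (atom_nn hρ x.1 x.2)))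
        refine add_le_add (le_of_eq ?_) (mul_le_mul_of_nonneg_left ?_ hm)
        · congr 1
          funext y
          congr 1
          rw [Prod.fst_add, Prod.snd_add, ← atom_add hρ]
          funext i
          simp [kill]
        · refine le_trans (le_of_eq ?_) (single_le_sum
            (f := fun t' => g (kill t' (kill t (atom ρ x.1 x.2))))
            (fun t' _ => hg.pos _ (eb_kill_nn t' (eb_kill_nn t (atom_nn hρ x.1 x.2)))) (mem_univ t))
          congr 1
          funext i
          by_cases e : i = t <;> simp [kill, e]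
    have h5 : atom ρ 0 0 = fun _ => 1 := by
      funext i
      fin_cases i <;> simp [atom]
    rw [ebP_add', ebP_mul'] at h3 h4
    rw [hfv] at h1
    rw [hfv, hf, ebP_add, ebP_add, ebP_mul, ebP_mul, ebP_single, ebP_smul, ebP_add,
      List.length_cons, sum_range_succ']
    simp only [List.getD_cons_succ, List.getD_cons_zero, Ex.pow, val_mul _ _ hg.adm, val_one, h5]
    linarith

theorem sum_le_gen {ν : Ex 3} {ω : Off} {l : List ℕ} (h : Below l ω) {g : (Fin 3 → ℝ) → ℝ} (hg : Sup g) :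
    ∑ k ∈ range l.length, ((l.getD k 0 : ℕ) : ℝ) / 2 ^ 40 * val (ν.pow k) g ≤ val (ν.gen ω) g := by
  have h0 : ∀ k, 0 ≤ val (ν.pow k) g := fun k => val_nonneg _ hg.pos
  refine le_trans (sum_le_sum fun k _ => mul_le_mul_of_nonneg_right ?_ (h0 k))
    (sum_le_hasSum _ (fun k _ => mul_nonneg (ω.nonneg k) (h0 k)) (hasSum_val_gen ω ν hg.toTest))
  rw [div_le_iff₀ (by positivity), mul_comm]
  exact h k

/-- invariance under the two generating reflections -/
def InvF (A : Arr) : Prop := (∀ i j, A.coeff (j, i) = A.coeff (i, j)) ∧ ∀ i j, A.coeff (-i, j - i) = A.coeff (i, j)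

theorem NF_nonneg (An s : ℕ) (x : ℤ × ℤ) : 0 ≤ (NF An s).coeff x := by
  classical
  simp only [NF, orbF, AddMonoidAlgebra.coeff_sum, AddMonoidAlgebra.coeff_smul, AddMonoidAlgebra.coeff_add,
    AddMonoidAlgebra.coeff_single, Finsupp.finsetSum_apply, Finsupp.smul_apply, Finsupp.add_apply,
    Finsupp.single_apply, smul_eq_mul]
  positivity

/-- first reflection -/
def refl1 : ℤ × ℤ ≃+ ℤ × ℤ := AddEquiv.prodComm

/-- second reflection -/
def refl2 : ℤ × ℤ ≃+ ℤ × ℤ where
  toFun x := (-x.1, x.2 - x.1)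
  invFun x := (-x.1, x.2 - x.1)
  left_inv x := by simp
  right_inv x := by simp
  map_add' x y := by ext <;> simp <;> ring

theorem refl1_apply (i j : ℤ) : refl1 (i, j) = (j, i) := rfl
theorem refl2_apply (i j : ℤ) : refl2 (i, j) = (-i, j - i) := rfl

theorem invF_iff (A : Arr) : InvF A ↔
    AddMonoidAlgebra.domCongr ℝ ℝ refl1 A = A ∧ AddMonoidAlgebra.domCongr ℝ ℝ refl2 A = A := by
  simp only [AddMonoidAlgebra.ext_iff, Finsupp.ext_iff, AddMonoidAlgebra.coeff_domCongr, Prod.forall]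
  rfl

theorem invF_NF (An s : ℕ) : InvF (NF An s) := by
  rw [invF_iff]
  have h1 : ∀ k l, AddMonoidAlgebra.domCongr ℝ ℝ refl1 (orbF k l) = orbF k l := fun k l => by
    simp only [orbF, map_add, AddMonoidAlgebra.domCongr_single, refl1_apply]
    abel
  have h2 : ∀ k l, AddMonoidAlgebra.domCongr ℝ ℝ refl2 (orbF k l) = orbF k l := fun k l => by
    simp only [orbF, map_add, AddMonoidAlgebra.domCongr_single, refl2_apply, neg_neg, neg_sub,
      sub_neg_eq_add, sub_add_cancel, show -k - (l - k) = -l by ring,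
      show -l - (k - l) = -k by ring]
    abel
  simp only [NF, map_sum, map_smul, h1, h2, and_self]

/-- the reflections are additive equivalences of `ℤ × ℤ`, so they act by ring automorphisms
(`AddMonoidAlgebra.mapDomain_mul`, or `AddMonoidAlgebra.domCongr`) -/
theorem invF_hf {N : Arr} (hN : InvF N) (m : ℝ) (l : List ℕ) : InvF (hf N m l).1 ∧ InvF (hf N m l).2 := by
  simp only [invF_iff] at hN ⊢
  induction l with
  | nil => simp [hf]
  | cons c l ih =>
    simp only [hf, map_add, map_mul, map_smul, AddMonoidAlgebra.domCongr_single, hN.1, hN.2, ih.1.1, ih.1.2,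
      ih.2.1, ih.2.2, refl1_apply, refl2_apply, neg_zero, sub_zero, and_self]

/-- the orbit as a set -/
def orbS (i j : ℤ) : Finset (ℤ × ℤ) := {(i, j), (j - i, -i), (-j, i - j), (j, i), (-i, j - i), (i - j, -j)}

theorem wt_eq (i j : ℕ) : wt i j = if i = 0 then 1 else if j = 0 then 3 else if j = i then 3 else 6 := by
  have h : ∀ (a b x y : ℕ), @Bool.rec (fun _ => ℕ) y x (Nat.beq a b) = if a = b then x else y :=
    fun a b x y => by
      by_cases h : a = b
      · rw [if_pos h, h, Nat.beq_refl]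
      · rw [if_neg h, Bool.eq_false_iff.2 fun h' => h (Nat.eq_of_beq_eq_true h')]
  simp only [wt, h]

theorem wt_le_card {i j : ℕ} (h : j ≤ i) : wt i j ≤ (orbS i j).card := by
  have h3 : i ≠ 0 → 3 ≤ (orbS i j).card := fun hi => by
    refine le_trans (le_of_eq (card_eq_three.2 ⟨((i : ℤ), (j : ℤ)), (j - i, -i), (-j, i - j), ?_, ?_, ?_,
      rfl⟩).symm) (card_le_card fun x hx => ?_)
    any_goals (simp only [ne_eq, Prod.mk.injEq]; omega)
    simp only [orbS, mem_insert, mem_singleton] at hx ⊢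
    tauto
  rw [wt_eq]
  split_ifs with h0 h1 h2
  · exact card_pos.2 ⟨_, mem_insert_self _ _⟩
  · exact h3 h0
  · exact h3 h0
  · unfold orbS
    rw [card_insert_of_notMem, card_insert_of_notMem, card_insert_of_notMem, card_insert_of_notMem,
      card_insert_of_notMem, card_singleton]
    all_goals (simp only [mem_insert, mem_singleton, Prod.mk.injEq]; omega)

/-- Folding into the chamber: the orbits of the points `0 ≤ j ≤ i` are disjoint and have `wt i j` elements. -/
theorem fold_le {A : Arr} (hA : InvF A) (hA0 : ∀ x, 0 ≤ A.coeff x) {G : ℤ × ℤ → ℝ} (hG0 : ∀ x, 0 ≤ G x)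
    (hG1 : ∀ i j, G (j, i) = G (i, j)) (hG2 : ∀ i j, G (-i, j - i) = G (i, j)) (M : ℕ) :
    ∑ i ∈ range (M + 1), ∑ j ∈ range (i + 1), (wt i j : ℝ) * A.coeff (i, j) * G (i, j)
      ≤ A.coeff.sum fun x c => c * G x := by
  classical
  let O : (Σ _ : ℕ, ℕ) → Finset (ℤ × ℤ) := fun p => orbS p.1 p.2
  have hH : ∀ i j : ℤ, ∀ x ∈ orbS i j, A.coeff x * G x = A.coeff (i, j) * G (i, j) := fun i j x hx => by
    simp only [orbS, mem_insert, mem_singleton] at hx
    rcases hx with rfl | rfl | rfl | rfl | rfl | rfl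
    · rfl
    · rw [hA.1 (-i), hG1 (-i), hA.2, hG2]
    · rw [hA.2, hG2, hA.1, hG1]
    · rw [hA.1, hG1]
    · rw [hA.2, hG2]
    · rw [hA.1 (-j), hG1 (-j), hA.2, hG2, hA.1, hG1]
  rw [sum_sigma']
  calc _ ≤ ∑ p ∈ (range (M + 1)).sigma fun i => range (i + 1), ∑ x ∈ O p, A.coeff x * G x := by
        refine sum_le_sum fun p hp => ?_
        simp only [mem_sigma, mem_range] at hp
        rw [sum_congr rfl (hH _ _), sum_const, nsmul_eq_mul, mul_assoc]
        exact mul_le_mul_of_nonneg_right (by exact_mod_cast wt_le_card (by omega))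
          (mul_nonneg (hA0 _) (hG0 _))
    _ = ∑ x ∈ ((range (M + 1)).sigma fun i => range (i + 1)).biUnion O, A.coeff x * G x := by
        refine (sum_biUnion fun p hp q hq hpq => disjoint_left.2 fun x hx hx' => hpq ?_).symm
        obtain ⟨i, j⟩ := p
        obtain ⟨k, l⟩ := q
        obtain ⟨a, b⟩ := x
        simp only [coe_sigma, Set.mem_sigma_iff, mem_coe, mem_range, O, orbS, mem_insert, mem_singleton,
          Prod.mk.injEq] at hp hq hx hx'
        have : i = k ∧ j = l := by omega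
        rw [this.1, this.2]
    _ ≤ _ := by
        rw [Finsupp.sum_of_support_subset _ (subset_union_left (s₂ := ((range (M + 1)).sigma
          fun i => range (i + 1)).biUnion O)) _ (by simp)]
        exact sum_le_sum_of_subset_of_nonneg subset_union_right fun x _ _ => mul_nonneg (hA0 _) (hG0 _)

/-- assembly of the above -/
theorem formal_sound {n d An s : ℕ} (hn : 0 < n) (hd : 0 < d) {ν : Ex 3} (hν : Sym ν)
    (h : Cert n d An s ν) {m : ℝ} (hm0 : 0 ≤ m) (hm : m ≤ 2 * (dig s 0 : ℝ) / 2 ^ 40) {l : List ℕ} {ω : Off}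
    (hl : Below l ω) (h0 : (∀ x, 0 ≤ (hf (NF An s) m l).1.coeff x) ∧ ∀ x, 0 ≤ (hf (NF An s) m l).2.coeff x) (M : ℕ)
    {g : (Fin 3 → ℝ) → ℝ} (hg : Sup g) (hs : SymF g) :
    ∑ i ∈ range (M + 1), ∑ j ∈ range (i + 1), (wt i j : ℝ) *
      ((hf (NF An s) m l).1.coeff (i, j) * g (atom ((n : ℝ) / d) i j)
        + (hf (NF An s) m l).2.coeff (i, j) * ∑ t, g (kill t (atom ((n : ℝ) / d) i j))) ≤ val (ν.gen ω) g := by
  have hρ : 0 < (n : ℝ) / d := by positivity
  have hI := invF_hf (invF_NF An s) m l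
  have a1 : ∀ i j, atom ((n : ℝ) / d) j i = fun t => atom ((n : ℝ) / d) i j (Equiv.swap 0 1 t) := fun i j => by
    funext t
    fin_cases t <;> simp [atom, Equiv.swap_apply_def]
    congr 1; ring
  have a2 : ∀ i j, atom ((n : ℝ) / d) (-i) (j - i) = fun t => atom ((n : ℝ) / d) i j (Equiv.swap 0 2 t) :=
    fun i j => by
      funext t
      fin_cases t <;> simp [atom, Equiv.swap_apply_def] <;> congr 1 <;> ring
  have hk : ∀ (π : Equiv.Perm (Fin 3)) (P : Fin 3 → ℝ),
      ∑ t, g (kill t fun i => P (π i)) = ∑ t, g (kill t P) := fun π P => by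
    rw [← Equiv.sum_comp π fun t => g (kill t P)]
    refine sum_congr rfl fun t _ => ?_
    rw [← hs π (kill (π t) P)]
    congr 1
    funext i
    simp [kill]
  have h1 := fold_le hI.1 h0.1 (G := fun x => g (atom ((n : ℝ) / d) x.1 x.2))
    (fun x => hg.pos _ (atom_nn hρ _ _)) (fun i j => by simp only [a1 i j, hs _ _])
    (fun i j => by simp only [a2 i j, hs _ _]) M
  have h2 := fold_le hI.2 h0.2 (G := fun x => ∑ t, g (kill t (atom ((n : ℝ) / d) x.1 x.2)))
    (fun x => sum_nonneg fun t _ => hg.pos _ fun i => by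
      unfold kill; split_ifs; exacts [le_rfl, atom_nn hρ _ _ _])
    (fun i j => by simp only [a1 i j, hk]) (fun i j => by simp only [a2 i j, hk]) M
  refine le_trans ?_ ((fv_hf hρ (NF_nonneg An s) hm0 (fun g hg => cert_sym hn hd hν h hm hg) l hg).trans
    (sum_le_gen hl hg))
  refine le_trans (le_of_eq ?_) (add_le_add h1 h2)
  simp only [← sum_add_distrib, mul_add, mul_assoc]

theorem below_reg (b : ℕ) : Below (regL b) (Off.reg b) := by
  intro k
  simp only [regL, Off.reg, List.getD_eq_getElem?_getD, List.getElem?_append, List.length_replicate]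
  rcases lt_trichotomy k b with h | rfl | h
  · simp [h, h.ne]
  · norm_num
  · obtain ⟨c, rfl⟩ := Nat.exists_eq_add_of_lt h
    simp [show ¬ (b + c + 1 < b) by omega, show b + c + 1 - b = c + 1 by omega, h.ne']

theorem elo_le (dn dd : ℕ) (hdd : 0 < dd) : (elo dn dd : ℝ) ≤ 2 ^ 64 * Real.exp (-((dn : ℝ) / dd)) := by
  have hd : (0 : ℝ) < dd := by exact_mod_cast hdd
  have key : ∀ (r : ℕ) (x : ℝ), (r : ℝ) ≤ 2 ^ 64 * Real.exp x → ∀ n : ℕ,
      (loop n (fun _ r => Nat.shiftRight (Nat.mul r r) 64) r : ℝ) ≤ 2 ^ 64 * Real.exp (2 ^ n * x) := by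
    intro r x hr n
    induction n with
    | zero => simpa [loop] using hr
    | succ n ih =>
      set y := loop n (fun _ r => Nat.shiftRight (Nat.mul r r) 64) r with hy
      have : loop (n + 1) (fun _ r => Nat.shiftRight (Nat.mul r r) 64) r = y * y / 2 ^ 64 :=
        Nat.shiftRight_eq_div_pow _ _
      rw [this]
      refine Nat.cast_div_le.trans ?_
      push_cast
      rw [div_le_iff₀ (by positivity), show (2 : ℝ) ^ (n + 1) * x = 2 ^ n * x + 2 ^ n * x by ring, Real.exp_add]
      refine (mul_le_mul ih ih (by positivity) (by positivity)).trans (le_of_eq ?_)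
      ring
  have h := key (18446744073709551616 - (dn * 17179869184 / dd + 1)) (-((dn : ℝ) / dd) / 2 ^ 30) (by
    by_cases h : dn * 17179869184 / dd + 1 ≤ 18446744073709551616
    · have h1 := Real.add_one_le_exp (-((dn : ℝ) / dd) / 2 ^ 30)
      have h2 : ((dn * 17179869184 : ℕ) : ℝ) / dd < (dn * 17179869184 / dd + 1 : ℕ) := by
        rw [div_lt_iff₀ hd]
        exact_mod_cast Nat.lt_div_mul_add hdd |>.trans_eq (by ring)
      rw [Nat.cast_sub h]
      rw [Nat.cast_mul, mul_div_right_comm] at h2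
      norm_num at h1 h2 ⊢
      linarith
    · rw [Nat.sub_eq_zero_of_le (by omega)]
      simpa using by positivity) 30
  rwa [mul_div_cancel₀ _ (by positivity)] at h

theorem getD_map_range (f : ℕ → ℕ) (k K : ℕ) :
    ((List.range K).map f).getD k 0 = if k < K then f k else 0 := by
  split_ifs with h <;> simp [h]

theorem poi_aux {dn dd : ℕ} (hdd : 0 < dd) (k : ℕ) {e : ℕ} (he : (e : ℝ) ≤ 2 ^ 64 * Real.exp (-((dn : ℝ) / dd))) :
    (Nat.shiftRight (Nat.div (Nat.mul e (Nat.pow dn k)) (Nat.mul (Nat.pow dd k) k.factorial)) 24 : ℝ)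
      ≤ 2 ^ 40 * (Off.poi ((dn : ℝ) / dd)).p k := by
  have hd : (0 : ℝ) < dd := by exact_mod_cast hdd
  have key : ∀ s : ℕ, (Nat.shiftRight (Nat.div (Nat.mul e (Nat.pow dn k))
      (Nat.mul (Nat.pow dd k) k.factorial)) s : ℝ) ≤ (e : ℝ) * dn ^ k / (dd ^ k * k.factorial) / 2 ^ s := by
    intro s
    refine le_of_eq_of_le (congrArg Nat.cast (Nat.shiftRight_eq_div_pow (e * dn ^ k / (dd ^ k * k.factorial)) s))
      (Nat.cast_div_le.trans ?_)
    push_cast
    gcongr
    exact Nat.cast_div_le.trans (by push_cast; rfl)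
  refine (key 24).trans ?_
  simp only [Off.poi, abs_of_nonneg (div_nonneg (Nat.cast_nonneg dn) hd.le : (0 : ℝ) ≤ dn / dd)]
  calc _ ≤ (2 ^ 64 * Real.exp (-((dn : ℝ) / dd))) * dn ^ k / (dd ^ k * k.factorial) / 2 ^ 24 := by gcongr
    _ = _ := by rw [div_pow]; field_simp

/-- `1 - x ≤ exp (-x)`, thirty squarings rounded down -/
theorem below_poi (dn dd K : ℕ) (hdd : 0 < dd) : Below (poiL dn dd K) (Off.poi ((dn : ℝ) / dd)) := by
  intro k
  rw [poiL, getD_map_range]
  split_ifs
  · rw [poiW.eq_1]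
    exact poi_aux hdd k (elo_le dn dd hdd)
  · rw [Nat.cast_zero]
    exact mul_nonneg (by positivity) ((Off.poi _).nonneg k)

end Crest.Agent.R163.Eng
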