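import Crest.Agent.R163.Basic

/-! R163: expectations of functions of the posterior, and the two-point transfer. -/

set_option autoImplicit false
set_option linter.unusedVariables false
open Crest.ProbabilityR.Broadcast Crest.ProbabilityR.TreeBroadcast

namespace Crest.Agent.R163

variable {q : ℕ}

/-! ### part a -/

theorem simp_normalize (hq : 0 < q) {P : Fin q → ℝ} (hP : NN P) (h : 0 < ∑ j, P j) :
    Simp fun i => q * P i / ∑ j, P j := by
  refine ⟨fun i => div_nonneg (mul_nonneg (Nat.cast_nonneg _) (hP i)) h.le, ?_⟩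
  rw [← Finset.sum_div, ← Finset.mul_sum, mul_div_assoc, div_self h.ne', mul_one]

theorem hom_simp (hq : 0 < q) (f : (Fin q → ℝ) → ℝ) {y : Fin q → ℝ} (hy : Simp y) : hom f y = f y := by
  have h : (q : ℝ) ≠ 0 := Nat.cast_ne_zero.2 hq.ne'
  simp only [hom, hy.2, div_self h, one_mul, mul_div_cancel_left₀ _ h]

private theorem tw_sum_nonneg {P : Fin q → ℝ} (hP : NN P) : 0 ≤ ∑ j, P j :=
  Finset.sum_nonneg fun j _ => hP j

private theorem tw_hom_zero (f : (Fin q → ℝ) → ℝ) {P : Fin q → ℝ} (h : ∑ j, P j = 0) :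
    hom f P = 0 := by simp [hom, h]

private theorem tw_hom_le (hq : 0 < q) {f g : (Fin q → ℝ) → ℝ} {P : Fin q → ℝ} (hP : NN P)
    (h : ∀ y, Simp y → f y ≤ g y) : hom f P ≤ hom g P := by
  rcases (tw_sum_nonneg hP).eq_or_lt with h0 | h0
  · rw [tw_hom_zero f h0.symm, tw_hom_zero g h0.symm]
  · exact mul_le_mul_of_nonneg_left (h _ (simp_normalize hq hP h0)) (by positivity)

theorem test_hom (hq : 0 < q) {f : (Fin q → ℝ) → ℝ} (hf : Bdd f) : Test (hom f) := by
  obtain ⟨C, hC⟩ := hf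
  refine ⟨fun c P hc _ => ?_, C / q, fun P hP => ?_⟩
  · rcases hc.eq_or_lt with rfl | hc
    · simp [hom]
    · simp only [hom, ← Finset.mul_sum, mul_left_comm (q : ℝ) c, mul_div_mul_left _ _ hc.ne']
      ring
  · rcases (tw_sum_nonneg hP).eq_or_lt with h0 | h0
    · rw [tw_hom_zero f h0.symm, ← h0]; simp
    · rw [hom, abs_mul, abs_of_nonneg (by positivity)]
      refine (mul_le_mul_of_nonneg_left (hC _ (simp_normalize hq hP h0)) (by positivity)).trans
        (le_of_eq ?_)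
      ring

theorem Bdd.add {f g : (Fin q → ℝ) → ℝ} (hf : Bdd f) (hg : Bdd g) : Bdd fun y => f y + g y := by
  obtain ⟨C, hC⟩ := hf
  obtain ⟨D, hD⟩ := hg
  exact ⟨C + D, fun y hy => (abs_add_le _ _).trans (add_le_add (hC y hy) (hD y hy))⟩

theorem Bdd.sub {f g : (Fin q → ℝ) → ℝ} (hf : Bdd f) (hg : Bdd g) : Bdd fun y => f y - g y := by
  obtain ⟨C, hC⟩ := hf
  obtain ⟨D, hD⟩ := hg
  exact ⟨C + D, fun y hy => (abs_sub _ _).trans (add_le_add (hC y hy) (hD y hy))⟩

theorem Bdd.mul {f g : (Fin q → ℝ) → ℝ} (hf : Bdd f) (hg : Bdd g) : Bdd fun y => f y * g y := by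
  obtain ⟨C, hC⟩ := hf
  obtain ⟨D, hD⟩ := hg
  refine ⟨C * D, fun y hy => ?_⟩
  rw [abs_mul]
  exact mul_le_mul (hC y hy) (hD y hy) (abs_nonneg _) ((abs_nonneg _).trans (hC y hy))

theorem Bdd.pow {f : (Fin q → ℝ) → ℝ} (hf : Bdd f) (n : ℕ) : Bdd fun y => f y ^ n := by
  obtain ⟨C, hC⟩ := hf
  refine ⟨C ^ n, fun y hy => ?_⟩
  rw [abs_pow]
  exact pow_le_pow_left₀ (abs_nonneg _) (hC y hy) n

theorem bdd_const (c : ℝ) : Bdd fun _ : Fin q → ℝ => c := by
  exact ⟨|c|, fun _ _ => le_rfl⟩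

private theorem tw_le_q {y : Fin q → ℝ} (hy : Simp y) (i : Fin q) : y i ≤ q :=
  hy.2 ▸ Finset.single_le_sum (fun j _ => hy.1 j) (Finset.mem_univ i)

private theorem tw_abs_le {y : Fin q → ℝ} (hy : Simp y) (i : Fin q) : |y i - 1| ≤ q := by
  have h1 : (1 : ℝ) ≤ q := Nat.one_le_cast.2 i.pos
  have h2 := tw_le_q hy i
  have h3 := hy.1 i
  exact abs_le.2 ⟨by linarith, by linarith⟩

private theorem tw_bdd_sum {φ : ℝ → ℝ} (hφ : Continuous φ) :
    Bdd fun y : Fin q → ℝ => ∑ i, φ (y i) := by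
  obtain ⟨C, hC⟩ := (isCompact_Icc (a := (0 : ℝ)) (b := q)).exists_bound_of_continuousOn
    hφ.continuousOn
  exact ⟨∑ _i : Fin q, C, fun y hy => (Finset.abs_sum_le_sum_abs _ _).trans
    (Finset.sum_le_sum fun i _ => hC _ ⟨hy.1 i, tw_le_q hy i⟩)⟩

private theorem tw_bdd_avg {φ : ℝ → ℝ} (hφ : Continuous φ) :
    Bdd fun y : Fin q → ℝ => (∑ i, φ (y i)) / q := by
  simp only [div_eq_mul_inv]
  exact (tw_bdd_sum hφ).mul (bdd_const _)

theorem fH_nonneg (y : Fin q → ℝ) : 0 ≤ fH y := by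
  exact div_nonneg (Finset.sum_nonneg fun _ _ => sq_nonneg _) (Nat.cast_nonneg _)

theorem fH_le (hq : 0 < q) {y : Fin q → ℝ} (hy : Simp y) : fH y ≤ q - 1 := by
  have h : (0 : ℝ) < q := Nat.cast_pos.2 hq
  rw [fH, div_le_iff₀ h]
  refine (Finset.sum_le_sum (g := fun i => (q - 2) * y i + 1) fun i _ => ?_).trans (le_of_eq ?_)
  · have h1 := mul_le_mul_of_nonneg_right (tw_le_q hy i) (hy.1 i)
    nlinarith
  · rw [Finset.sum_add_distrib, ← Finset.mul_sum, hy.2]
    simp
    ring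

theorem abs_fT_le {y : Fin q → ℝ} (hy : Simp y) : |fT y| ≤ q * fH y := by
  rw [fT, fH, abs_div, Nat.abs_cast, ← mul_div_assoc, Finset.mul_sum]
  refine div_le_div_of_nonneg_right ((Finset.abs_sum_le_sum_abs _ _).trans
    (Finset.sum_le_sum fun i _ => ?_)) (Nat.cast_nonneg _)
  rw [pow_succ', abs_mul, abs_of_nonneg (sq_nonneg (y i - 1))]
  exact mul_le_mul_of_nonneg_right (tw_abs_le hy i) (sq_nonneg _)

theorem bdd_fH : Bdd (fH : (Fin q → ℝ) → ℝ) := by
  exact tw_bdd_avg (φ := fun x => (x - 1) ^ 2) (by fun_prop)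

theorem bdd_fT : Bdd (fT : (Fin q → ℝ) → ℝ) := by
  exact tw_bdd_avg (φ := fun x => (x - 1) ^ 3) (by fun_prop)

theorem bdd_fK : Bdd (fK : (Fin q → ℝ) → ℝ) := by
  exact tw_bdd_avg Real.continuous_mul_log

theorem simp_chan (hq : 0 < q) {lam : ℝ} (hl : LamOK q lam) {y : Fin q → ℝ} (hy : Simp y) :
    Simp fun i => 1 + lam * (y i - 1) := by
  have h : (q : ℝ) ≠ 0 := Nat.cast_ne_zero.2 hq.ne'
  have e : (fun i => 1 + lam * (y i - 1)) = chL lam y := by
    funext i
    rw [chL_apply, hy.2]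
    field_simp
    ring
  rw [e]
  exact ⟨hy.1.chL hl, (sum_chL lam y).trans hy.2⟩

theorem fH_chan (lam : ℝ) (y : Fin q → ℝ) : fH (fun i => 1 + lam * (y i - 1)) = lam ^ 2 * fH y := by
  simp only [fH, add_sub_cancel_left, mul_pow, ← Finset.mul_sum, mul_div_assoc]

theorem fT_chan (lam : ℝ) (y : Fin q → ℝ) : fT (fun i => 1 + lam * (y i - 1)) = lam ^ 3 * fT y := by
  simp only [fT, add_sub_cancel_left, mul_pow, ← Finset.mul_sum, mul_div_assoc]

theorem ev_add (hq : 0 < q) (E : Ex q) {f g : (Fin q → ℝ) → ℝ} (hf : Bdd f) (hg : Bdd g) :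
    ev E (fun y => f y + g y) = ev E f + ev E g := by
  rw [ev, ev, ev, ← val_add_fun E (test_hom hq hf).adm (test_hom hq hg).adm]
  exact val_congr E fun P _ => mul_add _ _ _

theorem ev_sub (hq : 0 < q) (E : Ex q) {f g : (Fin q → ℝ) → ℝ} (hf : Bdd f) (hg : Bdd g) :
    ev E (fun y => f y - g y) = ev E f - ev E g := by
  rw [ev, ev, ev, ← val_sub_fun E (test_hom hq hf).adm (test_hom hq hg).adm]
  exact val_congr E fun P _ => mul_sub _ _ _

theorem ev_const_mul (E : Ex q) (c : ℝ) (f : (Fin q → ℝ) → ℝ) :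
    ev E (fun y => c * f y) = c * ev E f := by
  rw [ev, ev, ← val_mul_fun]
  exact val_congr E fun P _ => mul_left_comm _ _ _

theorem ev_const (hq : 0 < q) {E : Ex q} (hE : Norm E) (c : ℝ) : ev E (fun _ => c) = c := by
  have h : (q : ℝ) ≠ 0 := Nat.cast_ne_zero.2 hq.ne'
  rw [ev, val_congr E (g := fun P => c / q * ∑ i, P i) fun P _ => by simp only [hom]; ring,
    val_mul_fun, val_tot, Finset.sum_congr rfl fun i _ => hE i]
  simp [h]

theorem ev_mono (hq : 0 < q) (E : Ex q) {f g : (Fin q → ℝ) → ℝ} (hf : Bdd f) (hg : Bdd g)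
    (h : ∀ y, Simp y → f y ≤ g y) : ev E f ≤ ev E g := by
  exact val_mono E (test_hom hq hf).adm (test_hom hq hg).adm fun o => tw_hom_le hq (E.nonneg o) h

theorem ev_congr (hq : 0 < q) (E : Ex q) {f g : (Fin q → ℝ) → ℝ} (h : ∀ y, Simp y → f y = g y) :
    ev E f = ev E g := by
  exact val_congr E fun P hP => le_antisymm (tw_hom_le hq hP fun y hy => (h y hy).le)
    (tw_hom_le hq hP fun y hy => (h y hy).ge)

theorem ev_nonneg (hq : 0 < q) (E : Ex q) {f : (Fin q → ℝ) → ℝ} (h : ∀ y, Simp y → 0 ≤ f y) :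
    0 ≤ ev E f := by
  refine val_nonneg E fun P hP => le_trans (le_of_eq ?_) (tw_hom_le hq (f := fun _ => 0) hP h)
  simp [hom]

theorem ev_one (hq : 0 < q) (f : (Fin q → ℝ) → ℝ) : ev Ex.one f = f fun _ => 1 := by
  rw [ev, val_one, hom_simp hq f ⟨fun _ => zero_le_one, by simp⟩]

theorem ev_vert (hq : 0 < q) (f : (Fin q → ℝ) → ℝ) :
    ev Ex.vert f = (∑ o : Fin q, f fun i => if o = i then (q : ℝ) else 0) / q := by
  rw [ev, val_vert, Finset.sum_div]
  refine Finset.sum_congr rfl fun o _ => ?_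
  simp only [hom, Finset.sum_ite_eq, Finset.mem_univ, if_true, div_one, mul_ite, mul_one, mul_zero]
  ring

theorem ev_chan (hq : 0 < q) (E : Ex q) {lam : ℝ} (hl : LamOK q lam) (f : (Fin q → ℝ) → ℝ) :
    ev (E.chan lam) f = ev E fun y => f fun i => 1 + lam * (y i - 1) := by
  have h : (q : ℝ) ≠ 0 := Nat.cast_ne_zero.2 hq.ne'
  rw [ev, val_chan E hl]
  refine val_congr E fun P hP => ?_
  rcases (tw_sum_nonneg hP).eq_or_lt with h0 | h0
  · rw [tw_hom_zero _ h0.symm, tw_hom_zero _ ((sum_chL lam P).trans h0.symm)]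
  · simp only [hom, sum_chL]
    congr 2
    funext i
    rw [chL_apply]
    field_simp
    ring

theorem hasSum_ev_gen (hq : 0 < q) (ω : Off) (E : Ex q) {f : (Fin q → ℝ) → ℝ} (hf : Bdd f) :
    HasSum (fun k => ω.p k * ev (E.pow k) f) (ev (E.gen ω) f) := by
  exact hasSum_val_gen ω E (test_hom hq hf)

theorem hh_nonneg (hq : 0 < q) (E : Ex q) : 0 ≤ hh E := by
  exact ev_nonneg hq E fun y _ => fH_nonneg y

theorem hh_le (hq : 0 < q) {E : Ex q} (hE : Norm E) : hh E ≤ q - 1 := by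
  exact (ev_mono hq E bdd_fH (bdd_const _) fun y hy => fH_le hq hy).trans (ev_const hq hE _).le

theorem hh_one (hq : 0 < q) : hh (Ex.one : Ex q) = 0 := by
  rw [hh, ev_one hq]
  simp [fH]

theorem hh_vert (hq : 0 < q) : hh (Ex.vert : Ex q) = q - 1 := by
  have h : (q : ℝ) ≠ 0 := Nat.cast_ne_zero.2 hq.ne'
  have h1 : ∀ o : Fin q, fH (fun i => if o = i then (q : ℝ) else 0) = q - 1 := fun o => by
    rw [fH, Finset.sum_congr rfl (g := fun i => (if o = i then (q : ℝ) ^ 2 - 2 * q else 0) + 1)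
      fun i _ => by split_ifs <;> ring, Finset.sum_add_distrib]
    simp only [Finset.sum_ite_eq, Finset.mem_univ, if_true, Finset.sum_const, Finset.card_univ,
      Fintype.card_fin, nsmul_eq_mul]
    field_simp
    ring
  rw [hh, ev_vert hq]
  simp only [h1, Finset.sum_const, Finset.card_univ, Fintype.card_fin, nsmul_eq_mul]
  field_simp

theorem hh_chan (hq : 0 < q) (E : Ex q) {lam : ℝ} (hl : LamOK q lam) :
    hh (E.chan lam) = lam ^ 2 * hh E := by
  rw [hh, ev_chan hq E hl, hh, ← ev_const_mul]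
  simp only [fH_chan]

/-! ### part b -/

private theorem tw_eq_zero {P : Fin q → ℝ} (hP : NN P) (h : ∑ j, P j = 0) (i : Fin q) : P i = 0 :=
  (Finset.sum_eq_zero_iff_of_nonneg fun j _ => hP j).1 h i (Finset.mem_univ i)

private theorem tw_avg (hq : 0 < q) {f : (Fin q → ℝ) → ℝ} (hf : Bdd f) {P Q : Fin q → ℝ} (hP : NN P)
    (hQ : NN Q) (h1 : 0 < ∑ j, P j) (h2 : 0 < ∑ j, Q j) :
    (q.factorial : ℝ)⁻¹ * ∑ π : Equiv.Perm (Fin q), hom f (fun i => P i * Q (π i))
      = (∑ j, P j) / q * ((∑ j, Q j) / q) *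
        avg f (fun i => q * P i / ∑ j, P j) fun i => q * Q i / ∑ j, Q j := by
  have h : (0 : ℝ) < q := Nat.cast_pos.2 hq
  have h3 : ∀ π : Equiv.Perm (Fin q), hom f (fun i => P i * Q (π i)) =
      (∑ j, P j) / q * ((∑ j, Q j) / q) *
        hom f fun i => q * P i / (∑ j, P j) * (q * Q (π i) / ∑ j, Q j) := fun π => by
    rw [← (test_hom hq hf).hom _ _ (by positivity) fun i => mul_nonneg
      ((simp_normalize hq hP h1).1 i) ((simp_normalize hq hQ h2).1 (π i))]
    congr 1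
    funext i
    field_simp
  simp only [h3, ← Finset.mul_sum, avg]
  ring

private theorem tw_sym {F : Ex q} (hF : Sym F) {g : (Fin q → ℝ) → ℝ} (hg : Test g) :
    val F g = val F fun Q => (q.factorial : ℝ)⁻¹ * ∑ π : Equiv.Perm (Fin q), g fun i => Q (π i) := by
  have h : (q.factorial : ℝ) ≠ 0 := Nat.cast_ne_zero.2 q.factorial_ne_zero
  rw [val_mul_fun, val_sum_fun F _ fun π _ => (hg.perm π).adm, Finset.sum_congr rfl
    fun π _ => hF π g hg, Finset.sum_const, Finset.card_univ, Fintype.card_perm, Fintype.card_fin,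
    nsmul_eq_mul, inv_mul_cancel_left₀ h]

/-- Two-point transfer. `ev (E.mul F) f = ∑∑ hom f (P * Q)` (`val_mul`); by `Sym F` the inner value is the
average over `π` of the values of `Q ↦ hom f (P * Q∘π)`; by homogeneity, for `P = (S/q) y`, `Q = (S'/q) z`,
this average is `(S/q)(S'/q) avg f y z` (it vanishes if `S = 0` or `S' = 0`). -/
theorem two_point (hq : 0 < q) (E : Ex q) {F : Ex q} (hF : Sym F) {f : (Fin q → ℝ) → ℝ} (hf : Bdd f)
    {n : ℕ} (a b : Fin n → (Fin q → ℝ) → ℝ) (ha : ∀ j, Bdd (a j)) (hb : ∀ j, Bdd (b j))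
    (D : (Fin q → ℝ) → Prop)
    (hD : ∀ o, 0 < ∑ j, F.P o j → D fun i => q * F.P o i / ∑ j, F.P o j)
    (h : ∀ y z, Simp y → Simp z → D z → avg f y z ≤ ∑ j, a j y * b j z) :
    ev (E.mul F) f ≤ ∑ j, ev E (a j) * ev F (b j) := by
  have e1 : ∑ j, ev E (a j) * ev F (b j) = val E fun P => ∑ j, ev F (b j) * hom (a j) P := by
    rw [val_sum_fun E _ fun j _ => ((test_hom hq (ha j)).const_mul _).adm]
    exact Finset.sum_congr rfl fun j _ => by rw [val_mul_fun, mul_comm]; rfl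
  rw [ev, val_mul E F (test_hom hq hf).adm, e1]
  refine val_mono E ((test_hom hq hf).inner F).adm
    (Test.sum _ fun j _ => (test_hom hq (ha j)).const_mul _).adm fun o => ?_
  have hP : NN (E.P o) := E.nonneg o
  generalize E.P o = P at hP
  have e2 : ∑ j, ev F (b j) * hom (a j) P = val F fun Q => ∑ j, hom (a j) P * hom (b j) Q := by
    rw [val_sum_fun F _ fun j _ => ((test_hom hq (hb j)).const_mul _).adm]
    exact Finset.sum_congr rfl fun j _ => by rw [val_mul_fun, mul_comm, ev]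
  have ht := (test_hom hq hf).mulv hP
  rw [e2, tw_sym hF ht]
  refine val_mono F ((Test.sum _ fun π _ => ht.perm π).const_mul _).adm
    (Test.sum _ fun j _ => (test_hom hq (hb j)).const_mul _).adm fun o' => ?_
  have hQ : NN (F.P o') := F.nonneg o'
  have hD' := hD o'
  generalize F.P o' = Q at hQ hD'
  rcases (tw_sum_nonneg hP).eq_or_lt with h1 | h1
  · simp [tw_eq_zero hP h1.symm, hom]
  rcases (tw_sum_nonneg hQ).eq_or_lt with h2 | h2
  · simp [tw_eq_zero hQ h2.symm, hom]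
  rw [tw_avg hq hf hP hQ h1 h2]
  refine (mul_le_mul_of_nonneg_left (h _ _ (simp_normalize hq hP h1) (simp_normalize hq hQ h2)
    (hD' h2)) (by positivity)).trans (le_of_eq ?_)
  rw [Finset.mul_sum]
  exact Finset.sum_congr rfl fun j _ => by simp only [hom]; ring

theorem two_point_ge (hq : 0 < q) (E : Ex q) {F : Ex q} (hF : Sym F) {f : (Fin q → ℝ) → ℝ} (hf : Bdd f)
    {n : ℕ} (a b : Fin n → (Fin q → ℝ) → ℝ) (ha : ∀ j, Bdd (a j)) (hb : ∀ j, Bdd (b j))
    (h : ∀ y z, Simp y → Simp z → ∑ j, a j y * b j z ≤ avg f y z) :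
    ∑ j, ev E (a j) * ev F (b j) ≤ ev (E.mul F) f := by
  have h1 := two_point hq E hF ((bdd_const (-1)).mul hf) (fun j y => -1 * a j y) b
    (fun j => (bdd_const (-1)).mul (ha j)) hb (fun _ => True) (fun _ _ => trivial)
    fun y z hy hz _ => by
      have h2 := h y z hy hz
      have h3 : avg (fun y => -1 * f y) y z = -avg f y z := by
        simp only [avg, hom, neg_mul, one_mul, mul_neg, Finset.sum_neg_distrib, neg_div]
      rw [h3]
      simp only [neg_mul, one_mul, Finset.sum_neg_distrib]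
      linarith
  simp only [ev_const_mul] at h1
  simp only [neg_mul, one_mul, Finset.sum_neg_distrib] at h1
  linarith

private theorem tw_adv (hq : 0 < q) (E : Ex q) :
    val E advF = ev E fun y : Fin q → ℝ => ∑ i, |y i - 1| := by
  have h : (0 : ℝ) < q := Nat.cast_pos.2 hq
  refine val_congr E fun P hP => ?_
  rcases (tw_sum_nonneg hP).eq_or_lt with h0 | h0
  · rw [tw_hom_zero _ h0.symm]
    simp [advF, tw_eq_zero hP h0.symm]
  · rw [hom, Finset.mul_sum, advF]
    refine Finset.sum_congr rfl fun i _ => ?_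
    rw [← abs_of_pos (div_pos h0 h), ← abs_mul]
    congr 1
    field_simp

private theorem tw_bddA : Bdd fun y : Fin q → ℝ => ∑ i, |y i - 1| :=
  tw_bdd_sum (φ := fun x => |x - 1|) (by fun_prop)

/-- `|u| ≤ ε + u²/(4ε)` -/
theorem adv_le (hq : 0 < q) {E : Ex q} (hE : Norm E) {ε : ℝ} (hε : 0 < ε) :
    val E advF ≤ q * (ε + hh E / (4 * ε)) := by
  have h : (0 : ℝ) < q := Nat.cast_pos.2 hq
  rw [tw_adv hq]
  refine (ev_mono hq E tw_bddA ((bdd_const (q * ε)).add ((bdd_const (q / (4 * ε))).mul bdd_fH))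
    fun y _ => ?_).trans (le_of_eq ?_)
  · refine (Finset.sum_le_sum (g := fun i => ε + (y i - 1) ^ 2 / (4 * ε)) fun i _ => ?_).trans
      (le_of_eq ?_)
    · rw [← sub_le_iff_le_add', le_div_iff₀ (by positivity), ← sq_abs]
      nlinarith [sq_nonneg (|y i - 1| - 2 * ε)]
    · rw [Finset.sum_add_distrib, ← Finset.sum_div, fH]
      simp only [Finset.sum_const, Finset.card_univ, Fintype.card_fin, nsmul_eq_mul]
      field_simp
  · rw [ev_add hq E (bdd_const _) ((bdd_const _).mul bdd_fH), ev_const hq hE, ev_const_mul, hh]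
    ring

/-- `u² ≤ q |u|` -/
theorem le_adv (hq : 0 < q) (E : Ex q) : hh E ≤ val E advF := by
  have h : (0 : ℝ) < q := Nat.cast_pos.2 hq
  rw [tw_adv hq]
  refine ev_mono hq E bdd_fH tw_bddA fun y hy => ?_
  rw [fH, div_le_iff₀ h, Finset.sum_mul]
  refine Finset.sum_le_sum fun i _ => ?_
  rw [← sq_abs, sq]
  exact mul_le_mul_of_nonneg_left (tw_abs_le hy i) (abs_nonneg _)

theorem adv_tendsto (hq : 0 < q) {E : ℕ → Ex q} (hE : ∀ n, Norm (E n))
    (h : Filter.Tendsto (fun n => hh (E n)) Filter.atTop (nhds 0)) :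
    Filter.Tendsto (fun n => 1 / (2 * (q : ℝ)) * val (E n) advF) Filter.atTop (nhds 0) := by
  have hq' : (0 : ℝ) < q := Nat.cast_pos.2 hq
  have h1 : Filter.Tendsto (fun n => val (E n) advF) Filter.atTop (nhds 0) := by
    refine tendsto_order.2 ⟨fun a ha => Filter.Eventually.of_forall fun n =>
      ha.trans_le ((hh_nonneg hq _).trans (le_adv hq _)), fun a ha => ?_⟩
    have hε : 0 < a / (2 * q) := by positivity
    have h2 := (((h.div_const (4 * (a / (2 * q)))).const_add (a / (2 * q))).const_mul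
      (q : ℝ)).eventually (gt_mem_nhds (a := a) (by
        rw [zero_div, add_zero]
        field_simp
        norm_num))
    filter_upwards [h2] with n hn using (adv_le hq (hE n) hε).trans_lt hn
  simpa using h1.const_mul (1 / (2 * (q : ℝ)))

end Crest.Agent.R163
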