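import Crest.Agent.R163.EngA
import Crest.Agent.R163.EngB
import Crest.Agent.R163.Two

/-! R163 engine, part C: columns and the soundness of one step. -/

set_option autoImplicit false
set_option linter.unusedVariables false
open Finset

namespace Crest.Agent.R163.Eng

/-! ### part a: columns -/

theorem plo_le {n d : ℕ} (hn : 0 < n) (hd : 0 < d) (a b : ℕ) :
    (plo n d a b : ℝ) ≤ 2 ^ 48 * ((n : ℝ) / d) ^ ((a : ℤ) - b) ∧
      2 ^ 48 * ((n : ℝ) / d) ^ ((a : ℤ) - b) ≤ (plo n d a b : ℝ) + 1 := by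
  have hn' : (0 : ℝ) < n := by exact_mod_cast hn
  have hd' : (0 : ℝ) < d := by exact_mod_cast hd
  have e1 : plo n d a b = n ^ a * d ^ b * 2 ^ 48 / (d ^ a * n ^ b) := by
    rw [← Nat.shiftLeft_eq]; rfl
  have e2 : 2 ^ 48 * ((n : ℝ) / d) ^ ((a : ℤ) - b) =
      ((n ^ a * d ^ b * 2 ^ 48 : ℕ) : ℝ) / ((d ^ a * n ^ b : ℕ) : ℝ) := by
    rw [zpow_sub₀ (by positivity), zpow_natCast, zpow_natCast, div_pow, div_pow]
    push_cast
    field_simp
    norm_num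
  rw [e1, e2, ← Nat.floor_div_eq_div (K := ℝ)]
  exact ⟨Nat.floor_le (by positivity), (Nat.lt_floor_add_one _).le⟩

theorem pl_le {n d : ℕ} (hn : 0 < n) (hd : 0 < d) (a b : ℕ) :
    (pl n d a b : ℝ) ≤ 2 ^ 48 * ((n : ℝ) / d) ^ ((a : ℤ) - b) ∧
      2 ^ 48 * ((n : ℝ) / d) ^ ((a : ℤ) - b) ≤ (pl n d a b : ℝ) + 1 := by
  have e : (a : ℤ) - b = ((a - b : ℕ) : ℤ) - ((b - a : ℕ) : ℤ) := by omega
  rw [pl, frc_eq, frc_eq, e]
  exact plo_le hn hd _ _

theorem engC_idx (k l : ℕ) : idx k l = k * (k + 1) / 2 + l + 1 := rfl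

theorem idx_lt {k l M : ℕ} (h : l ≤ k) (h' : k ≤ M) : 0 < idx k l ∧ idx k l < idx (M + 1) 0 := by
  have h1 : k * (k + 1) / 2 ≤ M * (M + 1) / 2 :=
    Nat.div_le_div_right (Nat.mul_le_mul h' (Nat.succ_le_succ h'))
  have h2 : (M + 1) * (M + 1 + 1) / 2 = M * (M + 1) / 2 + (M + 1) := by
    rw [← Nat.add_mul_div_right _ _ two_pos]; congr 1; ring
  rw [engC_idx, engC_idx]
  omega

theorem idx_inj {k l k' l' : ℕ} (h : l ≤ k) (h' : l' ≤ k') (e : idx k l = idx k' l') : k = k' ∧ l = l' := by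
  have key : ∀ {k l k' : ℕ} (l' : ℕ), l ≤ k → k < k' → idx k l < idx k' l' := by
    intro k l k' l' h hk
    obtain ⟨M, rfl⟩ : ∃ M, k' = M + 1 := ⟨k' - 1, by omega⟩
    have := (idx_lt h (M := M) (by omega)).2
    rw [engC_idx (M + 1)] at this ⊢
    omega
  rcases lt_trichotomy k k' with hk | rfl | hk
  · exact absurd e (key l' h hk).ne
  · rw [engC_idx, engC_idx] at e
    omega
  · exact absurd e (key l h' hk).ne'

/-- A number `X` encodes slot weights `F` with top slot `t`; it is a sound column for total mass `ms`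
and for the functional `Φ` (of `g`). -/
def ColOK (p : Par) (X : ℕ) (ms : ℝ) (Φ : ((Fin 3 → ℝ) → ℝ) → ℝ) : Prop :=
  ∃ (F : ℕ → ℕ) (t : ℕ),
    X = ∑ r ∈ range (idx (p.At + 1) 0), F r * 2 ^ (96 * r) + t * 2 ^ (96 * idx (p.At + 1) 0) ∧
    ∑ r ∈ range (idx (p.At + 1) 0), F r ≤ t ∧ 2 ^ 40 * ms ≤ t ∧
    ∀ g, Sup g → SymF g → 6 / 2 ^ 40 * sem ((p.tn : ℝ) / p.td) p.At F g ≤ Φ g

theorem engC_sem_add (ρ : ℝ) (An : ℕ) (F F' : ℕ → ℕ) (g : (Fin 3 → ℝ) → ℝ) :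
    sem ρ An (F + F') g = sem ρ An F g + sem ρ An F' g := by
  simp only [sem, Pi.add_apply, Nat.cast_add, add_mul, sum_add_distrib]
  ring

theorem engC_sem_mul (ρ : ℝ) (An c : ℕ) (F : ℕ → ℕ) (g : (Fin 3 → ℝ) → ℝ) :
    sem ρ An (fun r => c * F r) g = c * sem ρ An F g := by
  simp only [sem, Nat.cast_mul, mul_add, mul_sum, mul_assoc]

theorem engC_sem_zero (ρ : ℝ) (An c : ℕ) (g : (Fin 3 → ℝ) → ℝ) :
    sem ρ An (Pi.single 0 c) g = c * g ![1, 1, 0] := by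
  simp [sem, engC_idx]

theorem engC_sem_idx (ρ : ℝ) {An k l : ℕ} (hl : l ≤ k) (hk : k ≤ An) (c : ℕ) (g : (Fin 3 → ℝ) → ℝ) :
    sem ρ An (Pi.single (idx k l) c) g = c * g (atom ρ k l) := by
  rw [sem, Pi.single_eq_of_ne (idx_lt hl hk).1.ne, Nat.cast_zero, zero_mul, zero_add,
    sum_eq_single_of_mem k (mem_range.2 (by omega)), sum_eq_single_of_mem l (mem_range.2 (by omega)),
    Pi.single_eq_same]
  · intro l' hl' hne
    rw [Pi.single_eq_of_ne fun e => hne (idx_inj (by have := mem_range.1 hl'; omega) hl e).2]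
    simp
  · intro k' _ hne
    refine sum_eq_zero fun l' hl' => ?_
    rw [Pi.single_eq_of_ne fun e => hne (idx_inj (by have := mem_range.1 hl'; omega) hl e).1]
    simp

theorem ColOK.zero (p : Par) : ColOK p 0 0 fun _ => 0 := by
  exact ⟨fun _ => 0, 0, by simp, by simp, by simp, fun g _ _ => by simp [sem]⟩

theorem ColOK.add {p : Par} {X Y : ℕ} {a b : ℝ} {Φ Ψ : ((Fin 3 → ℝ) → ℝ) → ℝ}
    (h : ColOK p X a Φ) (h' : ColOK p Y b Ψ) : ColOK p (X + Y) (a + b) fun g => Φ g + Ψ g := by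
  unfold ColOK at h h' ⊢
  generalize idx (p.At + 1) 0 = P at h h' ⊢
  obtain ⟨F, t, rfl, h2, h3, h4⟩ := h
  obtain ⟨F', t', rfl, h2', h3', h4'⟩ := h'
  refine ⟨F + F', t + t', ?_, ?_, ?_, fun g hg hs => ?_⟩
  · simp only [Pi.add_apply, add_mul, sum_add_distrib]; ring
  · simp only [Pi.add_apply, sum_add_distrib]; omega
  · push_cast; linarith
  · rw [engC_sem_add]; linarith [h4 g hg hs, h4' g hg hs]

theorem ColOK.mul {p : Par} {X : ℕ} {a : ℝ} {Φ : ((Fin 3 → ℝ) → ℝ) → ℝ} (h : ColOK p X a Φ) (c : ℕ) :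
    ColOK p (c * X) (c * a) fun g => c * Φ g := by
  unfold ColOK at h ⊢
  generalize idx (p.At + 1) 0 = P at h ⊢
  obtain ⟨F, t, rfl, h2, h3, h4⟩ := h
  have hc : (0 : ℝ) ≤ c := Nat.cast_nonneg c
  refine ⟨fun r => c * F r, c * t, ?_, ?_, ?_, fun g hg hs => ?_⟩
  · simp only [mul_add, mul_sum, mul_assoc]
  · rw [← mul_sum]; exact Nat.mul_le_mul_left c h2
  · push_cast; linarith [mul_le_mul_of_nonneg_left h3 hc]
  · rw [engC_sem_mul]; linarith [mul_le_mul_of_nonneg_left (h4 g hg hs) hc]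

theorem ColOK.mono {p : Par} {X : ℕ} {a b : ℝ} {Φ Ψ : ((Fin 3 → ℝ) → ℝ) → ℝ} (h : ColOK p X a Φ)
    (hb : b ≤ a) (hΨ : ∀ g, Sup g → SymF g → Φ g ≤ Ψ g) : ColOK p X b Ψ := by
  obtain ⟨F, t, h1, h2, h3, h4⟩ := h
  exact ⟨F, t, h1, h2, by linarith, fun g hg hs => (h4 g hg hs).trans (hΨ g hg hs)⟩

theorem engC_sum_single {P r : ℕ} (h : r < P) (c : ℕ) (f : ℕ → ℕ) :
    ∑ i ∈ range P, (Pi.single r c : ℕ → ℕ) i * f i = c * f r := by
  rw [sum_eq_single_of_mem r (mem_range.2 h) fun i _ hi => by simp [hi], Pi.single_eq_same]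

theorem engC_sup_le {g : (Fin 3 → ℝ) → ℝ} (hg : Sup g) {κ : Type*} (s : Finset κ) {c : κ → ℝ}
    {P : κ → Fin 3 → ℝ} {a : ℝ} {Q : Fin 3 → ℝ} (hc : ∀ k ∈ s, 0 ≤ c k) (hP : ∀ k ∈ s, NN (P k))
    (ha : 0 ≤ a) (hQ : NN Q) (h : ∀ i, ∑ k ∈ s, c k * P k i ≤ a * Q i) :
    ∑ k ∈ s, c k * g (P k) ≤ a * g Q := by
  rw [← hg.hom a Q ha hQ, sum_congr rfl fun k hk => (hg.hom _ _ (hc k hk) (hP k hk)).symm]
  exact (hg.sum_le s fun k hk i => mul_nonneg (hc k hk) (hP k hk i)).trans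
    (hg.mono (fun i => sum_nonneg fun k hk => mul_nonneg (hc k hk) (hP k hk i)) h)

theorem engC_shl (a b : ℕ) : ((Nat.shiftLeft a b : ℕ) : ℝ) = a * 2 ^ b := by
  rw [Nat.shiftLeft_eq', Nat.shiftLeft_eq]
  push_cast
  rfl

theorem engC_lin {M c1 c2 c3 a1 a2 a3 w q : ℕ} (h : lin M c1 c2 c3 a1 a2 a3 w q = 0) {m : ℝ}
    (hm : (M : ℝ) = m * 2 ^ 48) {x1 x2 x3 y : ℝ} (h1 : 2 ^ 48 * x1 ≤ a1) (h2 : 2 ^ 48 * x2 ≤ a2) (h3 : 2 ^ 48 * x3 ≤ a3)
    (hy : (q : ℝ) ≤ 2 ^ 48 * y) : m + c1 * x1 + c2 * x2 + c3 * x3 ≤ 2 ^ 40 / 6 * w * y := by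
  have h0 : 6 * (M + c1 * a1 + c2 * a2 + c3 * a3) ≤ Nat.shiftLeft (w * q) 40 := Nat.le_of_sub_eq_zero h
  have h' := (Nat.cast_le (α := ℝ)).2 h0
  rw [engC_shl] at h'
  simp only [Nat.cast_mul, Nat.cast_add, Nat.cast_ofNat, hm] at h'
  linarith [mul_le_mul_of_nonneg_left h1 (Nat.cast_nonneg (α := ℝ) c1),
    mul_le_mul_of_nonneg_left h2 (Nat.cast_nonneg (α := ℝ) c2),
    mul_le_mul_of_nonneg_left h3 (Nat.cast_nonneg (α := ℝ) c3),
    mul_le_mul_of_nonneg_left hy (Nat.cast_nonneg (α := ℝ) w)]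

/-- Soundness of the final check, whatever the weights: if the test passes, then
`cm (1,1,0) + c1 atom(k,l) + c2 atom(k2,l2) + c3 atom(k3,l3) ≤ 2^40 (w/6) Q` coordinatewise (`plo_le`), and
`Sup.sum_le`, `Sup.mono`, homogeneity; otherwise `F = 0`. -/
theorem fin_ok (p : Par) (hp : p.OK) (w q0 q1 q2 ms cm k l k2 l2 k3 l3 c1 c2 c3 : ℕ) {Q : Fin 3 → ℝ}
    (h0 : (q0 : ℝ) ≤ 2 ^ 48 * Q 0) (h1 : (q1 : ℝ) ≤ 2 ^ 48 * Q 1) (h2 : (q2 : ℝ) ≤ 2 ^ 48 * Q 2) :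
    ColOK p (fin p.tn p.td p.At w q0 q1 q2 ms cm k l k2 l2 k3 l3 c1 c2 c3) (ms / 2 ^ 40)
      fun g => w * g Q := by
  have hQ : NN Q := fun i => by
    have := Nat.cast_nonneg (α := ℝ) q0
    have := Nat.cast_nonneg (α := ℝ) q1
    have := Nat.cast_nonneg (α := ℝ) q2
    fin_cases i <;> simp <;> linarith
  have hw : (0 : ℝ) ≤ w := Nat.cast_nonneg w
  have hms : (2 : ℝ) ^ 40 * (ms / 2 ^ 40) ≤ ms := le_of_eq (by field_simp)
  unfold fin
  generalize hb : Nat.beq _ 0 = bb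
  cases bb with
  | false =>
    refine ⟨fun _ => 0, ms, ?_, by simp, hms, fun g hg _ => ?_⟩
    · simp [sh, Nat.shiftLeft_eq]
    · simpa [sem] using mul_nonneg hw (hg.pos Q hQ)
  | true =>
    have hb := Nat.eq_of_beq_eq_true hb
    simp only [geo, Nat.add_eq, Nat.sub_eq, Nat.add_eq_zero_iff, Nat.sub_eq_zero_iff_le] at hb
    obtain ⟨⟨⟨e0, e1⟩, e2⟩, e3, ⟨⟨g1, g2⟩, g3, g4⟩, g5, g6⟩ := hb
    have hρ : (0 : ℝ) < (p.tn : ℝ) / p.td := div_pos (by exact_mod_cast hp.tn) (by exact_mod_cast hp.td)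
    have hP : 0 < idx (p.At + 1) 0 := Nat.succ_pos _
    refine ⟨Pi.single 0 cm + Pi.single (idx k l) c1 + Pi.single (idx k2 l2) c2 + Pi.single (idx k3 l3) c3,
      ms, ?_, ?_, hms, fun g hg _ => ?_⟩
    · simp only [Pi.add_apply, add_mul, sum_add_distrib, engC_sum_single hP,
        engC_sum_single (idx_lt g2 g1).2, engC_sum_single (idx_lt g4 g3).2,
        engC_sum_single (idx_lt g6 g5).2]
      simp only [sh, Nat.add_eq, Nat.mul_eq, Nat.shiftLeft_eq', Nat.shiftLeft_eq, Nat.succ_eq_add_one]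
      ring
    · simp only [Pi.add_apply, sum_add_distrib, sum_pi_single', mem_range, hP, (idx_lt g2 g1).2,
        (idx_lt g4 g3).2, (idx_lt g6 g5).2, if_true]
      exact e3
    · rw [engC_sem_add, engC_sem_add, engC_sem_add, engC_sem_zero, engC_sem_idx _ g2 g1,
        engC_sem_idx _ g4 g3, engC_sem_idx _ g6 g5]
      have a0 : ∀ k l : ℕ, 2 ^ 48 * atom ((p.tn : ℝ) / p.td) k l 0 ≤ (Eng.h0 p.tn p.td k l : ℝ) :=
        fun k l => by simpa [atom, Eng.h0] using (plo_le hp.tn hp.td (2 * k) l).2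
      have a1 : ∀ k l : ℕ, 2 ^ 48 * atom ((p.tn : ℝ) / p.td) k l 1 ≤ (Eng.h1 p.tn p.td k l : ℝ) :=
        fun k l => by simpa [atom, Eng.h1] using (plo_le hp.tn hp.td (2 * l) k).2
      have a2 : ∀ k l : ℕ, 2 ^ 48 * atom ((p.tn : ℝ) / p.td) k l 2 ≤ (Eng.h2 p.tn p.td k l : ℝ) :=
        fun k l => by
          have := (plo_le hp.tn hp.td 0 (k + l)).2
          rw [show ((0 : ℕ) : ℤ) - ((k + l : ℕ) : ℤ) = -k - l by omega] at this
          simpa [atom, Eng.h2] using this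
      have key := engC_sup_le hg univ (c := ![(cm : ℝ), c1, c2, c3])
        (P := ![![1, 1, 0], atom ((p.tn : ℝ) / p.td) k l, atom ((p.tn : ℝ) / p.td) k2 l2,
          atom ((p.tn : ℝ) / p.td) k3 l3]) (a := 2 ^ 40 / 6 * w)
        (fun x _ => by fin_cases x <;> simp)
        (fun x _ => by
          fin_cases x
          · intro i; fin_cases i <;> simp
          all_goals exact atom_nn hρ _ _) (mul_nonneg (by norm_num) hw) hQ fun i => by
          rw [Fin.sum_univ_four]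
          fin_cases i
          · simpa using engC_lin e0 (engC_shl _ _) (a0 k l) (a0 k2 l2) (a0 k3 l3) h0
          · simpa using engC_lin e1 (engC_shl _ _) (a1 k l) (a1 k2 l2) (a1 k3 l3) h1
          · simpa using engC_lin e2 (m := 0) (by simp) (a2 k l) (a2 k2 l2) (a2 k3 l3) h2
      rw [Fin.sum_univ_four] at key
      simp only [Matrix.cons_val] at key
      linarith

theorem engC_col1 (n d At w q0 q1 q2 ms : ℕ) : ∃ cm k l k2 l2 k3 l3 c1 c2 c3,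
    col1 n d At w q0 q1 q2 ms = fin n d At w q0 q1 q2 ms cm k l k2 l2 k3 l3 c1 c2 c3 := by
  have h5 : ∀ cm k l k3 l3 z u v, ∃ k2 l2 c1 c2 c3, col5 n d At w q0 q1 q2 ms cm k l k3 l3 z u v =
      fin n d At w q0 q1 q2 ms cm k l k2 l2 k3 l3 c1 c2 c3 := by
    intro cm k l k3 l3 z u v
    unfold col5
    cases Nat.ble v u
    · exact ⟨_, _, _, _, _, rfl⟩
    · exact ⟨_, _, _, _, _, rfl⟩
  rw [col1, col1', col2, col3, frc_eq, frc_eq, frc_eq, frc_eq, col4]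
  obtain ⟨k2, l2, c1, c2, c3, e⟩ := h5 _ _ _ _ _ _ _ _
  exact ⟨_, _, _, k2, l2, _, _, c1, c2, c3, e⟩

theorem engC_tq (p : Par) (hp : p.OK) {a b c : ℕ} {x y z : ℝ} (ha : (a : ℝ) ≤ 2 ^ 48 * x)
    (hb : (b : ℝ) ≤ 2 ^ 48 * y) (hc : (c : ℝ) ≤ 2 ^ 48 * z) :
    (tq p a b c : ℝ) ≤
      2 ^ 48 * (-((p.en : ℝ) / p.ed) * x + (1 + (p.en : ℝ) / p.ed) / 3 * (x + y + z)) := by
  have hed : (0 : ℝ) < p.ed := by exact_mod_cast hp.ed
  have hen : 2 * (p.en : ℝ) ≤ p.ed := by exact_mod_cast hp.en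
  have hen0 : (0 : ℝ) ≤ p.en := Nat.cast_nonneg _
  have e : tq p a b c = ((p.ed - 2 * p.en) * a + (p.ed + p.en) * (b + c)) / (3 * p.ed) := rfl
  rw [e]
  refine Nat.cast_div_le.trans ?_
  push_cast [Nat.cast_sub hp.en]
  rw [div_le_iff₀ (by positivity)]
  have e2 : 2 ^ 48 * (-((p.en : ℝ) / p.ed) * x + (1 + (p.en : ℝ) / p.ed) / 3 * (x + y + z)) *
      (3 * p.ed) = (p.ed - 2 * p.en) * (2 ^ 48 * x) + (p.ed + p.en) * (2 ^ 48 * y + 2 ^ 48 * z) := by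
    field_simp; ring
  rw [e2]
  gcongr

/-- `col` unfolds (`frc_eq`, case split on the `Bool.rec`) to a `fin` with `q0 = tq p c a b`, `q1 = tq p b a c`,
`q2 = tq p a b c`, which are below `2^48` times the coordinates `2, 1, 0` of `chL (-η) v`; `SymF` reverses the order. -/
theorem col_ok (p : Par) (hp : p.OK) (w a b c : ℕ) {v : Fin 3 → ℝ}
    (ha : (a : ℝ) ≤ 2 ^ 48 * v 0) (hb : (b : ℝ) ≤ 2 ^ 48 * v 1) (hc : (c : ℝ) ≤ 2 ^ 48 * v 2)
    (hs : 2 ^ 48 * (v 0 + v 1 + v 2) ≤ a + b + c + 3) :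
    ColOK p (col p w a b c) (w * ∑ i, v i) fun g => w * g (chL (-((p.en : ℝ) / p.ed)) v) := by
  obtain ⟨cm, k, l, k2, l2, k3, l3, c1, c2, c3, e⟩ :=
    engC_col1 p.tn p.td p.At w (tq p c a b) (tq p b a c) (tq p a b c) (msu w a b c)
  rw [col, e]
  refine (fin_ok p hp w _ _ _ _ cm k l k2 l2 k3 l3 c1 c2 c3
    (Q := fun i => chL (-((p.en : ℝ) / p.ed)) v (Fin.revPerm i)) ?_ ?_ ?_).mono ?_
    fun g _ hs => by rw [hs]
  · refine (engC_tq p hp hc ha hb).trans_eq ?_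
    simp only [chL_apply, Fin.sum_univ_three]
    rw [show Fin.revPerm (0 : Fin 3) = 2 from rfl]
    push_cast; ring
  · refine (engC_tq p hp hb ha hc).trans_eq ?_
    simp only [chL_apply, Fin.sum_univ_three]
    rw [show Fin.revPerm (1 : Fin 3) = 1 from rfl]
    push_cast; ring
  · refine (engC_tq p hp ha hb hc).trans_eq ?_
    simp only [chL_apply, Fin.sum_univ_three]
    rw [show Fin.revPerm (2 : Fin 3) = 0 from rfl]
    push_cast; ring
  · have e1 : msu w a b c = w * (a + b + c + 3) / 2 ^ 8 + 1 := by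
      rw [← Nat.shiftRight_eq_div_pow]; rfl
    have h1 := Nat.lt_floor_add_one (((w * (a + b + c + 3) : ℕ) : ℝ) / ((2 ^ 8 : ℕ) : ℝ))
    rw [Nat.floor_div_eq_div] at h1
    rw [e1, Fin.sum_univ_three, le_div_iff₀ (by positivity), Nat.cast_add, Nat.cast_one]
    refine le_trans ?_ h1.le
    push_cast
    linarith [mul_le_mul_of_nonneg_left hs (Nat.cast_nonneg (α := ℝ) w)]

theorem engC_pl (p : Par) (hp : p.OK) (i j : ℕ) :
    ((pl p.sn p.sd (Nat.mul 2 i) j : ℝ) ≤ 2 ^ 48 * atom ((p.sn : ℝ) / p.sd) i j 0 ∧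
      2 ^ 48 * atom ((p.sn : ℝ) / p.sd) i j 0 ≤ (pl p.sn p.sd (Nat.mul 2 i) j : ℝ) + 1) ∧
    ((pl p.sn p.sd (Nat.mul 2 j) i : ℝ) ≤ 2 ^ 48 * atom ((p.sn : ℝ) / p.sd) i j 1 ∧
      2 ^ 48 * atom ((p.sn : ℝ) / p.sd) i j 1 ≤ (pl p.sn p.sd (Nat.mul 2 j) i : ℝ) + 1) ∧
    ((pl p.sn p.sd 0 (Nat.add i j) : ℝ) ≤ 2 ^ 48 * atom ((p.sn : ℝ) / p.sd) i j 2 ∧
      2 ^ 48 * atom ((p.sn : ℝ) / p.sd) i j 2 ≤ (pl p.sn p.sd 0 (Nat.add i j) : ℝ) + 1) := by
  refine ⟨by simpa [atom] using pl_le hp.sn hp.sd (2 * i) j,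
    by simpa [atom] using pl_le hp.sn hp.sd (2 * j) i, ?_⟩
  have := pl_le hp.sn hp.sd 0 (i + j)
  rw [show ((0 : ℕ) : ℤ) - ((i + j : ℕ) : ℤ) = -i - j by omega] at this
  simpa [atom] using this

theorem colA_ok (p : Par) (hp : p.OK) (i j : ℕ) :
    ColOK p (colA p i j) (wt i j * ∑ t, atom ((p.sn : ℝ) / p.sd) i j t)
      fun g => wt i j * g (chL (-((p.en : ℝ) / p.ed)) (atom ((p.sn : ℝ) / p.sd) i j)) := by
  obtain ⟨⟨a1, a2⟩, ⟨b1, b2⟩, c1, c2⟩ := engC_pl p hp i j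
  exact col_ok p hp _ _ _ _ a1 b1 c1 (by linarith)

theorem engC_chL_perm {g : (Fin 3 → ℝ) → ℝ} (hs : SymF g) (lam : ℝ) (P : Fin 3 → ℝ)
    (π : Equiv.Perm (Fin 3)) : g (chL lam fun t => P (π t)) = g (chL lam P) := by
  rw [← hs π (chL lam P)]
  congr 1
  funext t
  rw [chL_apply, chL_apply, Equiv.sum_comp π P]

/-- `(a,b,0), (a,c,0), (b,c,0)` are permutations of the three `kill t (a,b,c)`; `g ∘ chL` is symmetric -/
theorem colB_ok (p : Par) (hp : p.OK) (i j : ℕ) :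
    ColOK p (colB p i j) (wt i j * ∑ t, ∑ u, kill t (atom ((p.sn : ℝ) / p.sd) i j) u)
      fun g => wt i j * ∑ t, g (chL (-((p.en : ℝ) / p.ed)) (kill t (atom ((p.sn : ℝ) / p.sd) i j))) := by
  obtain ⟨⟨a1, a2⟩, ⟨b1, b2⟩, c1, c2⟩ := engC_pl p hp i j
  rw [colB, colB']
  generalize pl p.sn p.sd (Nat.mul 2 i) j = a at *
  generalize pl p.sn p.sd (Nat.mul 2 j) i = b at *
  generalize pl p.sn p.sd 0 (Nat.add i j) = c at *
  generalize atom ((p.sn : ℝ) / p.sd) i j = P at *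
  have h1 := col_ok p hp (wt i j) _ _ 0 (v := ![P 0, P 1, 0]) a1 b1 (by simp) (by simp; linarith)
  have h2 := col_ok p hp (wt i j) _ _ 0 (v := ![P 0, P 2, 0]) a1 c1 (by simp) (by simp; linarith)
  have h3 := col_ok p hp (wt i j) _ _ 0 (v := ![P 1, P 2, 0]) b1 c1 (by simp) (by simp; linarith)
  refine ((h1.add h2).add h3).mono (le_of_eq ?_) fun g _ hs => le_of_eq ?_
  · simp [Fin.sum_univ_three, kill]; ring
  · have e1 : ![P 0, P 1, 0] = kill 2 P := by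
      funext t; fin_cases t <;> simp [kill]
    have e2 : ![P 0, P 2, 0] = fun t => kill 1 P (Equiv.swap 1 2 t) := by
      funext t; fin_cases t <;> simp [kill, Equiv.swap_apply_def]
    have e3 : ![P 1, P 2, 0] = fun t => kill 0 P (finRotate 3 t) := by
      funext t; fin_cases t <;> simp [kill]
    rw [e1, e2, e3, engC_chL_perm hs, engC_chL_perm hs, Fin.sum_univ_three]
    ring

/-! ### part b: one step -/

private theorem cb_dig_zero (r : ℕ) : dig 0 r = 0 := by simp [dig_eq]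

private theorem cb_cert_zero (n d An : ℕ) (ν : Ex 3) : Cert n d An 0 ν := by
  refine ⟨fun r => by simp [cb_dig_zero], fun g hg _ => ?_⟩
  simpa [sem, cb_dig_zero] using val_nonneg ν hg.pos

private theorem cb_nn110 : NN (![1, 1, 0] : Fin 3 → ℝ) := fun i => by fin_cases i <;> simp

private theorem cb_nn100 : NN (![1, 0, 0] : Fin 3 → ℝ) := fun i => by fin_cases i <;> simp

private theorem cb_top {P t : ℕ} (F : ℕ → ℕ) :
    t ≤ Nat.shiftRight (∑ r ∈ range P, F r * 2 ^ (96 * r) + t * 2 ^ (96 * P)) (Nat.mul 96 P) := by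
  change t ≤ (_ : ℕ) >>> (96 * P)
  rw [Nat.shiftRight_eq_div_pow, Nat.le_div_iff_mul_le (by positivity)]
  exact Nat.le_add_left _ _

private theorem cb_div {y f : ℕ} (h : y ≤ f / 2 ^ 40) : (y : ℝ) ≤ f / 2 ^ 40 := by
  have h1 : (y : ℝ) ≤ ((f / 2 ^ 40 : ℕ) : ℝ) := Nat.cast_le.2 h
  refine h1.trans (Nat.cast_div_le.trans_eq ?_)
  rw [Nat.cast_pow, Nat.cast_ofNat]

private theorem cb_R {T t : ℕ} (ht : t ≤ T) :
    Nat.shiftRight (Nat.sub (Nat.shiftLeft 3 80) T) 40 = 0 ∨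
      (Nat.shiftRight (Nat.sub (Nat.shiftLeft 3 80) T) 40 : ℝ) * 2 ^ 40 + t ≤ 3 * 2 ^ 80 := by
  have e : ∀ V, Nat.shiftRight (Nat.sub V T) 40 = (V - T) / 2 ^ 40 := fun V =>
    Nat.shiftRight_eq_div_pow _ _
  have e' : Nat.shiftLeft 3 80 = 3 * 2 ^ 80 := Nat.shiftLeft_eq _ _
  have key : ∀ V c : ℕ, (V - T) / c = 0 ∨ (V - T) / c * c + t ≤ V := fun V c => by
    rcases le_total V T with h | h
    · left; rw [Nat.sub_eq_zero_of_le h, Nat.zero_div]
    · right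
      have := Nat.div_mul_le_self (V - T) c
      omega
  rw [e, e']
  refine (key (3 * 2 ^ 80) (2 ^ 40)).imp_right fun h => ?_
  have h1 := (Nat.cast_le (α := ℝ)).2 h
  rwa [Nat.cast_add, Nat.cast_mul, Nat.cast_mul, Nat.cast_pow, Nat.cast_pow, Nat.cast_ofNat,
    Nat.cast_ofNat] at h1

private theorem cb_pos {a b : ℕ} (ha : 0 < a) (hb : 0 < b) : (0 : ℝ) < (a : ℝ) / b := by positivity

private theorem cb_step3 (P X : ℕ) : step3 P X = 0 ∨ (Nat.shiftRight X (Nat.mul 96 P) < 2 ^ 96 ∧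
    step3 P X = Nat.land (Nat.shiftRight X 40) (Nat.mul 2199023255551 (ones P 96))) := by
  unfold step3
  generalize Nat.shiftRight X (Nat.mul 96 P) = T
  generalize Nat.land (Nat.shiftRight X 40) (Nat.mul 2199023255551 (ones P 96)) = Y
  cases hb : Nat.ble T 79228162514264337593543950335
  · exact Or.inl rfl
  · exact Or.inr ⟨(Nat.le_of_ble_eq_true hb).trans_lt (by norm_num), rfl⟩

/-- If the top slot is `< 2^96` then so are all `F r`, hence `dig X r = F r` (`dig_sum`), and the new digits are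
`≤ F r / 2^40` (`dig_land_shift` with `a = 0`, `dig_ones`). -/
theorem step3_ok (p : Par) (hp : p.OK) {X : ℕ} {a : ℝ} {Φ : ((Fin 3 → ℝ) → ℝ) → ℝ} (h : ColOK p X a Φ)
    {ν : Ex 3} (hν : ∀ g, Sup g → SymF g → Φ g ≤ 2 ^ 40 * val ν g) :
    Cert p.tn p.td p.At (step3 (idx (p.At + 1) 0) X) ν := by
  obtain ⟨F, t, hX, hF, -, hΦ⟩ := h
  obtain ⟨P, hP⟩ : ∃ P, P = idx (p.At + 1) 0 := ⟨_, rfl⟩
  rw [← hP] at hF hX ⊢
  have ht := cb_top (P := P) (t := t) F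
  rw [← hX] at ht
  rcases cb_step3 P X with h0 | ⟨hb, h0⟩
  · rw [h0]; exact cb_cert_zero _ _ _ _
  have h1 : t < 2 ^ 96 := ht.trans_lt hb
  have h2 : ∀ r < P, dig X r = F r := fun r hr => by
    rw [hX]
    exact dig_sum P F (fun r hr =>
      ((single_le_sum (fun _ _ => Nat.zero_le _) (mem_range.2 hr)).trans hF).trans_lt h1) t r hr
  have hM : ∀ r, dig (Nat.mul 2199023255551 (ones P 96)) r < 2 ^ 41 := fun r => by
    rw [dig_ones]; split_ifs <;> norm_num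
  have h3 := fun r => dig_land_shift X (Nat.mul 2199023255551 (ones P 96)) 0 r (hM r)
  simp only [Nat.mul_zero, Nat.add_zero, ← h0] at h3
  generalize step3 P X = Y at h3
  refine ⟨fun r => (h3 r).2.trans_lt (hM r), fun g hg hs => ?_⟩
  have h4 : ∀ r < P, (dig Y r : ℝ) ≤ F r / 2 ^ 40 := fun r hr => by
    have h5 := (h3 r).1
    rw [h2 r hr] at h5
    exact cb_div h5
  have hρ := cb_pos hp.tn hp.td
  have h6 : sem ((p.tn : ℝ) / p.td) p.At (dig Y) g ≤ sem ((p.tn : ℝ) / p.td) p.At F g / 2 ^ 40 := by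
    unfold sem
    rw [add_div, sum_div]
    refine add_le_add ?_ (sum_le_sum fun k hk => ?_)
    · rw [mul_div_right_comm]
      exact mul_le_mul_of_nonneg_right (h4 0 (hP ▸ Nat.succ_pos _)) (hg.pos _ cb_nn110)
    · rw [sum_div]
      refine sum_le_sum fun l hl => ?_
      rw [mul_div_right_comm]
      exact mul_le_mul_of_nonneg_right (h4 _ (hP ▸ (idx_lt (Nat.lt_succ_iff.1 (mem_range.1 hl))
        (Nat.lt_succ_iff.1 (mem_range.1 hk))).2)) (hg.pos _ (atom_nn hρ _ _))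
  have h7 := (hΦ g hg hs).trans (hν g hg hs)
  linarith

private theorem cb_tot : Sup (fun P : Fin 3 → ℝ => ∑ i, P i) ∧ SymF fun P : Fin 3 → ℝ => ∑ i, P i :=
  ⟨⟨⟨test_tot, fun P hP => sum_nonneg fun i _ => hP i⟩, fun P Q _ _ => sum_add_distrib.ge⟩,
    fun π P => Equiv.sum_comp π P⟩

private theorem cb_val_tot {μ : Ex 3} (hμ : Norm μ) : val μ (fun P => ∑ i, P i) = 3 := by
  rw [val_tot, sum_congr rfl fun i _ => hμ i]; simp

private theorem cb_vert {G : (Fin 3 → ℝ) → ℝ} (hG : Sup G) (hs : SymF G) {P : Fin 3 → ℝ} (hP : NN P) :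
    G ![1, 0, 0] * ∑ i, P i ≤ G P := by
  have h1 := hG.sum_le univ (P := fun k i => P k * (![1, 0, 0] : Fin 3 → ℝ) (Equiv.swap 0 k i))
    fun k _ i => mul_nonneg (hP k) (cb_nn100 _)
  have h2 : (fun i => ∑ k, P k * (![1, 0, 0] : Fin 3 → ℝ) (Equiv.swap 0 k i)) = P := by
    funext i
    fin_cases i <;> simp [Fin.sum_univ_three, Equiv.swap_apply_def]
  rw [h2] at h1
  refine le_trans (le_of_eq ?_) h1
  rw [mul_sum]
  refine sum_congr rfl fun k _ => ?_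
  rw [hG.hom (P k) _ (hP k) fun i => cb_nn100 _, hs, mul_comm]

private theorem cb_lost {μ : Ex 3} (hμ : Norm μ) {lam : ℝ} (hl : LamOK 3 lam)
    {g : (Fin 3 → ℝ) → ℝ} (hg : Sup g) (hs : SymF g) :
    Sup (fun P => g (chL lam P) - g (chL lam ![1, 0, 0]) * ∑ i, P i) ∧
    SymF (fun P => g (chL lam P) - g (chL lam ![1, 0, 0]) * ∑ i, P i) ∧
    val μ (fun P => g (chL lam P) - g (chL lam ![1, 0, 0]) * ∑ i, P i)
      = val (μ.chan lam) g - 3 * g (chL lam ![1, 0, 0]) := by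
  have hG := hg.chL hl
  have hS : SymF fun P => g (chL lam P) := fun π P => by
    have e : chL lam (fun i => P (π i)) = fun i => chL lam P (π i) := by
      funext i
      rw [chL_apply, chL_apply, Equiv.sum_comp π P]
    simp only [e]
    exact hs π _
  refine ⟨⟨⟨hG.toTest.sub (test_tot.const_mul _), fun P hP => sub_nonneg.2 (cb_vert hG hS hP)⟩,
    fun P Q hP hQ => ?_⟩, fun π P => ?_, ?_⟩
  · have := hG.sup P Q hP hQ
    simp only [sum_add_distrib] at this ⊢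
    linarith
  · have := hS π P
    simp only [Equiv.sum_comp π P] at this ⊢
    rw [this]
  · rw [val_sub_fun μ hG.adm (test_tot.const_mul _).adm, val_mul_fun, cb_val_tot hμ, val_chan μ hl,
      mul_comm]

/-- The lost mass. For `Sup`, `SymF` `g` put `γ = g (chL lam e₀)` and `g' P = g (chL lam P) - γ ∑ P`, which is `Sup` and `SymF`;
`val μ g' = val (μ.chan lam) g - 3 γ`. -/
theorem lost_mass {μ : Ex 3} (hμ : Norm μ) {lam : ℝ} (hl : LamOK 3 lam) {κ : Type*} (S : Finset κ)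
    (c : κ → ℝ) (v : κ → Fin 3 → ℝ)
    (h : ∀ g, Sup g → SymF g → ∑ x ∈ S, c x * g (v x) ≤ val μ g)
    {g : (Fin 3 → ℝ) → ℝ} (hg : Sup g) (hs : SymF g) :
    ∑ x ∈ S, c x * g (chL lam (v x)) + (3 - ∑ x ∈ S, c x * ∑ i, v x i) * g (chL lam ![1, 0, 0])
      ≤ val (μ.chan lam) g := by
  obtain ⟨h1, h2, h3⟩ := cb_lost hμ hl hg hs
  have h4 := h _ h1 h2
  rw [h3] at h4
  have h5 : ∑ x ∈ S, c x * (g (chL lam (v x)) - g (chL lam ![1, 0, 0]) * ∑ i, v x i) =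
      ∑ x ∈ S, c x * g (chL lam (v x)) - (∑ x ∈ S, c x * ∑ i, v x i) * g (chL lam ![1, 0, 0]) := by
    rw [sum_mul, ← sum_sub_distrib]
    exact sum_congr rfl fun x _ => by ring
  linarith

private theorem cb_sum {p : Par} {κ : Type*} (S : Finset κ) {X : κ → ℕ} {a : κ → ℝ}
    {Φ : κ → ((Fin 3 → ℝ) → ℝ) → ℝ} (h : ∀ x ∈ S, ColOK p (X x) (a x) (Φ x)) :
    ColOK p (∑ x ∈ S, X x) (∑ x ∈ S, a x) fun g => ∑ x ∈ S, Φ x g := by
  classical
  induction S using Finset.induction_on with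
  | empty => simpa using ColOK.zero p
  | insert x S hx ih =>
    simp only [sum_insert hx]
    exact (h x (mem_insert_self _ _)).add (ih fun y hy => h y (mem_insert_of_mem hy))

private theorem cb_csum (p : Par) (X : ℕ) (f : ℕ → ℕ → ℕ) :
    (@Bool.rec (fun _ => ℕ) (csum p.A fun i j => Nat.mul (dig (row p X i) j) (f i j)) 0 (Nat.beq X 0)) =
      ∑ i ∈ range (p.A + 1), ∑ j ∈ range (i + 1),
        dig X ((i + p.A) * stride p + (j + p.A)) * f i j := by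
  cases hb : Nat.beq X 0
  · change csum _ _ = _
    rw [csum_eq]
    refine sum_congr rfl fun i _ => sum_congr rfl fun j hj => ?_
    rw [dig_row p X i j (Nat.lt_succ_iff.1 (mem_range.1 hj))]
    rfl
  · obtain rfl := Nat.eq_of_beq_eq_true hb
    simp [cb_dig_zero]

private theorem cb_lam {p : Par} (hp : p.OK) : LamOK 3 (-((p.en : ℝ) / p.ed)) := by
  have h1 : (0 : ℝ) < p.ed := by exact_mod_cast hp.ed
  have h2 : (2 : ℝ) * p.en ≤ p.ed := by exact_mod_cast hp.en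
  refine lamOK_three (neg_le_neg ?_) ?_
  · rw [div_le_iff₀ h1]; linarith
  · have : (0 : ℝ) ≤ (p.en : ℝ) / p.ed := by positivity
    linarith

private theorem cb_step2 (p : Par) (hp : p.OK) {X : ℕ} {μ : Ex 3} (hμ : Norm μ)
    {Ψ : ((Fin 3 → ℝ) → ℝ) → ℝ} (hΨ : ∀ g c, Ψ (fun P => g P - c * ∑ i, P i) = Ψ g - c * Ψ fun P => ∑ i, P i)
    (h : ColOK p X (Ψ fun P => ∑ i, P i) fun g => Ψ fun P => g (chL (-((p.en : ℝ) / p.ed)) P))
    (hv : ∀ g, Sup g → SymF g → Ψ g ≤ 2 ^ 40 * val μ g) :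
    Cert p.tn p.td p.At (step2 p (idx (p.At + 1) 0) X) (μ.chan (-((p.en : ℝ) / p.ed))) := by
  have hl := cb_lam hp
  have hc := col_ok p hp 1 281474976710656 0 0 (v := ![1, 0, 0]) (by norm_num) (by simp) (by simp)
    (by simp; norm_num)
  obtain ⟨R, hR⟩ : ∃ R, R = Nat.shiftRight (Nat.sub (Nat.shiftLeft 3 80)
    (Nat.shiftRight X (Nat.mul 96 (idx (p.At + 1) 0)))) 40 := ⟨_, rfl⟩
  have h1 : (R : ℝ) ≤ 3 * 2 ^ 40 - Ψ fun P => ∑ i, P i := by
    have h2 := hv _ cb_tot.1 cb_tot.2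
    rw [cb_val_tot hμ] at h2
    obtain ⟨F, t, hX, -, ht, -⟩ := h
    have h3 := cb_top (P := idx (p.At + 1) 0) (t := t) F
    rw [← hX] at h3
    have h4 := cb_R h3
    rw [← hR] at h4
    clear * - h2 h4 ht
    rcases h4 with h0 | h0
    · rw [h0, Nat.cast_zero]; linarith
    · linarith
  unfold step2
  rw [← hR]
  refine step3_ok p hp (h.add (hc.mul R)) fun g hg hs => ?_
  obtain ⟨h2, h3, h4⟩ := cb_lost hμ hl hg hs
  have h5 := hv _ h2 h3
  rw [h4, hΨ] at h5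
  have h6 := mul_le_mul_of_nonneg_right h1 (hg.pos _ (cb_nn100.chL hl))
  push_cast
  linarith

/-- `inv_horner`, `dig_row`, `formal_sound` give the hypothesis of `lost_mass` for `μ = ν.gen ω` with the weights
`wt i j * dig … / 2^40`; `csum_eq`, `ColOK.add/mul`, `colA_ok`, `colB_ok`, `col_ok` (for `v = ![1,0,0]`), `step3_ok`.
The top slot `t` of `acc` satisfies `t ≤ acc >>> (96 P)`, so `R * 2^40 ≤ 3 * 2^80 - t` unless `R = 0`
(the total mass of the certificate is `≤ 3`: apply the hypothesis to `g = ∑`). -/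
theorem step_sound (p : Par) (hp : p.OK) {s : ℕ} {ν : Ex 3} (hν : Good ν) (h : Cert p.sn p.sd p.An s ν)
    {ω : Off} (hω : Below p.ps ω) :
    Cert p.tn p.td p.At (step p s) ((ν.gen ω).chan (-((p.en : ℝ) / p.ed))) := by
  obtain ⟨hA, hB⟩ := inv_horner p hp h.1
  have hm : ((p.fl * dig s 0 : ℕ) : ℝ) / 2 ^ 40 ≤ 2 * (dig s 0 : ℝ) / 2 ^ 40 := by
    have : (p.fl : ℝ) ≤ 2 := by exact_mod_cast hp.fl
    push_cast
    gcongr
  have hF := fun g => formal_sound hp.sn hp.sd hν.sym h (by positivity) hm hω ⟨hA.nonneg, hB.nonneg⟩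
    p.A (g := g)
  change Cert _ _ _ (step1 p (horner p (arrN p s) (p.fl * dig s 0)).1
    (horner p (arrN p s) (p.fl * dig s 0)).2) _
  generalize (horner p (arrN p s) (p.fl * dig s 0)).1 = X at hA
  generalize (horner p (arrN p s) (p.fl * dig s 0)).2 = Y at hB
  generalize (hf (NF p.An s) ((p.fl * dig s 0 : ℕ) / 2 ^ 40) p.ps).1 = A at hA hF
  generalize (hf (NF p.An s) ((p.fl * dig s 0 : ℕ) / 2 ^ 40) p.ps).2 = B at hB hF
  have hρ := cb_pos hp.sn hp.sd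
  unfold step1
  rw [cb_csum, cb_csum]
  refine cb_step2 p hp (hν.gen ω).norm (Ψ := fun g =>
    ∑ i ∈ range (p.A + 1), ∑ j ∈ range (i + 1), (dig X ((i + p.A) * stride p + (j + p.A)) : ℝ) *
      (wt i j * g (atom ((p.sn : ℝ) / p.sd) i j)) +
    ∑ i ∈ range (p.A + 1), ∑ j ∈ range (i + 1), (dig Y ((i + p.A) * stride p + (j + p.A)) : ℝ) *
      (wt i j * ∑ t, g (kill t (atom ((p.sn : ℝ) / p.sd) i j)))) (fun g c => ?_) ?_ fun g hg hs => ?_
  · rw [mul_add, ← sub_sub, add_sub_right_comm, add_sub_assoc, mul_sum, mul_sum, ← sum_sub_distrib,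
      ← sum_sub_distrib]
    congr 1 <;> refine sum_congr rfl fun i _ => ?_ <;> rw [mul_sum, ← sum_sub_distrib] <;>
      refine sum_congr rfl fun j _ => ?_
    · ring
    · rw [sum_sub_distrib, ← mul_sum]; ring
  · exact (cb_sum _ fun i _ => cb_sum _ fun j _ => (colA_ok p hp i j).mul _).add
      (cb_sum _ fun i _ => cb_sum _ fun j _ => (colB_ok p hp i j).mul _)
  · refine le_trans ?_ (mul_le_mul_of_nonneg_left (hF g hg hs) (by positivity))
    rw [← sum_add_distrib, mul_sum]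
    refine sum_le_sum fun i hi => ?_
    rw [← sum_add_distrib, mul_sum]
    refine sum_le_sum fun j hj => ?_
    have hi' := mem_range.1 hi
    have hj' := mem_range.1 hj
    have h1 := hA.le (i + p.A) (j + p.A) (by omega) (by omega)
    have h2 := hB.le (i + p.A) (j + p.A) (by omega) (by omega)
    simp only [Nat.cast_add, add_sub_cancel_right] at h1 h2
    have h3 : 0 ≤ (wt i j : ℝ) * g (atom ((p.sn : ℝ) / p.sd) i j) :=
      mul_nonneg (Nat.cast_nonneg _) (hg.pos _ (atom_nn hρ _ _))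
    have h4 : 0 ≤ (wt i j : ℝ) * ∑ t, g (kill t (atom ((p.sn : ℝ) / p.sd) i j)) :=
      mul_nonneg (Nat.cast_nonneg _) (sum_nonneg fun t _ => hg.pos _ fun u => by
        unfold kill
        split_ifs
        exacts [le_rfl, atom_nn hρ _ _ u])
    refine (add_le_add (mul_le_mul_of_nonneg_right h1 h3) (mul_le_mul_of_nonneg_right h2 h4)).trans_eq ?_
    ring

theorem cert_zero (n d An : ℕ) (ν : Ex 3) : Cert n d An 0 ν := by
  exact cb_cert_zero n d An ν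

theorem iter_sound (p : Par) (hp : p.OK) (h1 : p.tn = p.sn) (h2 : p.td = p.sd) (h3 : p.At = p.An)
    {ω : Off} (hω : Below p.ps ω) {s N : ℕ}
    (h : Cert p.sn p.sd p.An s ((mu 3 (-((p.en : ℝ) / p.ed)) ω N).chan (-((p.en : ℝ) / p.ed)))) (n : ℕ) :
    Cert p.sn p.sd p.An (iter p n s)
      ((mu 3 (-((p.en : ℝ) / p.ed)) ω (N + n)).chan (-((p.en : ℝ) / p.ed))) := by
  have hl := cb_lam hp
  induction n with
  | zero => exact h
  | succ n ih =>
    have := step_sound p hp ((good_mu hl ω (N + n)).chan hl) ih hω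
    rw [h1, h2, h3] at this
    exact this

private theorem cb_g {P : Fin 3 → ℝ} (h : P 0 + P 1 + P 2 ≠ 0) :
    2 / 3 * ∑ i, P i - hom fH P = 2 * (P 0 * P 1 + P 0 * P 2 + P 1 * P 2) / (P 0 + P 1 + P 2) := by
  simp only [hom, fH, Fin.sum_univ_three]
  push_cast
  field_simp
  ring

private theorem cb_g0 {P : Fin 3 → ℝ} (h : P 0 + P 1 + P 2 = 0) : 2 / 3 * ∑ i, P i - hom fH P = 0 := by
  simp only [hom, Fin.sum_univ_three, h]
  simp

private theorem cb_gh : Sup (fun P : Fin 3 → ℝ => 2 / 3 * ∑ i, P i - hom fH P) ∧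
    SymF fun P : Fin 3 → ℝ => 2 / 3 * ∑ i, P i - hom fH P := by
  refine ⟨⟨⟨(test_tot.const_mul _).sub (test_hom (by norm_num) bdd_fH), fun P hP => ?_⟩,
    fun P Q hP hQ => ?_⟩, fun π P => ?_⟩
  · have h0 := hP 0
    have h1 := hP 1
    have h2 := hP 2
    by_cases h : P 0 + P 1 + P 2 = 0
    · exact (cb_g0 h).ge
    · rw [cb_g h]; positivity
  · have h0 := hP 0
    have h1 := hP 1
    have h2 := hP 2
    have k0 := hQ 0
    have k1 := hQ 1
    have k2 := hQ 2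
    by_cases h : P 0 + P 1 + P 2 = 0
    · have e : (fun i => P i + Q i) = Q := by
        funext i
        fin_cases i <;> simp <;> linarith
      rw [cb_g0 h, e, zero_add]
    by_cases k : Q 0 + Q 1 + Q 2 = 0
    · have e : (fun i => P i + Q i) = P := by
        funext i
        fin_cases i <;> simp <;> linarith
      rw [cb_g0 k, e, add_zero]
    have hS : 0 < P 0 + P 1 + P 2 := lt_of_le_of_ne (by positivity) (Ne.symm h)
    have hT : 0 < Q 0 + Q 1 + Q 2 := lt_of_le_of_ne (by positivity) (Ne.symm k)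
    have hST : 0 < P 0 + Q 0 + (P 1 + Q 1) + (P 2 + Q 2) := by linarith
    rw [cb_g h, cb_g k, cb_g (P := fun i => P i + Q i) hST.ne', div_add_div _ _ h k,
      div_le_div_iff₀ (mul_pos hS hT) hST]
    nlinarith [sq_nonneg (P 0 * (Q 0 + Q 1 + Q 2) - Q 0 * (P 0 + P 1 + P 2)),
      sq_nonneg (P 1 * (Q 0 + Q 1 + Q 2) - Q 1 * (P 0 + P 1 + P 2)),
      sq_nonneg (P 2 * (Q 0 + Q 1 + Q 2) - Q 2 * (P 0 + P 1 + P 2))]
  · simp only [hom, fH, Equiv.sum_comp π P]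
    rw [Equiv.sum_comp π fun i => (((3 : ℕ) : ℝ) * P i / ∑ j, P j - 1) ^ 2]

private theorem cb_gh1 {a b c : ℕ} {P : Fin 3 → ℝ} (hP : 0 < P 0 + P 1 + P 2)
    (ha : (a : ℝ) ≤ 2 ^ 48 * P 0 ∧ 2 ^ 48 * P 0 ≤ a + 1) (hb : (b : ℝ) ≤ 2 ^ 48 * P 1 ∧ 2 ^ 48 * P 1 ≤ b + 1)
    (hc : (c : ℝ) ≤ 2 ^ 48 * P 2 ∧ 2 ^ 48 * P 2 ≤ c + 1) :
    (gh1 a b c : ℝ) ≤ 6 * 2 ^ 48 * (2 / 3 * ∑ i, P i - hom fH P) := by
  have h1 : gh1 a b c = 12 * (a * b + a * c + b * c) / (a + b + c + 3) := rfl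
  have a0 : (0 : ℝ) ≤ a := Nat.cast_nonneg _
  have b0 : (0 : ℝ) ≤ b := Nat.cast_nonneg _
  have c0 : (0 : ℝ) ≤ c := Nat.cast_nonneg _
  have a1 := a0.trans ha.1
  have b1 := b0.trans hb.1
  have c1 := c0.trans hc.1
  rw [cb_g hP.ne', h1]
  refine Nat.cast_div_le.trans ?_
  push_cast
  calc _ ≤ 12 * ((2 ^ 48 * P 0) * (2 ^ 48 * P 1) + (2 ^ 48 * P 0) * (2 ^ 48 * P 2) +
        (2 ^ 48 * P 1) * (2 ^ 48 * P 2)) / (2 ^ 48 * (P 0 + P 1 + P 2)) := by
        refine div_le_div₀ (mul_nonneg (by norm_num) (add_nonneg (add_nonneg (mul_nonneg a1 b1)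
          (mul_nonneg a1 c1)) (mul_nonneg b1 c1))) ?_ (mul_pos (by norm_num) hP)
          (by linarith [ha.2, hb.2, hc.2])
        gcongr
        exacts [ha.1, hb.1, ha.1, hc.1, hb.1, hc.1]
    _ = _ := by field_simp; ring

/-- `g P = 2 (P0 P1 + P0 P2 + P1 P2)/(P0+P1+P2) = 2/3 ∑ P - hom fH P` is `Sup`, `SymF`, `val ν g = 2 - hh ν`, `g (1,1,0) = 1`. -/
theorem gh_sound {n d An s : ℕ} (hn : 0 < n) (hd : 0 < d) {ν : Ex 3} (hν : Norm ν) (h : Cert n d An s ν) :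
    hh ν ≤ 2 - (gh n d An s : ℝ) / 2 ^ 88 := by
  have h1 := h.2 _ cb_gh.1 cb_gh.2
  rw [val_sub_fun ν (test_tot.const_mul _).adm (test_hom (by norm_num) bdd_fH).adm, val_mul_fun,
    cb_val_tot hν] at h1
  have hρ : (0 : ℝ) < (n : ℝ) / d := by positivity
  have h2 : (gh n d An s : ℝ) ≤
      6 * 2 ^ 48 * sem ((n : ℝ) / d) An (dig s) fun P => 2 / 3 * ∑ i, P i - hom fH P := by
    have e : gh n d An s = 6 * dig s 0 * 2 ^ 48 + ∑ k ∈ range (An + 1), ∑ l ∈ range (k + 1),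
        dig s (idx k l) * gh1 (plo n d (2 * k) l) (plo n d (2 * l) k) (plo n d 0 (k + l)) := by
      unfold gh
      rw [csum_eq, ← Nat.shiftLeft_eq]
      rfl
    rw [e, sem, cb_g (by simp), mul_add, mul_sum]
    push_cast
    refine add_le_add (le_of_eq (by simp; ring)) (sum_le_sum fun k _ => ?_)
    rw [mul_sum]
    refine sum_le_sum fun l _ => ?_
    rw [mul_left_comm]
    refine mul_le_mul_of_nonneg_left (cb_gh1 ?_ ?_ ?_ ?_) (Nat.cast_nonneg _)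
    · simp only [atom, Matrix.cons_val_zero, Matrix.cons_val_one, Matrix.cons_val]
      positivity
    · simpa [atom] using plo_le hn hd (2 * k) l
    · simpa [atom] using plo_le hn hd (2 * l) k
    · have e : -(k : ℤ) - l = ((0 : ℕ) : ℤ) - ((k + l : ℕ) : ℤ) := by push_cast; ring
      simp only [atom, e]
      exact plo_le hn hd 0 (k + l)
  change ev ν fH ≤ _
  unfold ev
  linarith

end Crest.Agent.R163.Eng
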