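import Crest.Agent.R163.Basin
import Crest.Agent.R163.EngC
import Crest.Agent.R163.Link

/-! R163: from the engine runs to nonreconstruction for three states. -/

set_option autoImplicit false
set_option linter.unusedVariables false

namespace Crest.Agent.R163

def Reach (η : ℝ) (ω : Off) (h0 : ℝ) : Prop := ∃ N, hh (mu 3 (-η) ω N) ≤ h0

def NR (lam : ℝ) (ω : Off) : Prop := Filter.Tendsto (fun n => hh (mu 3 lam ω n)) Filter.atTop (nhds 0)

/-- numerical side conditions of a box `η ∈ [η1, η2]` -/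
structure BoxOK (θ η1 η2 h0 α m s κ l : ℝ) : Prop where
  e1 : 0 < η1
  e2 : η2 ≤ 1 / 2
  h0p : 0 < h0
  hx : 11 / 10 * h0 ≤ 1
  hs : θ * (11 / 10 * h0 / 2 + (11 / 10 * h0) ^ 2 / 6 + (11 / 10 * h0) ^ 3 / 18) ≤ 11 / 10 * s
  a0 : 0 ≤ α
  a1 : α ≤ 1
  m0 : 0 < m
  s0 : 0 ≤ s
  l0 : 0 < l
  k1 : α * (1 + η1) - η1 ≤ κ
  k2 : -κ ≤ α * (1 + η2) - η2
  c1 : κ * l / 2 ≤ 11 / 50 - m - s * α * (59 / 10)
  c2 : 0 ≤ 11 / 50 - m - s * α * (59 / 10) - κ * l / 2
    + 2 * (α * (7 / 10) * (1 - η2 ^ 2) - η2 ^ 2 / 2 - s * α * (17 / 2) * η2 ^ 2 - κ / (4 * l))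

theorem bxa_close {θ η1 η2 h0 α m s κ l : ℝ} (hB : BoxOK θ η1 η2 h0 α m s κ l) {η : ℝ} (h1 : η1 ≤ η)
    (h2 : η ≤ η2) (y : Fin 3 → ℝ) (hy : Simp y) :
    0 ≤ (11 / 50 - m - s * α * q31) * fH y + (α * (1 + η) - η + s * α * q32 * η) * fT y
      + (α * rho3 * (1 - η ^ 2) - η ^ 2 / 2 - s * α * q33 * η ^ 2) * fH y ^ 2 := by
  have e1 := hB.e1
  have a0 := hB.a0
  have a1 := hB.a1
  have s0 := hB.s0
  refine close_of (κ := κ) hB.l0 ?_ ?_ ?_ y hy
  · have k1 := hB.k1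
    have k2 := hB.k2
    simp only [q32, mul_zero, zero_mul, add_zero]
    rw [abs_le]
    constructor
    · nlinarith [mul_nonneg (sub_nonneg.2 a1) (sub_nonneg.2 h2)]
    · nlinarith [mul_nonneg (sub_nonneg.2 a1) (sub_nonneg.2 h1)]
  · simpa only [q31] using hB.c1
  · have c2 := hB.c2
    have hsq : 0 ≤ η2 ^ 2 - η ^ 2 := sub_nonneg.2 (pow_le_pow_left₀ (by linarith) h2 2)
    have t1 := mul_nonneg a0 hsq
    have t2 := mul_nonneg (mul_nonneg s0 a0) hsq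
    simp only [q31, q33, rho3]
    nlinarith

theorem bxa_squeeze {lam lam' : ℝ} {ω ω' : Off} (hl : LamOK 3 lam) (hl' : LamOK 3 lam')
    (h : ∀ n, Le (mu 3 lam' ω' n) (mu 3 lam ω n)) (h' : NR lam' ω') : NR lam ω :=
  squeeze_zero (fun n => hh_nonneg (by norm_num) _)
    (fun n => (h n).hh (by norm_num) (good_mu hl' ω' n).norm (good_mu hl ω n).norm) h'

theorem bxa_reach {η η' h0 : ℝ} {ω ω' : Off} (hl : LamOK 3 (-η)) (hl' : LamOK 3 (-η'))
    (h : ∀ n, Le (mu 3 (-η') ω' n) (mu 3 (-η) ω n)) (h' : Reach η' ω' h0) : Reach η ω h0 := by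
  obtain ⟨N, hN⟩ := h'
  exact ⟨N, ((h N).hh (by norm_num) (good_mu hl' ω' N).norm (good_mu hl ω N).norm).trans hN⟩

/-- `dom_poi` twice: `(d, η)` is dominated by the critical `(1/η², η)` (then `Le.hh` and squeezing), which is dominated by
`(d2, η2)` (this gives `hN` of `basin`). In `basin`: `hS` from `S_poi` with `ε = C3 η² h0`, `x = C3 h0`; `hclose` from
`close_of` (`q32 = 0`; the coefficient of `fT` is decreasing in `η`, the coefficient of `fH²` is at least its value at `η2`). -/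
theorem box_poi {η1 η2 h0 α m s κ l d2 : ℝ} (hB : BoxOK 1 η1 η2 h0 α m s κ l) (hd2 : 1 ≤ d2 * η1 * η2)
    (hR : Reach η2 (Off.poi d2) h0) {η d : ℝ} (h1 : η1 ≤ η) (h2 : η ≤ η2) (hd : 0 ≤ d) (hc : d * η ^ 2 ≤ 1) :
    NR (-η) (Off.poi d) := by
  have e1 := hB.e1
  have e2 := hB.e2
  have hη : 0 < η := by linarith
  have hl : LamOK 3 (-η) := lamOK_three (by linarith) (by linarith)
  have hl2 : LamOK 3 (-η2) := lamOK_three (by linarith) (by linarith)
  have hdc : 0 < 1 / η ^ 2 := by positivity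
  have hcrit : 1 / η ^ 2 * η ^ 2 = 1 := by field_simp
  have hdom : d * η ≤ 1 / η ^ 2 * η := by
    refine mul_le_mul_of_nonneg_right ?_ hη.le
    rwa [le_div_iff₀ (by positivity)]
  have hdom2 : 1 / η ^ 2 * η ≤ d2 * η2 := by
    have e : 1 / η ^ 2 * η = 1 / η := by field_simp
    rw [e, div_le_iff₀ hη]
    have h3 : 0 < d2 * η2 := by
      by_contra h
      have h4 := mul_nonpos_of_nonpos_of_nonneg (not_lt.1 h) e1.le
      nlinarith
    nlinarith [mul_le_mul_of_nonneg_left h1 h3.le]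
  refine bxa_squeeze hl hl (fun n => dom_poi (by norm_num) hη.le le_rfl hη hl hd hdom n) ?_
  refine basin (s := s) (α := α) (m := m) (h0 := h0) _ hη (by linarith) (mean_poi hdc.le) hcrit (two_poi hdc)
    hB.a0 hB.m0 ?_ (bxa_close hB h1 h2)
    (bxa_reach hl hl2 (fun n => dom_poi (by norm_num) hη.le h2 (by linarith) hl2 hdc.le hdom2 n) hR)
  have h0p := hB.h0p
  have hε : 0 < C3 * η ^ 2 * h0 := by
    simp only [C3]
    positivity
  have h3 := S_poi (x := 11 / 10 * h0) hdc hε (by simp only [C3]; field_simp) hB.hx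
  have h4 := mul_le_mul_of_nonneg_left h3 (sq_nonneg η)
  refine h4.trans ?_
  rw [← mul_assoc, mul_comm (η ^ 2), hcrit]
  exact hB.hs

/-- as `box_poi`, with `dom_reg`, the critical value `ηb = 1/√b ∈ [η1, η2]` and `S_reg` -/
theorem box_reg {η1 η2 h0 α m s κ l : ℝ} (b1 b2 : ℕ) (hb : 2 ≤ b1) (hB : BoxOK (1 - 1 / b2) η1 η2 h0 α m s κ l)
    (e0 : 0 < η2) (h1 : η1 ^ 2 * b2 ≤ 1) (h2 : 1 ≤ η2 ^ 2 * b1)
    (hR : Reach η2 (Off.reg b2) h0) {b : ℕ} {η : ℝ} (hb1 : b1 ≤ b) (hb2 : b ≤ b2) (h0' : 0 ≤ η)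
    (hc : b * η ^ 2 ≤ 1) : NR (-η) (Off.reg b) := by
  have e1 := hB.e1
  have e2 := hB.e2
  have hb0 : (2 : ℝ) ≤ b := by exact_mod_cast hb.trans hb1
  have hb1' : (b1 : ℝ) ≤ b := by exact_mod_cast hb1
  have hb2' : (b : ℝ) ≤ b2 := by exact_mod_cast hb2
  obtain ⟨ζ, hζ, hcrit⟩ : ∃ ζ : ℝ, 0 < ζ ∧ (b : ℝ) * ζ ^ 2 = 1 := by
    refine ⟨Real.sqrt (1 / b), Real.sqrt_pos.2 (by positivity), ?_⟩
    rw [Real.sq_sqrt (by positivity)]
    field_simp
  have key : ∀ {u v : ℝ}, 0 ≤ v → (b : ℝ) * u ^ 2 ≤ b * v ^ 2 → u ≤ v := fun {u v} hv h =>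
    (le_abs_self u).trans (abs_le_of_sq_le_sq (le_of_mul_le_mul_left h (by linarith)) hv)
  have z1 : η1 ≤ ζ := key hζ.le (by nlinarith [mul_le_mul_of_nonneg_left hb2' (sq_nonneg η1)])
  have z2 : ζ ≤ η2 := key e0.le (by nlinarith [mul_le_mul_of_nonneg_left hb1' (sq_nonneg η2)])
  have z3 : η ≤ ζ := key hζ.le (by linarith)
  have hl : LamOK 3 (-η) := lamOK_three (by linarith) (by linarith)
  have hlz : LamOK 3 (-ζ) := lamOK_three (by linarith) (by linarith)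
  have hl2 : LamOK 3 (-η2) := lamOK_three (by linarith) (by linarith)
  refine bxa_squeeze hl hlz (fun n => dom_reg (by norm_num) h0' z3 hζ hlz le_rfl n) ?_
  refine basin (s := s) (α := α) (m := m) (h0 := h0) _ hζ (by linarith) (mean_reg b) hcrit
    (two_reg (hb.trans hb1)) hB.a0 hB.m0 ?_ (bxa_close hB z1 z2)
    (bxa_reach hlz hl2 (fun n => dom_reg (by norm_num) hζ.le z2 e0 hl2 hb2 n) hR)
  have h0p := hB.h0p
  have hε : 0 < C3 * ζ ^ 2 * h0 := by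
    simp only [C3]
    positivity
  have h3 := S_reg (b := b) (x := 11 / 10 * h0) (by omega) hε
    (by simp only [C3]; linear_combination 11 / 10 * h0 * hcrit) hB.hx
  have h4 := mul_le_mul_of_nonneg_left h3 (sq_nonneg ζ)
  refine h4.trans (le_trans ?_ hB.hs)
  rw [← mul_assoc]
  refine mul_le_mul_of_nonneg_right ?_ (by positivity)
  have h5 : 1 / (b2 : ℝ) ≤ ζ ^ 2 := by
    rw [div_le_iff₀ (by linarith)]
    nlinarith [mul_le_mul_of_nonneg_left hb2' (sq_nonneg ζ)]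
  nlinarith

/-- the state `s` certifies some level of the tree -/
def Lv (n d An en ed : ℕ) (ω : Off) (s : ℕ) : Prop :=
  ∃ N, Eng.Cert n d An s ((mu 3 (-((en : ℝ) / ed)) ω N).chan (-((en : ℝ) / ed)))

def parOK (p : Eng.Par) : Bool :=
  decide (0 < p.sn) && decide (0 < p.sd) && decide (0 < p.tn) && decide (0 < p.td) && decide (0 < p.ed)
    && decide (2 * p.en ≤ p.ed) && decide (p.An ≤ 64) && decide (p.fl ≤ 2) && p.ps.all fun c => decide (c ≤ 2 ^ 40)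

theorem parOK_sound {p : Eng.Par} (h : parOK p = true) : p.OK := by
  simp only [parOK, Bool.and_eq_true, decide_eq_true_eq, List.all_eq_true] at h
  obtain ⟨⟨⟨⟨⟨⟨⟨⟨h1, h2⟩, h3⟩, h4⟩, h5⟩, h6⟩, h7⟩, h8⟩, h9⟩ := h
  exact ⟨h1, h2, h3, h4, h5, h6, h7, h8, h9⟩

theorem Lv.zero (n d An en ed : ℕ) (ω : Off) : Lv n d An en ed ω 0 := by
  exact ⟨0, Eng.cert_zero n d An _⟩

theorem Lv.iter {n d An en ed A fl : ℕ} {ps : List ℕ} {ω : Off} (hω : Eng.Below ps ω) {s s' : ℕ} (k : ℕ)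
    (h : Lv n d An en ed ω s) (hp : parOK ⟨n, d, n, d, en, ed, A, An, An, fl, ps⟩ = true)
    (e : Eng.iter ⟨n, d, n, d, en, ed, A, An, An, fl, ps⟩ k s = s') : Lv n d An en ed ω s' := by
  obtain ⟨N, hN⟩ := h
  subst e
  exact ⟨N + k, Eng.iter_sound ⟨n, d, n, d, en, ed, A, An, An, fl, ps⟩ (parOK_sound hp) rfl rfl rfl hω hN k⟩

theorem Lv.step {n d An n' d' An' en ed A fl : ℕ} {ps : List ℕ} {ω : Off} (hω : Eng.Below ps ω) {s s' : ℕ}
    (h : Lv n d An en ed ω s) (hp : parOK ⟨n, d, n', d', en, ed, A, An, An', fl, ps⟩ = true)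
    (e : Eng.step ⟨n, d, n', d', en, ed, A, An, An', fl, ps⟩ s = s') : Lv n' d' An' en ed ω s' := by
  obtain ⟨N, hN⟩ := h
  subst e
  have hp' := parOK_sound hp
  have hed : (0 : ℝ) < ed := by exact_mod_cast hp'.ed
  have hen : 2 * (en : ℝ) ≤ ed := by exact_mod_cast hp'.en
  have hl : LamOK 3 (-((en : ℝ) / ed)) := by
    refine lamOK_three (neg_le_neg ?_) ?_
    · rw [div_le_iff₀ hed]
      linarith
    · have : 0 ≤ (en : ℝ) / ed := by positivity
      linarith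
  exact ⟨N + 1, Eng.step_sound ⟨n, d, n', d', en, ed, A, An, An', fl, ps⟩ hp' ((good_mu hl ω N).chan hl) hN hω⟩

/-- `gh_sound` and `hh_chan` -/
theorem Lv.reach {n d An en ed : ℕ} {ω : Off} {s : ℕ} (h : Lv n d An en ed ω s) (hn hd : ℕ)
    (h1 : 0 < n) (h2 : 0 < d) (h3 : 0 < en) (h4 : 2 * en ≤ ed) (h5 : 0 < hd)
    (e : Nat.ble ((2 ^ 89 - Eng.gh n d An s) * (ed * ed * hd)) (hn * en * en * 2 ^ 88) = true) :
    Reach ((en : ℝ) / ed) ω ((hn : ℝ) / hd) := by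
  obtain ⟨N, hN⟩ := h
  have hen : (0 : ℝ) < en := by exact_mod_cast h3
  have hen2 : 2 * (en : ℝ) ≤ ed := by exact_mod_cast h4
  have hed : (0 : ℝ) < ed := by linarith
  have hhd : (0 : ℝ) < hd := by exact_mod_cast h5
  have hη : 0 < (en : ℝ) / ed := by positivity
  have hl : LamOK 3 (-((en : ℝ) / ed)) := by
    refine lamOK_three (neg_le_neg ?_) (by linarith)
    rw [div_le_iff₀ hed]
    linarith
  have h6 := Eng.gh_sound h1 h2 ((good_mu hl ω N).chan hl).norm hN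
  rw [hh_chan (by norm_num) _ hl, neg_sq] at h6
  refine ⟨N, ?_⟩
  generalize Eng.gh n d An s = G at e h6
  have h7 : (2 ^ 89 - G) * (ed * ed * hd) ≤ hn * en * en * 2 ^ 88 := Nat.le_of_ble_eq_true e
  have h8 : (2 : ℝ) ^ 89 - G ≤ ((2 ^ 89 - G : ℕ) : ℝ) := by
    have h9 : 2 ^ 89 ≤ (2 ^ 89 - G) + G := le_tsub_add
    have h10 : ((2 ^ 89 : ℕ) : ℝ) ≤ (((2 ^ 89 - G) + G : ℕ) : ℝ) := Nat.cast_le.2 h9
    rw [Nat.cast_add, Nat.cast_pow, Nat.cast_ofNat] at h10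
    linarith
  generalize 2 ^ 89 - G = R at h7 h8
  have h9 : (R : ℝ) * (ed * ed * hd) ≤ hn * en * en * 2 ^ 88 := by exact_mod_cast h7
  have h10 : (R : ℝ) / 2 ^ 88 ≤ ((en : ℝ) / ed) ^ 2 * ((hn : ℝ) / hd) := by
    rw [div_pow, div_mul_div_comm, div_le_div_iff₀ (by positivity) (by positivity)]
    nlinarith
  have h11 : 2 - (G : ℝ) / 2 ^ 88 ≤ (R : ℝ) / 2 ^ 88 := by
    rw [le_div_iff₀ (by positivity), sub_mul, div_mul_cancel₀ _ (by positivity)]
    linarith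
  exact le_of_mul_le_mul_left (h6.trans (h11.trans h10)) (by positivity)

theorem bxb_pos {lam d : ℝ} (h0 : 0 ≤ lam) (h1 : lam ≤ 1) (ω : Off)
    (hd : HasSum (fun k : ℕ => (k : ℝ) * ω.p k) d) (hc : d * lam ^ 2 ≤ 1) (h2 : ω.p 0 + ω.p 1 < 1) : NR lam ω :=
  cone3.nonrec (by norm_num) (lamOK_of_mem h0 h1) ω hd hc h2
    (cone3.mu_mem ω K3_vert (K3_chan h0 h1))

theorem bxb_small {η d : ℝ} (h0 : 0 ≤ η) (h1 : η + η ^ 2 ≤ 11 / 50) (ω : Off)
    (hd : HasSum (fun k : ℕ => (k : ℝ) * ω.p k) d) (hc : d * η ^ 2 ≤ 1) (h2 : ω.p 0 + ω.p 1 < 1) :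
    NR (-η) ω := by
  have hl : LamOK 3 (-η) := lamOK_three (by nlinarith) (by linarith)
  exact cone3.nonrec (by norm_num) hl ω hd (by rwa [neg_sq]) h2
    fun n => K3_chan_small h0 h1 _ (good_mu hl ω n)

/-- `lam ≥ 0`: `cone3`, `K3_vert`, `K3_chan`, `Cone.mu_mem`, `Cone.nonrec` (as in the four state case).
`lam = -η < 0` with `η + η² ≤ 11/50` (true if `η ≤ 371/2000` and if `30 η² ≤ 1`): `K3_chan_small`, `Cone.nonrec`.
`b = 2, 3`: `dom_reg` from `(1/2, 4)`. Then `adv_tendsto`, `link_reg`, `link_poi`. -/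
theorem final3
    (hP : ∀ η d : ℝ, 371 / 2000 ≤ η → η ≤ 1 / 2 → 0 ≤ d → d * η ^ 2 ≤ 1 → NR (-η) (Off.poi d))
    (hR : ∀ (b : ℕ) (η : ℝ), 4 ≤ b → b ≤ 29 → 0 ≤ η → b * η ^ 2 ≤ 1 → NR (-η) (Off.reg b)) :
    (∀ b : ℕ, 2 ≤ b → ∀ lam : ℝ, -(1 / 2 : ℝ) ≤ lam → lam ≤ 1 → (b : ℝ) * lam ^ 2 ≤ 1 →
      Filter.Tendsto (Crest.ProbabilityR.Broadcast.advantage 3 b lam) Filter.atTop (nhds 0)) ∧
    (∀ d : ℝ, 1 < d → ∀ lam : ℝ, -(1 / 2 : ℝ) ≤ lam → lam ≤ 1 → d * lam ^ 2 ≤ 1 →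
      Filter.Tendsto (Crest.ProbabilityR.Broadcast.gwAdvantage 3 lam d) Filter.atTop (nhds 0)) := by
  refine ⟨fun b hb lam h0 h1 hc => ?_, fun d hd lam h0 h1 hc => ?_⟩
  · have hl : LamOK 3 lam := lamOK_three h0 h1
    have key : NR lam (Off.reg b) := by
      rcases le_or_gt 0 lam with h | h
      · exact bxb_pos h h1 _ (mean_reg b) hc (two_reg hb)
      · obtain ⟨η, rfl⟩ : ∃ η, lam = -η := ⟨-lam, by ring⟩
        rw [neg_sq] at hc
        have hη : 0 ≤ η := by linarith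
        rcases lt_or_ge b 4 with h4 | h4
        · have hl' : LamOK 3 (-(1 / 2 : ℝ)) := lamOK_three le_rfl (by norm_num)
          exact bxa_squeeze hl hl'
            (fun n => dom_reg (by norm_num) hη (by linarith) (by norm_num) hl' h4.le n)
            (hR 4 (1 / 2) le_rfl (by norm_num) (by norm_num) (by norm_num))
        · rcases le_or_gt b 29 with h5 | h5
          · exact hR b η h4 h5 hη hc
          · have h6 : (30 : ℝ) ≤ b := by exact_mod_cast h5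
            have h7 : 30 * η ^ 2 ≤ 1 := by nlinarith [sq_nonneg η]
            have h8 : η ≤ 183 / 1000 := by nlinarith
            exact bxb_small hη (by linarith) _ (mean_reg b) hc (two_reg hb)
    have h2 := adv_tendsto (by norm_num) (fun n => (good_mu hl (Off.reg b) n).norm) key
    exact h2.congr fun n => (link_reg b hl n).symm
  · have hl : LamOK 3 lam := lamOK_three h0 h1
    have hd0 : 0 < d := by linarith
    have key : NR lam (Off.poi d) := by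
      rcases le_or_gt 0 lam with h | h
      · exact bxb_pos h h1 _ (mean_poi hd0.le) hc (two_poi hd0)
      · obtain ⟨η, rfl⟩ : ∃ η, lam = -η := ⟨-lam, by ring⟩
        rw [neg_sq] at hc
        have hη : 0 ≤ η := by linarith
        rcases le_or_gt (371 / 2000) η with h4 | h4
        · exact hP η d h4 (by linarith) hd0.le hc
        · exact bxb_small hη (by nlinarith) _ (mean_poi hd0.le) hc (two_poi hd0)
    have h2 := adv_tendsto (by norm_num) (fun n => (good_mu hl (Off.poi d) n).norm) key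
    exact h2.congr fun n => (link_poi hl hd0.le n).symm

end Crest.Agent.R163
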