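import Crest.Agent.R163.Mom3
import Crest.Agent.R163.BilOk

/-! R163: a two-point inequality for three states (generated). -/

set_option autoImplicit false
set_option linter.unusedVariables false
set_option linter.unusedSimpArgs false
set_option Elab.async false

namespace Crest.Agent.R163.C3I
open Bil

def sp1 : Spec := ⟨1, 5, [(0, 0, 0), (0, 1, 0), (0, 2, 0), (0, 3, 0), (0, 4, 0), (0, 5, 0)],
  3, 2, [(0, 0, 0), (1, 0, 0)],
  [[2012, -12],
   [-1029, 1028],
   [22988, -22988],
   [-63546, 63548],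
   [-231, 232],
   [87344, -87344]],
  1, 9⟩

theorem a00 : Ok sp1 false false (rI 0 2 1) r3p :=
  Ok.chk 36 (.sl 0 3 0 0 .leaf (.sl 0 3 0 1 .leaf .leaf)) (by decide +kernel)

theorem a01 : Ok sp1 false true (rI 0 2 1) r3n :=
  Ok.chk 36 (.sl 0 3 0 0 .leaf (.sl 0 3 0 1 .leaf .leaf)) (by decide +kernel)

theorem a10 : Ok sp1 true false (rI 0 1 1) r3p :=
  Ok.chk 27 .leaf (by decide +kernel)

theorem a11 : Ok sp1 true true (rI 0 1 1) r3n :=
  Ok.chk 27 .leaf (by decide +kernel)

def sp2 : Spec := ⟨3, 7, [(0, 1, 0), (0, 2, 0), (1, 0, 0), (1, 1, 0), (2, 0, 0), (2, 1, 0), (3, 0, 0)],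
  3, 7, [(0, 1, 0), (0, 2, 0), (1, 0, 0), (1, 1, 0), (2, 0, 0), (2, 1, 0), (3, 0, 0)],
  [[-2357475, 0, 450330, 4973700, -8030900, 0, 0],
   [0, 2189375, 0, -4373000, 0, 2183600, -4378750],
   [450330, 0, 688536, 0, 2269200, 0, 0],
   [4973700, -4373000, 0, -8948050, 29842200, 10918000, -26238000],
   [-8030900, 0, 2269200, 29842200, 14449200, 0, -52476000],
   [0, 2183600, 0, 10918000, 0, -34937600, 39304800],
   [0, -4378750, 0, -26238000, -52476000, 39304800, 43856500]],
  1, 64⟩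

theorem b00 : Ok sp2 false false r3p r3p :=
  Ok.chk 61 (.sl 1 3 0 0 (.sr 1 3 0 0 .leaf .leaf) (.sr 1 3 0 0 .leaf .leaf)) (by decide +kernel)

theorem b01 : Ok sp2 false true r3p r3n :=
  Ok.chk 59 (.sl 1 3 0 0 .leaf .leaf) (by decide +kernel)

theorem b10 : Ok sp2 true false r3n r3p :=
  Ok.chk 59 (.sr 1 3 0 0 .leaf .leaf) (by decide +kernel)

theorem b11 : Ok sp2 true true r3n r3n :=
  Ok.chk 57 .leaf (by decide +kernel)

noncomputable def Phi (s N T : ℝ) : ℝ :=
  ((1) + (-1) * s + (49997 / 50000) * s ^ 2 + (-49737 / 50000) * s ^ 3 + (4373 / 5000) * s ^ 4 + (-5459 / 12500) * s ^ 5) * N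
    + (0) * T
    + (0) * N ^ 2
    + ((503 / 25000) * s ^ 2 + (-1029 / 100000) * s ^ 3 + (5747 / 25000) * s ^ 4 + (-31773 / 50000) * s ^ 5 + (-231 / 100000) * s ^ 6 + (5459 / 6250) * s ^ 7)

theorem st1 (s : ℝ) (W : Fin 3 → ℝ) (h1 : -1 ≤ s) (h2 : s ≤ 2) (hW : Simp W) :
    (1 + s) * fH W ≤ Phi s ((1 + s) ^ 2 * fH W) ((1 + s) ^ 3 * fT W) := by
  have h := Ok.four a00 a01 a10 a11 (sideS 2 two_pos h1 (by exact_mod_cast h2)) (side3 hW)
  simp only [sp1, bil, mon, List.map_cons, List.map_nil, List.zipWith_cons_cons, List.zipWith_nil_right, List.zipWith_nil_left,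
    List.sum_cons, List.sum_nil] at h
  push_cast at h
  simp only [Phi, psi3, g3, rho3]
  linear_combination (1 / 100000) * mul_nonneg (sq_nonneg s) h

noncomputable def RR (H T K U : ℝ) : ℝ :=
  (1) * K
      + (198959 / 200000) * T * U
      + (-1) * T * K
      + (-49737 / 100000) * T * K * U
      + (49997 / 100000) * T * K ^ 2
      + (-3503 / 8000) * T ^ 2 * U ^ 2
      + (4373 / 10000) * T ^ 2 * K * U
      + (-5459 / 50000) * T ^ 2 * K ^ 2 * U
      + (3503 / 32000) * T ^ 2 * K ^ 3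
      + (1) * H
      + (-1) * H * U
      + (-24497 / 50000) * H * K
      + (49997 / 100000) * H * K ^ 2
      + (-49737 / 100000) * H * T * U
      + (4373 / 10000) * H * T * U ^ 2
      + (178961 / 400000) * H * T * K * U
      + (-149211 / 200000) * H * T * K ^ 2
      + (-5459 / 20000) * H * T * K ^ 2 * U
      + (13119 / 40000) * H * T * K ^ 3
      + (49997 / 100000) * H ^ 2 * U
      + (49997 / 100000) * H ^ 2 * K
      + (-149211 / 200000) * H ^ 2 * K * U
      + (-81973 / 200000) * H ^ 2 * K ^ 2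
      + (13119 / 40000) * H ^ 2 * K ^ 3
      + (-5459 / 50000) * H ^ 2 * T * U ^ 2
      + (-5459 / 20000) * H ^ 2 * T * K * U
      + (5459 / 12500) * H ^ 2 * T * K ^ 2 * U
      + (-49131 / 200000) * H ^ 2 * T * K ^ 3
      + (3503 / 32000) * H ^ 3 * U ^ 2
      + (13119 / 40000) * H ^ 3 * K * U
      + (13119 / 40000) * H ^ 3 * K ^ 2
      + (-49131 / 200000) * H ^ 3 * K ^ 2 * U
      + (-87713 / 640000) * H ^ 3 * K ^ 3

theorem mom (a b d e : ℝ) : s6 (fun d e => Phi (jS a b d e) (jN a b d e) (jM a b d e)) d e =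
    6 * RR (jH a b) (jT a b) (jH d e) (jT d e) := by
  have hN0 := m3N0 a b d e
  have hN1 := m3N1 a b d e
  have hN2 := m3N2 a b d e
  have hN3 := m3N3 a b d e
  have hN4 := m3N4 a b d e
  have hN5 := m3N5 a b d e
  have hO2 := m3O2 a b d e
  have hO3 := m3O3 a b d e
  have hO4 := m3O4 a b d e
  have hO5 := m3O5 a b d e
  have hO6 := m3O6 a b d e
  have hO7 := m3O7 a b d e
  simp only [s6, Phi, RR] at *
  linear_combination (1) * hN0
    + (-1) * hN1
    + (49997 / 50000) * hN2
    + (-49737 / 50000) * hN3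
    + (4373 / 5000) * hN4
    + (-5459 / 12500) * hN5
    + (503 / 25000) * hO2
    + (-1029 / 100000) * hO3
    + (5747 / 25000) * hO4
    + (-31773 / 50000) * hO5
    + (-231 / 100000) * hO6
    + (5459 / 6250) * hO7

noncomputable def mult (y : Fin 3 → ℝ) : ℝ := (-5233 / 20000) * fT y + (101253 / 100000) * fH y + (-917 / 4000) * fH y ^ 2

theorem main {y z : Fin 3 → ℝ} (hy : Simp y) (hz : Simp z) :
    avg fH y z ≤ fH y + fH z - 1 / 100 * fH y * fH z - mult z * psi3 y - mult y * psi3 z := by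
  have h0 := avg_le3 (F := fH) Phi st1 hy hz
  rw [mom, ← fH_eq3 hy, ← fT_eq3 hy, ← fH_eq3 hz, ← fT_eq3 hz] at h0
  refine h0.trans ?_
  have h := Ok.four b00 b01 b10 b11 (side3 hy) (side3 hz)
  simp only [sp2, bil, mon, List.map_cons, List.map_nil, List.zipWith_cons_cons, List.zipWith_nil_right, List.zipWith_nil_left,
    List.sum_cons, List.sum_nil] at h
  push_cast at h
  simp only [RR, mult, psi3, g3, Q3, rho3, q31, q32, q33]
  linear_combination (1 / 5000000) * h

def spp1 : Spec := ⟨3, 4, [(0, 1, 0), (1, 0, 0), (2, 0, 0)],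
  1, 0, [(0, 0, 0)],
  [[-26165],
   [202506],
   [-91700]],
  1, 1⟩

theorem op100 : Ok spp1 false false r3p (rI 0 1 1) :=
  Ok.chk 28 .leaf (by decide +kernel)

theorem op110 : Ok spp1 true false r3n (rI 0 1 1) :=
  Ok.chk 28 .leaf (by decide +kernel)

theorem p1 {y : Fin 3 → ℝ} (hy : Simp y) : 0 ≤ mult y := by
  have h := Ok.two rfl op100 op110 (side3 hy)
  simp only [spp1, bil, mon, List.map_cons, List.map_nil, List.zipWith_cons_cons, List.zipWith_nil_right, List.zipWith_nil_left,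
    List.sum_cons, List.sum_nil] at h
  push_cast at h
  simp only [psi3, mult]
  linear_combination (1 / 100000) * h

def spp2 : Spec := ⟨3, 4, [(0, 1, 0), (1, 0, 0), (2, 0, 0)],
  1, 0, [(0, 0, 0)],
  [[26165],
   [197494],
   [91700]],
  1, 1⟩

theorem op200 : Ok spp2 false false r3p (rI 0 1 1) :=
  Ok.chk 28 .leaf (by decide +kernel)

theorem op210 : Ok spp2 true false r3n (rI 0 1 1) :=
  Ok.chk 28 .leaf (by decide +kernel)

theorem p2 {y : Fin 3 → ℝ} (hy : Simp y) : mult y ≤ 2 * fH y := by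
  have h := Ok.two rfl op200 op210 (side3 hy)
  simp only [spp2, bil, mon, List.map_cons, List.map_nil, List.zipWith_cons_cons, List.zipWith_nil_right, List.zipWith_nil_left,
    List.sum_cons, List.sum_nil] at h
  push_cast at h
  simp only [psi3, mult]
  linear_combination (1 / 100000) * h

def sp3 : Spec := ⟨3, 4, [(0, 1, 0), (1, 0, 0), (2, 0, 0)],
  3, 4, [(0, 1, 0), (1, 0, 0), (2, 0, 0)],
  [[-1308250, 4774835, -984250],
   [4774835, 15555132, -11134000],
   [-984250, -11134000, 9170000]],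
  1, 25⟩

theorem c00 : Ok sp3 false false r3p r3p :=
  Ok.chk 42 .leaf (by decide +kernel)

theorem c01 : Ok sp3 false true r3p r3n :=
  Ok.chk 43 .leaf (by decide +kernel)

theorem c10 : Ok sp3 true false r3n r3p :=
  Ok.chk 43 .leaf (by decide +kernel)

theorem c11 : Ok sp3 true true r3n r3n :=
  Ok.chk 43 .leaf (by decide +kernel)

theorem p3 {y z : Fin 3 → ℝ} (hy : Simp y) (hz : Simp z) :
    0 ≤ 111 / 100 * fH y * fH z + mult z * psi3 y + mult y * psi3 z := by
  have h := Ok.four c00 c01 c10 c11 (side3 hy) (side3 hz)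
  simp only [sp3, bil, mon, List.map_cons, List.map_nil, List.zipWith_cons_cons, List.zipWith_nil_right, List.zipWith_nil_left,
    List.sum_cons, List.sum_nil] at h
  push_cast at h
  simp only [mult, psi3]
  linear_combination (1 / 2500000) * h

end Crest.Agent.R163.C3I
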