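import Crest.Agent.R163.Mom3
import Crest.Agent.R163.BilOk

/-! R163: a two-point inequality for three states (generated). -/

set_option autoImplicit false
set_option linter.unusedVariables false
set_option linter.unusedSimpArgs false
set_option Elab.async false

namespace Crest.Agent.R163.C3III
open Bil

def sp1 : Spec := ⟨1, 4, [(0, 0, 0), (0, 1, 0), (0, 2, 0), (0, 3, 0), (0, 4, 0)],
  3, 4, [(0, 0, 0), (0, 1, 0), (1, 0, 0), (2, 0, 0)],
  [[5000, -902, 215570, -33128],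
   [12015, 197851, -1504292, 2667488],
   [1200000, 98965, -4529444, 6801232],
   [-145919, -299231, -3683732, 5747488],
   [604241, -199443, -874150, 1646872]],
  1, 25⟩

theorem a00l : Ok sp1 false false (rI 0 2 1) ⟨⟨1, 1, 0, 3⟩, ⟨1, 0, 1, 1⟩, ⟨0, 0, 0, 0⟩, ⟨1, 0, 1, 2⟩⟩ :=
  Ok.chk 69 (.sl 0 3 0 0 (.sl 0 3 1 0 (.sr 1 3 1 0 .leaf (.sr 1 3 0 1 .leaf .leaf)) (.sr 1 3 1 0 .leaf (.sl 0 3 0 1 (.sr 1 3 0 1 .leaf .leaf) (.sr 1 3 0 1 (.sr 0 3 7 2 .leaf .leaf) (.sl 0 3 0 3 (.sr 1 3 0 3 (.sr 0 1 7 2 .leaf .leaf) .leaf) (.sr 1 3 0 3 (.sr 0 1 7 2 .leaf .leaf) .leaf)))))) (.sr 1 3 1 0 (.sl 0 3 0 1 .leaf .leaf) (.sr 1 3 0 1 (.sl 0 3 0 1 (.sr 0 3 7 2 .leaf .leaf) .leaf) (.sl 0 3 0 1 (.sr 1 3 0 3 (.sr 0 1 7 2 .leaf .leaf) (.sr 0 3 1 2 .leaf .leaf)) .leaf)))) (by decide +kernel)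

theorem a00r : Ok sp1 false false (rI 0 2 1) ⟨⟨1, 1, 0, 3⟩, ⟨1, 0, 1, 2⟩, ⟨0, 0, 0, 0⟩, ⟨0, 0, 0, 1⟩⟩ :=
  Ok.chk 59 (.sl 0 3 0 0 (.sr 0 3 0 2 .leaf .leaf) (.sl 0 3 0 1 (.sl 0 3 1 0 (.sr 0 3 0 2 (.sl 0 3 3 0 (.sr 0 3 1 0 .leaf .leaf) (.sr 0 3 1 0 .leaf .leaf)) .leaf) (.sr 0 3 0 2 (.sr 0 3 1 0 .leaf .leaf) .leaf)) (.sr 0 3 0 2 (.sr 0 3 1 0 .leaf .leaf) .leaf))) (by decide +kernel)

theorem a00 : Ok sp1 false false (rI 0 2 1) r3p :=
  Ok.sr 1 3 0 0 a00l a00r (by decide +kernel)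

theorem a01 : Ok sp1 false true (rI 0 2 1) r3n :=
  Ok.chk 59 (.sl 0 3 0 0 (.sr 0 3 0 2 .leaf .leaf) (.sl 0 3 0 1 (.sl 0 3 1 0 (.sr 0 3 0 2 (.sl 0 3 3 0 (.sr 0 3 1 0 .leaf .leaf) (.sr 0 3 1 0 .leaf .leaf)) .leaf) (.sr 0 3 0 2 (.sr 0 3 1 0 (.sr 0 1 1 2 .leaf .leaf) .leaf) .leaf)) (.sr 0 3 0 2 (.sr 0 3 1 0 .leaf .leaf) .leaf))) (by decide +kernel)

theorem a10 : Ok sp1 true false (rI 0 1 1) r3p :=
  Ok.chk 42 (.sl 0 3 0 0 .leaf (.sl 0 3 0 1 .leaf .leaf)) (by decide +kernel)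

theorem a11 : Ok sp1 true true (rI 0 1 1) r3n :=
  Ok.chk 37 .leaf (by decide +kernel)

def sp2 : Spec := ⟨3, 6, [(0, 1, 0), (0, 2, 0), (1, 0, 0), (1, 1, 0), (2, 0, 0), (3, 0, 0)],
  3, 6, [(0, 1, 0), (0, 2, 0), (1, 0, 0), (1, 1, 0), (2, 0, 0), (3, 0, 0)],
  [[-47585, 199443, 80000, -1415606, 5694272, -6587488],
   [199443, -604241, 0, 874150, -3293744, 1607368],
   [80000, 0, 60000, 2163608, 19617720, -6587488],
   [-1415606, 874150, 2163608, -4344079, -9581974, 2247386],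
   [5694272, -3293744, 6017720, -9581974, -26451240, -2092716],
   [-6587488, 1607368, -6587488, 2247386, -2092716, -24279836]],
  1, 49⟩

theorem b00 : Ok sp2 false false r3p r3sp :=
  Ok.chk 54 .leaf (by decide +kernel)

theorem b01 : Ok sp2 false true r3p r3sn :=
  Ok.chk 53 .leaf (by decide +kernel)

theorem b10 : Ok sp2 true false r3n r3sp :=
  Ok.chk 54 .leaf (by decide +kernel)

theorem b11 : Ok sp2 true true r3n r3sn :=
  Ok.chk 53 .leaf (by decide +kernel)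

noncomputable def Phi (s N T : ℝ) : ℝ :=
  ((21557 / 20000) * s ^ 2 + (-241929 / 25000) * s ^ 3 + (-17483 / 4000) * s ^ 4) * N
    + ((1) + (-2) * s + (149549 / 50000) * s ^ 2 + (-199443 / 100000) * s ^ 3) * T
    + ((7 / 10) + (-21 / 10) * s + (205859 / 50000) * s ^ 2) * N ^ 2
    + ((1 / 20) * s ^ 2 + (2403 / 20000) * s ^ 3 + (12) * s ^ 4 + (-145919 / 100000) * s ^ 5 + (604241 / 100000) * s ^ 6)

theorem st1 (s : ℝ) (W : Fin 3 → ℝ) (h1 : -1 ≤ s) (h2 : s ≤ 2) (hW : Simp W) :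
    (1 + s) * g3 W ≤ Phi s ((1 + s) ^ 2 * fH W) ((1 + s) ^ 3 * fT W) := by
  have h := Ok.four a00 a01 a10 a11 (sideS 2 two_pos h1 (by exact_mod_cast h2)) (side3 hW)
  simp only [sp1, bil, mon, List.map_cons, List.map_nil, List.zipWith_cons_cons, List.zipWith_nil_right, List.zipWith_nil_left,
    List.sum_cons, List.sum_nil] at h
  push_cast at h
  simp only [Phi, psi3, g3, rho3]
  linear_combination (1 / 100000) * mul_nonneg (sq_nonneg s) h

noncomputable def RR (H T K U : ℝ) : ℝ :=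
  (1) * U
      + (7 / 10) * K ^ 2
      + (1) * T
      + (9517 / 40000) * T * U
      + (-199443 / 200000) * T * U ^ 2
      + (-1 / 5) * T * K
      + (707803 / 200000) * T * K * U
      + (-88973 / 12500) * T * K ^ 2
      + (205859 / 50000) * T * K ^ 3
      + (-199443 / 200000) * T ^ 2 * U
      + (604241 / 200000) * T ^ 2 * U ^ 2
      + (-17483 / 8000) * T ^ 2 * K * U
      + (205859 / 50000) * T ^ 2 * K ^ 2
      + (-200921 / 200000) * T ^ 2 * K ^ 3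
      + (-1 / 5) * H * U
      + (233 / 40) * H * K
      + (-270451 / 100000) * H * K * U
      + (-150443 / 40000) * H * K ^ 2
      + (205859 / 100000) * H * K ^ 3
      + (707803 / 200000) * H * T * U
      + (-17483 / 8000) * H * T * U ^ 2
      + (-270451 / 100000) * H * T * K
      + (4344079 / 800000) * H * T * K * U
      + (4790987 / 800000) * H * T * K ^ 2
      + (-1123693 / 1600000) * H * T * K ^ 3
      + (7 / 10) * H ^ 2
      + (-88973 / 12500) * H ^ 2 * U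
      + (205859 / 50000) * H ^ 2 * U ^ 2
      + (-150443 / 40000) * H ^ 2 * K
      + (4790987 / 800000) * H ^ 2 * K * U
      + (661281 / 80000) * H ^ 2 * K ^ 2
      + (523179 / 1600000) * H ^ 2 * K ^ 3
      + (205859 / 50000) * H ^ 3 * U
      + (-200921 / 200000) * H ^ 3 * U ^ 2
      + (205859 / 100000) * H ^ 3 * K
      + (-1123693 / 1600000) * H ^ 3 * K * U
      + (523179 / 1600000) * H ^ 3 * K ^ 2
      + (6069959 / 3200000) * H ^ 3 * K ^ 3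

theorem mom (a b d e : ℝ) : s6 (fun d e => Phi (jS a b d e) (jN a b d e) (jM a b d e)) d e =
    6 * RR (jH a b) (jT a b) (jH d e) (jT d e) := by
  have hN2 := m3N2 a b d e
  have hN3 := m3N3 a b d e
  have hN4 := m3N4 a b d e
  have hT0 := m3T0 a b d e
  have hT1 := m3T1 a b d e
  have hT2 := m3T2 a b d e
  have hT3 := m3T3 a b d e
  have hNN0 := m3NN0 a b d e
  have hNN1 := m3NN1 a b d e
  have hNN2 := m3NN2 a b d e
  have hO2 := m3O2 a b d e
  have hO3 := m3O3 a b d e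
  have hO4 := m3O4 a b d e
  have hO5 := m3O5 a b d e
  have hO6 := m3O6 a b d e
  simp only [s6, Phi, RR] at *
  linear_combination (21557 / 20000) * hN2
    + (-241929 / 25000) * hN3
    + (-17483 / 4000) * hN4
    + (1) * hT0
    + (-2) * hT1
    + (149549 / 50000) * hT2
    + (-199443 / 100000) * hT3
    + (7 / 10) * hNN0
    + (-21 / 10) * hNN1
    + (205859 / 50000) * hNN2
    + (1 / 20) * hO2
    + (2403 / 20000) * hO3
    + (12) * hO4
    + (-145919 / 100000) * hO5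
    + (604241 / 100000) * hO6

noncomputable def mult (y : Fin 3 → ℝ) : ℝ := (59 / 10) * fH y + (17 / 2) * fH y ^ 2

theorem main {y z : Fin 3 → ℝ} (hy : Simp y) (hz : Simp z) (hs : ∀ i, z i ≤ 3 / 2) :
    avg g3 y z ≤ g3 y + g3 z + fH y * Q3 z := by
  have h0 := avg_le3 (F := g3) Phi st1 hy hz
  rw [mom, ← fH_eq3 hy, ← fT_eq3 hy, ← fH_eq3 hz, ← fT_eq3 hz] at h0
  refine h0.trans ?_
  have h := Ok.four b00 b01 b10 b11 (side3 hy) (side3s hz hs)
  simp only [sp2, bil, mon, List.map_cons, List.map_nil, List.zipWith_cons_cons, List.zipWith_nil_right, List.zipWith_nil_left,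
    List.sum_cons, List.sum_nil] at h
  push_cast at h
  simp only [RR, mult, psi3, g3, Q3, rho3, q31, q32, q33]
  linear_combination (1 / 200000) * h

end Crest.Agent.R163.C3III
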