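import Crest.Agent.R163.C4Is

/-! R163: a two-point inequality for four states (generated). -/

set_option autoImplicit false
set_option linter.unusedVariables false
set_option linter.unusedSimpArgs false
set_option Elab.async false

namespace Crest.Agent.R163.C4I
open Bil

theorem a00 : Ok sp1 false false (rI 0 3 1) r4p :=
  Ok.chk 43 (.sl 0 3 0 0 .leaf (.sl 0 3 0 1 (.sl 0 3 1 0 .leaf (.sl 0 3 0 1 .leaf .leaf)) .leaf)) (by decide +kernel)

theorem a01 : Ok sp1 false true (rI 0 3 1) r4n :=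
  Ok.chk 44 (.sl 0 3 0 0 .leaf (.sl 0 3 0 1 (.sl 0 3 1 0 .leaf (.sl 0 3 0 1 .leaf .leaf)) .leaf)) (by decide +kernel)

theorem a10 : Ok sp1 true false (rI 0 1 1) r4p :=
  Ok.chk 31 .leaf (by decide +kernel)

theorem a11 : Ok sp1 true true (rI 0 1 1) r4n :=
  Ok.chk 32 .leaf (by decide +kernel)

end Crest.Agent.R163.C4I
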