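import Crest.Agent.R163.C4Is

/-! R163: a two-point inequality for four states (generated). -/

set_option autoImplicit false
set_option linter.unusedVariables false
set_option linter.unusedSimpArgs false
set_option Elab.async false

namespace Crest.Agent.R163.C4I
open Bil

theorem b01 : Ok sp2 false true r4p r4n :=
  Ok.chk 63 (.sl 0 3 0 0 (.sl 0 2 0 0 .leaf .leaf) .leaf) (by decide +kernel)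

theorem b00r : Ok sp2 false false ⟨⟨1, 1, 1, 2⟩, ⟨1, 1, 0, 2⟩, ⟨1, 0, 0, 1⟩, ⟨0, 0, 0, 1⟩⟩ r4p :=
  Ok.chk 60 (.sr 0 3 0 0 .leaf .leaf) (by decide +kernel)

theorem b00lllr : Ok sp2 false false ⟨⟨1, 1, 1, 1⟩, ⟨1, 1, 0, 2⟩, ⟨2, 1, 1, 2⟩, ⟨1, 1, 1, 2⟩⟩ ⟨⟨2, 1, 1, 2⟩, ⟨1, 1, 0, 2⟩, ⟨1, 0, 0, 1⟩, ⟨1, 1, 1, 2⟩⟩ :=
  Ok.chk 67 .leaf (by decide +kernel)

theorem b00lr : Ok sp2 false false ⟨⟨1, 1, 1, 1⟩, ⟨1, 1, 0, 2⟩, ⟨1, 0, 0, 1⟩, ⟨1, 1, 1, 2⟩⟩ ⟨⟨1, 1, 1, 2⟩, ⟨1, 1, 0, 2⟩, ⟨1, 0, 0, 1⟩, ⟨0, 0, 0, 1⟩⟩ :=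
  Ok.chk 60 .leaf (by decide +kernel)

end Crest.Agent.R163.C4I
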