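import Crest.Agent.R163.C4Ib0
import Crest.Agent.R163.C4Ib1
import Crest.Agent.R163.C4Ia
import Crest.Agent.R163.Mom4A
import Crest.Agent.R163.Mom4B
import Crest.Agent.R163.Mom4C

/-! R163: a two-point inequality for four states (generated). -/

set_option autoImplicit false
set_option linter.unusedVariables false
set_option linter.unusedSimpArgs false
set_option Elab.async false

namespace Crest.Agent.R163.C4I
open Bil

theorem b00lll : Ok sp2 false false ⟨⟨1, 1, 1, 1⟩, ⟨1, 1, 0, 2⟩, ⟨2, 1, 1, 2⟩, ⟨1, 1, 1, 2⟩⟩ ⟨⟨1, 1, 1, 1⟩, ⟨1, 1, 0, 2⟩, ⟨1, 0, 0, 1⟩, ⟨1, 1, 1, 2⟩⟩ :=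
  Ok.sr 0 2 0 0 b00llll b00lllr (by decide +kernel)

theorem b00ll : Ok sp2 false false ⟨⟨1, 1, 1, 1⟩, ⟨1, 1, 0, 2⟩, ⟨1, 0, 0, 1⟩, ⟨1, 1, 1, 2⟩⟩ ⟨⟨1, 1, 1, 1⟩, ⟨1, 1, 0, 2⟩, ⟨1, 0, 0, 1⟩, ⟨1, 1, 1, 2⟩⟩ :=
  Ok.sl 0 2 0 0 b00lll b00llr (by decide +kernel)

theorem b00l : Ok sp2 false false ⟨⟨1, 1, 1, 1⟩, ⟨1, 1, 0, 2⟩, ⟨1, 0, 0, 1⟩, ⟨1, 1, 1, 2⟩⟩ r4p :=
  Ok.sr 0 3 0 0 b00ll b00lr (by decide +kernel)

theorem b00 : Ok sp2 false false r4p r4p :=
  Ok.sl 0 3 0 0 b00l b00r (by decide +kernel)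

noncomputable def Phi (s N T P : ℝ) : ℝ :=
  ((1) + (-1) * s + (1) * s ^ 2 + (-1) * s ^ 3 + (762289 / 1000000) * s ^ 4 + (-52479 / 200000) * s ^ 5) * N
    + ((73321 / 100000) * s ^ 4 + (-197103 / 250000) * s ^ 5 + (-180371 / 250000) * s ^ 6 + (790139 / 1000000) * s ^ 7)

theorem st1 (s : ℝ) (W : Fin 4 → ℝ) (h1 : -1 ≤ s) (h2 : s ≤ 3) (hW : Simp W) :
    (1 + s) * fH W ≤ Phi s ((1 + s) ^ 2 * fH W) ((1 + s) ^ 3 * fT W) ((1 + s) ^ 4 * fP W) := by
  have h := Ok.four a00 a01 a10 a11 (sideS 3 (by norm_num) h1 (by exact_mod_cast h2)) (side4 hW)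
  simp only [sp1, bil, mon, List.map_cons, List.map_nil, List.zipWith_cons_cons, List.zipWith_nil_right, List.zipWith_nil_left,
    List.sum_cons, List.sum_nil] at h
  push_cast at h
  simp only [Phi, psi4_def]
  linear_combination (1 / 1000000) * mul_nonneg (by positivity : 0 ≤ s ^ 4) h

noncomputable def RR (H T P K U V : ℝ) : ℝ :=
  (1) * K
      + (-48893 / 10000) * P * V
      + (4 / 3) * P * U
      + (762289 / 300000) * P * K * V
      + (-8 / 9) * P * K * U
      + (226679 / 150000) * P * K ^ 2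
      + (-762289 / 1500000) * P * K ^ 3
      + (4 / 3) * T * V
      + (1 / 6) * T * U
      + (-2 / 3) * T * K
      + (-1 / 6) * T * K * U
      + (14094997 / 6750000) * T * P * U * V
      + (-40817 / 300000) * T * P * U ^ 2
      + (-17493 / 50000) * T * P * K * V
      + (-1360877 / 2250000) * T * P * K ^ 2 * U
      + (5831 / 50000) * T * P * K ^ 3
      + (-40817 / 300000) * T ^ 2 * U * V
      + (-69282983 / 864000000) * T ^ 2 * U ^ 2
      + (29983199 / 72000000) * T ^ 2 * K * V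
      + (762289 / 6750000) * T ^ 2 * K * U
      + (5831 / 300000) * T ^ 2 * K ^ 2 * U
      + (-669521 / 12000000) * T ^ 2 * K ^ 3
      + (1) * H
      + (-2 / 3) * H * U
      + (1 / 3) * H * K ^ 2
      + (762289 / 300000) * H * P * V
      + (-17493 / 50000) * H * P * U * V
      + (29983199 / 72000000) * H * P * U ^ 2
      + (-517869 / 80000) * H * P * K * V
      + (762289 / 1125000) * H * P * K * U
      + (-762289 / 1500000) * H * P * K ^ 2
      + (-5831 / 50000) * H * P * K ^ 2 * U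
      + (4501111 / 3000000) * H * P * K ^ 3
      + (-8 / 9) * H * T * V
      + (-1 / 6) * H * T * U
      + (762289 / 6750000) * H * T * U ^ 2
      + (762289 / 1125000) * H * T * K * V
      + (-281917 / 2700000) * H * T * K * U
      + (-2 / 9) * H * T * K ^ 2
      + (-5831 / 120000) * H * T * K ^ 2 * U
      + (226679 / 150000) * H ^ 2 * V
      + (1 / 3) * H ^ 2 * K
      + (-762289 / 1500000) * H ^ 2 * K * V
      + (-2 / 9) * H ^ 2 * K * U
      + (-126679 / 300000) * H ^ 2 * K ^ 2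
      + (762289 / 3000000) * H ^ 2 * K ^ 3
      + (-1360877 / 2250000) * H ^ 2 * T * U * V
      + (5831 / 300000) * H ^ 2 * T * U ^ 2
      + (-5831 / 50000) * H ^ 2 * T * K * V
      + (-5831 / 120000) * H ^ 2 * T * K * U
      + (2284429 / 9000000) * H ^ 2 * T * K ^ 2 * U
      + (-5831 / 100000) * H ^ 2 * T * K ^ 3
      + (-762289 / 1500000) * H ^ 3 * V
      + (5831 / 50000) * H ^ 3 * U * V
      + (-669521 / 12000000) * H ^ 3 * U ^ 2
      + (4501111 / 3000000) * H ^ 3 * K * V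
      + (762289 / 3000000) * H ^ 3 * K ^ 2
      + (-5831 / 100000) * H ^ 3 * K ^ 2 * U
      + (-623137 / 1500000) * H ^ 3 * K ^ 3

set_option maxHeartbeats 4000000 in
theorem mom (a b c d e f : ℝ) :
    s24 (fun d e f => Phi (kS a b c d e f) (kN a b c d e f) (kT a b c d e f) (kP a b c d e f)) d e f =
    24 * RR (iH a b c) (iT a b c) (iP a b c) (iH d e f) (iT d e f) (iP d e f) := by
  have hN0 := m4N0 a b c d e f
  have hN1 := m4N1 a b c d e f
  have hN2 := m4N2 a b c d e f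
  have hN3 := m4N3 a b c d e f
  have hN4 := m4N4 a b c d e f
  have hN5 := m4N5 a b c d e f
  have hO4 := m4O4 a b c d e f
  have hO5 := m4O5 a b c d e f
  have hO6 := m4O6 a b c d e f
  have hO7 := m4O7 a b c d e f
  simp only [s24, s4, Phi, RR] at *
  linear_combination (1) * hN0
    + (-1) * hN1
    + (1) * hN2
    + (-1) * hN3
    + (762289 / 1000000) * hN4
    + (-52479 / 200000) * hN5
    + (73321 / 100000) * hO4
    + (-197103 / 250000) * hO5
    + (-180371 / 250000) * hO6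
    + (790139 / 1000000) * hO7

noncomputable def mult (y : Fin 4 → ℝ) : ℝ := (-787 / 1000) * fP y + (-1 / 12) * fT y + (2 / 3) * fH y + (73 / 1000) * fH y * fT y + (19 / 1000) * fH y ^ 2

set_option maxHeartbeats 4000000 in
theorem main {y z : Fin 4 → ℝ} (hy : Simp y) (hz : Simp z) :
    avg fH y z ≤ fH y + fH z - mult z * psi4 y - mult y * psi4 z := by
  have h0 := avg_le4 (F := fH) Phi st1 hy hz
  rw [mom, ← fH_eq4 hy, ← fT_eq4 hy, ← fP_eq4 hy, ← fH_eq4 hz, ← fT_eq4 hz, ← fP_eq4 hz] at h0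
  refine h0.trans ?_
  have h := Ok.four b00 b01 b10 b11 (side4 hy) (side4 hz)
  simp only [sp2, bil, mon, List.map_cons, List.map_nil, List.zipWith_cons_cons, List.zipWith_nil_right, List.zipWith_nil_left,
    List.sum_cons, List.sum_nil] at h
  push_cast at h
  simp only [RR, mult, psi4_def]
  linear_combination (1 / 6000000) * h

def spp1 : Spec := ⟨4, 5, [(0, 0, 1), (0, 1, 0), (1, 0, 0), (1, 1, 0), (2, 0, 0)],
  1, 0, [(0, 0, 0)],
  [[-2361],
   [-1500],
   [1970],
   [1314],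
   [57]],
  1, 1⟩

theorem op100 : Ok spp1 false false r4p (rI 0 1 1) :=
  Ok.chk 25 .leaf (by decide +kernel)

theorem op110 : Ok spp1 true false r4n (rI 0 1 1) :=
  Ok.chk 26 .leaf (by decide +kernel)

theorem p1 {y : Fin 4 → ℝ} (hy : Simp y) : 1 / 100 * fH y ≤ mult y := by
  have h := Ok.two rfl op100 op110 (side4 hy)
  simp only [spp1, bil, mon, List.map_cons, List.map_nil, List.zipWith_cons_cons, List.zipWith_nil_right, List.zipWith_nil_left,
    List.sum_cons, List.sum_nil] at h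
  push_cast at h
  simp only [psi4_def, mult]
  linear_combination (1 / 3000) * h

def spp2 : Spec := ⟨4, 5, [(0, 0, 1), (0, 1, 0), (1, 0, 0), (1, 1, 0), (2, 0, 0)],
  1, 0, [(0, 0, 0)],
  [[2361],
   [1500],
   [4000],
   [-1314],
   [-57]],
  1, 1⟩

theorem op200 : Ok spp2 false false r4p (rI 0 1 1) :=
  Ok.chk 25 .leaf (by decide +kernel)

theorem op210 : Ok spp2 true false r4n (rI 0 1 1) :=
  Ok.chk 27 .leaf (by decide +kernel)

theorem p2 {y : Fin 4 → ℝ} (hy : Simp y) : mult y ≤ 2 * fH y := by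
  have h := Ok.two rfl op200 op210 (side4 hy)
  simp only [spp2, bil, mon, List.map_cons, List.map_nil, List.zipWith_cons_cons, List.zipWith_nil_right, List.zipWith_nil_left,
    List.sum_cons, List.sum_nil] at h
  push_cast at h
  simp only [psi4_def, mult]
  linear_combination (1 / 3000) * h

end Crest.Agent.R163.C4I
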