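import Crest.Agent.R163.C4IIs

/-! R163: a two-point inequality for four states (generated). -/

set_option autoImplicit false
set_option linter.unusedVariables false
set_option linter.unusedSimpArgs false
set_option Elab.async false

namespace Crest.Agent.R163.C4II
open Bil

theorem b00lrlr : Ok sp2 false false ⟨⟨3, 3, 2, 4⟩, ⟨1, 1, 0, 2⟩, ⟨2, 1, 1, 2⟩, ⟨1, 1, 1, 2⟩⟩ ⟨⟨1, 1, 1, 2⟩, ⟨1, 1, 0, 2⟩, ⟨1, 0, 0, 1⟩, ⟨0, 0, 0, 1⟩⟩ :=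
  Ok.chk 90 (.sr 0 3 0 1 .leaf (.sl 0 1 0 1 .leaf .leaf)) (by decide +kernel)

theorem b00llllllll : Ok sp2 false false ⟨⟨1, 1, 1, 1⟩, ⟨3, 3, 2, 4⟩, ⟨4, 3, 3, 4⟩, ⟨3, 3, 3, 4⟩⟩ ⟨⟨1, 1, 1, 1⟩, ⟨3, 3, 2, 4⟩, ⟨2, 1, 1, 2⟩, ⟨1, 1, 1, 2⟩⟩ :=
  Ok.chk 101 (.sr 0 3 1 0 .leaf .leaf) (by decide +kernel)

theorem b00lllllr : Ok sp2 false false ⟨⟨1, 1, 1, 1⟩, ⟨3, 3, 2, 4⟩, ⟨2, 1, 1, 2⟩, ⟨1, 1, 1, 2⟩⟩ ⟨⟨3, 3, 2, 4⟩, ⟨1, 1, 0, 2⟩, ⟨2, 1, 1, 2⟩, ⟨1, 1, 1, 2⟩⟩ :=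
  Ok.chk 92 .leaf (by decide +kernel)

theorem b00lrr : Ok sp2 false false ⟨⟨2, 1, 1, 2⟩, ⟨1, 1, 0, 2⟩, ⟨1, 0, 0, 1⟩, ⟨1, 1, 1, 2⟩⟩ ⟨⟨1, 1, 1, 2⟩, ⟨1, 1, 0, 2⟩, ⟨1, 0, 0, 1⟩, ⟨0, 0, 0, 1⟩⟩ :=
  Ok.chk 78 .leaf (by decide +kernel)

theorem b01r : Ok sp2 false true ⟨⟨1, 1, 1, 2⟩, ⟨1, 1, 0, 2⟩, ⟨1, 0, 0, 1⟩, ⟨0, 0, 0, 1⟩⟩ r4n :=
  Ok.chk 75 .leaf (by decide +kernel)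

end Crest.Agent.R163.C4II
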