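import Crest.Agent.R163.C4IIs

/-! R163: a two-point inequality for four states (generated). -/

set_option autoImplicit false
set_option linter.unusedVariables false
set_option linter.unusedSimpArgs false
set_option Elab.async false

namespace Crest.Agent.R163.C4II
open Bil

theorem b00rllr : Ok sp2 false false ⟨⟨1, 1, 1, 2⟩, ⟨1, 1, 0, 2⟩, ⟨1, 0, 0, 1⟩, ⟨0, 0, 0, 1⟩⟩ ⟨⟨3, 3, 2, 4⟩, ⟨1, 1, 0, 2⟩, ⟨2, 1, 1, 2⟩, ⟨1, 1, 1, 2⟩⟩ :=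
  Ok.chk 90 (.sl 0 3 0 1 .leaf (.sr 0 1 0 1 .leaf .leaf)) (by decide +kernel)

theorem b00llllllr : Ok sp2 false false ⟨⟨3, 3, 3, 4⟩, ⟨3, 3, 2, 4⟩, ⟨2, 1, 1, 2⟩, ⟨1, 1, 1, 2⟩⟩ ⟨⟨1, 1, 1, 1⟩, ⟨3, 3, 2, 4⟩, ⟨2, 1, 1, 2⟩, ⟨1, 1, 1, 2⟩⟩ :=
  Ok.chk 99 (.sr 0 3 1 0 .leaf .leaf) (by decide +kernel)

theorem b00llllr : Ok sp2 false false ⟨⟨3, 3, 2, 4⟩, ⟨1, 1, 0, 2⟩, ⟨2, 1, 1, 2⟩, ⟨1, 1, 1, 2⟩⟩ ⟨⟨1, 1, 1, 1⟩, ⟨1, 1, 0, 2⟩, ⟨2, 1, 1, 2⟩, ⟨1, 1, 1, 2⟩⟩ :=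
  Ok.chk 88 .leaf (by decide +kernel)

theorem b00rlll : Ok sp2 false false ⟨⟨1, 1, 1, 2⟩, ⟨1, 1, 0, 2⟩, ⟨1, 0, 0, 1⟩, ⟨0, 0, 0, 1⟩⟩ ⟨⟨1, 1, 1, 1⟩, ⟨3, 3, 2, 4⟩, ⟨2, 1, 1, 2⟩, ⟨1, 1, 1, 2⟩⟩ :=
  Ok.chk 83 .leaf (by decide +kernel)

theorem b10r : Ok sp2 true false r4n ⟨⟨1, 1, 1, 2⟩, ⟨1, 1, 0, 2⟩, ⟨1, 0, 0, 1⟩, ⟨0, 0, 0, 1⟩⟩ :=
  Ok.chk 75 .leaf (by decide +kernel)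

end Crest.Agent.R163.C4II
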