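import Crest.Agent.R163.C4IIs

/-! R163: a two-point inequality for four states (generated). -/

set_option autoImplicit false
set_option linter.unusedVariables false
set_option linter.unusedSimpArgs false
set_option Elab.async false

namespace Crest.Agent.R163.C4II
open Bil

theorem b01l : Ok sp2 false true ⟨⟨1, 1, 1, 1⟩, ⟨1, 1, 0, 2⟩, ⟨1, 0, 0, 1⟩, ⟨1, 1, 1, 2⟩⟩ r4n :=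
  Ok.chk 84 (.sl 0 2 0 0 (.sl 0 1 1 0 .leaf .leaf) .leaf) (by decide +kernel)

theorem b00llr : Ok sp2 false false ⟨⟨2, 1, 1, 2⟩, ⟨1, 1, 0, 2⟩, ⟨1, 0, 0, 1⟩, ⟨1, 1, 1, 2⟩⟩ ⟨⟨1, 1, 1, 1⟩, ⟨1, 1, 0, 2⟩, ⟨1, 0, 0, 1⟩, ⟨1, 1, 1, 2⟩⟩ :=
  Ok.chk 83 (.sr 0 2 0 0 .leaf .leaf) (by decide +kernel)

theorem b00lllr : Ok sp2 false false ⟨⟨1, 1, 1, 1⟩, ⟨1, 1, 0, 2⟩, ⟨2, 1, 1, 2⟩, ⟨1, 1, 1, 2⟩⟩ ⟨⟨2, 1, 1, 2⟩, ⟨1, 1, 0, 2⟩, ⟨1, 0, 0, 1⟩, ⟨1, 1, 1, 2⟩⟩ :=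
  Ok.chk 83 .leaf (by decide +kernel)

theorem b00rlr : Ok sp2 false false ⟨⟨1, 1, 1, 2⟩, ⟨1, 1, 0, 2⟩, ⟨1, 0, 0, 1⟩, ⟨0, 0, 0, 1⟩⟩ ⟨⟨2, 1, 1, 2⟩, ⟨1, 1, 0, 2⟩, ⟨1, 0, 0, 1⟩, ⟨1, 1, 1, 2⟩⟩ :=
  Ok.chk 78 .leaf (by decide +kernel)

theorem b11 : Ok sp2 true true r4n r4n :=
  Ok.chk 76 .leaf (by decide +kernel)

end Crest.Agent.R163.C4II
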