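import Crest.Agent.R163.C4IIb0
import Crest.Agent.R163.C4IIb1
import Crest.Agent.R163.C4IIb2
import Crest.Agent.R163.C4IIb3
import Crest.Agent.R163.C4IIa
import Crest.Agent.R163.Mom4A
import Crest.Agent.R163.Mom4B
import Crest.Agent.R163.Mom4C

/-! R163: a two-point inequality for four states (generated). -/

set_option autoImplicit false
set_option linter.unusedVariables false
set_option linter.unusedSimpArgs false
set_option Elab.async false

namespace Crest.Agent.R163.C4II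
open Bil

theorem b00lllllll : Ok sp2 false false ⟨⟨1, 1, 1, 1⟩, ⟨3, 3, 2, 4⟩, ⟨2, 1, 1, 2⟩, ⟨3, 3, 3, 4⟩⟩ ⟨⟨1, 1, 1, 1⟩, ⟨3, 3, 2, 4⟩, ⟨2, 1, 1, 2⟩, ⟨1, 1, 1, 2⟩⟩ :=
  Ok.sl 0 2 1 0 b00llllllll b00lllllllr (by decide +kernel)

theorem b00llllll : Ok sp2 false false ⟨⟨1, 1, 1, 1⟩, ⟨3, 3, 2, 4⟩, ⟨2, 1, 1, 2⟩, ⟨1, 1, 1, 2⟩⟩ ⟨⟨1, 1, 1, 1⟩, ⟨3, 3, 2, 4⟩, ⟨2, 1, 1, 2⟩, ⟨1, 1, 1, 2⟩⟩ :=
  Ok.sl 0 3 1 0 b00lllllll b00llllllr (by decide +kernel)

theorem b00lllll : Ok sp2 false false ⟨⟨1, 1, 1, 1⟩, ⟨3, 3, 2, 4⟩, ⟨2, 1, 1, 2⟩, ⟨1, 1, 1, 2⟩⟩ ⟨⟨1, 1, 1, 1⟩, ⟨1, 1, 0, 2⟩, ⟨2, 1, 1, 2⟩, ⟨1, 1, 1, 2⟩⟩ :=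
  Ok.sr 0 1 1 0 b00llllll b00lllllr (by decide +kernel)

theorem b00llll : Ok sp2 false false ⟨⟨1, 1, 1, 1⟩, ⟨1, 1, 0, 2⟩, ⟨2, 1, 1, 2⟩, ⟨1, 1, 1, 2⟩⟩ ⟨⟨1, 1, 1, 1⟩, ⟨1, 1, 0, 2⟩, ⟨2, 1, 1, 2⟩, ⟨1, 1, 1, 2⟩⟩ :=
  Ok.sl 0 1 1 0 b00lllll b00llllr (by decide +kernel)

theorem b00lll : Ok sp2 false false ⟨⟨1, 1, 1, 1⟩, ⟨1, 1, 0, 2⟩, ⟨2, 1, 1, 2⟩, ⟨1, 1, 1, 2⟩⟩ ⟨⟨1, 1, 1, 1⟩, ⟨1, 1, 0, 2⟩, ⟨1, 0, 0, 1⟩, ⟨1, 1, 1, 2⟩⟩ :=
  Ok.sr 0 2 0 0 b00llll b00lllr (by decide +kernel)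

theorem b00ll : Ok sp2 false false ⟨⟨1, 1, 1, 1⟩, ⟨1, 1, 0, 2⟩, ⟨1, 0, 0, 1⟩, ⟨1, 1, 1, 2⟩⟩ ⟨⟨1, 1, 1, 1⟩, ⟨1, 1, 0, 2⟩, ⟨1, 0, 0, 1⟩, ⟨1, 1, 1, 2⟩⟩ :=
  Ok.sl 0 2 0 0 b00lll b00llr (by decide +kernel)

theorem b00lrl : Ok sp2 false false ⟨⟨1, 1, 1, 1⟩, ⟨1, 1, 0, 2⟩, ⟨2, 1, 1, 2⟩, ⟨1, 1, 1, 2⟩⟩ ⟨⟨1, 1, 1, 2⟩, ⟨1, 1, 0, 2⟩, ⟨1, 0, 0, 1⟩, ⟨0, 0, 0, 1⟩⟩ :=
  Ok.sl 0 1 1 0 b00lrll b00lrlr (by decide +kernel)

theorem b00lr : Ok sp2 false false ⟨⟨1, 1, 1, 1⟩, ⟨1, 1, 0, 2⟩, ⟨1, 0, 0, 1⟩, ⟨1, 1, 1, 2⟩⟩ ⟨⟨1, 1, 1, 2⟩, ⟨1, 1, 0, 2⟩, ⟨1, 0, 0, 1⟩, ⟨0, 0, 0, 1⟩⟩ :=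
  Ok.sl 0 2 0 0 b00lrl b00lrr (by decide +kernel)

theorem b00l : Ok sp2 false false ⟨⟨1, 1, 1, 1⟩, ⟨1, 1, 0, 2⟩, ⟨1, 0, 0, 1⟩, ⟨1, 1, 1, 2⟩⟩ r4p :=
  Ok.sr 0 3 0 0 b00ll b00lr (by decide +kernel)

theorem b00rll : Ok sp2 false false ⟨⟨1, 1, 1, 2⟩, ⟨1, 1, 0, 2⟩, ⟨1, 0, 0, 1⟩, ⟨0, 0, 0, 1⟩⟩ ⟨⟨1, 1, 1, 1⟩, ⟨1, 1, 0, 2⟩, ⟨2, 1, 1, 2⟩, ⟨1, 1, 1, 2⟩⟩ :=
  Ok.sr 0 1 1 0 b00rlll b00rllr (by decide +kernel)

theorem b00rl : Ok sp2 false false ⟨⟨1, 1, 1, 2⟩, ⟨1, 1, 0, 2⟩, ⟨1, 0, 0, 1⟩, ⟨0, 0, 0, 1⟩⟩ ⟨⟨1, 1, 1, 1⟩, ⟨1, 1, 0, 2⟩, ⟨1, 0, 0, 1⟩, ⟨1, 1, 1, 2⟩⟩ :=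
  Ok.sr 0 2 0 0 b00rll b00rlr (by decide +kernel)

theorem b00r : Ok sp2 false false ⟨⟨1, 1, 1, 2⟩, ⟨1, 1, 0, 2⟩, ⟨1, 0, 0, 1⟩, ⟨0, 0, 0, 1⟩⟩ r4p :=
  Ok.sr 0 3 0 0 b00rl b00rr (by decide +kernel)

theorem b00 : Ok sp2 false false r4p r4p :=
  Ok.sl 0 3 0 0 b00l b00r (by decide +kernel)

theorem b01 : Ok sp2 false true r4p r4n :=
  Ok.sl 0 3 0 0 b01l b01r (by decide +kernel)

theorem b10 : Ok sp2 true false r4n r4p :=
  Ok.sr 0 3 0 0 b10l b10r (by decide +kernel)

noncomputable def Phi (s N T P : ℝ) : ℝ :=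
  ((979843 / 20000000) * s ^ 2 + (-53161379 / 100000000) * s ^ 3 + (670953971 / 100000000) * s ^ 4 + (688361701 / 100000000) * s ^ 5 + (-712044227 / 100000000) * s ^ 6 + (-415871421 / 100000000) * s ^ 7 + (137174211 / 50000000) * s ^ 8)
    + ((13522403 / 12500000) * s ^ 2 + (-216181361 / 100000000) * s ^ 3 + (-345359279 / 50000000) * s ^ 4 + (617600401 / 100000000) * s ^ 5 + (28697681 / 25000000) * s ^ 6) * N
    + ((-1) + (2) * s + (-24625993 / 10000000) * s ^ 2 + (77734519 / 100000000) * s ^ 3 + (161526359 / 100000000) * s ^ 4 + (-118309427 / 100000000) * s ^ 5) * T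
    + ((31 / 50) + (-93 / 50) * s + (3369357 / 1250000) * s ^ 2 + (-8287787 / 10000000) * s ^ 3 + (-61263491 / 100000000) * s ^ 4) * N ^ 2
    + ((1 / 2) + (-3 / 2) * s + (197754841 / 100000000) * s ^ 2 + (4154923 / 20000000) * s ^ 3 + (-90005609 / 100000000) * s ^ 4) * P
    + ((-3 / 25) + (12 / 25) * s + (-8711923 / 10000000) * s ^ 2 + (10145537 / 20000000) * s ^ 3) * (N * T)

theorem st1 (s : ℝ) (W : Fin 4 → ℝ) (h1 : -1 ≤ s) (h2 : s ≤ 3) (hW : Simp W) :
    (1 + s) * -psi4 W ≤ Phi s ((1 + s) ^ 2 * fH W) ((1 + s) ^ 3 * fT W) ((1 + s) ^ 4 * fP W) := by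
  have h := Ok.four a00 a01 a10 a11 (sideS 3 (by norm_num) h1 (by exact_mod_cast h2)) (side4 hW)
  simp only [sp1, bil, mon, List.map_cons, List.map_nil, List.zipWith_cons_cons, List.zipWith_nil_right, List.zipWith_nil_left,
    List.sum_cons, List.sum_nil] at h
  push_cast at h
  simp only [Phi, psi4_def]
  linear_combination (1 / 100000000) * mul_nonneg (sq_nonneg s) h

noncomputable def RR (H T P K U V : ℝ) : ℝ :=
  (1 / 2) * V
      + (-1) * U
      + (-3 / 25) * K * U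
      + (31 / 50) * K ^ 2
      + (1 / 2) * P
      + (2213531321 / 75000000) * P * V
      + (-90005609 / 30000000) * P * V ^ 2
      + (-924210671 / 75000000) * P * U
      + (163226297 / 22500000) * P * U * V
      + (-1083305953 / 1800000000) * P * U ^ 2
      + (193 / 25) * P * K
      + (-1206655709 / 75000000) * P * K * V
      + (330624271 / 25000000) * P * K * U
      + (314511647 / 360000000) * P * K * U ^ 2
      + (-231450917 / 12500000) * P * K ^ 2
      + (-64128791 / 150000000) * P * K ^ 2 * V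
      + (-1608844471 / 225000000) * P * K ^ 2 * U
      + (1236366619 / 150000000) * P * K ^ 3
      + (61263491 / 150000000) * P * K ^ 4
      + (-90005609 / 30000000) * P ^ 2 * V
      + (2091547019 / 18750000) * P ^ 2 * V ^ 2
      + (355919333 / 22500000) * P ^ 2 * U * V
      + (-576159949 / 600000000) * P ^ 2 * U ^ 2
      + (-1260215573 / 50000000) * P ^ 2 * K * V
      + (10145537 / 3750000) * P ^ 2 * K * U
      + (-778041577 / 216000000) * P ^ 2 * K * U ^ 2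
      + (90005609 / 150000000) * P ^ 2 * K ^ 2
      + (-1809944467 / 75000000) * P ^ 2 * K ^ 2 * V
      + (-61878307 / 12500000) * P ^ 2 * K ^ 2 * U
      + (21129639 / 3125000) * P ^ 2 * K ^ 3
      + (98294207 / 150000000) * P ^ 2 * K ^ 4
      + (-1) * T
      + (-924210671 / 75000000) * T * V
      + (1127197069 / 600000000) * T * U
      + (-9015723 / 8000000) * T * U * V
      + (170121509 / 900000000) * T * U ^ 2
      + (74 / 25) * T * K
      + (1302591391 / 150000000) * T * K * V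
      + (-1774061159 / 1800000000) * T * K * U
      + (10145537 / 120000000) * T * K * U ^ 2
      + (-34 / 25) * T * K ^ 2
      + (-14378493 / 20000000) * T * K ^ 2 * U
      + (12 / 25) * T * K ^ 3
      + (163226297 / 22500000) * T * P * V
      + (355919333 / 22500000) * T * P * V ^ 2
      + (-9015723 / 8000000) * T * P * U
      + (-1232164363 / 100000000) * T * P * U * V
      + (168051457 / 112500000) * T * P * U ^ 2
      + (694704073 / 112500000) * T * P * K * V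
      + (163540231 / 300000000) * T * P * K * U
      + (-7184645993 / 8100000000) * T * P * K * U ^ 2
      + (-529127063 / 112500000) * T * P * K ^ 2
      + (-1480104811 / 225000000) * T * P * K ^ 2 * V
      + (20692020401 / 5400000000) * T * P * K ^ 2 * U
      + (-4923958 / 3515625) * T * P * K ^ 3
      + (7043213 / 6250000) * T * P * K ^ 4
      + (-1083305953 / 1800000000) * T ^ 2 * V
      + (-576159949 / 600000000) * T ^ 2 * V ^ 2
      + (170121509 / 900000000) * T ^ 2 * U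
      + (168051457 / 112500000) * T ^ 2 * U * V
      + (9491011343 / 28800000000) * T ^ 2 * U ^ 2
      + (8 / 25) * T ^ 2 * K
      + (-12700211533 / 7200000000) * T ^ 2 * K * V
      + (-2617259471 / 2700000000) * T ^ 2 * K * U
      + (-24244159309 / 86400000000) * T ^ 2 * K * U ^ 2
      + (2297449769 / 1800000000) * T ^ 2 * K ^ 2
      + (791257249 / 800000000) * T ^ 2 * K ^ 2 * V
      + (201261023 / 1350000000) * T ^ 2 * K ^ 2 * U
      + (-59549799 / 80000000) * T ^ 2 * K ^ 3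
      + (65464663 / 720000000) * T ^ 2 * K ^ 4
      + (193 / 25) * H * V
      + (74 / 25) * H * U
      + (8 / 25) * H * U ^ 2
      + (-95020157 / 60000000) * H * K
      + (773754841 / 300000000) * H * K * V
      + (-36875331 / 10000000) * H * K * U
      + (-53977597 / 37500000) * H * K ^ 2
      + (-8711923 / 30000000) * H * K ^ 2 * U
      + (1123119 / 1250000) * H * K ^ 3
      + (-1206655709 / 75000000) * H * P * V
      + (-1260215573 / 50000000) * H * P * V ^ 2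
      + (1302591391 / 150000000) * H * P * U
      + (694704073 / 112500000) * H * P * U * V
      + (-12700211533 / 7200000000) * H * P * U ^ 2
      + (773754841 / 300000000) * H * P * K
      + (-1027245431 / 600000000) * H * P * K * V
      + (-5320005599 / 450000000) * H * P * K * U
      + (375599777 / 1440000000) * H * P * K * U ^ 2
      + (370543137 / 50000000) * H * P * K ^ 2
      + (2117506309 / 200000000) * H * P * K ^ 2 * V
      + (355706831 / 112500000) * H * P * K ^ 2 * U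
      + (-15425311 / 150000000) * H * P * K ^ 3
      + (-185634921 / 100000000) * H * P * K ^ 4
      + (-3 / 25) * H * T
      + (330624271 / 25000000) * H * T * V
      + (10145537 / 3750000) * H * T * V ^ 2
      + (-1774061159 / 1800000000) * H * T * U
      + (163540231 / 300000000) * H * T * U * V
      + (-2617259471 / 2700000000) * H * T * U ^ 2
      + (-36875331 / 10000000) * H * T * K
      + (-5320005599 / 450000000) * H * T * K * V
      + (6676026077 / 1800000000) * H * T * K * U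
      + (165232381 / 4050000000) * H * T * K * U ^ 2
      + (508465273 / 300000000) * H * T * K ^ 2
      + (-30693463 / 225000000) * H * T * K ^ 2 * V
      + (-14722063 / 2700000000) * H * T * K ^ 2 * U
      + (-100162177 / 225000000) * H * T * K ^ 3
      + (10145537 / 60000000) * H * T * K ^ 4
      + (314511647 / 360000000) * H * T ^ 2 * V
      + (-778041577 / 216000000) * H * T ^ 2 * V ^ 2
      + (10145537 / 120000000) * H * T ^ 2 * U
      + (-7184645993 / 8100000000) * H * T ^ 2 * U * V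
      + (-24244159309 / 86400000000) * H * T ^ 2 * U ^ 2
      + (375599777 / 1440000000) * H * T ^ 2 * K * V
      + (165232381 / 4050000000) * H * T ^ 2 * K * U
      + (52042495487 / 86400000000) * H * T ^ 2 * K * U ^ 2
      + (10145537 / 360000000) * H * T ^ 2 * K ^ 2
      + (-23340460721 / 21600000000) * H * T ^ 2 * K ^ 2 * V
      + (572132257 / 5400000000) * H * T ^ 2 * K ^ 2 * U
      + (126703517 / 1200000000) * H * T ^ 2 * K ^ 3
      + (112791593 / 1200000000) * H * T ^ 2 * K ^ 4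
      + (31 / 50) * H ^ 2
      + (-231450917 / 12500000) * H ^ 2 * V
      + (90005609 / 150000000) * H ^ 2 * V ^ 2
      + (-34 / 25) * H ^ 2 * U
      + (-529127063 / 112500000) * H ^ 2 * U * V
      + (2297449769 / 1800000000) * H ^ 2 * U ^ 2
      + (-53977597 / 37500000) * H ^ 2 * K
      + (370543137 / 50000000) * H ^ 2 * K * V
      + (508465273 / 300000000) * H ^ 2 * K * U
      + (10145537 / 360000000) * H ^ 2 * K * U ^ 2
      + (1835882609 / 300000000) * H ^ 2 * K ^ 2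
      + (336887483 / 300000000) * H ^ 2 * K ^ 2 * V
      + (194904151 / 450000000) * H ^ 2 * K ^ 2 * U
      + (-170371673 / 50000000) * H ^ 2 * K ^ 3
      + (-61263491 / 300000000) * H ^ 2 * K ^ 4
      + (-64128791 / 150000000) * H ^ 2 * P * V
      + (-1809944467 / 75000000) * H ^ 2 * P * V ^ 2
      + (-1480104811 / 225000000) * H ^ 2 * P * U * V
      + (791257249 / 800000000) * H ^ 2 * P * U ^ 2
      + (2117506309 / 200000000) * H ^ 2 * P * K * V
      + (-30693463 / 225000000) * H ^ 2 * P * K * U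
      + (-23340460721 / 21600000000) * H ^ 2 * P * K * U ^ 2
      + (336887483 / 300000000) * H ^ 2 * P * K ^ 2
      + (4819660701 / 200000000) * H ^ 2 * P * K ^ 2 * V
      + (20294447 / 25000000) * H ^ 2 * P * K ^ 2 * U
      + (-16890151 / 4000000) * H ^ 2 * P * K ^ 3
      + (-245650741 / 75000000) * H ^ 2 * P * K ^ 4
      + (-1608844471 / 225000000) * H ^ 2 * T * V
      + (-61878307 / 12500000) * H ^ 2 * T * V ^ 2
      + (-14378493 / 20000000) * H ^ 2 * T * U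
      + (20692020401 / 5400000000) * H ^ 2 * T * U * V
      + (201261023 / 1350000000) * H ^ 2 * T * U ^ 2
      + (-8711923 / 30000000) * H ^ 2 * T * K
      + (355706831 / 112500000) * H ^ 2 * T * K * V
      + (-14722063 / 2700000000) * H ^ 2 * T * K * U
      + (572132257 / 5400000000) * H ^ 2 * T * K * U ^ 2
      + (194904151 / 450000000) * H ^ 2 * T * K ^ 2
      + (20294447 / 25000000) * H ^ 2 * T * K ^ 2 * V
      + (-12972697 / 10546875) * H ^ 2 * T * K ^ 2 * U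
      + (971270399 / 900000000) * H ^ 2 * T * K ^ 3
      + (-118309427 / 300000000) * H ^ 2 * T * K ^ 4
      + (1236366619 / 150000000) * H ^ 3 * V
      + (21129639 / 3125000) * H ^ 3 * V ^ 2
      + (12 / 25) * H ^ 3 * U
      + (-4923958 / 3515625) * H ^ 3 * U * V
      + (-59549799 / 80000000) * H ^ 3 * U ^ 2
      + (1123119 / 1250000) * H ^ 3 * K
      + (-15425311 / 150000000) * H ^ 3 * K * V
      + (-100162177 / 225000000) * H ^ 3 * K * U
      + (126703517 / 1200000000) * H ^ 3 * K * U ^ 2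
      + (-170371673 / 50000000) * H ^ 3 * K ^ 2
      + (-16890151 / 4000000) * H ^ 3 * K ^ 2 * V
      + (971270399 / 900000000) * H ^ 3 * K ^ 2 * U
      + (51858543 / 100000000) * H ^ 3 * K ^ 3
      + (28697681 / 75000000) * H ^ 3 * K ^ 4
      + (61263491 / 150000000) * H ^ 4 * V
      + (98294207 / 150000000) * H ^ 4 * V ^ 2
      + (7043213 / 6250000) * H ^ 4 * U * V
      + (65464663 / 720000000) * H ^ 4 * U ^ 2
      + (-185634921 / 100000000) * H ^ 4 * K * V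
      + (10145537 / 60000000) * H ^ 4 * K * U
      + (112791593 / 1200000000) * H ^ 4 * K * U ^ 2
      + (-61263491 / 300000000) * H ^ 4 * K ^ 2
      + (-245650741 / 75000000) * H ^ 4 * K ^ 2 * V
      + (-118309427 / 300000000) * H ^ 4 * K ^ 2 * U
      + (28697681 / 75000000) * H ^ 4 * K ^ 3
      + (45724737 / 50000000) * H ^ 4 * K ^ 4

set_option maxHeartbeats 4000000 in
theorem mom (a b c d e f : ℝ) :
    s24 (fun d e f => Phi (kS a b c d e f) (kN a b c d e f) (kT a b c d e f) (kP a b c d e f)) d e f =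
    24 * RR (iH a b c) (iT a b c) (iP a b c) (iH d e f) (iT d e f) (iP d e f) := by
  have hO2 := m4O2 a b c d e f
  have hO3 := m4O3 a b c d e f
  have hO4 := m4O4 a b c d e f
  have hO5 := m4O5 a b c d e f
  have hO6 := m4O6 a b c d e f
  have hO7 := m4O7 a b c d e f
  have hO8 := m4O8 a b c d e f
  have hN2 := m4N2 a b c d e f
  have hN3 := m4N3 a b c d e f
  have hN4 := m4N4 a b c d e f
  have hN5 := m4N5 a b c d e f
  have hN6 := m4N6 a b c d e f
  have hT0 := m4T0 a b c d e f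
  have hT1 := m4T1 a b c d e f
  have hT2 := m4T2 a b c d e f
  have hT3 := m4T3 a b c d e f
  have hT4 := m4T4 a b c d e f
  have hT5 := m4T5 a b c d e f
  have hNN0 := m4NN0 a b c d e f
  have hNN1 := m4NN1 a b c d e f
  have hNN2 := m4NN2 a b c d e f
  have hNN3 := m4NN3 a b c d e f
  have hNN4 := m4NN4 a b c d e f
  have hP0 := m4P0 a b c d e f
  have hP1 := m4P1 a b c d e f
  have hP2 := m4P2 a b c d e f
  have hP3 := m4P3 a b c d e f
  have hP4 := m4P4 a b c d e f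
  have hNT0 := m4NT0 a b c d e f
  have hNT1 := m4NT1 a b c d e f
  have hNT2 := m4NT2 a b c d e f
  have hNT3 := m4NT3 a b c d e f
  simp only [s24, s4, Phi, RR] at *
  linear_combination (979843 / 20000000) * hO2
    + (-53161379 / 100000000) * hO3
    + (670953971 / 100000000) * hO4
    + (688361701 / 100000000) * hO5
    + (-712044227 / 100000000) * hO6
    + (-415871421 / 100000000) * hO7
    + (137174211 / 50000000) * hO8
    + (13522403 / 12500000) * hN2
    + (-216181361 / 100000000) * hN3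
    + (-345359279 / 50000000) * hN4
    + (617600401 / 100000000) * hN5
    + (28697681 / 25000000) * hN6
    + (-1) * hT0
    + (2) * hT1
    + (-24625993 / 10000000) * hT2
    + (77734519 / 100000000) * hT3
    + (161526359 / 100000000) * hT4
    + (-118309427 / 100000000) * hT5
    + (31 / 50) * hNN0
    + (-93 / 50) * hNN1
    + (3369357 / 1250000) * hNN2
    + (-8287787 / 10000000) * hNN3
    + (-61263491 / 100000000) * hNN4
    + (1 / 2) * hP0
    + (-3 / 2) * hP1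
    + (197754841 / 100000000) * hP2
    + (4154923 / 20000000) * hP3
    + (-90005609 / 100000000) * hP4
    + (-3 / 25) * hNT0
    + (12 / 25) * hNT1
    + (-8711923 / 10000000) * hNT2
    + (10145537 / 20000000) * hNT3

noncomputable def mult (y : Fin 4 → ℝ) : ℝ := (-1891 / 500) * fP y + (221 / 500) * fT y + (711 / 500) * fH y + (517 / 1000) * fH y * fT y + (-54 / 125) * fH y ^ 2

set_option maxHeartbeats 4000000 in
theorem main {y z : Fin 4 → ℝ} (hy : Simp y) (hz : Simp z) :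
    avg (fun W => -psi4 W) y z ≤ -((1 - mult z) * psi4 y + (1 - mult y) * psi4 z + 1 / 500 * fH y * fH z) := by
  have h0 := avg_le4 (F := (fun W => -psi4 W)) Phi st1 hy hz
  rw [mom, ← fH_eq4 hy, ← fT_eq4 hy, ← fP_eq4 hy, ← fH_eq4 hz, ← fT_eq4 hz, ← fP_eq4 hz] at h0
  refine h0.trans ?_
  have h := Ok.four b00 b01 b10 b11 (side4 hy) (side4 hz)
  simp only [sp2, bil, mon, List.map_cons, List.map_nil, List.zipWith_cons_cons, List.zipWith_nil_right, List.zipWith_nil_left,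
    List.sum_cons, List.sum_nil] at h
  push_cast at h
  simp only [RR, mult, psi4_def]
  linear_combination (1 / 600000000) * h

def spp1 : Spec := ⟨4, 5, [(0, 0, 1), (0, 1, 0), (1, 0, 0), (1, 1, 0), (2, 0, 0)],
  1, 0, [(0, 0, 0)],
  [[-1891],
   [1326],
   [711],
   [1551],
   [-216]],
  1, 1⟩

theorem op100 : Ok spp1 false false r4p (rI 0 1 1) :=
  Ok.chk 24 .leaf (by decide +kernel)

theorem op110 : Ok spp1 true false r4n (rI 0 1 1) :=
  Ok.chk 25 .leaf (by decide +kernel)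

theorem p1 {y : Fin 4 → ℝ} (hy : Simp y) : 0 ≤ mult y := by
  have h := Ok.two rfl op100 op110 (side4 hy)
  simp only [spp1, bil, mon, List.map_cons, List.map_nil, List.zipWith_cons_cons, List.zipWith_nil_right, List.zipWith_nil_left,
    List.sum_cons, List.sum_nil] at h
  push_cast at h
  simp only [psi4_def, mult]
  linear_combination (1 / 500) * h

def spp2 : Spec := ⟨4, 5, [(0, 0, 0), (0, 0, 1), (0, 1, 0), (1, 0, 0), (1, 1, 0), (2, 0, 0)],
  1, 0, [(0, 0, 0)],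
  [[500],
   [1891],
   [-1326],
   [-711],
   [-1551],
   [216]],
  1, 1⟩

theorem op200 : Ok spp2 false false r4p (rI 0 1 1) :=
  Ok.chk 26 (.sl 0 3 0 0 .leaf .leaf) (by decide +kernel)

theorem op210 : Ok spp2 true false r4n (rI 0 1 1) :=
  Ok.chk 26 .leaf (by decide +kernel)

theorem p2 {y : Fin 4 → ℝ} (hy : Simp y) : mult y ≤ 1 := by
  have h := Ok.two rfl op200 op210 (side4 hy)
  simp only [spp2, bil, mon, List.map_cons, List.map_nil, List.zipWith_cons_cons, List.zipWith_nil_right, List.zipWith_nil_left,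
    List.sum_cons, List.sum_nil] at h
  push_cast at h
  simp only [psi4_def, mult]
  linear_combination (1 / 500) * h

def spp3 : Spec := ⟨4, 5, [(0, 0, 1), (0, 1, 0), (1, 0, 0), (1, 1, 0), (2, 0, 0)],
  1, 0, [(0, 0, 0)],
  [[1891],
   [-1326],
   [289],
   [-1551],
   [216]],
  1, 1⟩

theorem op300 : Ok spp3 false false r4p (rI 0 1 1) :=
  Ok.chk 23 .leaf (by decide +kernel)

theorem op310 : Ok spp3 true false r4n (rI 0 1 1) :=
  Ok.chk 24 .leaf (by decide +kernel)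

theorem p3 {y : Fin 4 → ℝ} (hy : Simp y) : mult y ≤ 2 * fH y := by
  have h := Ok.two rfl op300 op310 (side4 hy)
  simp only [spp3, bil, mon, List.map_cons, List.map_nil, List.zipWith_cons_cons, List.zipWith_nil_right, List.zipWith_nil_left,
    List.sum_cons, List.sum_nil] at h
  push_cast at h
  simp only [psi4_def, mult]
  linear_combination (1 / 500) * h

end Crest.Agent.R163.C4II
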