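import Crest.Agent.R163.C4IIs

/-! R163: a two-point inequality for four states (generated). -/

set_option autoImplicit false
set_option linter.unusedVariables false
set_option linter.unusedSimpArgs false
set_option Elab.async false

namespace Crest.Agent.R163.C4II
open Bil

theorem b00lllllllr : Ok sp2 false false ⟨⟨4, 3, 3, 4⟩, ⟨3, 3, 2, 4⟩, ⟨2, 1, 1, 2⟩, ⟨3, 3, 3, 4⟩⟩ ⟨⟨1, 1, 1, 1⟩, ⟨3, 3, 2, 4⟩, ⟨2, 1, 1, 2⟩, ⟨1, 1, 1, 2⟩⟩ :=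
  Ok.chk 104 (.sr 0 3 1 0 (.sr 0 2 1 0 .leaf .leaf) .leaf) (by decide +kernel)

theorem b10l : Ok sp2 true false r4n ⟨⟨1, 1, 1, 1⟩, ⟨1, 1, 0, 2⟩, ⟨1, 0, 0, 1⟩, ⟨1, 1, 1, 2⟩⟩ :=
  Ok.chk 84 (.sr 0 2 0 0 (.sr 0 1 1 0 .leaf .leaf) .leaf) (by decide +kernel)

theorem b00lrll : Ok sp2 false false ⟨⟨1, 1, 1, 1⟩, ⟨3, 3, 2, 4⟩, ⟨2, 1, 1, 2⟩, ⟨1, 1, 1, 2⟩⟩ ⟨⟨1, 1, 1, 2⟩, ⟨1, 1, 0, 2⟩, ⟨1, 0, 0, 1⟩, ⟨0, 0, 0, 1⟩⟩ :=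
  Ok.chk 83 .leaf (by decide +kernel)

theorem b00rr : Ok sp2 false false ⟨⟨1, 1, 1, 2⟩, ⟨1, 1, 0, 2⟩, ⟨1, 0, 0, 1⟩, ⟨0, 0, 0, 1⟩⟩ ⟨⟨1, 1, 1, 2⟩, ⟨1, 1, 0, 2⟩, ⟨1, 0, 0, 1⟩, ⟨0, 0, 0, 1⟩⟩ :=
  Ok.chk 74 .leaf (by decide +kernel)

end Crest.Agent.R163.C4II
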