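import Crest.Agent.R163.C4Is

/-! R163: a two-point inequality for four states (generated). -/

set_option autoImplicit false
set_option linter.unusedVariables false
set_option linter.unusedSimpArgs false
set_option Elab.async false

namespace Crest.Agent.R163.C4I
open Bil

theorem b00llll : Ok sp2 false false ⟨⟨1, 1, 1, 1⟩, ⟨1, 1, 0, 2⟩, ⟨2, 1, 1, 2⟩, ⟨1, 1, 1, 2⟩⟩ ⟨⟨1, 1, 1, 1⟩, ⟨1, 1, 0, 2⟩, ⟨2, 1, 1, 2⟩, ⟨1, 1, 1, 2⟩⟩ :=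
  Ok.chk 75 (.sl 0 1 1 0 (.sr 0 1 1 0 .leaf .leaf) .leaf) (by decide +kernel)

theorem b10 : Ok sp2 true false r4n r4p :=
  Ok.chk 63 (.sr 0 3 0 0 (.sr 0 2 0 0 .leaf .leaf) .leaf) (by decide +kernel)

theorem b00llr : Ok sp2 false false ⟨⟨2, 1, 1, 2⟩, ⟨1, 1, 0, 2⟩, ⟨1, 0, 0, 1⟩, ⟨1, 1, 1, 2⟩⟩ ⟨⟨1, 1, 1, 1⟩, ⟨1, 1, 0, 2⟩, ⟨1, 0, 0, 1⟩, ⟨1, 1, 1, 2⟩⟩ :=
  Ok.chk 64 .leaf (by decide +kernel)

theorem b11 : Ok sp2 true true r4n r4n :=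
  Ok.chk 59 .leaf (by decide +kernel)

end Crest.Agent.R163.C4I
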