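import Crest.Agent.R163.BilOk

/-! R163: a two-point inequality for four states (generated). -/

set_option autoImplicit false
set_option linter.unusedVariables false
set_option linter.unusedSimpArgs false
set_option Elab.async false

namespace Crest.Agent.R163.C4I
open Bil

def sp1 : Spec := ⟨1, 3, [(0, 0, 0), (0, 1, 0), (0, 2, 0), (0, 3, 0)],
  4, 2, [(0, 0, 0), (1, 0, 0)],
  [[733210, -237711],
   [-788412, 262183],
   [-721484, 237499],
   [790139, -262395]],
  1, 27⟩

def sp2 : Spec := ⟨4, 7, [(0, 0, 1), (0, 1, 0), (0, 1, 1), (0, 2, 0), (1, 0, 0), (1, 0, 1), (1, 1, 0), (2, 0, 0), (2, 1, 0), (3, 0, 0)],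
  4, 7, [(0, 0, 1), (0, 1, 0), (0, 1, 1), (0, 2, 0), (1, 0, 0), (1, 0, 1), (1, 1, 0), (2, 0, 0), (2, 1, 0), (3, 0, 0)],
  [[24613800, -21168000, 0, 0, 2000000, -15245780, 36713840, -11937800, 0, 3049156],
   [-21168000, 0, 0, 0, 0, 0, 22392000, -2544000, 0, 0],
   [0, 0, -451039904, 176329440, 0, 12594960, 0, 0, 130644192, -4198320],
   [0, 0, 176329440, 623546847, 0, -89949597, -146359488, 0, -25189920, 12051378],
   [2000000, 0, 0, 0, 0, 0, -2880000, 480000, 0, 0],
   [-15245780, 0, 12594960, -89949597, 0, 38840175, -24393248, 3049156, 4198320, -9002222],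
   [36713840, 22392000, 0, -146359488, -2880000, -24393248, 18769040, 9547280, 10495800, 0],
   [-11937800, -2544000, 0, 0, 480000, 3049156, 9547280, 2674940, 0, -1524578],
   [0, 0, 130644192, -25189920, 0, 4198320, 10495800, 0, -54826296, 2099160],
   [3049156, 0, -4198320, 12051378, 0, -9002222, 0, -1524578, 2099160, 2492548]],
  1, 512⟩

end Crest.Agent.R163.C4I
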