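import Crest.Agent.R163.Defs

/-! R163: partial potentials of flows. -/

set_option autoImplicit false
set_option linter.unusedVariables false
open Crest.ProbabilityR.Broadcast Crest.ProbabilityR.TreeBroadcast

namespace Crest.Agent.R163

variable {V : Type*} [DecidableEq V]

/-- the potential of `θ` along the path from the root to `v` -/
noncomputable def Pot (T : LocFinTree V) (lam : ℝ) (θ : V → ℝ) (v : V) : ℝ :=
  ∑ i ∈ Finset.range (T.depth v), (θ (T.parent^[i] v) / lam ^ (2 * (T.depth v - i))) ^ 2

theorem depth_child (T : LocFinTree V) {v c : V} (h : c ∈ T.children v) :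
    T.depth c = T.depth v + 1 ∧ T.parent c = v := by
  simp only [LocFinTree.children, Finset.mem_filter, T.mem_level_iff] at h
  exact h

theorem depth_root (T : LocFinTree V) : T.depth T.root = 0 := (T.depth_eq_zero_iff _).2 rfl

theorem Pot_root (T : LocFinTree V) (lam : ℝ) (θ : V → ℝ) : Pot T lam θ T.root = 0 := by
  simp [Pot, depth_root]

theorem Pot_child (T : LocFinTree V) (lam : ℝ) (θ : V → ℝ) {v c : V} (h : c ∈ T.children v) :
    Pot T lam θ c = Pot T lam θ v + (θ c / lam ^ (2 * T.depth c)) ^ 2 := by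
  obtain ⟨hd, hp⟩ := depth_child T h
  unfold Pot
  rw [hd, Finset.sum_range_succ']
  simp only [Function.iterate_succ, Function.comp, hp, Function.iterate_zero, id, Nat.sub_zero]
  congr 1
  refine Finset.sum_congr rfl fun i _ => ?_
  rw [Nat.add_sub_add_right]

theorem Pot_nonneg (T : LocFinTree V) (lam : ℝ) (θ : V → ℝ) (v : V) : 0 ≤ Pot T lam θ v :=
  Finset.sum_nonneg fun _ _ => sq_nonneg _

/-- a flow down to depth `n` (conservation also at the root) -/
def FinFlow (T : LocFinTree V) (n : ℕ) (θ : V → ℝ) : Prop :=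
  (∀ v, 0 ≤ θ v) ∧ ∀ v, T.depth v < n → θ v = ∑ c ∈ T.children v, θ c

end Crest.Agent.R163
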