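import Crest.Agent.R163.C4I
import Crest.Agent.R163.C4II

/-! R163: two-point inequalities for four states (polynomial certificates). -/

set_option autoImplicit false
set_option linter.unusedVariables false

namespace Crest.Agent.R163

theorem I4 : ∃ A : (Fin 4 → ℝ) → ℝ, (∀ y, Simp y → 1 / 100 * fH y ≤ A y ∧ A y ≤ 2 * fH y) ∧
    ∀ y z, Simp y → Simp z → avg fH y z ≤ fH y + fH z - A z * psi4 y - A y * psi4 z :=
  ⟨C4I.mult, fun y hy => ⟨C4I.p1 hy, C4I.p2 hy⟩, fun y z hy hz => C4I.main hy hz⟩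

theorem II4 : ∃ (a : (Fin 4 → ℝ) → ℝ) (m : ℝ), 0 < m ∧
    (∀ y, Simp y → 0 ≤ a y ∧ a y ≤ 1 ∧ a y ≤ 2 * fH y) ∧
    ∀ y z, Simp y → Simp z →
      (1 - a z) * psi4 y + (1 - a y) * psi4 z + m * fH y * fH z ≤ avg psi4 y z :=
  ⟨C4II.mult, 1 / 500, by norm_num, fun y hy => ⟨C4II.p1 hy, C4II.p2 hy, C4II.p3 hy⟩, fun y z hy hz => by
    have h := C4II.main hy hz
    rw [avg_neg] at h
    linarith⟩

theorem L4 (y z : Fin 4 → ℝ) (hy : Simp y) (hz : Simp z) :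
    fH y + fH z - 2 / 3 * (fT y * fH z + fH y * fT z) - 1 / 6 * fT y * fT z ≤ avg fH y z := by
  have h := avg_le4 (F := fun W => -fH W) (fun s N T P => -(N * (1 - s))) (fun s W h1 h2 hW => by
    have h3 : 0 ≤ (1 + s) * fH W * s ^ 2 :=
      mul_nonneg (mul_nonneg (by linarith) (fH_nonneg W)) (sq_nonneg s)
    linear_combination h3) hy hz
  have h0 := m4N0 (ka y) (kb y) (kc y) (ka z) (kb z) (kc z)
  have h1 := m4N1 (ka y) (kb y) (kc y) (ka z) (kb z) (kc z)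
  rw [avg_neg] at h
  rw [fH_eq4 hy, fT_eq4 hy, fH_eq4 hz, fT_eq4 hz]
  simp only [s24, s4] at h h0 h1
  linear_combination h + (1 / 24) * h1 - (1 / 24) * h0

theorem U4 : ∃ C : ℝ, 0 ≤ C ∧ ∀ y z : Fin 4 → ℝ, Simp y → Simp z →
    avg fT y z ≤ fT y + fT z + C * fH y * fH z := by
  refine ⟨120, by norm_num, fun y z hy hz => ?_⟩
  have hH : ∀ W : Fin 4 → ℝ, Simp W → fH W ≤ 3 := fun W hW => (fH_le (by norm_num) hW).trans (by norm_num)
  have h := avg_le4 (F := fT) (fun s N T P => T * (1 - 2 * s) + 216 * s ^ 2) (fun s W h1 h2 hW => by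
    have h3 : fT W ≤ 6 := by linarith [(abs_le.1 (abs_fT_le4 hW)).2, hH W hW]
    have h4 : 0 ≤ (1 + s) * (3 + 2 * s) := mul_nonneg (by linarith) (by linarith)
    have h5 : (1 + s) * (3 + 2 * s) ≤ 36 := by nlinarith
    have h6 : (1 + s) * (3 + 2 * s) * fT W ≤ 216 := by nlinarith
    linear_combination mul_le_mul_of_nonneg_left h6 (sq_nonneg s)) hy hz
  have h0 := m4T0 (ka y) (kb y) (kc y) (ka z) (kb z) (kc z)
  have h1 := m4T1 (ka y) (kb y) (kc y) (ka z) (kb z) (kc z)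
  have h2 := m4O2 (ka y) (kb y) (kc y) (ka z) (kb z) (kc z)
  rw [← fH_eq4 hy, ← fH_eq4 hz] at h0 h1 h2
  rw [← fT_eq4 hy, ← fT_eq4 hz] at h0 h1
  rw [← fP_eq4 hy, ← fP_eq4 hz] at h1
  simp only [s24, s4] at h h0 h1 h2
  have a1 := abs_le.1 (abs_fT_le4 hy)
  have a2 := abs_le.1 (abs_fT_le4 hz)
  have a3 := fH_nonneg y
  have a4 := fH_nonneg z
  have a5 := fP_nonneg hy
  have a6 := fP_nonneg hz
  have b1 : 0 ≤ fH y * (2 * fH z + fT z) := mul_nonneg a3 (by linarith)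
  have b2 : 0 ≤ (2 * fH y + fT y) * fH z := mul_nonneg (by linarith) a4
  have b3 : 0 ≤ (2 * fH y + fT y) * (2 * fH z + fT z) := mul_nonneg (by linarith) (by linarith)
  have b4 : 0 ≤ (2 * fH y - fT y) * (2 * fH z - fT z) := mul_nonneg (by linarith) (by linarith)
  have b5 := mul_nonneg a5 a6
  have b6 := mul_nonneg a3 a6
  have b7 := mul_nonneg a5 a4
  have b8 := mul_nonneg b1 a3
  have b9 := mul_nonneg b2 a4
  have c1 : 0 ≤ fH y * fH z * (3 - fH y) := mul_nonneg (mul_nonneg a3 a4) (by linarith [hH y hy])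
  have c2 : 0 ≤ fH y * fH z * (3 - fH z) := mul_nonneg (mul_nonneg a3 a4) (by linarith [hH z hz])
  have c3 := mul_nonneg a3 a4
  linear_combination h + (1 / 24) * h0 - (1 / 12) * h1 + 9 * h2 + b1 + b2 + (5 / 6) * b3 + (5 / 6) * b4 + 8 * b5 + 8 * b6
    + 8 * b7 + 2 * b8 + 2 * b9 + 4 * c1 + 4 * c2 + (28 / 3) * c3

end Crest.Agent.R163
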