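import Crest.Agent.R163.Gen
import Crest.Agent.R163.Cert4

/-! R163: the cone for four states. -/

set_option autoImplicit false
set_option linter.unusedVariables false

namespace Crest.Agent.R163

theorem bdd_psi4 : Bdd psi4 := bdd_psi4'

theorem cone4_bdd_of {A : (Fin 4 → ℝ) → ℝ} (h : ∀ y, Simp y → 0 ≤ A y ∧ A y ≤ 2 * fH y) : Bdd A :=
  ⟨6, fun y hy => by
    have h1 := fH_le (by norm_num) hy
    have h2 := h y hy
    push_cast at h1
    rw [abs_of_nonneg h2.1]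
    linarith⟩

theorem cone4_le {E F : Ex 4} (hF : Good F) {f a₁ a₂ a₃ a₄ b₁ b₂ b₃ b₄ : (Fin 4 → ℝ) → ℝ}
    (hf : Bdd f) (h₁ : Bdd a₁) (h₂ : Bdd a₂) (h₃ : Bdd a₃) (h₄ : Bdd a₄) (k₁ : Bdd b₁) (k₂ : Bdd b₂)
    (k₃ : Bdd b₃) (k₄ : Bdd b₄) (h : ∀ y z, Simp y → Simp z →
      avg f y z ≤ a₁ y * b₁ z + a₂ y * b₂ z + a₃ y * b₃ z + a₄ y * b₄ z) :
    ev (E.mul F) f
      ≤ ev E a₁ * ev F b₁ + ev E a₂ * ev F b₂ + ev E a₃ * ev F b₃ + ev E a₄ * ev F b₄ := by
  have := two_point (by norm_num) E hF.sym hf ![a₁, a₂, a₃, a₄] ![b₁, b₂, b₃, b₄]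
    (fun j => by fin_cases j <;> assumption) (fun j => by fin_cases j <;> assumption)
    (fun _ => True) (fun _ _ => trivial) fun y z hy hz _ => by
      simpa [Fin.sum_univ_four] using h y z hy hz
  simpa [Fin.sum_univ_four] using this

theorem cone4_ge {E F : Ex 4} (hF : Good F) {f a₁ a₂ a₃ a₄ b₁ b₂ b₃ b₄ : (Fin 4 → ℝ) → ℝ}
    (hf : Bdd f) (h₁ : Bdd a₁) (h₂ : Bdd a₂) (h₃ : Bdd a₃) (h₄ : Bdd a₄) (k₁ : Bdd b₁) (k₂ : Bdd b₂)
    (k₃ : Bdd b₃) (k₄ : Bdd b₄) (h : ∀ y z, Simp y → Simp z →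
      a₁ y * b₁ z + a₂ y * b₂ z + a₃ y * b₃ z + a₄ y * b₄ z ≤ avg f y z) :
    ev E a₁ * ev F b₁ + ev E a₂ * ev F b₂ + ev E a₃ * ev F b₃ + ev E a₄ * ev F b₄
      ≤ ev (E.mul F) f := by
  have := two_point_ge (by norm_num) E hF.sym hf ![a₁, a₂, a₃, a₄] ![b₁, b₂, b₃, b₄]
    (fun j => by fin_cases j <;> assumption) (fun j => by fin_cases j <;> assumption)
    fun y z hy hz => by simpa [Fin.sum_univ_four] using h y z hy hz
  simpa [Fin.sum_univ_four] using this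

theorem cone4_loss {c : ℝ} (hc : 0 ≤ c) {E F : Ex 4} (hE : K4 c E) (hF : K4 c F) :
    hh (E.mul F) ≤ hh E + hh F - c / 100 * hh E * hh F * (hh E + hh F) := by
  have q4 : 0 < 4 := by norm_num
  obtain ⟨A, hA, h⟩ := I4
  have hAb : Bdd A := cone4_bdd_of fun y hy =>
    ⟨le_trans (by have := fH_nonneg y; positivity) (hA y hy).1, (hA y hy).2⟩
  have h1 := cone4_le (E := E) hF.1 bdd_fH bdd_fH (bdd_const 1) ((bdd_const (-1)).mul bdd_psi4)
    ((bdd_const (-1)).mul hAb) (bdd_const 1) bdd_fH hAb bdd_psi4 fun y z hy hz => by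
      linarith [h y z hy hz]
  rw [ev_const q4 hE.1.norm, ev_const q4 hF.1.norm, ev_const_mul, ev_const_mul] at h1
  have h2 : ∀ G : Ex 4, 1 / 100 * hh G ≤ ev G A := fun G => by
    rw [hh, ← ev_const_mul]
    exact ev_mono q4 G ((bdd_const _).mul bdd_fH) hAb fun y hy => (hA y hy).1
  have a1 := hh_nonneg q4 E
  have a2 := hh_nonneg q4 F
  have b1 : c * hh E ^ 2 * (1 / 100 * hh F) ≤ ev E psi4 * ev F A :=
    mul_le_mul hE.2 (h2 F) (by positivity) (le_trans (by positivity) hE.2)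
  have b2 : c * hh F ^ 2 * (1 / 100 * hh E) ≤ ev F psi4 * ev E A :=
    mul_le_mul hF.2 (h2 E) (by positivity) (le_trans (by positivity) hF.2)
  unfold hh at *
  linarith

/-- Take `c = min (1/18) (m/14)` with `m` from `II4`.
`loss`: `I4` and `ev F A ≥ hh F/100`, `ev E psi4 ≥ c (hh E)²`.
`mul`: with `h, h'` the two informations, `hh (E.mul F) ≤ h + h'` by `loss`, and
`ev (E.mul F) psi4 ≥ (1-a')ψ + (1-a)ψ' + m h h' ≥ c h² + c h'² - 2c h h' (h+h') + m h h'`, `h, h' ≤ 3`.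
`gen`: `hasSum_ev_gen` and Jensen (`x² ≥ 2 t x - t²` with `t = hh (E.gen ω)`).
`chan`: `psi4_chan`, `ev_chan`, `lam³ ≥ lam⁴`. -/
theorem cone4 : ∃ c : ℝ, Cone (K4 c) (c / 100) ∧ K4 c Ex.vert ∧
    ∀ lam : ℝ, 0 ≤ lam → lam ≤ 1 → ∀ E, K4 c E → K4 c (E.chan lam) := by
  have q4 : 0 < 4 := by norm_num
  obtain ⟨a, m, hm, ha, h⟩ := II4
  have hab : Bdd a := cone4_bdd_of fun y hy => ⟨(ha y hy).1, (ha y hy).2.2⟩
  obtain ⟨c, hc, hc1, hc2⟩ : ∃ c : ℝ, 0 < c ∧ c ≤ 1 / 18 ∧ c ≤ m / 14 :=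
    ⟨min (1 / 18) (m / 14), by positivity, min_le_left _ _, min_le_right _ _⟩
  have hone : K4 c Ex.one := ⟨good_one, by rw [hh_one q4, ev_one q4, psi4_one]; simp⟩
  have hmul : ∀ E F, K4 c E → K4 c F → K4 c (E.mul F) := fun E F hE hF => by
    refine ⟨hE.1.mul hF.1, ?_⟩
    have h1 := cone4_ge (E := E) hF.1 bdd_psi4 bdd_psi4 ((bdd_const 1).sub hab)
      ((bdd_const m).mul bdd_fH) (bdd_const 0) ((bdd_const 1).sub hab) bdd_psi4 bdd_fH (bdd_const 0)
      fun y z hy hz => by linarith [h y z hy hz]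
    rw [ev_sub q4 _ (bdd_const 1) hab, ev_sub q4 _ (bdd_const 1) hab, ev_const q4 hE.1.norm,
      ev_const q4 hF.1.norm, ev_const q4 hE.1.norm, ev_const_mul] at h1
    have h2 : ∀ G : Ex 4, Good G → ev G a ≤ 1 ∧ ev G a ≤ 2 * hh G := fun G hG =>
      ⟨(ev_mono q4 G hab (bdd_const 1) fun y hy => (ha y hy).2.1).trans_eq (ev_const q4 hG.norm 1),
        (ev_mono q4 G hab ((bdd_const 2).mul bdd_fH) fun y hy => (ha y hy).2.2).trans_eq
          (ev_const_mul G 2 fH)⟩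
    have a1 := hh_nonneg q4 E
    have a2 := hh_nonneg q4 F
    have a3 := hh_le q4 hE.1.norm
    have a4 := hh_le q4 hF.1.norm
    push_cast at a3 a4
    have b1 : c * hh E ^ 2 * (1 - 2 * hh F) ≤ ev E psi4 * (1 - ev F a) :=
      (mul_le_mul_of_nonneg_left (by linarith [(h2 F hF.1).2]) (by positivity)).trans
        (mul_le_mul_of_nonneg_right hE.2 (sub_nonneg.2 (h2 F hF.1).1))
    have b2 : c * hh F ^ 2 * (1 - 2 * hh E) ≤ ev F psi4 * (1 - ev E a) :=
      (mul_le_mul_of_nonneg_left (by linarith [(h2 E hE.1).2]) (by positivity)).trans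
        (mul_le_mul_of_nonneg_right hF.2 (sub_nonneg.2 (h2 E hE.1).1))
    have b3 : hh (E.mul F) ≤ hh E + hh F := by
      have := cone4_loss hc.le hE hF
      have : 0 ≤ c / 100 * hh E * hh F * (hh E + hh F) := by positivity
      linarith
    have b4 : c * hh (E.mul F) ^ 2 ≤ c * (hh E + hh F) ^ 2 := by
      have := hh_nonneg q4 (E.mul F)
      gcongr
    have b5 : c * (hh E * hh F) * (hh E + hh F) ≤ c * (hh E * hh F) * 6 := by gcongr; linarith
    have b6 : 14 * c * (hh E * hh F) ≤ m * (hh E * hh F) := by gcongr; linarith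
    unfold hh at *
    linarith
  have hpow : ∀ E, K4 c E → ∀ k, K4 c (E.pow k) := fun E hE k => by
    induction k with
    | zero => exact hone
    | succ k ih => exact hmul _ _ ih hE
  refine ⟨c, ⟨by positivity, fun E hE => hE.1, hone, hmul, fun ω E hE => ⟨hE.1.gen ω, ?_⟩,
    fun E F hE hF => cone4_loss hc.le hE hF⟩, ⟨good_vert, ?_⟩, fun lam h0 h1 E hE => ?_⟩
  · have h1 := hasSum_ev_gen q4 ω E bdd_psi4
    have h2 := ((hasSum_ev_gen q4 ω E bdd_fH).mul_left (2 * c * hh (E.gen ω))).sub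
      (ω.sum1.mul_left (c * hh (E.gen ω) ^ 2))
    refine le_of_eq_of_le ?_ (hasSum_le (fun k => ?_) h2 h1)
    · unfold hh
      ring
    · have a1 := mul_le_mul_of_nonneg_left (hpow E hE k).2 (ω.nonneg k)
      have a2 : 0 ≤ ω.p k * (c * (hh (E.pow k) - hh (E.gen ω)) ^ 2) := by
        have := ω.nonneg k
        positivity
      unfold hh at *
      linarith
  · rw [hh_vert q4, ev_vert q4, Fin.sum_univ_four]
    push_cast
    linarith [psi4_vertex 0, psi4_vertex 1, psi4_vertex 2, psi4_vertex 3]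
  · have hl : LamOK 4 lam := lamOK_of_mem h0 h1
    refine ⟨hE.1.chan hl, ?_⟩
    have hb : Bdd fun y : Fin 4 → ℝ => psi4 fun i => 1 + lam * (y i - 1) := by
      obtain ⟨C, hC⟩ := bdd_psi4
      exact ⟨C, fun y hy => hC _ (simp_chan q4 hl hy)⟩
    have a1 := ev_mono q4 E ((bdd_const (lam ^ 3)).mul bdd_psi4) hb fun y hy => psi4_chan h0 h1 hy
    rw [ev_const_mul] at a1
    rw [hh_chan q4 E hl, ev_chan q4 E hl]
    have a2 : lam ^ 3 * (c * hh E ^ 2) ≤ lam ^ 3 * ev E psi4 :=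
      mul_le_mul_of_nonneg_left hE.2 (by positivity)
    have a3 : lam * (lam ^ 3 * (c * hh E ^ 2)) ≤ 1 * (lam ^ 3 * (c * hh E ^ 2)) := by gcongr
    linarith

theorem K4.fT_nonneg {c : ℝ} (hc : 0 ≤ c) {E : Ex 4} (hE : K4 c E) : 0 ≤ ev E fT :=
  (le_trans (by positivity) hE.2).trans
    (ev_mono (by norm_num) E bdd_psi4 bdd_fT fun _ hy => psi4_le_fT hy)

/-- `L4`, `U4`, and `ev F fT ≤ 4 hh F` -/
theorem merge4 : ∃ C : ℝ, 0 ≤ C ∧ ∀ E F : Ex 4, Good E → Good F → 0 ≤ ev E fT → 0 ≤ ev F fT →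
    hh E + hh F - C * (ev E fT * hh F + hh E * ev F fT) ≤ hh (E.mul F) ∧
    ev (E.mul F) fT ≤ ev E fT + ev F fT + C * hh E * hh F := by
  have q4 : 0 < 4 := by norm_num
  obtain ⟨C, hC, h⟩ := U4
  refine ⟨C + 2, by positivity, fun E F hE hF hTE hTF => ⟨?_, ?_⟩⟩
  · have b1 := (bdd_const (q := 4) (2 / 3)).mul bdd_fT
    have b2 := (bdd_const (q := 4) (2 / 3)).mul bdd_fH
    have b3 := (bdd_const (q := 4) (1 / 6)).mul bdd_fT
    have h1 := cone4_ge (E := E) hF bdd_fH bdd_fH ((bdd_const 1).sub b1) ((bdd_const (-1)).mul b2)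
      ((bdd_const (-1)).mul b3) (bdd_const 1) bdd_fH bdd_fT bdd_fT
      fun y z hy hz => by linarith [L4 y z hy hz]
    rw [ev_sub q4 _ (bdd_const 1) b1, ev_const q4 hE.norm, ev_const q4 hF.norm, ev_const_mul,
      ev_const_mul, ev_const_mul, ev_const_mul, ev_const_mul] at h1
    have h2 : ev F fT ≤ 4 * hh F := by
      refine (ev_mono q4 F bdd_fT ((bdd_const 4).mul bdd_fH) fun y hy => ?_).trans_eq
        (ev_const_mul F 4 fH)
      have := (abs_le.1 (abs_fT_le hy)).2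
      exact_mod_cast this
    have a1 := hh_nonneg q4 E
    have a2 := hh_nonneg q4 F
    have a3 := mul_le_mul_of_nonneg_left h2 hTE
    have a4 : 0 ≤ ev E fT * hh F := by positivity
    have a5 : 0 ≤ hh E * ev F fT := by positivity
    have a6 : 0 ≤ C * (ev E fT * hh F + hh E * ev F fT) := by positivity
    unfold hh at *
    linarith
  · have h1 := cone4_le (E := E) hF bdd_fT bdd_fT (bdd_const 1) ((bdd_const C).mul bdd_fH)
      (bdd_const 0) (bdd_const 1) bdd_fT bdd_fH (bdd_const 0)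
      fun y z hy hz => by linarith [h y z hy hz]
    rw [ev_const q4 hE.norm, ev_const q4 hF.norm, ev_const q4 hE.norm, ev_const_mul] at h1
    have a1 : 0 ≤ hh E * hh F := mul_nonneg (hh_nonneg q4 E) (hh_nonneg q4 F)
    unfold hh at *
    linarith

theorem fT_ev_chan (E : Ex 4) {lam : ℝ} (h0 : 0 ≤ lam) (h1 : lam ≤ 1) :
    ev (E.chan lam) fT = lam ^ 3 * ev E fT := by
  rw [ev_chan (by norm_num) E (lamOK_of_mem h0 h1), ← ev_const_mul]
  simp only [fT_chan]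

theorem fT_ev_vert : ev (Ex.vert : Ex 4) fT = 6 := by
  rw [ev_vert (by norm_num)]
  simp [fT, Fin.sum_univ_four]
  norm_num

theorem fT_ev_one : ev (Ex.one : Ex 4) fT = 0 := by
  rw [ev_one (by norm_num)]
  simp [fT]

end Crest.Agent.R163
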