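import Crest.Agent.R163.CapTree
import Crest.Agent.R163.Cone4
import Crest.Agent.R163.Order

/-! R163: parts of `CapLo`. -/

set_option autoImplicit false
set_option linter.unusedVariables false
set_option linter.unusedSectionVars false
open Crest.ProbabilityR.Broadcast Crest.ProbabilityR.TreeBroadcast

namespace Crest.Agent.R163

variable {V : Type*} [DecidableEq V]

theorem flow_pot' (T : LocFinTree V) {lam : ℝ} {θ : V → ℝ} (hθ : IsFlow T θ) (hm : 0 < flowMass T θ)
    (h : ∀ ξ : ℕ → V, T.IsRay ξ → rayPotential lam θ ξ ≤ 1) :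
    ∃ θ' : V → ℝ, (∀ v, 0 ≤ θ' v) ∧ (∀ v, θ' v = ∑ c ∈ T.children v, θ' c) ∧ 0 < θ' T.root ∧
      ∀ v, 0 < θ' v → Pot T lam θ' v ≤ 1 := by
  set θ' : V → ℝ := fun v => if v = T.root then flowMass T θ else θ v with hθ'
  have hch : ∀ v c, c ∈ T.children v → θ' c = θ c := fun v c hc => by
    simp only [hθ', if_neg (child_ne_root T hc)]
  have h0 : ∀ v, 0 ≤ θ' v := fun v => by
    simp only [hθ']; split_ifs
    · exact hm.le
    · exact hθ.1 v
  have hcons : ∀ v, θ' v = ∑ c ∈ T.children v, θ' c := fun v => by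
    rw [Finset.sum_congr rfl fun c hc => hch v c hc]
    simp only [hθ']; split_ifs with hv
    · rw [hv]; rfl
    · exact hθ.2 v hv
  refine ⟨θ', h0, hcons, by simpa [hθ'] using hm, fun v hv => ?_⟩
  have hnext : ∀ w : {w // 0 < θ' w}, ∃ c : {w // 0 < θ' w}, c.1 ∈ T.children w.1 := by
    intro w
    have hw := w.2
    rw [hcons] at hw
    obtain ⟨c, hc, hne⟩ := Finset.exists_ne_zero_of_sum_ne_zero hw.ne'
    exact ⟨⟨c, lt_of_le_of_ne (h0 c) hne.symm⟩, hc⟩
  choose nx hnx using hnext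
  obtain ⟨ξ, hξ, hx⟩ := exists_ray T v (fun n => (nx^[n] ⟨v, hv⟩).1) rfl (fun n => by
    simp only [Function.iterate_succ_apply']
    exact hnx _)
  have hv' : ξ (T.depth v) = v := hx 0
  have h1 := (ray_pot T lam θ' hξ (T.depth v)).2
  rw [hv'] at h1
  rw [h1, Finset.sum_congr rfl fun i _ => by rw [hch _ _ (hξ.2 i)]]
  have h2 := (ENNReal.sum_le_tsum (Finset.range (T.depth v))).trans (h ξ hξ)
  rw [← ENNReal.ofReal_sum_of_nonneg fun i _ => sq_nonneg _, ← ENNReal.ofReal_one] at h2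
  exact (ENNReal.ofReal_le_ofReal_iff zero_le_one).1 h2

theorem merge_list' {c C : ℝ} (hK : Cone (K4 c) (c / 100)) (hC : 0 ≤ C)
    (hm : ∀ E F : Ex 4, Good E → Good F → 0 ≤ ev E fT → 0 ≤ ev F fT →
      hh E + hh F - C * (ev E fT * hh F + hh E * ev F fT) ≤ hh (E.mul F) ∧
      ev (E.mul F) fT ≤ ev E fT + ev F fT + C * hh E * hh F)
    {l : List (Ex 4)} (hl : ∀ E ∈ l, K4 c E) :
    ev (Ex.prodL l) fT ≤ (l.map fun E => ev E fT).sum + C * (l.map hh).sum ^ 2 ∧
    (l.map hh).sum - 2 * C * ((l.map fun E => ev E fT).sum + C * (l.map hh).sum ^ 2) * (l.map hh).sum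
      ≤ hh (Ex.prodL l) := by
  have hc : 0 ≤ c := by have := hK.cpos; linarith
  have hq : 0 < 4 := by norm_num
  induction l with
  | nil => simp [Ex.prodL, fT_ev_one, hh_one hq]
  | cons E l ih =>
    have hl' : ∀ F ∈ l, K4 c F := fun F hF => hl F (List.mem_cons_of_mem _ hF)
    have hE : K4 c E := hl E List.mem_cons_self
    obtain ⟨i1, i2⟩ := ih hl'
    have hP : K4 c (Ex.prodL l) := hK.prodL hl'
    have i3 := (hK.hh_prodL hq hl').1
    have i4 := K4.fT_nonneg hc hP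
    have i5 := K4.fT_nonneg hc hE
    have i6 := hh_nonneg hq E
    have i7 := hh_nonneg hq (Ex.prodL l)
    obtain ⟨m1, m2⟩ := hm _ _ hP.1 hE.1 i4 i5
    simp only [List.map_cons, List.sum_cons, Ex.prodL]
    set a := (l.map hh).sum
    set τ := (l.map fun E => ev E fT).sum
    set h := hh E
    set s := ev E fT
    set x := hh (Ex.prodL l)
    set t := ev (Ex.prodL l) fT
    have ha : 0 ≤ a := i7.trans i3
    have j1 : C * x * h ≤ C * a * h :=
      mul_le_mul_of_nonneg_right (mul_le_mul_of_nonneg_left i3 hC) i6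
    have j2 : 0 ≤ C * a * h := by positivity
    have j3 : 0 ≤ C * h ^ 2 := by positivity
    refine ⟨by nlinarith, ?_⟩
    set u := τ + C * a ^ 2 with hu
    have hu0 : 0 ≤ u := i4.trans i1
    have j4 : C * (t * h + x * s) ≤ C * (u * h + a * s) :=
      mul_le_mul_of_nonneg_left (add_le_add (mul_le_mul_of_nonneg_right i1 i6)
        (mul_le_mul_of_nonneg_right i3 i5)) hC
    have j5 : u + s ≤ s + τ + C * (h + a) ^ 2 := by rw [hu]; nlinarith
    have j6 : 2 * C * (u + s) * (h + a) ≤ 2 * C * (s + τ + C * (h + a) ^ 2) * (h + a) :=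
      mul_le_mul_of_nonneg_right (mul_le_mul_of_nonneg_left j5 (by positivity)) (by positivity)
    have j7 : 0 ≤ C * (u * h) := by positivity
    have j8 : 0 ≤ C * (a * s) := by positivity
    have j9 : 0 ≤ C * (s * h) := by positivity
    nlinarith

theorem cap_lo_of (T : LocFinTree V) {lam : ℝ} (h0 : 0 < lam) (h1 : lam < 1) {θ : V → ℝ}
    (hθ0 : ∀ v, 0 ≤ θ v) (hr : 0 < θ T.root)
    (hnum : ∀ C : ℝ, 0 ≤ C → ∃ ε : ℝ, 0 < ε ∧ (∀ v, ε * (θ v / lam ^ (2 * T.depth v)) ≤ 1) ∧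
      ∀ x t : ℕ → V → ℝ, (∀ k v, 0 ≤ x k v) → (∀ k v, 0 ≤ t k v) →
      (∀ v, x 0 v = ε * (θ v / lam ^ (2 * T.depth v))) → (∀ v, t 0 v ^ 2 ≤ 4 * x 0 v ^ 3) →
      (∀ k v, x (k + 1) v ≤ ∑ c ∈ T.children v, lam ^ 2 * x k c) →
      (∀ k v, t (k + 1) v ≤ ∑ c ∈ T.children v, lam ^ 3 * t k c
        + C * (∑ c ∈ T.children v, lam ^ 2 * x k c) ^ 2) →
      (∀ k v, ∑ c ∈ T.children v, lam ^ 2 * x k c
        - 2 * C * (∑ c ∈ T.children v, lam ^ 3 * t k c + C * (∑ c ∈ T.children v, lam ^ 2 * x k c) ^ 2)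
          * (∑ c ∈ T.children v, lam ^ 2 * x k c) ≤ x (k + 1) v) →
      ∀ n, ε * θ T.root / 2 ≤ x n T.root) :
    ∃ ε : ℝ, 0 < ε ∧ ∀ n, ε ≤ hh (sub T lam (fun _ => (Ex.vert : Ex 4)) n T.root) := by
  have hq : 0 < 4 := by norm_num
  obtain ⟨c, hK, hv, hc⟩ := cone4
  obtain ⟨C, hC, hm⟩ := merge4
  have hc0 : 0 ≤ c := by have := hK.cpos; linarith
  obtain ⟨ε, hε, hX1, hx⟩ := hnum C hC
  have hl : LamOK 4 lam := lamOK_of_mem h0.le h1.le
  set X : V → ℝ := fun v => ε * (θ v / lam ^ (2 * T.depth v)) with hX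
  have hX0 : ∀ v, 0 ≤ X v := fun v => mul_nonneg hε.le (div_nonneg (hθ0 v) (by positivity))
  have hs1 : ∀ v, Real.sqrt (X v / 3) ≤ 1 := fun v => by
    refine Real.sqrt_le_one.2 ?_
    have := hX1 v
    simp only [hX]; linarith
  set L : V → Ex 4 := fun v => Ex.vert.chan (Real.sqrt (X v / 3)) with hL
  have hLK : ∀ v, K4 c (L v) := fun v => hc _ (Real.sqrt_nonneg _) (hs1 v) _ hv
  have hmem : ∀ k v, K4 c (sub T lam L k v) :=
    fun k v => hK.sub_mem T hLK (hc lam h0.le h1.le) k v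
  have hlist : ∀ k v, ∀ E ∈ (T.children v).toList.map fun w => (sub T lam L k w).chan lam, K4 c E :=
    fun k v E hE => by
      obtain ⟨w, -, rfl⟩ := List.mem_map.1 hE
      exact hc lam h0.le h1.le _ (hmem k w)
  have hx0 : ∀ v, hh (sub T lam L 0 v) = X v := fun v => by
    show hh (Ex.vert.chan _) = _
    rw [hh_chan hq _ (lamOK_of_mem (Real.sqrt_nonneg _) (hs1 v)), hh_vert hq,
      Real.sq_sqrt (div_nonneg (hX0 v) (by norm_num))]
    push_cast; ring
  refine ⟨ε * θ T.root / 2, by positivity, fun n => ?_⟩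
  refine le_trans (hx (fun k v => hh (sub T lam L k v)) (fun k v => ev (sub T lam L k v) fT)
    (fun k v => hh_nonneg hq _) (fun k v => K4.fT_nonneg hc0 (hmem k v)) hx0 (fun v => ?_)
    (fun k v => ?_) (fun k v => ?_) (fun k v => ?_) n) ?_
  · show ev (Ex.vert.chan _) fT ^ 2 ≤ 4 * hh (sub T lam L 0 v) ^ 3
    rw [hx0, fT_ev_chan _ (Real.sqrt_nonneg _) (hs1 v), fT_ev_vert]
    have e : (Real.sqrt (X v / 3) ^ 3 * 6) ^ 2 = 36 * (Real.sqrt (X v / 3) ^ 2) ^ 3 := by ring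
    rw [e, Real.sq_sqrt (div_nonneg (hX0 v) (by norm_num))]
    have := pow_nonneg (hX0 v) 3
    nlinarith
  · have := (hK.hh_prodL hq (hlist k v)).1
    simp only [List.map_map, Function.comp_def, hh_chan hq _ hl, Finset.sum_map_toList] at this
    exact this
  · have := (merge_list' hK hC hm (hlist k v)).1
    simp only [List.map_map, Function.comp_def, hh_chan hq _ hl, Finset.sum_map_toList,
      fT_ev_chan _ h0.le h1.le] at this
    exact this
  · have := (merge_list' hK hC hm (hlist k v)).2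
    simp only [List.map_map, Function.comp_def, hh_chan hq _ hl, Finset.sum_map_toList,
      fT_ev_chan _ h0.le h1.le] at this
    exact this
  · exact Le.hh hq (sub_le T hl (fun v => vert_le (hLK v).1.norm) n T.root)
      (good_sub T hl (fun _ => good_vert) n _).norm (hmem n _).1.norm

end Crest.Agent.R163
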