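import Crest.Agent.R163.CapDef
import Crest.Agent.R163.Cone4
import Crest.Agent.R163.Order
import Crest.Agent.R163.CapLoA

/-! R163: a flow of finite potential gives reconstruction. -/

set_option autoImplicit false
set_option linter.unusedVariables false
open Crest.ProbabilityR.Broadcast Crest.ProbabilityR.TreeBroadcast

namespace Crest.Agent.R163

variable {V : Type*} [DecidableEq V]

/-- A vertex with positive flow lies on a ray (go up by parents, go down choosing children of positive flow).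
Redefine `θ root := flowMass` (this value does not enter `Pot`). -/
theorem flow_pot (T : LocFinTree V) {lam : ℝ} {θ : V → ℝ} (hθ : IsFlow T θ) (hm : 0 < flowMass T θ)
    (h : ∀ ξ : ℕ → V, T.IsRay ξ → rayPotential lam θ ξ ≤ 1) :
    ∃ θ' : V → ℝ, (∀ v, 0 ≤ θ' v) ∧ (∀ v, θ' v = ∑ c ∈ T.children v, θ' c) ∧ 0 < θ' T.root ∧
      ∀ v, 0 < θ' v → Pot T lam θ' v ≤ 1 :=
  flow_pot' T hθ hm h

/-- successive merges: with `a = ∑ hh`, `τ = ∑ ev fT` over the list and `a ≤ X` -/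
theorem merge_list {c C : ℝ} (hK : Cone (K4 c) (c / 100)) (hC : 0 ≤ C)
    (hm : ∀ E F : Ex 4, Good E → Good F → 0 ≤ ev E fT → 0 ≤ ev F fT →
      hh E + hh F - C * (ev E fT * hh F + hh E * ev F fT) ≤ hh (E.mul F) ∧
      ev (E.mul F) fT ≤ ev E fT + ev F fT + C * hh E * hh F)
    {l : List (Ex 4)} (hl : ∀ E ∈ l, K4 c E) :
    ev (Ex.prodL l) fT ≤ (l.map fun E => ev E fT).sum + C * (l.map hh).sum ^ 2 ∧
    (l.map hh).sum - 2 * C * ((l.map fun E => ev E fT).sum + C * (l.map hh).sum ^ 2) * (l.map hh).sum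
      ≤ hh (Ex.prodL l) :=
  merge_list' hK hC hm hl

theorem capLo_mean {α : Type*} (s : Finset α) {w : α → ℝ} (κ : α → ℝ) (hw : ∀ c, 0 ≤ w c) :
    ∃ a : ℝ, ∑ c ∈ s, w c * κ c = a * ∑ c ∈ s, w c ∧ a ^ 2 * ∑ c ∈ s, w c ≤ ∑ c ∈ s, w c * κ c ^ 2 := by
  have h := Finset.sum_sq_le_sum_mul_sum_of_sq_le_mul s (r := fun c => w c * κ c) (fun c _ => hw c)
    (fun c _ => mul_nonneg (hw c) (sq_nonneg (κ c))) fun c _ => le_of_eq (by ring)
  rcases (Finset.sum_nonneg fun c (_ : c ∈ s) => hw c).eq_or_lt with h0 | h0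
  · rw [← h0, zero_mul] at h
    exact ⟨0, by rw [zero_mul]; exact pow_eq_zero_iff two_ne_zero |>.1 (le_antisymm h (sq_nonneg _)),
      by simpa using Finset.sum_nonneg fun c _ => mul_nonneg (hw c) (sq_nonneg (κ c))⟩
  · refine ⟨(∑ c ∈ s, w c * κ c) / ∑ c ∈ s, w c, (div_mul_cancel₀ _ h0.ne').symm, ?_⟩
    rw [div_pow, div_mul_eq_mul_div, div_le_iff₀ (by positivity)]
    nlinarith

/-- one step of the numerical induction -/
theorem capLo_step {lam C D B X S τ a m x t : ℝ} (h0 : 0 < lam) (h1 : lam < 1) (hC : 0 ≤ C)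
    (hD : 4 * C ^ 2 * X ^ 2 ≤ D * (1 - lam)) (hS0 : 0 ≤ S) (hS : S ≤ X) (hτ0 : 0 ≤ τ) (hτ : τ ≤ lam * (a * X))
    (hm : a ^ 2 * X ≤ m) (hS' : X * (1 - B) + m ≤ S) (ht : t ≤ τ + C * S ^ 2)
    (hx : S - 2 * C * (τ + C * S ^ 2) * S ≤ x) :
    t ≤ (lam * a + C * X) * X ∧ X * (1 - (B + D) + (lam * a + C * X) ^ 2) ≤ x := by
  have e1 : τ + C * S ^ 2 ≤ (lam * a + C * X) * X := by
    have := mul_le_mul_of_nonneg_left (pow_le_pow_left₀ hS0 hS 2) hC
    linarith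
  have e2 : 2 * C * (τ + C * S ^ 2) * S ≤ 2 * C * ((lam * a + C * X) * X) * X :=
    mul_le_mul (mul_le_mul_of_nonneg_left e1 (by positivity)) hS hS0
      (mul_nonneg (by positivity) (le_trans (by positivity) e1))
  have e3 : (lam * a + 2 * C * X) ^ 2 ≤ a ^ 2 + D := by
    refine le_of_mul_le_mul_right ?_ (sub_pos.2 h1)
    nlinarith [mul_nonneg h0.le (sq_nonneg ((1 - lam) * a - 2 * C * X)),
      mul_nonneg (sq_nonneg (1 - lam)) (sq_nonneg a)]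
  have e4 := mul_le_mul_of_nonneg_left e3 (hS0.trans hS)
  have e5 := mul_nonneg (hS0.trans hS) (sq_nonneg (C * X))
  exact ⟨ht.trans e1, by nlinarith⟩

/-- Purely numerical. `φ v = θ v / lam^(2 depth v)`, `X v = ε φ v` (so `X v = lam² ∑ c, X c`, and `φ v ≤ Φ := max 1 (θ root)`).
Induction on `k` for `v` with `depth v + k = n`: `x k v ≤ X v`, and if `θ v > 0` there are `r, κ ≥ 0` with
`x ≥ X (1 - r)`, `t ≤ κ X`, `r + κ² ≤ κ₀² + C' ε (1 - Pot v + (φ v)²)`; if `θ v = 0` then `x = t = 0`.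
Leaves: `r = 0`, `κ = κ₀ = 2 √(ε Φ)`. Step: weights `p c = lam² X c / X v`, `κ_v = lam κ̄ + C X`,
`r_v = r̄ + 2 C κ_v X`, `2 C κ X ≤ C ε (κ² + φ²)`, `κ_v² ≤ lam * avg κ² + C² X²/(1-lam)`, `(1 + C ε) lam ≤ 1`.
At the root `r ≤ 1/2` for small `ε`. -/
theorem lower_num (T : LocFinTree V) {lam C : ℝ} (h0 : 0 < lam) (h1 : lam < 1) (hC : 0 ≤ C) {θ : V → ℝ}
    (hθ0 : ∀ v, 0 ≤ θ v) (hθ : ∀ v, θ v = ∑ c ∈ T.children v, θ c) (hr : 0 < θ T.root)
    (hP : ∀ v, 0 < θ v → Pot T lam θ v ≤ 1) :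
    ∃ ε : ℝ, 0 < ε ∧ (∀ v, ε * (θ v / lam ^ (2 * T.depth v)) ≤ 1) ∧
      ∀ x t : ℕ → V → ℝ, (∀ k v, 0 ≤ x k v) → (∀ k v, 0 ≤ t k v) →
      (∀ v, x 0 v = ε * (θ v / lam ^ (2 * T.depth v))) → (∀ v, t 0 v ^ 2 ≤ 4 * x 0 v ^ 3) →
      (∀ k v, x (k + 1) v ≤ ∑ c ∈ T.children v, lam ^ 2 * x k c) →
      (∀ k v, t (k + 1) v ≤ ∑ c ∈ T.children v, lam ^ 3 * t k c
        + C * (∑ c ∈ T.children v, lam ^ 2 * x k c) ^ 2) →
      (∀ k v, ∑ c ∈ T.children v, lam ^ 2 * x k c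
        - 2 * C * (∑ c ∈ T.children v, lam ^ 3 * t k c + C * (∑ c ∈ T.children v, lam ^ 2 * x k c) ^ 2)
          * (∑ c ∈ T.children v, lam ^ 2 * x k c) ≤ x (k + 1) v) →
      ∀ n, ε * θ T.root / 2 ≤ x n T.root := by
  obtain ⟨φ, hφ⟩ : ∃ φ : V → ℝ, ∀ v, θ v / lam ^ (2 * T.depth v) = φ v := ⟨_, fun _ => rfl⟩
  have hφ0 : ∀ v, 0 ≤ φ v := fun v => hφ v ▸ div_nonneg (hθ0 v) (by positivity)
  have hφr : φ T.root = θ T.root := by rw [← hφ, depth_root]; simp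
  have hφs : ∀ v, ∑ c ∈ T.children v, lam ^ 2 * φ c = φ v := fun v => by
    rw [← hφ v, hθ v, Finset.sum_div]
    refine Finset.sum_congr rfl fun c hc => ?_
    rw [← hφ c, (depth_child T hc).1]
    field_simp
    ring
  have hφ1 : ∀ v, φ v ≤ θ T.root + 1 := fun v => by
    by_cases hv : v = T.root
    · rw [hv, hφr]
      linarith
    rcases (hθ0 v).eq_or_lt with h | h
    · rw [← hφ, ← h, zero_div]
      linarith
    have h2 := Pot_child T lam θ (v := T.parent v) (c := v)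
      (Finset.mem_filter.2 ⟨(T.mem_level_iff _ _).2 (T.depth_parent v hv).symm, rfl⟩)
    rw [hφ] at h2
    nlinarith [hP v h, Pot_nonneg T lam θ (T.parent v), hφ0 v]
  have h1' : 0 < 1 - lam := sub_pos.2 h1
  obtain ⟨A, hA⟩ : ∃ A, A = 4 * C ^ 2 / (1 - lam) := ⟨_, rfl⟩
  have hA0 : 0 ≤ A := by rw [hA]; positivity
  obtain ⟨ε, hε, hε1⟩ : ∃ ε : ℝ, 0 < ε ∧ ε * (4 * (θ T.root + 1) + A * (1 + θ T.root ^ 2)) = 1 / 2 :=
    ⟨1 / 2 / (4 * (θ T.root + 1) + A * (1 + θ T.root ^ 2)), by positivity, div_mul_cancel₀ _ (by positivity)⟩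
  have hε2 : 0 ≤ ε * (A * (1 + θ T.root ^ 2)) := by positivity
  have hε3 : ε ≤ 1 := by nlinarith
  simp only [hφ]
  refine ⟨ε, hε, fun v => by nlinarith [hφ1 v], fun x t hx0 ht0 hx ht a1 a2 a3 n => ?_⟩
  have key : ∀ k v, x k v ≤ ε * φ v ∧ ∃ κ : ℝ, t k v ≤ κ * (ε * φ v) ∧
      ε * φ v * (1 - (4 * ε * (θ T.root + 1) + A * ε ^ 2 * (1 - Pot T lam θ v) + A * (ε * φ v) ^ 2) + κ ^ 2)
        ≤ x k v := by
    intro k
    induction k with
    | zero =>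
      intro v
      have e0 := mul_nonneg hε.le (hφ0 v)
      refine ⟨(hx v).le, 2 * √(ε * φ v), le_of_sq_le_sq ?_ (by positivity), ?_⟩
      · rw [mul_pow, mul_pow, Real.sq_sqrt e0, ← hx]
        linarith [ht v]
      rw [hx, mul_pow 2, Real.sq_sqrt e0]
      rcases (hθ0 v).eq_or_lt with h | h
      · simp [← hφ, ← h]
      have e1 := mul_le_mul_of_nonneg_left (hφ1 v) hε.le
      have e2 : 0 ≤ A * ε ^ 2 * (1 - Pot T lam θ v) := mul_nonneg (by positivity) (sub_nonneg.2 (hP v h))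
      have e3 : 0 ≤ A * (ε * φ v) ^ 2 := by positivity
      exact mul_le_of_le_one_right e0 (by linarith)
    | succ k ih =>
      intro v
      choose b1 κ b2 b3 using ih
      have e0 : ∑ c ∈ T.children v, lam ^ 2 * (ε * φ c) = ε * φ v := by
        rw [← hφs v, Finset.mul_sum]
        exact Finset.sum_congr rfl fun c _ => by ring
      have e1 : ∑ c ∈ T.children v, lam ^ 2 * x k c ≤ ε * φ v :=
        e0 ▸ Finset.sum_le_sum fun c _ => mul_le_mul_of_nonneg_left (b1 c) (sq_nonneg _)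
      obtain ⟨a, e2, e3⟩ := capLo_mean (T.children v) (w := fun c => lam ^ 2 * (ε * φ c)) κ fun c =>
        mul_nonneg (sq_nonneg _) (mul_nonneg hε.le (hφ0 c))
      rw [e0] at e2 e3
      refine ⟨(a1 k v).trans e1, _, capLo_step h0 h1 hC (by rw [hA]; field_simp; rfl)
        (Finset.sum_nonneg fun c _ => mul_nonneg (sq_nonneg _) (hx0 k c)) e1
        (Finset.sum_nonneg fun c _ => mul_nonneg (by positivity) (ht0 k c)) ?_ e3 ?_ (a2 k v) (a3 k v)⟩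
      · rw [← e2, Finset.mul_sum]
        exact Finset.sum_le_sum fun c _ => (mul_le_mul_of_nonneg_left (b2 c) (by positivity)).trans_eq (by ring)
      · rw [← e0, Finset.sum_mul, ← Finset.sum_add_distrib]
        refine Finset.sum_le_sum fun c hc => le_trans (le_of_eq ?_) (mul_le_mul_of_nonneg_left (b3 c) (sq_nonneg _))
        rw [Pot_child T lam θ hc, hφ]
        ring
  obtain ⟨-, κ, -, h⟩ := key n T.root
  rw [hφr, Pot_root] at h
  refine le_trans ?_ h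
  rw [div_eq_mul_one_div]
  refine mul_le_mul_of_nonneg_left ?_ (by positivity)
  nlinarith [sq_nonneg κ, mul_le_of_le_one_left hε2 hε3]

/-- Leaves `L v = vert.chan (√(X v / 3))` (`hh = X v`, `ev fT = 6 (X v/3)^(3/2)`), `x k v = hh (sub T lam L k v)`,
`t k v = ev (sub T lam L k v) fT`; finally `sub_le` with `vert_le` and `Le.hh`. -/
theorem cap_lo (T : LocFinTree V) {lam : ℝ} (h0 : 0 < lam) (h1 : lam < 1) {θ : V → ℝ}
    (hθ : IsFlow T θ) (hm : 0 < flowMass T θ)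
    (h : ∀ ξ : ℕ → V, T.IsRay ξ → rayPotential lam θ ξ ≤ 1) :
    ∃ ε : ℝ, 0 < ε ∧ ∀ n, ε ≤ hh (sub T lam (fun _ => (Ex.vert : Ex 4)) n T.root) := by
  obtain ⟨θ', a0, a1, a2, a3⟩ := flow_pot T hθ hm h
  exact cap_lo_of T h0 h1 a0 a2 fun C hC => lower_num T h0 h1 hC a0 a1 a2 a3

end Crest.Agent.R163
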