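import Crest.Agent.R163.CapDef

/-! R163: elementary facts on locally finite trees. -/

set_option autoImplicit false
set_option linter.unusedVariables false
set_option linter.unusedSectionVars false
open Crest.ProbabilityR.Broadcast Crest.ProbabilityR.TreeBroadcast

namespace Crest.Agent.R163

variable {V : Type*} [DecidableEq V]

theorem mem_children_parent (T : LocFinTree V) {v : V} (h : v ≠ T.root) :
    v ∈ T.children (T.parent v) := by
  simp only [LocFinTree.children, Finset.mem_filter, T.mem_level_iff, and_true]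
  exact (T.depth_parent v h).symm

theorem child_ne_root (T : LocFinTree V) {v c : V} (h : c ∈ T.children v) : c ≠ T.root := by
  intro hc
  have h1 := (depth_child T h).1
  rw [hc, depth_root] at h1
  omega

theorem level_zero (T : LocFinTree V) : T.level 0 = {T.root} := by
  ext v
  simp [T.mem_level_iff, T.depth_eq_zero_iff]

theorem sum_level_succ (T : LocFinTree V) (m : ℕ) (f : V → ℝ) :
    ∑ c ∈ T.level (m + 1), f c = ∑ v ∈ T.level m, ∑ c ∈ T.children v, f c := by
  rw [← Finset.sum_fiberwise_of_maps_to (s := T.level (m + 1)) (t := T.level m) (g := T.parent)]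
  · refine Finset.sum_congr rfl fun v hv => ?_
    rw [T.mem_level_iff] at hv
    simp only [LocFinTree.children, hv]
  · intro c hc
    rw [T.mem_level_iff] at hc ⊢
    have hne : c ≠ T.root := fun h => by rw [h, depth_root] at hc; omega
    have := T.depth_parent c hne
    omega

/-- induction from the root to the leaves -/
theorem tree_ind (T : LocFinTree V) {p : V → Prop} (h0 : p T.root)
    (h1 : ∀ v c, c ∈ T.children v → p v → p c) (v : V) : p v := by
  have : ∀ n v, T.depth v = n → p v := by
    intro n
    induction n with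
    | zero => intro v hv; rw [(T.depth_eq_zero_iff v).1 hv]; exact h0
    | succ n ih =>
      intro v hv
      have hne : v ≠ T.root := fun h => by rw [h, depth_root] at hv; omega
      have := T.depth_parent v hne
      exact h1 _ _ (mem_children_parent T hne) (ih _ (by omega))
  exact this _ v rfl

theorem ray_pot (T : LocFinTree V) (lam : ℝ) (θ : V → ℝ) {ξ : ℕ → V} (hξ : T.IsRay ξ) (n : ℕ) :
    T.depth (ξ n) = n ∧
      Pot T lam θ (ξ n) = ∑ i ∈ Finset.range n, (θ (ξ (i + 1)) / lam ^ (2 * (i + 1))) ^ 2 := by
  induction n with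
  | zero => rw [hξ.1]; simp [depth_root, Pot_root]
  | succ n ih =>
    have h := hξ.2 n
    have hd : T.depth (ξ (n + 1)) = n + 1 := by rw [(depth_child T h).1, ih.1]
    refine ⟨hd, ?_⟩
    rw [Pot_child T lam θ h, ih.2, Finset.sum_range_succ, hd]

theorem Pot_mono (T : LocFinTree V) (lam : ℝ) {θ θ' : V → ℝ} (h0 : ∀ v, 0 ≤ θ' v)
    (h : ∀ v, θ' v ≤ θ v) (v : V) : Pot T lam θ' v ≤ Pot T lam θ v := by
  refine Finset.sum_le_sum fun i _ => ?_
  have hl : 0 ≤ lam ^ (2 * (T.depth v - i)) := by rw [pow_mul]; positivity
  exact pow_le_pow_left₀ (div_nonneg (h0 _) hl) (div_le_div_of_nonneg_right (h _) hl) 2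

/-- a descending path from `v` extends to a ray -/
theorem exists_ray (T : LocFinTree V) (v : V) : ∀ η : ℕ → V, η 0 = v →
    (∀ n, η (n + 1) ∈ T.children (η n)) → ∃ ξ, T.IsRay ξ ∧ ∀ n, ξ (T.depth v + n) = η n := by
  induction v using tree_ind T with
  | h0 => intro η h0 h1; exact ⟨η, ⟨h0, h1⟩, fun n => by rw [depth_root, zero_add]⟩
  | h1 v c hc ih =>
    intro η h0 h1
    obtain ⟨ξ, hξ, h⟩ := ih (fun n => Nat.casesOn n v η) rfl (fun n => by
      cases n with
      | zero => show η 0 ∈ T.children v; rw [h0]; exact hc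
      | succ n => exact h1 n)
    refine ⟨ξ, hξ, fun n => ?_⟩
    have := h (n + 1)
    rw [(depth_child T hc).1, show T.depth v + 1 + n = T.depth v + (n + 1) by ring]
    exact this

end Crest.Agent.R163
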