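import Crest.Agent.R163.Two

/-! R163: non-reconstruction from a cone. -/

set_option autoImplicit false
set_option linter.unusedVariables false
open Crest.ProbabilityR.Broadcast Crest.ProbabilityR.TreeBroadcast

namespace Crest.Agent.R163

variable {q : ℕ} {K : Ex q → Prop} {c : ℝ}

theorem Cone.pow (hK : Cone K c) {E : Ex q} (hE : K E) (k : ℕ) : K (E.pow k) := by
  induction k with
  | zero => exact hK.one
  | succ k ih => exact hK.mul _ _ ih hE

theorem Cone.prodL (hK : Cone K c) {l : List (Ex q)} (h : ∀ E ∈ l, K E) : K (Ex.prodL l) := by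
  induction l with
  | nil => exact hK.one
  | cons E l ih =>
    exact hK.mul _ _ (ih fun F hF => h F (List.mem_cons_of_mem _ hF)) (h E List.mem_cons_self)

/-- note `E.pow 1 = one.mul E` has `hh = hh E` (`val_mul_comm`, `eqv_mul_one`) -/
theorem Cone.hh_pow (hq : 0 < q) (hK : Cone K c) {E : Ex q} (hE : K E) (k : ℕ) :
    hh (E.pow k) ≤ k * hh E - (if 2 ≤ k then 2 * c * hh E ^ 3 else 0) := by
  have h0 : 0 ≤ hh E := hh_nonneg hq E
  have h1 : hh (E.pow 1) = hh E := by
    show val (Ex.one.mul E) (hom fH) = val E (hom fH)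
    rw [val_mul_comm]
    exact eqv_mul_one E _ (test_hom hq bdd_fH)
  have h2 : ∀ k, hh (E.pow (k + 2)) ≤ (k + 2 : ℕ) * hh E - 2 * c * hh E ^ 3 := by
    intro k
    induction k with
    | zero =>
      have := hK.loss _ _ (hK.pow hE 1) hE
      rw [h1] at this
      show hh ((E.pow 1).mul E) ≤ _
      push_cast
      nlinarith
    | succ k ih =>
      have := hK.loss _ _ (hK.pow hE (k + 2)) hE
      have h3 : 0 ≤ hh (E.pow (k + 2)) := hh_nonneg hq _
      have h4 : 0 ≤ c * hh (E.pow (k + 2)) * hh E * (hh (E.pow (k + 2)) + hh E) := by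
        have := hK.cpos.le
        positivity
      show hh ((E.pow (k + 2)).mul E) ≤ _
      push_cast at ih ⊢
      nlinarith
  match k with
  | 0 => simp [Ex.pow, hh_one hq]
  | 1 => simp [h1]
  | k + 2 => simpa using h2 k

theorem Cone.hh_gen (hq : 0 < q) (hK : Cone K c) {E : Ex q} (hE : K E) (ω : Off) {d : ℝ}
    (hd : HasSum (fun k : ℕ => (k : ℝ) * ω.p k) d) :
    hh (E.gen ω) ≤ d * hh E - 2 * c * (1 - ω.p 0 - ω.p 1) * hh E ^ 3 := by
  have h1 : HasSum (fun k => ω.p k * hh (E.pow k)) (hh (E.gen ω)) :=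
    hasSum_ev_gen hq ω E bdd_fH
  have h2 : HasSum (fun k => ω.p k - (if k = 0 then ω.p 0 else 0) - (if k = 1 then ω.p 1 else 0))
      (1 - ω.p 0 - ω.p 1) :=
    (ω.sum1.sub (hasSum_ite_eq 0 (ω.p 0))).sub (hasSum_ite_eq 1 (ω.p 1))
  have h3 := (hd.mul_right (hh E)).sub (h2.mul_right (2 * c * hh E ^ 3))
  have h4 := hasSum_le (fun k => ?_) h1 h3
  · linarith
  · have h5 := mul_le_mul_of_nonneg_left (hK.hh_pow hq hE k) (ω.nonneg k)
    refine h5.trans (le_of_eq ?_)
    match k with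
    | 0 => simp
    | 1 => simp
    | k + 2 =>
      simp only [le_add_iff_nonneg_left, zero_le, if_true]
      rw [if_neg (by omega), if_neg (by omega)]
      ring

/-- Invariant of successive merges (induction on the list; `x' ≤ x + a - c x a (x+a)` and
`x'^3 ≤ (x+a)^3`). -/
theorem Cone.hh_prodL (hq : 0 < q) (hK : Cone K c) {l : List (Ex q)} (h : ∀ E ∈ l, K E) :
    hh (Ex.prodL l) ≤ (l.map hh).sum ∧
    c / 3 * (hh (Ex.prodL l) ^ 3 - (l.map fun E => hh E ^ 3).sum) ≤ (l.map hh).sum - hh (Ex.prodL l) := by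
  induction l with
  | nil => simp [Ex.prodL, hh_one hq]
  | cons E l ih =>
    obtain ⟨ih1, ih2⟩ := ih fun F hF => h F (List.mem_cons_of_mem _ hF)
    have hl : K (Ex.prodL l) := hK.prodL fun F hF => h F (List.mem_cons_of_mem _ hF)
    have h1 := hK.loss _ _ hl (h E List.mem_cons_self)
    have ha : 0 ≤ hh E := hh_nonneg hq E
    have hx : 0 ≤ hh (Ex.prodL l) := hh_nonneg hq _
    have hx' : 0 ≤ hh ((Ex.prodL l).mul E) := hh_nonneg hq _
    have hc := hK.cpos.le
    have h4 : 0 ≤ c * hh (Ex.prodL l) * hh E * (hh (Ex.prodL l) + hh E) := by positivity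
    have h5 : hh ((Ex.prodL l).mul E) ≤ hh (Ex.prodL l) + hh E := by linarith
    have h6 : hh ((Ex.prodL l).mul E) ^ 3 ≤ (hh (Ex.prodL l) + hh E) ^ 3 :=
      pow_le_pow_left₀ hx' h5 3
    have h7 := mul_le_mul_of_nonneg_left h6 hc
    simp only [Ex.prodL, List.map_cons, List.sum_cons]
    constructor
    · linarith
    · nlinarith

/-- `h (n+1) ≤ d lam² h n - κ lam⁶ (h n)³ ≤ h n - κ lam⁶ (h n)³` (for `lam = 0`, `h (n+1) ≤ 0`). -/
theorem Cone.nonrec (hq : 0 < q) (hK : Cone K c) {lam : ℝ} (hl : LamOK q lam) (ω : Off) {d : ℝ}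
    (hd : HasSum (fun k : ℕ => (k : ℝ) * ω.p k) d) (hcrit : d * lam ^ 2 ≤ 1)
    (h2 : ω.p 0 + ω.p 1 < 1) (hall : ∀ n, K ((mu q lam ω n).chan lam)) :
    Filter.Tendsto (fun n => hh (mu q lam ω n)) Filter.atTop (nhds 0) := by
  set h : ℕ → ℝ := fun n => hh (mu q lam ω n) with hdef
  have h0 : ∀ n, 0 ≤ h n := fun n => hh_nonneg hq _
  have hκ : 0 < 2 * c * (1 - ω.p 0 - ω.p 1) := by
    have := hK.cpos
    have : 0 < 1 - ω.p 0 - ω.p 1 := by linarith
    positivity
  have hrec : ∀ n, h (n + 1) ≤ d * (lam ^ 2 * h n) -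
      2 * c * (1 - ω.p 0 - ω.p 1) * (lam ^ 2 * h n) ^ 3 := by
    intro n
    have := hK.hh_gen hq (hall n) ω hd
    rw [hh_chan hq _ hl] at this
    exact this
  have hanti : Antitone h := by
    refine antitone_nat_of_succ_le fun n => (hrec n).trans ?_
    have h3 : 0 ≤ 2 * c * (1 - ω.p 0 - ω.p 1) * (lam ^ 2 * h n) ^ 3 := by
      have := h0 n
      positivity
    have h4 := mul_le_mul_of_nonneg_right hcrit (h0 n)
    nlinarith
  have hb : BddBelow (Set.range h) := ⟨0, by rintro _ ⟨n, rfl⟩; exact h0 n⟩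
  have hlim := tendsto_atTop_ciInf hanti hb
  set L := ⨅ n, h n with hL
  have hL0 : 0 ≤ L := ge_of_tendsto' hlim h0
  have hlim1 : Filter.Tendsto (fun n => h (n + 1)) Filter.atTop (nhds L) :=
    hlim.comp (Filter.tendsto_add_atTop_nat 1)
  have hlim2 : Filter.Tendsto (fun n => d * (lam ^ 2 * h n) -
      2 * c * (1 - ω.p 0 - ω.p 1) * (lam ^ 2 * h n) ^ 3) Filter.atTop
      (nhds (d * (lam ^ 2 * L) - 2 * c * (1 - ω.p 0 - ω.p 1) * (lam ^ 2 * L) ^ 3)) :=
    ((hlim.const_mul _).const_mul _).sub (((hlim.const_mul _).pow 3).const_mul _)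
  have hle := le_of_tendsto_of_tendsto' hlim1 hlim2 hrec
  have hL1 : L = 0 := by
    by_contra hne
    have hLp : 0 < L := lt_of_le_of_ne hL0 (Ne.symm hne)
    by_cases hz : lam = 0
    · subst hz
      simp at hle
      linarith
    · have h3 : 0 < 2 * c * (1 - ω.p 0 - ω.p 1) * (lam ^ 2 * L) ^ 3 := by positivity
      have h4 := mul_le_mul_of_nonneg_right hcrit hL0
      nlinarith
  rw [hL1] at hlim
  exact hlim

theorem Cone.mu_mem (hK : Cone K c) {lam : ℝ} (ω : Off) (hv : K Ex.vert)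
    (hc : ∀ E, K E → K (E.chan lam)) (n : ℕ) : K ((mu q lam ω n).chan lam) := by
  apply hc
  induction n with
  | zero => exact hv
  | succ n ih => exact hK.gen _ _ (hc _ ih)

theorem Cone.sub_mem (hK : Cone K c) {V : Type*} [DecidableEq V] (T : LocFinTree V) {lam : ℝ}
    {L : V → Ex q} (hL : ∀ v, K (L v)) (hc : ∀ E, K E → K (E.chan lam)) (k : ℕ) (v : V) :
    K (sub T lam L k v) := by
  induction k generalizing v with
  | zero => exact hL v
  | succ k ih =>
    refine hK.prodL fun E hE => ?_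
    obtain ⟨u, -, rfl⟩ := List.mem_map.1 hE
    exact hc _ (ih u)

theorem mean_reg (b : ℕ) : HasSum (fun k : ℕ => (k : ℝ) * (Off.reg b).p k) b := by
  have := hasSum_ite_eq b (b : ℝ)
  convert this using 2 with k
  simp only [Off.reg]
  split_ifs with h
  · simp [h]
  · simp

theorem mean_poi {d : ℝ} (hd : 0 ≤ d) : HasSum (fun k : ℕ => (k : ℝ) * (Off.poi d).p k) d := by
  rw [← hasSum_nat_add_iff' 1]
  have h := (Off.poi d).sum1.mul_left d
  simp only [Finset.range_one, Finset.sum_singleton, Nat.cast_zero, zero_mul, sub_zero]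
  rw [mul_one] at h
  have e : (fun k : ℕ => ((k + 1 : ℕ) : ℝ) * (Off.poi d).p (k + 1)) = fun k => d * (Off.poi d).p k := by
    funext k
    simp only [Off.poi, abs_of_nonneg hd, Nat.factorial_succ]
    have : (k.factorial : ℝ) ≠ 0 := by positivity
    push_cast
    field_simp
    ring
  rw [e]
  exact h

theorem two_reg {b : ℕ} (hb : 2 ≤ b) : (Off.reg b).p 0 + (Off.reg b).p 1 < 1 := by
  simp only [Off.reg]
  rw [if_neg (by omega), if_neg (by omega)]
  norm_num

theorem two_poi {d : ℝ} (hd : 0 < d) : (Off.poi d).p 0 + (Off.poi d).p 1 < 1 := by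
  simp only [Off.poi, abs_of_pos hd]
  have h1 := Real.add_one_lt_exp hd.ne'
  have h2 : Real.exp (-d) * Real.exp d = 1 := by rw [← Real.exp_add]; simp
  have h3 := Real.exp_pos (-d)
  simp
  nlinarith

end Crest.Agent.R163
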