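import Crest.Agent.R163.CapTree
import Crest.Agent.R163.Gen

/-! R163: reconstruction gives a flow of finite potential. -/

set_option autoImplicit false
set_option linter.unusedVariables false
set_option linter.unusedSectionVars false
open Crest.ProbabilityR.Broadcast Crest.ProbabilityR.TreeBroadcast

namespace Crest.Agent.R163

variable {V : Type*} [DecidableEq V]

theorem energy_num {κ M F S Q : ℝ} (hκ : 0 < κ) (hF : 0 < F) (hFS : F ≤ S) (hFM : F ≤ M)
    (h : κ * (F ^ 3 - Q) ≤ S - F) :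
    (3 * M ^ 2 + 1 / κ) / S ^ 2 - Q / S ^ 3 ≤ (3 * M ^ 2 + 1 / κ) / F ^ 2 - 1 := by
  have hS : 0 < S := lt_of_lt_of_le hF hFS
  have hk : 0 < 1 / κ := by positivity
  have h1 : F ^ 3 - Q ≤ 1 / κ * (S - F) := by
    rw [one_div, ← div_eq_inv_mul, le_div_iff₀ hκ]; linarith
  set k := 1 / κ with hkdef
  have hd : 0 ≤ S - F := by linarith
  have h2 : S ^ 3 - F ^ 3 ≤ 3 * S ^ 2 * (S - F) := by
    have : 3 * S ^ 2 * (S - F) - (S ^ 3 - F ^ 3) = (S - F) ^ 2 * (2 * S + F) := by ring
    have : 0 ≤ (S - F) ^ 2 * (2 * S + F) := by positivity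
    linarith
  have h3 : S ^ 3 - Q ≤ (3 * S ^ 2 + k) * (S - F) := by linarith
  have hF2 : F ^ 2 ≤ M ^ 2 := pow_le_pow_left₀ hF.le hFM 2
  have hF3 : F ^ 2 ≤ S ^ 2 := pow_le_pow_left₀ hF.le hFS 2
  have h4 : (3 * S ^ 2 + k) * F ^ 2 ≤ (3 * M ^ 2 + k) * S ^ 2 := by
    nlinarith [mul_le_mul_of_nonneg_left hF2 (sq_nonneg S), mul_le_mul_of_nonneg_left hF3 hk.le]
  have hN : 0 ≤ 3 * M ^ 2 + k := by positivity
  have h5 : (S ^ 3 - Q) * F ^ 2 ≤ (3 * M ^ 2 + k) * (S * (S ^ 2 - F ^ 2)) := by
    calc (S ^ 3 - Q) * F ^ 2 ≤ (3 * S ^ 2 + k) * (S - F) * F ^ 2 :=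
          mul_le_mul_of_nonneg_right h3 (sq_nonneg F)
      _ = (3 * S ^ 2 + k) * F ^ 2 * (S - F) := by ring
      _ ≤ (3 * M ^ 2 + k) * S ^ 2 * (S - F) := mul_le_mul_of_nonneg_right h4 hd
      _ = (3 * M ^ 2 + k) * (S * (S * (S - F))) := by ring
      _ ≤ (3 * M ^ 2 + k) * (S * (S ^ 2 - F ^ 2)) := by
          refine mul_le_mul_of_nonneg_left (mul_le_mul_of_nonneg_left ?_ hS.le) hN
          nlinarith
  have e : (3 * M ^ 2 + k) / F ^ 2 - 1 - ((3 * M ^ 2 + k) / S ^ 2 - Q / S ^ 3)
      = ((3 * M ^ 2 + k) * (S * (S ^ 2 - F ^ 2)) - (S ^ 3 - Q) * F ^ 2) / (F ^ 2 * S ^ 3) := by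
    field_simp
    ring
  have : 0 ≤ ((3 * M ^ 2 + k) * (S * (S ^ 2 - F ^ 2)) - (S ^ 3 - Q) * F ^ 2) / (F ^ 2 * S ^ 3) :=
    div_nonneg (by linarith) (by positivity)
  linarith

/-- the flow proportional to `F` -/
noncomputable def eflow (T : LocFinTree V) (F : ℕ → V → ℝ) (n : ℕ) (v : V) : ℝ :=
  ∏ i ∈ Finset.range (T.depth v), (F (n - (T.depth v - i)) (T.parent^[i] v) /
    ∑ c ∈ T.children (T.parent^[i + 1] v), F (n - (T.depth v - i)) c)

theorem eflow_root (T : LocFinTree V) (F : ℕ → V → ℝ) (n : ℕ) : eflow T F n T.root = 1 := by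
  simp [eflow, depth_root]

theorem eflow_child (T : LocFinTree V) (F : ℕ → V → ℝ) (n : ℕ) {v c : V} (h : c ∈ T.children v) :
    eflow T F n c = eflow T F n v * (F (n - (T.depth v + 1)) c /
      ∑ c' ∈ T.children v, F (n - (T.depth v + 1)) c') := by
  obtain ⟨hd, hp⟩ := depth_child T h
  unfold eflow
  rw [hd, Finset.prod_range_succ']
  simp only [Function.iterate_succ, Function.comp, hp, Function.iterate_zero, id, Nat.sub_zero]
  congr 1
  refine Finset.prod_congr rfl fun i _ => ?_
  rw [Nat.add_sub_add_right]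

/-- Purely numerical. The flow `θ c = θ v * F k c / ∑ c', F k c'`; the Lyapunov function
`∑ v ∈ level m, (θ v * Pot θ v + g θ φ² (N / F² - 1))` decreases in `m`. -/
theorem energy (T : LocFinTree V) {lam κ M ε : ℝ} (h0 : 0 < lam) (h1 : lam < 1) (hκ : 0 < κ)
    (hε : 0 < ε) (F : ℕ → V → ℝ) (hF : ∀ k v, 0 ≤ F k v ∧ F k v ≤ M)
    (h2 : ∀ k v, F (k + 1) v ≤ ∑ c ∈ T.children v, lam ^ 2 * F k c)
    (h3 : ∀ k v, κ * (F (k + 1) v ^ 3 - ∑ c ∈ T.children v, (lam ^ 2 * F k c) ^ 3)
      ≤ ∑ c ∈ T.children v, lam ^ 2 * F k c - F (k + 1) v)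
    (h4 : ∀ n, ε ≤ F n T.root) :
    ∃ C : ℝ, 0 < C ∧ ∀ n, ∃ θ : V → ℝ, FinFlow T n θ ∧ θ T.root = 1 ∧
      ∑ v ∈ T.level n, θ v * Pot T lam θ v ≤ C := by
  set N := 3 * M ^ 2 + 1 / κ with hN
  have hN0 : 0 < N := by positivity
  have ha : lam ^ 4 < 1 := pow_lt_one₀ h0.le h1 (by norm_num)
  set g := 1 / (1 - lam ^ 4) with hg
  have hg0 : 0 < g := by rw [hg]; apply one_div_pos.2; linarith
  have hg1 : 1 + g * lam ^ 4 = g := by
    have : 1 - lam ^ 4 ≠ 0 := by linarith
    rw [hg]; field_simp; ring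
  refine ⟨g * N / ε ^ 2, by positivity, fun n => ?_⟩
  set θ := eflow T F n with hθ
  have hθ0 : ∀ v, 0 ≤ θ v := fun v => Finset.prod_nonneg fun i _ =>
    div_nonneg (hF _ _).1 (Finset.sum_nonneg fun c _ => (hF _ _).1)
  have hpos : ∀ v, θ v ≠ 0 → 0 < F (n - T.depth v) v := by
    intro v
    induction v using tree_ind T with
    | h0 => intro _; rw [depth_root]; exact lt_of_lt_of_le hε (h4 _)
    | h1 v c hc _ =>
      intro hne
      rw [(depth_child T hc).1]
      refine lt_of_le_of_ne (hF _ _).1 fun h => hne ?_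
      rw [hθ, eflow_child T F n hc, ← h]; simp
  have hsum : ∀ v, T.depth v < n → θ v ≠ 0 → 0 < ∑ c ∈ T.children v, F (n - (T.depth v + 1)) c := by
    intro v hv hne
    have := hpos v hne
    rw [show n - T.depth v = n - (T.depth v + 1) + 1 by omega] at this
    have h := lt_of_lt_of_le this (h2 _ v)
    rw [← Finset.mul_sum] at h
    exact (mul_pos_iff_of_pos_left (by positivity)).1 h
  have hcons : ∀ v, T.depth v < n → θ v = ∑ c ∈ T.children v, θ c := by
    intro v hv
    rw [Finset.sum_congr rfl fun c hc => eflow_child T F n hc, ← Finset.mul_sum, ← Finset.sum_div]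
    by_cases hne : θ v = 0
    · rw [← hθ, hne, zero_mul]
    · rw [div_self (hsum v hv hne).ne', mul_one]
  refine ⟨θ, ⟨hθ0, hcons⟩, eflow_root T F n, ?_⟩
  set H : V → ℝ := fun v => g * (θ v * (θ v / lam ^ (2 * T.depth v)) ^ 2) *
    (N / F (n - T.depth v) v ^ 2 - 1) with hH
  have hH0 : ∀ v, 0 ≤ H v := by
    intro v
    by_cases hne : θ v = 0
    · simp [hH, hne]
    · have hp := hpos v hne
      have hM := (hF (n - T.depth v) v).2
      have : 1 ≤ N / F (n - T.depth v) v ^ 2 := by
        rw [le_div_iff₀ (by positivity)]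
        have : F (n - T.depth v) v ^ 2 ≤ M ^ 2 := pow_le_pow_left₀ hp.le hM 2
        have : 0 < 1 / κ := by positivity
        nlinarith [sq_nonneg M]
      exact mul_nonneg (mul_nonneg hg0.le (mul_nonneg (hθ0 v) (sq_nonneg _))) (by linarith)
  have hstep : ∀ v, T.depth v < n →
      ∑ c ∈ T.children v, (θ c * (θ c / lam ^ (2 * T.depth c)) ^ 2 + H c) ≤ H v := by
    intro v hv
    by_cases hne : θ v = 0
    · have : ∀ c ∈ T.children v, θ c = 0 := fun c hc => by
        rw [hθ, eflow_child T F n hc, ← hθ, hne, zero_mul]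
      rw [Finset.sum_eq_zero fun c hc => by simp [hH, this c hc]]
      exact hH0 v
    · set k := n - (T.depth v + 1) with hk
      have hS := hsum v hv hne
      have hp := hpos v hne
      have hk1 : n - T.depth v = k + 1 := by omega
      rw [hk1] at hp
      have key := energy_num hκ hp (h2 k v) (hF _ _).2 (h3 k v)
      rw [← hN] at key
      set L := lam ^ (2 * T.depth v) with hL
      have hL0 : 0 < L := by positivity
      set Sg := ∑ c ∈ T.children v, F k c with hSg
      have hSS : ∑ c ∈ T.children v, lam ^ 2 * F k c = lam ^ 2 * Sg := by rw [← Finset.mul_sum]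
      rw [hSS] at key
      have e : ∀ c ∈ T.children v, θ c * (θ c / lam ^ (2 * T.depth c)) ^ 2 + H c
          = g * (θ v * (θ v / L) ^ 2) * (N / (lam ^ 2 * Sg) ^ 3 * (lam ^ 2 * F k c)
            - (lam ^ 2 * F k c) ^ 3 / (lam ^ 2 * Sg) ^ 3) := by
        intro c hc
        have hc1 : θ c = θ v * (F k c / Sg) := eflow_child T F n hc
        have hc2 : lam ^ (2 * T.depth c) = L * lam ^ 2 := by
          rw [(depth_child T hc).1, hL]; ring
        have hc3 : n - T.depth c = k := by rw [(depth_child T hc).1]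
        simp only [hH]
        rw [hc3, hc2, hc1]
        by_cases hf : F k c = 0
        · simp [hf]
        · have e1 : θ v * (F k c / Sg) * (θ v * (F k c / Sg) / (L * lam ^ 2)) ^ 2 +
              g * (θ v * (F k c / Sg) * (θ v * (F k c / Sg) / (L * lam ^ 2)) ^ 2) * (N / F k c ^ 2 - 1)
              = g * (θ v * (F k c / Sg) * (θ v * (F k c / Sg) / (L * lam ^ 2)) ^ 2) *
                (N / F k c ^ 2 - lam ^ 4) := by
            linear_combination (θ v * (F k c / Sg) * (θ v * (F k c / Sg) / (L * lam ^ 2)) ^ 2) * hg1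
          rw [e1]
          field_simp
      rw [Finset.sum_congr rfl e, ← Finset.mul_sum, Finset.sum_sub_distrib, ← Finset.mul_sum,
        ← Finset.sum_div, hSS]
      simp only [hH]
      rw [hk1]
      refine mul_le_mul_of_nonneg_left (le_trans (le_of_eq ?_) key)
        (mul_nonneg hg0.le (mul_nonneg (hθ0 v) (sq_nonneg _)))
      field_simp
  have hB : ∀ m, m ≤ n → ∑ v ∈ T.level m, (θ v * Pot T lam θ v + H v) ≤ H T.root := by
    intro m
    induction m with
    | zero => intro _; rw [level_zero]; simp [Pot_root]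
    | succ m ih =>
      intro hm
      refine le_trans ?_ (ih (by omega))
      rw [sum_level_succ]
      refine Finset.sum_le_sum fun v hv => ?_
      rw [T.mem_level_iff] at hv
      have e : ∀ c ∈ T.children v, θ c * Pot T lam θ c + H c
          = θ c * Pot T lam θ v + (θ c * (θ c / lam ^ (2 * T.depth c)) ^ 2 + H c) := by
        intro c hc
        rw [Pot_child T lam θ hc]; ring
      rw [Finset.sum_congr rfl e, Finset.sum_add_distrib, ← Finset.sum_mul, ← hcons v (by omega)]
      linarith [hstep v (by omega)]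
  have hroot : H T.root ≤ g * N / ε ^ 2 := by
    simp only [hH]
    rw [show θ T.root = 1 from eflow_root T F n, depth_root]
    simp only [mul_zero, pow_zero, div_one, one_pow, mul_one, Nat.sub_zero]
    rw [mul_div_assoc]
    refine mul_le_mul_of_nonneg_left ?_ hg0.le
    have : N / F n T.root ^ 2 ≤ N / ε ^ 2 :=
      div_le_div_of_nonneg_left hN0.le (by positivity) (pow_le_pow_left₀ hε.le (h4 n) 2)
    linarith
  refine le_trans ?_ ((hB n le_rfl).trans hroot)
  exact Finset.sum_le_sum fun v _ => le_add_of_nonneg_right (hH0 v)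

/-- sums over the descendants `k` levels below -/
noncomputable def below (T : LocFinTree V) (f : V → ℝ) : ℕ → V → ℝ
  | 0, v => f v
  | k + 1, v => ∑ c ∈ T.children v, below T f k c

theorem sum_below (T : LocFinTree V) (f : V → ℝ) (k : ℕ) : ∀ m,
    ∑ v ∈ T.level m, below T f k v = ∑ v ∈ T.level (m + k), f v := by
  induction k with
  | zero => intro m; rfl
  | succ k ih =>
    intro m
    simp only [below]
    rw [← sum_level_succ, ih, show m + 1 + k = m + (k + 1) by ring]

/-- Markov: keep only the leaves with `Pot ≤ 2C`. -/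
theorem prune (T : LocFinTree V) {lam C : ℝ} (hC : 0 < C) {n : ℕ} {θ : V → ℝ}
    (hθ : FinFlow T n θ) (hr : θ T.root = 1) (hE : ∑ v ∈ T.level n, θ v * Pot T lam θ v ≤ C) :
    ∃ θ' : V → ℝ, FinFlow T n θ' ∧ 1 / 2 ≤ θ' T.root ∧ (∀ v, θ' v ≤ 1) ∧
      ∀ v, T.depth v ≤ n → Pot T lam θ' v ≤ 2 * C := by
  classical
  set f : V → ℝ := fun v => if Pot T lam θ v ≤ 2 * C then θ v else 0 with hf
  have hf0 : ∀ v, 0 ≤ f v := fun v => by
    simp only [hf]; split_ifs
    · exact hθ.1 v
    · exact le_rfl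
  have ha : ∀ k v, 0 ≤ below T f k v := by
    intro k
    induction k with
    | zero => exact hf0
    | succ k ih => intro v; exact Finset.sum_nonneg fun c _ => ih c
  have hb : ∀ k v, T.depth v + k = n → below T f k v ≤ θ v := by
    intro k
    induction k with
    | zero =>
      intro v _
      simp only [below, hf]; split_ifs
      · exact le_rfl
      · exact hθ.1 v
    | succ k ih =>
      intro v hv
      rw [hθ.2 v (by omega)]
      exact Finset.sum_le_sum fun c hc => ih c (by rw [(depth_child T hc).1]; omega)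
  have hc : ∀ k v, below T f k v ≠ 0 → Pot T lam θ v ≤ 2 * C := by
    intro k
    induction k with
    | zero =>
      intro v hv
      by_contra h
      exact hv (by simp only [below, hf]; rw [if_neg h])
    | succ k ih =>
      intro v hv
      obtain ⟨c, hc, hne⟩ := Finset.exists_ne_zero_of_sum_ne_zero hv
      have := ih c hne
      rw [Pot_child T lam θ hc] at this
      nlinarith [sq_nonneg (θ c / lam ^ (2 * T.depth c))]
  have hd : ∀ v, T.depth v ≤ n → θ v ≤ 1 := by
    intro v
    induction v using tree_ind T with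
    | h0 => intro _; exact hr.le
    | h1 v c hc ih =>
      intro h
      rw [(depth_child T hc).1] at h
      refine le_trans ?_ (ih (by omega))
      rw [hθ.2 v (by omega)]
      exact Finset.single_le_sum (fun c _ => hθ.1 c) hc
  have hm : ∀ m, m ≤ n → ∑ v ∈ T.level m, θ v = 1 := by
    intro m
    induction m with
    | zero => intro _; rw [level_zero]; simpa using hr
    | succ m ih =>
      intro h
      rw [sum_level_succ, ← ih (by omega)]
      refine Finset.sum_congr rfl fun v hv => ?_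
      rw [T.mem_level_iff] at hv
      exact (hθ.2 v (by omega)).symm
  set θ' : V → ℝ := fun v => if T.depth v ≤ n then below T f (n - T.depth v) v else 0 with hθ'
  have h0 : ∀ v, 0 ≤ θ' v := fun v => by
    simp only [hθ']; split_ifs
    · exact ha _ _
    · exact le_rfl
  have hle : ∀ v, θ' v ≤ θ v := fun v => by
    simp only [hθ']; split_ifs with h
    · exact hb _ _ (by omega)
    · exact hθ.1 v
  refine ⟨θ', ⟨h0, fun v hv => ?_⟩, ?_, fun v => ?_, fun v => ?_⟩
  · simp only [hθ']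
    rw [if_pos hv.le, show n - T.depth v = n - (T.depth v + 1) + 1 by omega]
    simp only [below]
    refine Finset.sum_congr rfl fun c hc => ?_
    rw [(depth_child T hc).1, if_pos (by omega)]
  · simp only [hθ']
    rw [depth_root, if_pos (Nat.zero_le _), Nat.sub_zero]
    have h1 := sum_below T f n 0
    rw [level_zero, Finset.sum_singleton, zero_add] at h1
    rw [h1]
    have h2 : ∑ v ∈ T.level n, (θ v - θ v * Pot T lam θ v / (2 * C)) ≤ ∑ v ∈ T.level n, f v := by
      refine Finset.sum_le_sum fun v _ => ?_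
      simp only [hf]; split_ifs with h
      · have : 0 ≤ θ v * Pot T lam θ v / (2 * C) :=
          div_nonneg (mul_nonneg (hθ.1 v) (Pot_nonneg T lam θ v)) (by positivity)
        linarith
      · rw [sub_nonpos, le_div_iff₀ (by positivity)]
        exact mul_le_mul_of_nonneg_left (not_le.1 h).le (hθ.1 v)
    rw [Finset.sum_sub_distrib, hm n le_rfl, ← Finset.sum_div] at h2
    have h3 : (∑ v ∈ T.level n, θ v * Pot T lam θ v) / (2 * C) ≤ 1 / 2 := by
      rw [div_le_iff₀ (by positivity)]; linarith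
    linarith
  · simp only [hθ']; split_ifs with h
    · exact (hb _ _ (by omega)).trans (hd v h)
    · exact zero_le_one
  · induction v using tree_ind T with
    | h0 => intro _; rw [Pot_root]; positivity
    | h1 v c hcv ih =>
      intro h
      by_cases hz : θ' c = 0
      · rw [Pot_child T lam θ' hcv, hz]
        rw [(depth_child T hcv).1] at h
        simpa using ih (by omega)
      · refine (Pot_mono T lam h0 hle c).trans (hc (n - T.depth c) c ?_)
        simpa only [hθ', if_pos h] using hz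

/-- Compactness: limits along `Filter.hyperfilter ℕ` (values in `[0,1]`), then divide by `√C`;
the partial sums of `rayPotential` are the `Pot` of the vertices of the ray. -/
theorem limit_flow (T : LocFinTree V) {lam C : ℝ} (hC : 0 < C)
    (h : ∀ n, ∃ θ : V → ℝ, FinFlow T n θ ∧ 1 / 2 ≤ θ T.root ∧ (∀ v, θ v ≤ 1) ∧
      ∀ v, T.depth v ≤ n → Pot T lam θ v ≤ C) :
    ∃ θ : V → ℝ, IsFlow T θ ∧ 0 < flowMass T θ ∧ ∀ ξ : ℕ → V, T.IsRay ξ → rayPotential lam θ ξ ≤ 1 := by
  choose θ hF hr h1 hP using h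
  have hlim : ∀ v, ∃ x ∈ Set.Icc (0 : ℝ) 1,
      Filter.Tendsto (fun n => θ n v) (Filter.hyperfilter ℕ : Filter ℕ) (nhds x) := by
    intro v
    obtain ⟨x, hx, h⟩ := (isCompact_Icc (a := (0 : ℝ)) (b := 1)).ultrafilter_le_nhds
      (Ultrafilter.map (fun n => θ n v) (Filter.hyperfilter ℕ)) (by
        rw [Filter.le_principal_iff]
        exact Filter.mem_map.2 (Filter.univ_mem' fun n => ⟨(hF n).1 v, h1 n v⟩))
    exact ⟨x, hx, h⟩
  choose φ hφ hlim using hlim
  have hev : ∀ m : ℕ, ∀ᶠ n in (Filter.hyperfilter ℕ : Filter ℕ), m ≤ n := fun m =>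
    (Filter.hyperfilter_le_cofinite.trans Nat.cofinite_eq_atTop.le) (Filter.eventually_ge_atTop m)
  have hcons : ∀ v, φ v = ∑ c ∈ T.children v, φ c := by
    intro v
    refine tendsto_nhds_unique_of_eventuallyEq (hlim v)
      (tendsto_finsetSum _ fun c _ => hlim c) ?_
    filter_upwards [hev (T.depth v + 1)] with n hn
    exact (hF n).2 v hn
  have hroot : 1 / 2 ≤ φ T.root := ge_of_tendsto' (hlim _) hr
  have hPot : ∀ v, Pot T lam φ v ≤ C := by
    intro v
    have : Filter.Tendsto (fun n => Pot T lam (θ n) v) (Filter.hyperfilter ℕ : Filter ℕ)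
        (nhds (Pot T lam φ v)) :=
      tendsto_finsetSum _ fun i _ => ((hlim _).div_const _).pow 2
    refine le_of_tendsto this ?_
    filter_upwards [hev (T.depth v)] with n hn
    exact hP n v hn
  have hs : 0 < Real.sqrt C := Real.sqrt_pos.2 hC
  refine ⟨fun v => φ v / Real.sqrt C, ⟨fun v => div_nonneg (hφ v).1 hs.le, fun v _ => ?_⟩, ?_,
    fun ξ hξ => ?_⟩
  · rw [← Finset.sum_div, ← hcons]
  · unfold flowMass
    rw [← Finset.sum_div, ← hcons]
    exact div_pos (by linarith) hs
  · unfold rayPotential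
    refine ENNReal.tsum_le_of_sum_range_le fun n => ?_
    rw [← ENNReal.ofReal_sum_of_nonneg fun i _ => sq_nonneg _, ← ENNReal.ofReal_one]
    refine ENNReal.ofReal_le_ofReal ?_
    have h2 := hPot (ξ n)
    rw [(ray_pot T lam φ hξ n).2] at h2
    have e : ∀ i ∈ Finset.range n, (φ (ξ (i + 1)) / Real.sqrt C / lam ^ (2 * (i + 1))) ^ 2
        = (φ (ξ (i + 1)) / lam ^ (2 * (i + 1))) ^ 2 / C := by
      intro i _
      rw [div_right_comm, div_pow, Real.sq_sqrt hC.le]
    rw [Finset.sum_congr rfl e, ← Finset.sum_div, div_le_one hC]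
    exact h2

/-- `F k v = hh (sub T lam vert k v)`, `Cone.hh_prodL`, `hh_chan`. -/
theorem cap_up {q : ℕ} (hq : 0 < q) {K : Ex q → Prop} {c : ℝ} (hK : Cone K c) (T : LocFinTree V) {lam ε : ℝ}
    (h0 : 0 < lam) (h1 : lam < 1) (hv : K Ex.vert) (hc : ∀ E, K E → K (E.chan lam)) (hε : 0 < ε)
    (h : ∀ n, ε ≤ hh (sub T lam (fun _ => (Ex.vert : Ex q)) n T.root)) :
    ∃ θ : V → ℝ, IsFlow T θ ∧ 0 < flowMass T θ ∧ ∀ ξ : ℕ → V, T.IsRay ξ → rayPotential lam θ ξ ≤ 1 := by
  have hl : LamOK q lam := lamOK_of_mem h0.le h1.le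
  have hmem : ∀ k v, K (sub T lam (fun _ => (Ex.vert : Ex q)) k v) :=
    fun k v => hK.sub_mem T (fun _ => hv) hc k v
  have key : ∀ k v, hh (sub T lam (fun _ => (Ex.vert : Ex q)) (k + 1) v)
        ≤ ∑ w ∈ T.children v, lam ^ 2 * hh (sub T lam (fun _ => (Ex.vert : Ex q)) k w) ∧
      c / 3 * (hh (sub T lam (fun _ => (Ex.vert : Ex q)) (k + 1) v) ^ 3
        - ∑ w ∈ T.children v, (lam ^ 2 * hh (sub T lam (fun _ => (Ex.vert : Ex q)) k w)) ^ 3)
      ≤ ∑ w ∈ T.children v, lam ^ 2 * hh (sub T lam (fun _ => (Ex.vert : Ex q)) k w)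
        - hh (sub T lam (fun _ => (Ex.vert : Ex q)) (k + 1) v) := by
    intro k v
    have := hK.hh_prodL hq (l := (T.children v).toList.map fun w =>
      (sub T lam (fun _ => (Ex.vert : Ex q)) k w).chan lam) (fun E hE => by
        obtain ⟨w, -, rfl⟩ := List.mem_map.1 hE
        exact hc _ (hmem k w))
    simp only [List.map_map, Function.comp_def, hh_chan hq _ hl, Finset.sum_map_toList] at this
    exact this
  obtain ⟨C, hC, hE⟩ := energy T h0 h1 (κ := c / 3) (M := q - 1) (div_pos hK.cpos (by norm_num)) hε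
    (fun k v => hh (sub T lam (fun _ => (Ex.vert : Ex q)) k v))
    (fun k v => ⟨hh_nonneg hq _, hh_le hq (hK.good _ (hmem k v)).norm⟩)
    (fun k v => (key k v).1) (fun k v => (key k v).2) h
  refine limit_flow T (C := 2 * C) (by positivity) fun n => ?_
  obtain ⟨θ, hθ, hr, hE⟩ := hE n
  exact prune T hC hθ hr hE

end Crest.Agent.R163
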