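import Crest.Agent.R163.C3I
import Crest.Agent.R163.C3II
import Crest.Agent.R163.C3III

/-! R163: two-point inequalities for three states (polynomial certificates). -/

set_option autoImplicit false
set_option linter.unusedVariables false

namespace Crest.Agent.R163

theorem I3 : ∃ A : (Fin 3 → ℝ) → ℝ, (∀ y, Simp y → 0 ≤ A y ∧ A y ≤ 2 * fH y) ∧
    ∀ y z, Simp y → Simp z →
      avg fH y z ≤ fH y + fH z - 1 / 100 * fH y * fH z - A z * psi3 y - A y * psi3 z :=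
  ⟨C3I.mult, fun y hy => ⟨C3I.p1 hy, C3I.p2 hy⟩, fun y z hy hz => C3I.main hy hz⟩

theorem II3 : ∃ a : (Fin 3 → ℝ) → ℝ, (∀ y, Simp y → -10 ≤ a y ∧ a y ≤ 1) ∧
    ∀ y z, Simp y → Simp z → (1 - a z) * psi3 y + (1 - a y) * psi3 z ≤ avg psi3 y z :=
  ⟨C3II.mult, fun y hy => ⟨C3II.p1 hy, C3II.p2 hy⟩, fun y z hy hz => by
    have h := C3II.main hy hz
    rw [avg_neg] at h
    linarith⟩

theorem III3 (y z : Fin 3 → ℝ) (hy : Simp y) (hz : Simp z) (h : ∀ i, z i ≤ 3 / 2) :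
    avg g3 y z ≤ g3 y + g3 z + fH y * Q3 z :=
  C3III.main hy hz h

theorem Q3_nonneg (z : Fin 3 → ℝ) (hz : Simp z) : 0 ≤ Q3 z := by
  have := fH_nonneg z
  simp only [Q3, q31, q32, q33, zero_mul, add_zero]
  positivity

theorem IV3 (y z : Fin 3 → ℝ) (hy : Simp y) (hz : Simp z) :
    avg fH y z ≤ fH y + fH z + C3 * fH y * fH z := by
  have h1 := C3I.main hy hz
  have h2 := C3I.p3 hy hz
  unfold C3
  linarith

theorem fT_sq_le (y : Fin 3 → ℝ) (hy : Simp y) : fT y ^ 2 ≤ fH y ^ 3 / 2 := by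
  rw [fH_eq3 hy, fT_eq3 hy]
  generalize y 0 - 1 = a
  generalize y 1 - 1 = b
  unfold jH jT
  linear_combination (1 / 27) * sq_nonneg ((a - b) * (2 * a + b) * (a + 2 * b))

end Crest.Agent.R163
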