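import Crest.Agent.R163.Gen
import Crest.Agent.R163.Cert3

/-! R163: the cone for three states. Use `two_point`, `two_point_ge` with the inequalities of `Cert3`. -/

set_option autoImplicit false
set_option linter.unusedVariables false

namespace Crest.Agent.R163

theorem bdd_psi3 : Bdd psi3 := by
  exact (((bdd_const _).mul bdd_fH).add bdd_fT).sub ((bdd_const _).mul (bdd_fH.pow 2))

theorem bdd_g3 : Bdd g3 := by
  exact bdd_fT.add ((bdd_const _).mul (bdd_fH.pow 2))

theorem bdd_Q3 : Bdd Q3 := by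
  exact (((bdd_const _).mul bdd_fH).add ((bdd_const _).mul bdd_fT)).add
    ((bdd_const _).mul (bdd_fH.pow 2))

private theorem c3_le {y : Fin 3 → ℝ} (hy : Simp y) : fH y ≤ 2 := by
  have := fH_le three_pos hy
  norm_num at this
  exact this

private theorem c3_hh {E : Ex 3} (hE : Good E) : hh E ≤ 2 := by
  have := hh_le three_pos hE.norm
  norm_num at this
  exact this

private theorem c3_one : K3 Ex.one := by
  refine ⟨good_one, ?_⟩
  rw [ev_one three_pos]
  simp [psi3, fH, fT]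

private theorem c3_mul (E F : Ex 3) (hE : K3 E) (hF : K3 F) : K3 (E.mul F) := by
  obtain ⟨a, ha, h⟩ := II3
  have hb : Bdd fun y => 1 - a y :=
    ⟨11, fun y hy => abs_le.2 ⟨by linarith [(ha y hy).2], by linarith [(ha y hy).1]⟩⟩
  have h0 : ∀ G : Ex 3, 0 ≤ ev G fun y => 1 - a y := fun G =>
    ev_nonneg three_pos G fun y hy => sub_nonneg.2 (ha y hy).2
  have h1 := two_point_ge three_pos E hF.1.sym bdd_psi3 ![psi3, fun y => 1 - a y]
    ![fun y => 1 - a y, psi3] (fun j => by fin_cases j; exacts [bdd_psi3, hb])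
    (fun j => by fin_cases j; exacts [hb, bdd_psi3]) fun y z hy hz => by
      have := h y z hy hz
      simp only [Fin.sum_univ_two, Matrix.cons_val_zero, Matrix.cons_val_one]
      linarith
  simp only [Fin.sum_univ_two, Matrix.cons_val_zero, Matrix.cons_val_one] at h1
  exact ⟨hE.1.mul hF.1, (add_nonneg (mul_nonneg hE.2 (h0 F)) (mul_nonneg (h0 E) hF.2)).trans h1⟩

private theorem c3_three {E F : Ex 3} (hE : Norm E) (hF : Good F) {f u v : (Fin 3 → ℝ) → ℝ}
    (hf : Bdd f) (hu : Bdd u) (hv : Bdd v) (D : (Fin 3 → ℝ) → Prop)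
    (hD : ∀ o, 0 < ∑ j, F.P o j → D fun i => (3 : ℕ) * F.P o i / ∑ j, F.P o j)
    (h : ∀ y z, Simp y → Simp z → D z → avg f y z ≤ f y + f z + u y * v z) :
    ev (E.mul F) f ≤ ev E f + ev F f + ev E u * ev F v := by
  have h1 := two_point three_pos E hF.sym hf ![f, fun _ => 1, u] ![fun _ => 1, f, v]
    (fun j => by fin_cases j; exacts [hf, bdd_const 1, hu])
    (fun j => by fin_cases j; exacts [bdd_const 1, hf, hv]) D hD fun y z hy hz hz' => by
      have := h y z hy hz hz'
      simp only [Fin.sum_univ_three, Matrix.cons_val]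
      linarith
  simp only [Fin.sum_univ_three, Matrix.cons_val, ev_const three_pos hE,
    ev_const three_pos hF.norm] at h1
  linarith

/-- `mul` from `II3` (`ev F a ≤ 1`), `loss` from `I3` (`hh ≤ 2`), `gen` from `hasSum_ev_gen`. -/
theorem cone3 : Cone K3 (1 / 400) := by
  refine ⟨by norm_num, fun E hE => hE.1, c3_one, c3_mul, fun ω E hE => ⟨hE.1.gen ω, ?_⟩,
    fun E F hE hF => ?_⟩
  · have h1 : ∀ k, K3 (E.pow k) := fun k => by
      induction k with
      | zero => exact c3_one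
      | succ k ih => exact c3_mul _ _ ih hE
    exact (hasSum_ev_gen three_pos ω E bdd_psi3).nonneg fun k => mul_nonneg (ω.nonneg k) (h1 k).2
  · obtain ⟨A, hA, h⟩ := I3
    have hb : Bdd A := ⟨4, fun y hy =>
      abs_le.2 ⟨by linarith [(hA y hy).1], by linarith [(hA y hy).2, c3_le hy]⟩⟩
    have h0 : ∀ G : Ex 3, 0 ≤ ev G A := fun G => ev_nonneg three_pos G fun y hy => (hA y hy).1
    have h1 := two_point three_pos E hF.1.sym bdd_fH
      ![fH, fun _ => 1, fun y => -(1 / 100) * fH y, fun y => -1 * psi3 y, fun y => -1 * A y]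
      ![fun _ => 1, fH, fH, A, psi3]
      (fun j => by
        fin_cases j
        exacts [bdd_fH, bdd_const 1, (bdd_const _).mul bdd_fH, (bdd_const _).mul bdd_psi3,
          (bdd_const _).mul hb])
      (fun j => by fin_cases j; exacts [bdd_const 1, bdd_fH, bdd_fH, hb, bdd_psi3])
      (fun _ => True) (fun _ _ => trivial) fun y z hy hz _ => by
        have := h y z hy hz
        simp only [Fin.sum_univ_five, Matrix.cons_val]
        linarith
    simp only [Fin.sum_univ_five, Matrix.cons_val, ev_const three_pos hE.1.norm,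
      ev_const three_pos hF.1.norm, ev_const_mul] at h1
    have h2 := mul_nonneg hE.2 (h0 F)
    have h3 := mul_nonneg (h0 E) hF.2
    have h4 := mul_le_mul_of_nonneg_left (add_le_add (c3_hh hE.1) (c3_hh hF.1))
      (mul_nonneg (hh_nonneg three_pos E) (hh_nonneg three_pos F))
    unfold hh at h4 ⊢
    linarith

theorem K3_vert : K3 Ex.vert := by
  refine ⟨good_vert, ?_⟩
  rw [ev_vert three_pos]
  simp only [psi3, fH, fT, Fin.sum_univ_three]
  norm_num [Fin.ext_iff]

/-- pointwise `psi3 (T y) ≥ lam³ psi3 y` for `0 ≤ lam ≤ 1` -/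
theorem K3_chan {lam : ℝ} (h0 : 0 ≤ lam) (h1 : lam ≤ 1) (E : Ex 3) (hE : K3 E) : K3 (E.chan lam) := by
  have hl : LamOK 3 lam := lamOK_of_mem h0 h1
  refine ⟨hE.1.chan hl, (mul_nonneg (pow_nonneg h0 3) hE.2).trans ?_⟩
  rw [ev_chan three_pos E hl, ← ev_const_mul]
  simp only [psi3, fH_chan, fT_chan]
  refine ev_mono three_pos E ((bdd_const _).mul bdd_psi3)
    ((((bdd_const _).mul ((bdd_const _).mul bdd_fH)).add ((bdd_const _).mul bdd_fT)).sub
      ((bdd_const _).mul (((bdd_const _).mul bdd_fH).pow 2))) fun y _ => ?_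
  have h2 := mul_nonneg (mul_nonneg (sq_nonneg lam) (sub_nonneg.2 h1)) (fH_nonneg y)
  have h3 := mul_nonneg (mul_nonneg (pow_nonneg h0 3) (sub_nonneg.2 h1)) (sq_nonneg (fH y))
  nlinarith

/-- pointwise: `η T + η² H²/2 ≤ (η + η²) H` since `T ≤ H` (from `fT_sq_le`, `H ≤ 2`) -/
theorem K3_chan_small {η : ℝ} (h0 : 0 ≤ η) (h1 : η + η ^ 2 ≤ 11 / 50) (E : Ex 3) (hE : Good E) :
    K3 (E.chan (-η)) := by
  have hl : LamOK 3 (-η) := lamOK_three (by nlinarith) (by linarith)
  refine ⟨hE.chan hl, ?_⟩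
  rw [ev_chan three_pos E hl]
  refine ev_nonneg three_pos E fun y hy => ?_
  simp only [psi3, fH_chan, fT_chan]
  have h2 := fH_nonneg y
  have h3 := c3_le hy
  have h4 : fT y ≤ fH y := by
    refine (le_abs_self _).trans (abs_le_of_sq_le_sq' ?_ h2 |> abs_le.2)
    have := fT_sq_le y hy
    nlinarith [mul_le_mul_of_nonneg_left h3 (sq_nonneg (fH y))]
  have h5 : 0 ≤ 11 / 50 * fH y - η * fT y - η ^ 2 * fH y ^ 2 / 2 := by
    have k1 := mul_le_mul_of_nonneg_left h4 h0
    have k2 := mul_le_mul_of_nonneg_left h3 (mul_nonneg (sq_nonneg η) h2)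
    have k3 := mul_le_mul_of_nonneg_right h1 h2
    nlinarith
  nlinarith [mul_nonneg (sq_nonneg η) h5]

theorem hh_mul_le {E F : Ex 3} (hE : Good E) (hF : Good F) :
    hh (E.mul F) ≤ hh E + hh F + C3 * hh E * hh F := by
  have h := c3_three hE.norm hF bdd_fH ((bdd_const C3).mul bdd_fH) bdd_fH (fun _ => True)
    (fun _ _ => trivial) fun y z hy hz _ => IV3 y z hy hz
  rwa [ev_const_mul] at h

/-- the posteriors of `F.chan (-η)` have coordinates `≤ 1 + η ≤ 3/2`; `III3` -/
theorem g3_mul_le {E F : Ex 3} (hE : Good E) (hF : Good F) {η : ℝ} (h0 : 0 ≤ η) (h1 : η ≤ 1 / 2) :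
    ev (E.mul (F.chan (-η))) g3 ≤ ev E g3 + ev (F.chan (-η)) g3 + hh E * ev (F.chan (-η)) Q3 := by
  have hl : LamOK 3 (-η) := lamOK_three (by linarith) (by linarith)
  refine c3_three hE.norm (hF.chan hl) bdd_g3 bdd_fH bdd_Q3 (fun z => ∀ i, z i ≤ 3 / 2)
    (fun o ho i => ?_) fun y z hy hz h => III3 y z hy hz h
  rw [div_le_iff₀ ho]
  rw [chan_P F hl] at ho ⊢
  rw [sum_chL] at ho ⊢
  rw [chL_apply]
  have h2 := mul_nonneg h0 (F.nonneg o i)
  have h3 := mul_le_mul_of_nonneg_right h1 ho.le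
  push_cast
  linarith

end Crest.Agent.R163
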