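import Mathlib
import Crest.Prelude.Def_TreeBroadcast

/-!
R163 (Potts broadcasting): definitions.

An *experiment* with `q` hypotheses is a countable-or-not family of nonnegative likelihood vectors
`P o : Fin q → ℝ` with summable coordinates (not necessarily of total mass one).
`val E g = ∑' o, g (P o)` for test functions `g` that are 1-homogeneous (`Hom`) and of linear growth (`Adm`).
-/

set_option autoImplicit false
set_option linter.unusedVariables false
open Crest.ProbabilityR.Broadcast Crest.ProbabilityR.TreeBroadcast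

namespace Crest.Agent.R163

/-- sub-experiment with `q` hypotheses -/
structure Ex (q : ℕ) : Type 1 where
  ι : Type
  P : ι → Fin q → ℝ
  nonneg : ∀ o i, 0 ≤ P o i
  summ : ∀ i, Summable fun o => P o i

variable {q : ℕ}

noncomputable def val (E : Ex q) (g : (Fin q → ℝ) → ℝ) : ℝ := ∑' o, g (E.P o)

noncomputable def mass (E : Ex q) (i : Fin q) : ℝ := ∑' o, E.P o i

/-- nonnegative vector -/
def NN (P : Fin q → ℝ) : Prop := ∀ i, 0 ≤ P i

def Hom (g : (Fin q → ℝ) → ℝ) : Prop :=
  ∀ (c : ℝ) (P : Fin q → ℝ), 0 ≤ c → NN P → g (fun i => c * P i) = c * g P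

def Adm (g : (Fin q → ℝ) → ℝ) : Prop :=
  ∃ C : ℝ, ∀ P : Fin q → ℝ, NN P → |g P| ≤ C * ∑ i, P i

/-- test function -/
structure Test (g : (Fin q → ℝ) → ℝ) : Prop where
  hom : Hom g
  adm : Adm g

/-- nonnegative test function -/
structure Pos (g : (Fin q → ℝ) → ℝ) : Prop extends Test g where
  pos : ∀ P, NN P → 0 ≤ g P

/-- superadditive nonnegative test function (a Bayes-risk like functional) -/
structure Sup (g : (Fin q → ℝ) → ℝ) : Prop extends Pos g where
  sup : ∀ P Q, NN P → NN Q → g P + g Q ≤ g (fun i => P i + Q i)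

def SymF (g : (Fin q → ℝ) → ℝ) : Prop :=
  ∀ (π : Equiv.Perm (Fin q)) (P : Fin q → ℝ), g (fun i => P (π i)) = g P

def Norm (E : Ex q) : Prop := ∀ i, mass E i = 1

def Sym (E : Ex q) : Prop :=
  ∀ (π : Equiv.Perm (Fin q)) (g : (Fin q → ℝ) → ℝ), Test g →
    val E (fun P => g (fun i => P (π i))) = val E g

structure Good (E : Ex q) : Prop where
  norm : Norm E
  sym : Sym E

/-- same values on all test functions -/
def Eqv (E F : Ex q) : Prop := ∀ g, Test g → val E g = val F g

/-- `F` is less informative than `E` (Blackwell type order; `E` may have lost mass) -/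
def Le (E F : Ex q) : Prop := ∀ g, Sup g → val E g ≤ val F g

/-- `E` is a part of `F` -/
def Pt (E F : Ex q) : Prop := ∀ g, Pos g → val E g ≤ val F g

/-- one atom -/
def Ex.pt (v : Fin q → ℝ) : Ex q where
  ι := Unit
  P := fun _ i => max (v i) 0
  nonneg := fun _ _ => le_max_right _ _
  summ := fun _ => Summable.of_finite

/-- the trivial experiment -/
def Ex.one : Ex q := Ex.pt fun _ => 1

/-- no atom -/
def Ex.zero : Ex q where
  ι := Empty
  P := fun o => o.elim
  nonneg := fun o => o.elim
  summ := fun _ => Summable.of_finite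

/-- the revealing experiment -/
def Ex.vert : Ex q where
  ι := Fin q
  P := fun o i => if o = i then 1 else 0
  nonneg := fun o i => by split_ifs <;> norm_num
  summ := fun _ => Summable.of_finite

/-- a finite family of atoms -/
noncomputable def Ex.fin {κ : Type*} [Fintype κ] (v : κ → Fin q → ℝ) : Ex q where
  ι := Fin (Fintype.card κ)
  P := fun o i => max (v ((Fintype.equivFin κ).symm o) i) 0
  nonneg := fun _ _ => le_max_right _ _
  summ := fun _ => Summable.of_finite

/-- independent product -/
def Ex.mul (E F : Ex q) : Ex q where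
  ι := E.ι × F.ι
  P := fun o i => E.P o.1 i * F.P o.2 i
  nonneg := fun o i => mul_nonneg (E.nonneg _ _) (F.nonneg _ _)
  summ := fun i => (E.summ i).mul_of_nonneg (F.summ i) (fun o => E.nonneg o i) (fun o => F.nonneg o i)

/-- disjoint union -/
def Ex.add (E F : Ex q) : Ex q where
  ι := E.ι ⊕ F.ι
  P := Sum.elim E.P F.P
  nonneg := fun o i => by cases o <;> simp [E.nonneg, F.nonneg]
  summ := fun i => Summable.sum _ (by simpa [Function.comp_def] using E.summ i)
    (by simpa [Function.comp_def] using F.summ i)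

/-- scaling by `c ≥ 0` -/
def Ex.smul (c : ℝ) (E : Ex q) : Ex q where
  ι := E.ι
  P := fun o i => max c 0 * E.P o i
  nonneg := fun o i => mul_nonneg (le_max_right _ _) (E.nonneg _ _)
  summ := fun i => (E.summ i).mul_left _

/-- the linear map of the channel on likelihood vectors -/
noncomputable def chL (lam : ℝ) (P : Fin q → ℝ) : Fin q → ℝ := fun i => ∑ j, channel q lam i j * P j

/-- admissible channel parameter -/
def LamOK (q : ℕ) (lam : ℝ) : Prop := ∀ i j : Fin q, 0 ≤ channel q lam i j

/-- the experiment seen through one channel -/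
noncomputable def Ex.chan (lam : ℝ) (E : Ex q) : Ex q where
  ι := E.ι
  P := fun o i => ∑ j, max (channel q lam i j) 0 * E.P o j
  nonneg := fun o i => Finset.sum_nonneg fun j _ => mul_nonneg (le_max_right _ _) (E.nonneg _ _)
  summ := fun _ => summable_sum fun j _ => (E.summ j).mul_left _

def Ex.pow (E : Ex q) : ℕ → Ex q
  | 0 => Ex.one
  | k + 1 => (Ex.pow E k).mul E

def Ex.prodL : List (Ex q) → Ex q
  | [] => Ex.one
  | E :: l => (Ex.prodL l).mul E

/-- offspring law with an entire generating function -/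
structure Off where
  p : ℕ → ℝ
  nonneg : ∀ k, 0 ≤ p k
  sum1 : HasSum p 1
  ent : ∀ x : ℝ, 0 ≤ x → Summable fun k => p k * x ^ k

theorem mass_pow (E : Ex q) (i : Fin q) (k : ℕ) : mass (E.pow k) i = mass E i ^ k := by
  induction k with
  | zero => simp [Ex.pow, Ex.one, Ex.pt, mass]
  | succ k ih =>
    rw [pow_succ, ← ih]
    exact ((((E.pow k).summ i).tsum_mul_tsum (E.summ i) (((E.pow k).mul E).summ i))).symm

/-- a random number of independent copies, the number being observed -/
def Ex.gen (ω : Off) (E : Ex q) : Ex q where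
  ι := Σ k : ℕ, (E.pow k).ι
  P := fun o i => ω.p o.1 * (E.pow o.1).P o.2 i
  nonneg := fun o i => mul_nonneg (ω.nonneg _) ((E.pow _).nonneg _ _)
  summ := fun i => by
    refine (summable_sigma_of_nonneg (fun o => mul_nonneg (ω.nonneg _) ((E.pow _).nonneg _ _))).2
      ⟨fun k => ((E.pow k).summ i).mul_left (ω.p k), ?_⟩
    have h : ∀ k, ∑' y : (E.pow k).ι, ω.p k * (E.pow k).P y i = ω.p k * mass E i ^ k := fun k => by
      rw [tsum_mul_left, ← mass_pow]; rfl
    simp only [h]
    exact ω.ent _ (tsum_nonneg fun o => E.nonneg o i)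

/-- exactly `b` children -/
noncomputable def Off.reg (b : ℕ) : Off where
  p := fun k => if k = b then 1 else 0
  nonneg := fun k => by split_ifs <;> norm_num
  sum1 := hasSum_ite_eq b 1
  ent := fun x _ => summable_of_ne_finset_zero (s := {b}) fun k hk => by
    simp at hk; simp [hk]

/-- Poisson(`d`) children (`d ≥ 0`) -/
noncomputable def Off.poi (d : ℝ) : Off where
  p := fun k => Real.exp (-|d|) * |d| ^ k / k.factorial
  nonneg := fun k => by positivity
  sum1 := by
    have h := (NormedSpace.expSeries_div_hasSum_exp |d|).mul_left (Real.exp (-|d|))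
    rw [← Real.exp_eq_exp_ℝ, ← Real.exp_add] at h
    simpa [mul_div_assoc] using h
  ent := fun x _ => by
    have h := (Real.summable_pow_div_factorial (|d| * x)).mul_left (Real.exp (-|d|))
    refine h.congr fun k => ?_
    rw [mul_pow]; ring

/-- the experiment at depth `n` of the Galton-Watson tree with offspring law `ω` -/
noncomputable def mu (q : ℕ) (lam : ℝ) (ω : Off) : ℕ → Ex q
  | 0 => Ex.vert
  | n + 1 => ((mu q lam ω n).chan lam).gen ω

/-- the experiment at depth `k` below `v` in a fixed tree, with leaf experiments `L` -/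
noncomputable def sub {V : Type*} [DecidableEq V] (T : LocFinTree V) (lam : ℝ) (L : V → Ex q) :
    ℕ → V → Ex q
  | 0, v => L v
  | k + 1, v => Ex.prodL ((T.children v).toList.map fun c => (sub T lam L k c).chan lam)

/-- the integrand of the advantage -/
noncomputable def advF (P : Fin q → ℝ) : ℝ := ∑ i, |P i - (1 / q) * ∑ j, P j|

/-- the simplex, normalised to mean one -/
def Simp (y : Fin q → ℝ) : Prop := NN y ∧ ∑ i, y i = q

/-- homogeneous extension of a function on the simplex -/
noncomputable def hom (f : (Fin q → ℝ) → ℝ) (P : Fin q → ℝ) : ℝ :=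
  (∑ j, P j) / q * f fun i => q * P i / ∑ j, P j

/-- bounded on the simplex -/
def Bdd (f : (Fin q → ℝ) → ℝ) : Prop := ∃ C : ℝ, ∀ y, Simp y → |f y| ≤ C

/-- expectation of `f` of the posterior -/
noncomputable def ev (E : Ex q) (f : (Fin q → ℝ) → ℝ) : ℝ := val E (hom f)

/-- symmetrised merge of two posteriors -/
noncomputable def avg (f : (Fin q → ℝ) → ℝ) (y z : Fin q → ℝ) : ℝ :=
  (∑ π : Equiv.Perm (Fin q), hom f fun i => y i * z (π i)) / q.factorial

noncomputable def fH (y : Fin q → ℝ) : ℝ := (∑ i, (y i - 1) ^ 2) / q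
noncomputable def fT (y : Fin q → ℝ) : ℝ := (∑ i, (y i - 1) ^ 3) / q
noncomputable def fK (y : Fin q → ℝ) : ℝ := (∑ i, y i * Real.log (y i)) / q

/-- the chi-square information -/
noncomputable def hh (E : Ex q) : ℝ := ev E fH

/-- A class of good experiments, closed under products and compounds, on which the chi-square
information is subadditive with a cubic loss. -/
structure Cone (K : Ex q → Prop) (c : ℝ) : Prop where
  cpos : 0 < c
  good : ∀ E, K E → Good E
  one : K Ex.one
  mul : ∀ E F, K E → K F → K (E.mul F)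
  gen : ∀ ω E, K E → K (E.gen ω)
  loss : ∀ E F, K E → K F → hh (E.mul F) ≤ hh E + hh F - c * hh E * hh F * (hh E + hh F)

/-! four states -/

noncomputable def psi4 (y : Fin 4 → ℝ) : ℝ :=
  fT y - 31 / 50 * fH y ^ 2 - 1 / 2 * (((∑ i, (y i - 1) ^ 4) / 4 - fH y ^ 2) / 4) + 3 / 25 * (fH y * fT y)

def K4 (c : ℝ) (E : Ex 4) : Prop := Good E ∧ c * hh E ^ 2 ≤ ev E psi4

/-! three states -/

noncomputable def psi3 (y : Fin 3 → ℝ) : ℝ := 11 / 50 * fH y + fT y - 1 / 2 * fH y ^ 2

def K3 (E : Ex 3) : Prop := Good E ∧ 0 ≤ ev E psi3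

noncomputable def rho3 : ℝ := 7 / 10
noncomputable def q31 : ℝ := 59 / 10
noncomputable def q32 : ℝ := 0
noncomputable def q33 : ℝ := 17 / 2
noncomputable def C3 : ℝ := 11 / 10

noncomputable def g3 (y : Fin 3 → ℝ) : ℝ := fT y + rho3 * fH y ^ 2
noncomputable def Q3 (y : Fin 3 → ℝ) : ℝ := q31 * fH y + q32 * fT y + q33 * fH y ^ 2

end Crest.Agent.R163
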