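import Crest.Agent.R163.EngDef

/-! R163 engine, part A: the big-number Horner scheme is below the formal one (pure arithmetic). -/

set_option autoImplicit false
set_option linter.unusedVariables false
open Finset

namespace Crest.Agent.R163.Eng

/-! ### general digit lemmas -/

theorem frc_eq (n : ℕ) (f : ℕ → ℕ) : frc n f = f n := by
  cases n <;> rfl

theorem ea_loop (n : ℕ) (g : ℕ → ℕ) :
    loop n (fun i r => Nat.add r (g i)) 0 = ∑ i ∈ range n, g i := by
  induction n with
  | zero => rfl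
  | succ n ih => rw [sum_range_succ, ← ih]; rfl

theorem csum_eq (M : ℕ) (f : ℕ → ℕ → ℕ) :
    csum M f = ∑ k ∈ range (M + 1), ∑ l ∈ range (k + 1), f k l := by
  unfold csum
  simp only [ea_loop]

theorem dig_eq (X r : ℕ) : dig X r = X / 2 ^ (96 * r) % 2 ^ 96 := by
  unfold dig
  rw [← Nat.shiftRight_eq_div_pow]
  rfl

theorem ones_eq (n s : ℕ) : ones n s = ∑ i ∈ range n, 2 ^ (s * i) := by
  induction n with
  | zero => rfl
  | succ n ih =>
    have : ones (n + 1) s = ones n s <<< s + 1 := rfl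
    rw [this, ih, Nat.shiftLeft_eq, sum_range_succ', sum_mul]
    simp only [mul_add, pow_add, mul_one, mul_zero, pow_zero]

theorem ea_sum_lt (P : ℕ) (a : ℕ → ℕ) (ha : ∀ r < P, a r < 2 ^ 96) :
    ∑ i ∈ range P, a i * 2 ^ (96 * i) < 2 ^ (96 * P) := by
  induction P with
  | zero => simp
  | succ P ih =>
    have h1 := ih fun r hr => ha r (by omega)
    have h2 := Nat.mul_le_mul_right (2 ^ (96 * P)) (Nat.succ_le_of_lt (ha P (by omega)))
    rw [sum_range_succ, mul_add, pow_add, mul_one, mul_comm (2 ^ (96 * P))]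
    rw [Nat.succ_mul] at h2
    omega

/-- uniqueness of digits -/
theorem dig_sum (P : ℕ) (a : ℕ → ℕ) (ha : ∀ r < P, a r < 2 ^ 96) (t r : ℕ) (hr : r < P) :
    dig (∑ i ∈ range P, a i * 2 ^ (96 * i) + t * 2 ^ (96 * P)) r = a r := by
  induction P generalizing t with
  | zero => omega
  | succ P ih =>
    have e : ∑ i ∈ range (P + 1), a i * 2 ^ (96 * i) + t * 2 ^ (96 * (P + 1)) =
        ∑ i ∈ range P, a i * 2 ^ (96 * i) + (a P + 2 ^ 96 * t) * 2 ^ (96 * P) := by
      rw [sum_range_succ]; ring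
    rw [e]
    rcases Nat.lt_succ_iff_lt_or_eq.1 hr with h | rfl
    · exact ih (fun r hr => ha r (by omega)) _ h
    · rw [dig_eq, Nat.add_mul_div_right _ _ (by positivity),
        Nat.div_eq_of_lt (ea_sum_lt r a fun i hi => ha i (by omega)), zero_add,
        Nat.add_mul_mod_self_left, Nat.mod_eq_of_lt (ha r hr)]

theorem eq_sum_dig (X P : ℕ) (h : ∀ r, P ≤ r → dig X r = 0) :
    X = ∑ i ∈ range P, dig X i * 2 ^ (96 * i) := by
  have h1 : ∀ Q, X = ∑ i ∈ range Q, dig X i * 2 ^ (96 * i) + X / 2 ^ (96 * Q) * 2 ^ (96 * Q) := by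
    intro Q
    induction Q with
    | zero => simp
    | succ Q ih =>
      have h2 := Nat.mod_add_div (X / 2 ^ (96 * Q)) (2 ^ 96)
      rw [Nat.div_div_eq_div_mul, ← pow_add, ← dig_eq, ← Nat.mul_succ] at h2
      rw [sum_range_succ, add_assoc]
      refine ih.trans ?_
      rw [← h2]
      ring
  have h2 := h1 (P + X)
  have h3 : X < 2 ^ (96 * (P + X)) :=
    Nat.lt_two_pow_self.trans_le (Nat.pow_le_pow_right (by omega) (by omega))
  rw [Nat.div_eq_of_lt h3, zero_mul, add_zero, sum_range_add,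
    sum_eq_zero (s := range X) (fun i _ => by rw [h _ (by omega), zero_mul]), add_zero] at h2
  exact h2

/-- shift and mask: `dig (X &&& M) r = dig X r &&& dig M r` (`Nat.and_div_two_pow`, `Nat.and_mod_two_pow` or `Nat.testBit`) -/
theorem dig_land_shift (X M a r : ℕ) (hM : dig M r < 2 ^ 41) :
    dig (Nat.land (Nat.shiftRight X (40 + 96 * a)) M) r ≤ dig X (r + a) / 2 ^ 40 ∧
    dig (Nat.land (Nat.shiftRight X (40 + 96 * a)) M) r ≤ dig M r := by
  have h1 : dig (Nat.land (Nat.shiftRight X (40 + 96 * a)) M) r =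
      X / 2 ^ (96 * (r + a)) / 2 ^ 40 % 2 ^ 96 &&& dig M r := by
    rw [dig_eq, dig_eq]
    show (X >>> (40 + 96 * a) &&& M) / _ % _ = _
    rw [Nat.and_div_two_pow, Nat.and_mod_two_pow, Nat.shiftRight_eq_div_pow, Nat.div_div_eq_div_mul,
      Nat.div_div_eq_div_mul, ← pow_add, ← pow_add]
    congr 4
    ring
  rw [h1]
  refine ⟨?_, Nat.and_le_right⟩
  have h2 : X / 2 ^ (96 * (r + a)) / 2 ^ 40 % 2 ^ 96 &&& dig M r < 2 ^ 56 :=
    Nat.and_le_right.trans_lt (by omega)
  rw [← Nat.mod_eq_of_lt h2, Nat.and_mod_two_pow, dig_eq X,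
    show 2 ^ 96 = 2 ^ 40 * 2 ^ 56 by norm_num, Nat.mod_mul_right_div_self,
    Nat.mod_mod_of_dvd _ (Dvd.intro_left _ rfl)]
  exact Nat.and_le_left

theorem ea_dig_sum (P : ℕ) (a : ℕ → ℕ) (ha : ∀ r < P, a r < 2 ^ 96) (r : ℕ) :
    dig (∑ i ∈ range P, a i * 2 ^ (96 * i)) r = if r < P then a r else 0 := by
  split_ifs with h
  · simpa using dig_sum P a ha 0 r h
  · rw [dig_eq, Nat.div_eq_of_lt ((ea_sum_lt P a ha).trans_le
      (Nat.pow_le_pow_right (by omega) (by omega))), Nat.zero_mod]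

theorem dig_ones (P r : ℕ) :
    dig (Nat.mul 2199023255551 (ones P 96)) r = if r < P then 2199023255551 else 0 := by
  show dig (2199023255551 * ones P 96) r = _
  rw [ones_eq, mul_sum]
  exact ea_dig_sum P (fun _ => 2199023255551) (fun _ _ => by norm_num) r

/-! ### arrays -/

theorem ea_stride (p : Par) : stride p = 2 * (p.A + p.An) + 1 := rfl

theorem ea_range_mul (a b : ℕ) (F : ℕ → ℕ → ℕ) :
    ∑ r ∈ range (a * b), F (r / b) (r % b) * 2 ^ (96 * r) =
      ∑ i ∈ range a, ∑ j ∈ range b, F i j * 2 ^ (96 * (i * b + j)) := by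
  induction a with
  | zero => simp
  | succ a ih =>
    rw [add_mul, one_mul, sum_range_add, ih, sum_range_succ]
    congr 1
    refine sum_congr rfl fun q hq => ?_
    have hq' := mem_range.1 hq
    rw [add_comm (a * b), Nat.add_mul_div_right _ _ (by omega), Nat.add_mul_mod_self_right,
      Nat.div_eq_of_lt hq', Nat.mod_eq_of_lt hq', zero_add]

theorem ea_dig2 (I S : ℕ) (a : ℕ → ℕ → ℕ) (ha : ∀ i j, a i j < 2 ^ 96) (i : ℕ) {j : ℕ}
    (hj : j < S) : dig (∑ i ∈ range I, ∑ j ∈ range S, a i j * 2 ^ (96 * (i * S + j))) (i * S + j) =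
      if i < I then a i j else 0 := by
  rw [← ea_range_mul, ea_dig_sum _ _ (fun r _ => ha _ _), add_comm (i * S),
    Nat.add_mul_div_right _ _ (by omega), Nat.add_mul_mod_self_right, Nat.div_eq_of_lt hj,
    Nat.mod_eq_of_lt hj, zero_add]
  refine if_congr ⟨fun h => ?_, fun h => ?_⟩ rfl rfl
  · exact Nat.lt_of_mul_lt_mul_right (a := S) (by omega)
  · have := Nat.mul_le_mul_right S (Nat.succ_le_of_lt h)
    rw [Nat.succ_mul] at this
    omega

/-- `r = i * stride + j` with `j < stride`: the mask is the box `i, j ≤ 2A` -/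
theorem dig_mask (p : Par) (i j : ℕ) (hj : j < stride p) :
    dig (mask p) (i * stride p + j) = if i ≤ 2 * p.A ∧ j ≤ 2 * p.A then 2199023255551 else 0 := by
  have h1 : 2 * p.A + 1 ≤ stride p := by rw [ea_stride]; omega
  have h2 : mask p = ∑ i ∈ range (2 * p.A + 1), ∑ j ∈ range (stride p),
      (if j < 2 * p.A + 1 then 2199023255551 else 0) * 2 ^ (96 * (i * stride p + j)) := by
    show 2199023255551 * ones (2 * p.A + 1) 96 * ones (2 * p.A + 1) (96 * stride p) = _
    rw [ones_eq, ones_eq, mul_sum]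
    refine sum_congr rfl fun i _ => ?_
    simp only [ite_mul, zero_mul]
    rw [← sum_filter, show (range (stride p)).filter (fun j => j < 2 * p.A + 1) =
      range (2 * p.A + 1) by ext j; simp only [mem_filter, mem_range]; omega, mul_sum, sum_mul]
    exact sum_congr rfl fun j _ => by ring
  rw [h2, ea_dig2 _ _ _ (fun _ _ => by split_ifs <;> norm_num) _ hj]
  simp only [Nat.lt_succ_iff, ite_and]

theorem dig_row (p : Par) (X i j : ℕ) (hj : j ≤ i) :
    dig (row p X i) j = dig X ((i + p.A) * stride p + (j + p.A)) := by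
  rw [dig_eq, dig_eq]
  show (X >>> (96 * ((i + p.A) * stride p + p.A))) % (1 <<< (96 * (i + 1))) / _ % _ = _
  rw [Nat.shiftRight_eq_div_pow, Nat.one_shiftLeft,
    show 96 * (i + 1) = 96 * j + (96 * (i - j) + 96) by omega, pow_add, Nat.mod_mul_right_div_self,
    pow_add, Nat.mod_mod_of_dvd _ (Dvd.intro_left _ rfl), Nat.div_div_eq_div_mul, ← pow_add]
  congr 3
  ring

/-- Invariant of the Horner scheme for an array `X` and its formal counterpart `F`:
digits `< 2^41`, supported in the box `i, j ≤ 2A`, and below `2^40 F`. -/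
structure AInv (p : Par) (X : ℕ) (F : Arr) : Prop where
  lt : ∀ r, dig X r < 2 ^ 41
  supp : ∀ i j, j < stride p → ¬ (i ≤ 2 * p.A ∧ j ≤ 2 * p.A) → dig X (i * stride p + j) = 0
  nonneg : ∀ x, 0 ≤ F.coeff x
  le : ∀ i j : ℕ, i ≤ 2 * p.A → j ≤ 2 * p.A →
    (dig X (i * stride p + j) : ℝ) ≤ 2 ^ 40 * F.coeff ((i : ℤ) - p.A, (j : ℤ) - p.A)

/-- `Y` is an array with offset `A + An`, entries at most `c`, below the formal array `H`. -/
def Dom (p : Par) (Y c : ℕ) (H : Arr) : Prop :=
  ∃ a : ℕ → ℕ → ℕ, Y = ∑ i ∈ range (stride p), ∑ j ∈ range (stride p),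
      a i j * 2 ^ (96 * (i * stride p + j)) ∧ (∀ i j, a i j ≤ c) ∧ (∀ x, 0 ≤ H.coeff x) ∧
    ∀ i < stride p, ∀ j < stride p,
      (a i j : ℝ) ≤ H.coeff ((i : ℤ) - p.A - p.An, (j : ℤ) - p.A - p.An)

theorem Dom.cast {p : Par} {Y Y' c c' : ℕ} {H H' : Arr} (h : Dom p Y c H) (hY : Y = Y')
    (hc : c ≤ c') (hH : H = H') : Dom p Y' c' H' := by
  obtain ⟨a, h1, h2, h3, h4⟩ := h
  subst hY hH
  exact ⟨a, h1, fun i j => (h2 i j).trans hc, h3, h4⟩

theorem Dom.zero (p : Par) : Dom p 0 0 0 :=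
  ⟨fun _ _ => 0, by simp, fun _ _ => le_rfl, by simp, by simp⟩

theorem Dom.add {p : Par} {Y Y' c c' : ℕ} {H H' : Arr} (h : Dom p Y c H) (h' : Dom p Y' c' H') :
    Dom p (Y + Y') (c + c') (H + H') := by
  obtain ⟨a, h1, h2, h3, h4⟩ := h
  obtain ⟨a', k1, k2, k3, k4⟩ := h'
  refine ⟨fun i j => a i j + a' i j, ?_, fun i j => add_le_add (h2 i j) (k2 i j),
    fun x => add_nonneg (h3 x) (k3 x), fun i hi j hj => ?_⟩
  · rw [h1, k1]
    simp only [add_mul, sum_add_distrib]
  · push_cast
    exact add_le_add (h4 i hi j hj) (k4 i hi j hj)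

theorem Dom.smul {p : Par} {Y c : ℕ} {H : Arr} (h : Dom p Y c H) (n : ℕ) :
    Dom p (n * Y) (n * c) ((n : ℝ) • H) := by
  obtain ⟨a, h1, h2, h3, h4⟩ := h
  refine ⟨fun i j => n * a i j, ?_, fun i j => Nat.mul_le_mul_left _ (h2 i j),
    fun x => mul_nonneg (Nat.cast_nonneg n) (h3 x), fun i hi j hj => ?_⟩
  · rw [h1]
    simp only [mul_sum, mul_assoc]
  · push_cast
    exact mul_le_mul_of_nonneg_left (h4 i hi j hj) (Nat.cast_nonneg n)

theorem Dom.sum {p : Par} (t : Finset ℕ) {Y c : ℕ → ℕ} {H : ℕ → Arr}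
    (h : ∀ k ∈ t, Dom p (Y k) (c k) (H k)) :
    Dom p (∑ k ∈ t, Y k) (∑ k ∈ t, c k) (∑ k ∈ t, H k) := by
  induction t using Finset.induction_on with
  | empty => exact Dom.zero p
  | insert k t hk ih =>
    rw [sum_insert hk, sum_insert hk, sum_insert hk]
    exact (h k (mem_insert_self _ _)).add (ih fun k' hk' => h k' (mem_insert_of_mem hk'))

theorem ea_coeff (F : Arr) (x y : ℤ × ℤ) :
    (F * AddMonoidAlgebra.single y 1).coeff x = F.coeff (x - y) := by
  rw [AddMonoidAlgebra.coeff_mul_single_eq_coeff_mul (x - y) fun _ _ => eq_sub_iff_add_eq.symm,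
    mul_one]

theorem ea_dig_shift (X o r : ℕ) :
    dig (X * 2 ^ (96 * o)) r = if o ≤ r then dig X (r - o) else 0 := by
  rw [dig_eq, dig_eq]
  split_ifs with h
  · rw [show 96 * r = 96 * (r - o) + 96 * o by omega, pow_add,
      Nat.mul_div_mul_right _ _ (by positivity)]
  · rw [show 96 * o = 96 * (o - r - 1) + 96 + 96 * r by omega, pow_add, pow_add, ← mul_assoc,
      Nat.mul_div_cancel _ (by positivity), ← mul_assoc, Nat.mul_mod_left]

theorem Dom.shift {p : Par} {X : ℕ} {F : Arr} (h : AInv p X F) {u v : ℕ} (hu : u ≤ 2 * p.An)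
    (hv : v ≤ 2 * p.An) {y : ℤ × ℤ} (hy : y = ((u : ℤ) - p.An, (v : ℤ) - p.An)) :
    Dom p (X * 2 ^ (96 * (u * stride p + v))) (2 ^ 41)
      ((2 ^ 40 : ℝ) • (F * AddMonoidAlgebra.single y 1)) := by
  have hS := ea_stride p
  have key : ∀ r, dig (X * 2 ^ (96 * (u * stride p + v))) r = 0 ∨ ∃ i ≤ 2 * p.A, ∃ j ≤ 2 * p.A,
      r = (i + u) * stride p + (j + v) ∧
        dig (X * 2 ^ (96 * (u * stride p + v))) r = dig X (i * stride p + j) := by
    intro r
    rw [ea_dig_shift]
    split_ifs with hr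
    · have h1 := Nat.div_add_mod' (r - (u * stride p + v)) (stride p)
      have h2 := Nat.mod_lt (r - (u * stride p + v)) (show 0 < stride p by omega)
      generalize (r - (u * stride p + v)) / stride p = i at h1
      generalize (r - (u * stride p + v)) % stride p = j at h1 h2
      rw [← h1]
      by_cases hb : i ≤ 2 * p.A ∧ j ≤ 2 * p.A
      · exact Or.inr ⟨i, hb.1, j, hb.2, by rw [add_mul]; omega, rfl⟩
      · exact Or.inl (h.supp i j h2 hb)
    · exact Or.inl rfl
  have hnn : ∀ x, 0 ≤ ((2 ^ 40 : ℝ) • (F * AddMonoidAlgebra.single y 1)).coeff x := fun x => by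
    rw [AddMonoidAlgebra.coeff_smul_apply, ea_coeff]
    exact mul_nonneg (by positivity) (h.nonneg _)
  refine ⟨fun i j => dig (X * 2 ^ (96 * (u * stride p + v))) (i * stride p + j), ?_,
    fun i j => ?_, hnn, fun i hi j hj => ?_⟩
  · rw [← ea_range_mul _ _ fun i j => dig (X * 2 ^ (96 * (u * stride p + v))) (i * stride p + j)]
    simp only [Nat.div_add_mod']
    refine eq_sum_dig _ _ fun r hr => (key r).resolve_right ?_
    rintro ⟨i, hi, j, hj, e, -⟩
    have := Nat.mul_le_mul_right (stride p) (show i + u + 1 ≤ stride p by omega)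
    rw [add_mul _ 1] at this
    omega
  · rcases key (i * stride p + j) with e | ⟨i', -, j', -, -, e⟩
    · exact e.le.trans (Nat.zero_le _)
    · exact e.le.trans (h.lt _).le
  · rcases key (i * stride p + j) with e | ⟨i', hi', j', hj', e', e⟩
    · simp only [e, Nat.cast_zero]
      exact hnn _
    · have h1 := congrArg (· % stride p) e'
      simp only [Nat.mul_add_mod_of_lt hj, Nat.mul_add_mod_of_lt
        (show j' + v < stride p by omega)] at h1
      subst h1
      have h2 := Nat.eq_of_mul_eq_mul_right (show 0 < stride p by omega) (Nat.add_right_cancel e')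
      subst h2
      simp only [e]
      rw [AddMonoidAlgebra.coeff_smul_apply, ea_coeff, hy]
      refine (h.le i' j' hi' hj').trans (le_of_eq ?_)
      rw [smul_eq_mul, Prod.mk_sub_mk]
      congr 3 <;> push_cast <;> ring

theorem Dom.trunc {p : Par} {Y c : ℕ} {H : Arr} (h : Dom p Y c ((2 ^ 80 : ℝ) • H))
    (hc : c < 2 ^ 96) : AInv p (trunc p Y) H := by
  obtain ⟨a, h1, h2, h3, h4⟩ := h
  have hS := ea_stride p
  have hM : ∀ r, dig (mask p) r < 2 ^ 41 := fun r => by
    rw [← Nat.div_add_mod' r (stride p), dig_mask _ _ _ (Nat.mod_lt _ (by omega))]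
    split_ifs <;> norm_num
  have key := fun r => dig_land_shift Y (mask p) (p.An * (stride p + 1)) r (hM r)
  refine ⟨fun r => (key r).2.trans_lt (hM r), fun i j hj hb => ?_, fun x => ?_, fun i j hi hj => ?_⟩
  · have := (key (i * stride p + j)).2
    rw [dig_mask _ _ _ hj, if_neg hb] at this
    exact Nat.le_zero.1 this
  · exact nonneg_of_mul_nonneg_right (h3 x) (by positivity)
  · have k1 := (key (i * stride p + j)).1
    rw [show i * stride p + j + p.An * (stride p + 1) = (i + p.An) * stride p + (j + p.An) by ring]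
      at k1
    have k2 := ea_dig2 (stride p) (stride p) a (fun i j => (h2 i j).trans_lt hc) (i + p.An)
      (show j + p.An < stride p by omega)
    rw [← h1, if_pos (by omega)] at k2
    rw [k2] at k1
    have k3 := h4 (i + p.An) (by omega) (j + p.An) (by omega)
    rw [AddMonoidAlgebra.coeff_smul_apply, smul_eq_mul,
      show ((i + p.An : ℕ) : ℤ) - p.A - p.An = i - p.A by push_cast; ring,
      show ((j + p.An : ℕ) : ℤ) - p.A - p.An = j - p.A by push_cast; ring] at k3
    have k4 : (dig (Eng.trunc p Y) (i * stride p + j) : ℝ) ≤ a (i + p.An) (j + p.An) / 2 ^ 40 := by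
      refine le_trans (Nat.cast_le.2 k1) (Nat.cast_div_le.trans (le_of_eq ?_))
      norm_num
    rw [le_div_iff₀ (by positivity)] at k4
    linarith

theorem ea_bit (p : Par) (i j : ℕ) : bit p i j = 2 ^ (96 * (i * stride p + j)) :=
  Nat.one_shiftLeft _

theorem Dom.orb {p : Par} {X : ℕ} {F : Arr} (h : AInv p X F) {k l : ℕ} (hk : k ≤ p.An)
    (hl : l ≤ k) : Dom p (X * orb p k l) (6 * 2 ^ 41) ((2 ^ 40 : ℝ) • (F * orbF k l)) := by
  refine ((((((Dom.shift h (u := p.An + k) (v := p.An + l) (y := (k, l)) (by omega) (by omega)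
    (by ext <;> simp only [] <;> omega)).add
    (Dom.shift h (u := p.An + l) (v := p.An + k) (y := (l, k)) (by omega) (by omega)
    (by ext <;> simp only [] <;> omega))).add
    (Dom.shift h (u := p.An - k) (v := p.An + l - k) (y := (-k, l - k)) (by omega) (by omega)
    (by ext <;> simp only [] <;> omega))).add
    (Dom.shift h (u := p.An + l - k) (v := p.An - k) (y := (l - k, -k)) (by omega) (by omega)
    (by ext <;> simp only [] <;> omega))).add
    (Dom.shift h (u := p.An + k - l) (v := p.An - l) (y := (k - l, -l)) (by omega) (by omega)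
    (by ext <;> simp only [] <;> omega))).add
    (Dom.shift h (u := p.An - l) (v := p.An + k - l) (y := (-l, k - l)) (by omega) (by omega)
    (by ext <;> simp only [] <;> omega))).cast ?_ (by norm_num) ?_
  · simp only [← ea_bit, ← mul_add]
    rfl
  · simp only [orbF, mul_add, smul_add]

theorem ea_step {p : Par} (hp : p.OK) {s : ℕ} (hs : ∀ r, dig s r < 2 ^ 41) {X E : ℕ} {F G : Arr}
    (h : AInv p X F) (hE : Dom p E (2 ^ 84) ((2 ^ 80 : ℝ) • G)) :
    AInv p (trunc p (X * arrN p s + E)) (F * NF p.An s + G) := by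
  have h1 := Dom.sum (range (p.An + 1)) fun k hk => Dom.sum (range (k + 1)) fun l hl =>
    (Dom.orb h (Nat.lt_succ_iff.1 (mem_range.1 hk)) (Nat.lt_succ_iff.1 (mem_range.1 hl))).smul
      (dig s (idx k l))
  refine Dom.trunc ((h1.add hE).cast ?_ ?_ ?_) (c := 2145 * (2 ^ 41 * (6 * 2 ^ 41)) + 2 ^ 84)
    (by norm_num)
  · unfold arrN
    rw [csum_eq]
    simp only [mul_sum, mul_left_comm]
    rfl
  · refine Nat.add_le_add_right ?_ _
    calc _ ≤ ∑ k ∈ range (p.An + 1), ∑ _l ∈ range (k + 1), 2 ^ 41 * (6 * 2 ^ 41) :=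
          sum_le_sum fun k _ => sum_le_sum fun l _ => Nat.mul_le_mul_right _ (hs _).le
      _ ≤ ∑ k ∈ range 65, ∑ _l ∈ range (k + 1), 2 ^ 41 * (6 * 2 ^ 41) :=
          sum_le_sum_of_subset (range_mono (by have := hp.An; omega))
      _ = _ := by
          simp only [sum_const, card_range, smul_eq_mul, ← sum_mul]
          congr 1
  · simp only [NF, smul_add, mul_sum, smul_sum, mul_smul_comm, smul_smul]
    congr 1
    refine sum_congr rfl fun k _ => sum_congr rfl fun l _ => ?_
    congr 1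
    ring

/-- One multiplication. `arrN p s = ∑ over (k,l) and the six orbit points (i',j') ∈ [0,2An]² of n_kl * 2^(96(i' stride + j'))`,
so `X * arrN = ∑ r, a r * 2^(96 r)` where `a` is the convolution (columns `j + j' ≤ 2A + 2An < stride`), and
`a r ≤ 2^41 * 6 * 2145 * 2^41 < 2^96 - 2^84`. `E` is an extra term with digits `e ≤ 2^84` below `2^80 G` (offset `A + An`). -/
theorem inv_step (p : Par) (hp : p.OK) {s : ℕ} (hs : ∀ r, dig s r < 2 ^ 41) {X : ℕ} {F G : Arr}
    (h : AInv p X F) (e : ℕ → ℕ → ℕ) (he : ∀ i j, e i j ≤ 2 ^ 84) (hG : ∀ x, 0 ≤ G.coeff x)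
    (heG : ∀ i j : ℕ, (e i j : ℝ) ≤ 2 ^ 80 * G.coeff ((i : ℤ) - p.A - p.An, (j : ℤ) - p.A - p.An)) :
    AInv p (trunc p (X * arrN p s + ∑ i ∈ range (stride p), ∑ j ∈ range (stride p),
      e i j * 2 ^ (96 * (i * stride p + j)))) (F * NF p.An s + G) := by
  refine ea_step hp hs h ⟨e, rfl, he, fun x => ?_, fun i _ j _ => heG i j⟩
  exact mul_nonneg (by positivity) (hG x)

/-- induction on the list, `inv_step` for both components -/
theorem inv_horner (p : Par) (hp : p.OK) {s : ℕ} (hs : ∀ r, dig s r < 2 ^ 41) :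
    AInv p (horner p (arrN p s) (p.fl * dig s 0)).1
      (hf (NF p.An s) ((p.fl * dig s 0 : ℕ) / 2 ^ 40) p.ps).1 ∧
    AInv p (horner p (arrN p s) (p.fl * dig s 0)).2
      (hf (NF p.An s) ((p.fl * dig s 0 : ℕ) / 2 ^ 40) p.ps).2 := by
  have hS := ea_stride p
  have hm : p.fl * dig s 0 ≤ 2 ^ 42 :=
    (Nat.mul_le_mul hp.fl (hs 0).le).trans (by norm_num)
  have hz : AInv p 0 0 := ⟨fun r => by simp [dig_eq], fun _ _ _ _ => by simp [dig_eq], by simp,
    fun _ _ _ _ => by simp [dig_eq]⟩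
  unfold horner
  have hps := hp.ps
  generalize p.fl * dig s 0 = m at hm
  generalize p.ps = L at hps
  induction L with
  | nil => exact ⟨hz, hz⟩
  | cons c L ih =>
    obtain ⟨h1, h2⟩ := ih fun c hc => hps c (List.mem_cons_of_mem _ hc)
    have hc := hps c List.mem_cons_self
    refine ⟨ea_step hp hs h1 ⟨fun i j => if i = p.A + p.An ∧ j = p.A + p.An then c * 2 ^ 40 else 0,
      ?_, fun i j => ?_, fun x => ?_, fun i _ j _ => ?_⟩, ea_step hp hs h2
      ((((Dom.shift h1 (u := p.An) (v := p.An) (y := 0) (by omega) (by omega) (by ext <;> simp)).add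
        (Dom.shift h2 (u := p.An) (v := p.An) (y := 0) (by omega) (by omega) (by ext <;> simp))).smul
          m).cast ?_ ?_ ?_)⟩
    · show c <<< (40 + 96 * ((p.A + p.An) * (stride p + 1))) = _
      simp only [ite_and, ite_mul, zero_mul, sum_ite_irrel, sum_const_zero, sum_ite_eq', mem_range]
      rw [if_pos (by omega), if_pos (by omega), Nat.shiftLeft_eq]
      ring
    · beta_reduce
      split_ifs <;> omega
    · rw [AddMonoidAlgebra.coeff_smul_apply, AddMonoidAlgebra.coeff_single,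
        Finsupp.single_apply]
      split_ifs
      · positivity
      · simp
    · rw [AddMonoidAlgebra.coeff_smul_apply, AddMonoidAlgebra.coeff_single,
        Finsupp.single_apply]
      beta_reduce
      by_cases hij : i = p.A + p.An ∧ j = p.A + p.An
      · rw [if_pos hij, if_pos (by ext <;> simp only [] <;> omega), smul_eq_mul]
        push_cast
        linarith
      · rw [if_neg hij, if_neg (fun e => hij (by simp only [Prod.mk.injEq] at e; omega))]
        simp
    · refine Eq.trans ?_ (Nat.shiftLeft_eq _ (96 * (p.An * (stride p + 1)))).symm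
      simp only [Nat.mul_eq, Nat.add_eq]
      ring
    · exact (Nat.mul_le_mul_right _ hm).trans (by norm_num)
    · rw [← AddMonoidAlgebra.one_def, mul_one, mul_one, ← smul_add, smul_smul, smul_smul]
      congr 1
      ring

end Crest.Agent.R163.Eng
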