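import Crest.Agent.R163.Defs

/-!
R163: a verified density evolution on a logarithmic lattice (three states, `lam = -η`).
The definitions are written with raw `Nat.*` operations and recursors for evaluation by the kernel.

Lattice atoms: `atom ρ i j = (ρ^(2i-j), ρ^(2j-i), ρ^(-i-j))`; `atom ρ x * atom ρ y = atom ρ (x+y)`.
Numbers are read in base `2^96` (`dig`); weights have the scale `2^40`, coordinates the scale `2^48`.
A *state* `s` has the weight of the atom `(1,1,0)` in slot `0` and the weight of `atom k l` (`0 ≤ l ≤ k`) in slot `idx k l`.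
An *array* has the weight of `atom (i - o) (j - o)` in slot `i * stride + j` (offset `o`).
-/

set_option autoImplicit false
set_option linter.unusedVariables false

namespace Crest.Agent.R163.Eng

/-- parameters of one step -/
structure Par where
  sn : ℕ  -- source lattice ratio sn/sd
  sd : ℕ
  tn : ℕ  -- target lattice ratio
  td : ℕ
  en : ℕ  -- eta = en/ed
  ed : ℕ
  A : ℕ   -- half width of W box
  An : ℕ  -- half width of N box (source state)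
  At : ℕ  -- size of target chamber
  fl : ℕ  -- 0 or 2
  ps : List ℕ -- offspring weights p_0, p_1, ..., scale 2^40

local notation "cnd " b:max t:max e:max => @Bool.rec (fun _ => ℕ) e t b

noncomputable section

def frc (n : ℕ) (f : ℕ → ℕ) : ℕ :=
  Nat.rec (motive := fun _ => ℕ) (f 0) (fun m _ => f (Nat.succ m)) n

def plo (n d a b : ℕ) : ℕ :=
  Nat.div (Nat.shiftLeft (Nat.mul (Nat.pow n a) (Nat.pow d b)) 48) (Nat.mul (Nat.pow d a) (Nat.pow n b))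

def pl (n d a b : ℕ) : ℕ := frc (Nat.sub a b) fun x => frc (Nat.sub b a) fun y => plo n d x y

def loop (n : ℕ) (f : ℕ → ℕ → ℕ) (a : ℕ) : ℕ :=
  Nat.rec (motive := fun _ => ℕ) a (fun i r => f i r) n

def rp (n d k : ℕ) : ℕ := plo n d (Nat.mul 3 k) 0

def sr1 (n d a c M s k : ℕ) : ℕ :=
  frc (Nat.add k s) fun k' => cnd (Nat.ble M k') k (cnd (Nat.ble (Nat.mul (rp n d k') c) a) k' k)

/-- largest k < M (M ≤ 64) with r^k * c ≤ a / 2^48, by bisection -/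
def srch (n d a c M : ℕ) : ℕ :=
  sr1 n d a c M 1 (sr1 n d a c M 2 (sr1 n d a c M 4 (sr1 n d a c M 8 (sr1 n d a c M 16 (sr1 n d a c M 32 0)))))

def idx (k l : ℕ) : ℕ := Nat.succ (Nat.add (Nat.div (Nat.mul k (Nat.succ k)) 2) l)

def h0 (n d k l : ℕ) : ℕ := Nat.succ (plo n d (Nat.mul 2 k) l)
def h1 (n d k l : ℕ) : ℕ := Nat.succ (plo n d (Nat.mul 2 l) k)
def h2 (n d k l : ℕ) : ℕ := Nat.succ (plo n d 0 (Nat.add k l))
def sh (k l : ℕ) : ℕ := Nat.mul 96 (idx k l)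

def lin (m c1 c2 c3 a1 a2 a3 w q : ℕ) : ℕ :=
  Nat.sub (Nat.mul 6 (Nat.add (Nat.add (Nat.add m (Nat.mul c1 a1)) (Nat.mul c2 a2)) (Nat.mul c3 a3))) (Nat.shiftLeft (Nat.mul w q) 40)

def geo (At k l k2 l2 k3 l3 : ℕ) : ℕ :=
  Nat.add (Nat.add (Nat.add (Nat.sub k At) (Nat.sub l k)) (Nat.add (Nat.sub k2 At) (Nat.sub l2 k2))) (Nat.add (Nat.sub k3 At) (Nat.sub l3 k3))

/-- checked column: weights c1 c2 c3 at (k,l), (k2,l2), (k3,l3), cm at M -/
def fin (n d At w q0 q1 q2 ms cm k l k2 l2 k3 l3 c1 c2 c3 : ℕ) : ℕ :=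
  Nat.add (Nat.shiftLeft ms (sh (Nat.succ At) 0))
  (cnd (Nat.beq (Nat.add (Nat.add (Nat.add
      (lin (Nat.shiftLeft cm 48) c1 c2 c3 (h0 n d k l) (h0 n d k2 l2) (h0 n d k3 l3) w q0)
      (lin (Nat.shiftLeft cm 48) c1 c2 c3 (h1 n d k l) (h1 n d k2 l2) (h1 n d k3 l3) w q1))
      (lin 0 c1 c2 c3 (h2 n d k l) (h2 n d k2 l2) (h2 n d k3 l3) w q2))
      (Nat.add (Nat.sub (Nat.add (Nat.add (Nat.add cm c1) c2) c3) ms) (geo At k l k2 l2 k3 l3))) 0)
    (Nat.add (Nat.add (Nat.add cm (Nat.shiftLeft c1 (sh k l))) (Nat.shiftLeft c2 (sh k2 l2))) (Nat.shiftLeft c3 (sh k3 l3)))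
    0)

def mn (a b : ℕ) : ℕ := cnd (Nat.ble a b) a b

def sc (n d z t k l : ℕ) : ℕ := Nat.div (Nat.mul t z) (Nat.mul 100663296 (h2 n d k l))

def col5 (n d At w q0 q1 q2 ms cm k l k3 l3 z u v : ℕ) : ℕ :=
  cnd (Nat.ble v u)
    (fin n d At w q0 q1 q2 ms cm k l k3 l k3 l3 (sc n d z (Nat.sub 1099511627776 u) k l) (sc n d z (Nat.sub u v) k3 l) (sc n d z v k3 l3))
    (fin n d At w q0 q1 q2 ms cm k l k l3 k3 l3 (sc n d z (Nat.sub 1099511627776 v) k l) (sc n d z (Nat.sub v u) k l3) (sc n d z u k3 l3))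

def fr (n d x q k k3 : ℕ) : ℕ :=
  mn (Nat.div (Nat.shiftLeft (Nat.sub x (Nat.mul q (rp n d k))) 40) (Nat.mul q (Nat.sub (rp n d k3) (rp n d k)))) 1099511627776

def col4 (n d At w q0 q1 q2 ms cm k l k3 l3 u v : ℕ) : ℕ :=
  col5 n d At w q0 q1 q2 ms cm k l k3 l3 (Nat.mul (Nat.mul w q2) 16777215) u (cnd (Nat.beq k l) (mn v u) v)

def col3 (n d At w q0 q1 q2 ms cm x0 x1 : ℕ) : ℕ :=
  frc (srch n d x0 q2 At) fun k => frc (mn (srch n d x1 q2 At) k) fun l =>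
  frc (Nat.succ k) fun k3 => frc (Nat.succ l) fun l3 =>
    col4 n d At w q0 q1 q2 ms cm k l k3 l3 (fr n d x0 q2 k k3) (fr n d x1 q2 l l3)

def col2 (n d At w q0 q1 q2 ms lim m : ℕ) : ℕ :=
  col3 n d At w q0 q1 q2 ms (Nat.div (Nat.mul (Nat.mul w m) 16777215) 25769803776)
    (Nat.shiftLeft (mn (Nat.sub q0 m) lim) 48) (Nat.shiftLeft (Nat.sub q1 m) 48)

def col1' (n d At w q0 q1 q2 ms lim : ℕ) : ℕ :=
  col2 n d At w q0 q1 q2 ms lim (mn (Nat.sub q0 lim) (Nat.sub q1 q2))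

def col1 (n d At w q0 q1 q2 ms : ℕ) : ℕ :=
  col1' n d At w q0 q1 q2 ms (Nat.shiftRight (Nat.mul q2 (rp n d At)) 48)

def tq (p : Par) (a b c : ℕ) : ℕ :=
  Nat.div (Nat.add (Nat.mul (Nat.sub p.ed (Nat.mul 2 p.en)) a) (Nat.mul (Nat.add p.ed p.en) (Nat.add b c))) (Nat.mul 3 p.ed)

def msu (w a b c : ℕ) : ℕ := Nat.succ (Nat.shiftRight (Nat.mul w (Nat.add (Nat.add (Nat.add a b) c) 3)) 8)

/-- column of the vector (a,b,c)/2^48 with weight w/6 -/
def col (p : Par) (w a b c : ℕ) : ℕ :=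
  col1 p.tn p.td p.At w (tq p c a b) (tq p b a c) (tq p a b c) (msu w a b c)

def wt (i j : ℕ) : ℕ := cnd (Nat.beq i 0) 1 (cnd (Nat.beq j 0) 3 (cnd (Nat.beq j i) 3 6))

def colA (p : Par) (i j : ℕ) : ℕ :=
  col p (wt i j) (pl p.sn p.sd (Nat.mul 2 i) j) (pl p.sn p.sd (Nat.mul 2 j) i) (pl p.sn p.sd 0 (Nat.add i j))

def colB' (p : Par) (w a b c : ℕ) : ℕ :=
  Nat.add (Nat.add (col p w a b 0) (col p w a c 0)) (col p w b c 0)

def colB (p : Par) (i j : ℕ) : ℕ :=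
  colB' p (wt i j) (pl p.sn p.sd (Nat.mul 2 i) j) (pl p.sn p.sd (Nat.mul 2 j) i) (pl p.sn p.sd 0 (Nat.add i j))

def stride (p : Par) : ℕ := Nat.succ (Nat.mul 2 (Nat.add p.A p.An))

def dig (X q : ℕ) : ℕ := Nat.mod (Nat.shiftRight X (Nat.mul 96 q)) 79228162514264337593543950336

def ones (n s : ℕ) : ℕ := loop n (fun _ r => Nat.succ (Nat.shiftLeft r s)) 0

def mask (p : Par) : ℕ :=
  Nat.mul (Nat.mul 2199023255551 (ones (Nat.succ (Nat.mul 2 p.A)) 96)) (ones (Nat.succ (Nat.mul 2 p.A)) (Nat.mul 96 (stride p)))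

def bit (p : Par) (i j : ℕ) : ℕ := Nat.shiftLeft 1 (Nat.mul 96 (Nat.add (Nat.mul i (stride p)) j))

def orb' (p : Par) (o k l : ℕ) : ℕ :=
  Nat.add (Nat.add (Nat.add (Nat.add (Nat.add
    (bit p (Nat.add o k) (Nat.add o l)) (bit p (Nat.add o l) (Nat.add o k)))
    (bit p (Nat.sub o k) (Nat.sub (Nat.add o l) k))) (bit p (Nat.sub (Nat.add o l) k) (Nat.sub o k)))
    (bit p (Nat.sub (Nat.add o k) l) (Nat.sub o l))) (bit p (Nat.sub o l) (Nat.sub (Nat.add o k) l))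

def orb (p : Par) (k l : ℕ) : ℕ := orb' p p.An k l

/-- sum over the chamber 0 ≤ l ≤ k ≤ M -/
def csum (M : ℕ) (f : ℕ → ℕ → ℕ) : ℕ :=
  loop (Nat.succ M) (fun k r => Nat.add r (loop (Nat.succ k) (fun l r => Nat.add r (f k l)) 0)) 0


def arrN (p : Par) (s : ℕ) : ℕ := csum p.An (fun k l => Nat.mul (dig s (idx k l)) (orb p k l))

def trunc (p : Par) (X : ℕ) : ℕ :=
  Nat.land (Nat.shiftRight X (Nat.add 40 (Nat.mul 96 (Nat.mul p.An (Nat.succ (stride p)))))) (mask p)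

def hA (p : Par) (N c a : ℕ) : ℕ :=
  trunc p (Nat.add (Nat.mul a N) (Nat.shiftLeft c (Nat.add 40 (Nat.mul 96 (Nat.mul (Nat.add p.A p.An) (Nat.succ (stride p)))))))

def hB (p : Par) (N m a b : ℕ) : ℕ :=
  trunc p (Nat.add (Nat.mul b N) (Nat.shiftLeft (Nat.mul m (Nat.add a b)) (Nat.mul 96 (Nat.mul p.An (Nat.succ (stride p))))))

def horner (p : Par) (N m : ℕ) : ℕ × ℕ :=
  List.rec (motive := fun _ => ℕ × ℕ) (0, 0) (fun c _ r => (hA p N c r.1, hB p N m r.1 r.2)) p.ps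

def row (p : Par) (X i : ℕ) : ℕ :=
  Nat.mod (Nat.shiftRight X (Nat.mul 96 (Nat.add (Nat.mul (Nat.add i p.A) (stride p)) p.A))) (Nat.shiftLeft 1 (Nat.mul 96 (Nat.succ i)))

def step3 (P acc : ℕ) : ℕ :=
  cnd (Nat.ble (Nat.shiftRight acc (Nat.mul 96 P)) 79228162514264337593543950335)
    (Nat.land (Nat.shiftRight acc 40) (Nat.mul 2199023255551 (ones P 96))) 0

def step2 (p : Par) (P acc : ℕ) : ℕ :=
  step3 P (Nat.add acc (Nat.mul (Nat.shiftRight (Nat.sub (Nat.shiftLeft 3 80) (Nat.shiftRight acc (Nat.mul 96 P))) 40)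
    (col p 1 281474976710656 0 0)))

def step1 (p : Par) (X Y : ℕ) : ℕ :=
  step2 p (idx (Nat.succ p.At) 0) (Nat.add
    (cnd (Nat.beq X 0) 0 (csum p.A (fun i j => Nat.mul (dig (row p X i) j) (colA p i j))))
    (cnd (Nat.beq Y 0) 0 (csum p.A (fun i j => Nat.mul (dig (row p Y i) j) (colB p i j)))))

def step0 (p : Par) (W : ℕ × ℕ) : ℕ := step1 p W.1 W.2

def step (p : Par) (s : ℕ) : ℕ := step0 p (horner p (arrN p s) (Nat.mul p.fl (dig s 0)))

def iter (p : Par) (n s : ℕ) : ℕ := loop n (fun _ r => step p r) s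

def gh1 (a b c : ℕ) : ℕ :=
  Nat.div (Nat.mul 12 (Nat.add (Nat.add (Nat.mul a b) (Nat.mul a c)) (Nat.mul b c))) (Nat.add (Nat.add (Nat.add a b) c) 3)

/-- lower bound of the value of Γ_h, scale 2^88 -/
def gh (n d An s : ℕ) : ℕ :=
  Nat.add (Nat.shiftLeft (Nat.mul 6 (dig s 0)) 48) (csum An (fun k l =>
    Nat.mul (dig s (idx k l)) (gh1 (plo n d (Nat.mul 2 k) l) (plo n d (Nat.mul 2 l) k) (plo n d 0 (Nat.add k l)))))

/-- lower bound of `2^64 exp (-dn/dd)` : `(1 - x/2^30)^(2^30)` by repeated squaring -/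
def elo (dn dd : ℕ) : ℕ :=
  loop 30 (fun _ r => Nat.shiftRight (Nat.mul r r) 64)
    (Nat.sub 18446744073709551616 (Nat.succ (Nat.div (Nat.mul dn 17179869184) dd)))

def poiW (dn dd k : ℕ) : ℕ :=
  Nat.shiftRight (Nat.div (Nat.mul (elo dn dd) (Nat.pow dn k)) (Nat.mul (Nat.pow dd k) (Nat.factorial k))) 24

def poiL (dn dd K : ℕ) : List ℕ := (List.range K).map (poiW dn dd)

def regL (b : ℕ) : List ℕ := List.replicate b 0 ++ [1099511627776]

/-! ### semantics -/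

def atom (ρ : ℝ) (i j : ℤ) : Fin 3 → ℝ := ![ρ ^ (2 * i - j), ρ ^ (2 * j - i), ρ ^ (-i - j)]

/-- kill coordinate `t` -/
def kill (t : Fin 3) (P : Fin 3 → ℝ) : Fin 3 → ℝ := fun i => if i = t then 0 else P i

/-- value of a family of slot weights -/
def sem (ρ : ℝ) (An : ℕ) (F : ℕ → ℕ) (g : (Fin 3 → ℝ) → ℝ) : ℝ :=
  F 0 * g ![1, 1, 0] + ∑ k ∈ Finset.range (An + 1), ∑ l ∈ Finset.range (k + 1), F (idx k l) * g (atom ρ k l)

/-- the state `s` certifies the experiment `ν` -/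
def Cert (n d An s : ℕ) (ν : Ex 3) : Prop :=
  (∀ r, dig s r < 2 ^ 41) ∧
    ∀ g, Sup g → SymF g → 6 / 2 ^ 40 * sem ((n : ℝ) / d) An (dig s) g ≤ val ν g

structure Par.OK (p : Par) : Prop where
  sn : 0 < p.sn
  sd : 0 < p.sd
  tn : 0 < p.tn
  td : 0 < p.td
  ed : 0 < p.ed
  en : 2 * p.en ≤ p.ed
  An : p.An ≤ 64
  fl : p.fl ≤ 2
  ps : ∀ c ∈ p.ps, c ≤ 2 ^ 40

/-- the list of weights is below the offspring law -/
def Below (l : List ℕ) (ω : Off) : Prop := ∀ k, ((l.getD k 0 : ℕ) : ℝ) ≤ 2 ^ 40 * ω.p k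

/-- formal arrays -/
abbrev Arr : Type := AddMonoidAlgebra ℝ (ℤ × ℤ)

/-- the orbit of a lattice point under the six permutations of the coordinates -/
def orbF (k l : ℤ) : Arr :=
  AddMonoidAlgebra.single (k, l) 1 + AddMonoidAlgebra.single (l, k) 1 + AddMonoidAlgebra.single (-k, l - k) 1
  + AddMonoidAlgebra.single (l - k, -k) 1 + AddMonoidAlgebra.single (k - l, -l) 1
  + AddMonoidAlgebra.single (-l, k - l) 1

def NF (An s : ℕ) : Arr :=
  ∑ k ∈ Finset.range (An + 1), ∑ l ∈ Finset.range (k + 1), ((dig s (idx k l) : ℝ) / 2 ^ 40) • orbF k l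

/-- formal Horner scheme -/
def hf (N : Arr) (m : ℝ) : List ℕ → Arr × Arr
  | [] => (0, 0)
  | c :: l => ((hf N m l).1 * N + AddMonoidAlgebra.single (0, 0) ((c : ℝ) / 2 ^ 40),
      (hf N m l).2 * N + m • ((hf N m l).1 + (hf N m l).2))

end

end Crest.Agent.R163.Eng
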