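import Mathlib

/-! R163: polynomial identities in six variables by Kronecker substitution (one evaluation at huge integers). -/

set_option autoImplicit false
set_option linter.unusedVariables false

namespace Crest.Agent.R163

inductive PE : Type
  | var (i : Fin 6) : PE
  | cst (z : ℤ) : PE
  | add (a b : PE) : PE
  | mul (a b : PE) : PE
  | neg (a : PE) : PE
  | pow (a : PE) (n : ℕ) : PE

namespace PE

def ev {R : Type} [CommRing R] (x : Fin 6 → R) : PE → R
  | var i => x i
  | cst z => z
  | add a b => ev x a + ev x b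
  | mul a b => ev x a * ev x b
  | neg a => -ev x a
  | pow a n => ev x a ^ n

noncomputable section

/-- evaluation at `x i = 2^(B D^i)`, written for the kernel -/
def evK (B D : ℕ) (e : PE) : ℤ :=
  PE.rec (motive := fun _ => ℤ) (fun i => Int.ofNat (Nat.shiftLeft 1 (Nat.mul B (Nat.pow D i.val)))) (fun z => z)
    (fun _ _ u v => Int.add u v) (fun _ _ u v => Int.mul u v) (fun _ u => Int.neg u) (fun _ n u => Int.pow u n) e

/-- bound for the degree in the variable `j` -/
def dg (j : Fin 6) (e : PE) : ℕ :=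
  PE.rec (motive := fun _ => ℕ) (fun i => cond (Nat.beq i.val j.val) 1 0) (fun _ => 0)
    (fun _ _ u v => cond (Nat.ble u v) v u) (fun _ _ u v => Nat.add u v) (fun _ u => u) (fun _ n u => Nat.mul n u) e

/-- bound for the sum of the absolute values of the coefficients -/
def nb (e : PE) : ℕ :=
  PE.rec (motive := fun _ => ℕ) (fun _ => 1) (fun z => z.natAbs)
    (fun _ _ u v => Nat.add u v) (fun _ _ u v => Nat.mul u v) (fun _ u => u) (fun _ n u => Nat.pow u n) e

def chk (B D : ℕ) (a b : PE) : Bool :=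
  Nat.blt (dg 0 (add a b)) D && Nat.blt (dg 1 (add a b)) D && Nat.blt (dg 2 (add a b)) D
    && Nat.blt (dg 3 (add a b)) D && Nat.blt (dg 4 (add a b)) D && Nat.blt (dg 5 (add a b)) D
    && Nat.blt (nb (add a b)) (Nat.shiftLeft 1 B) && Nat.beq (Int.natAbs (Int.sub (evK B D a) (evK B D b))) 0

end

open MvPolynomial

theorem kron_map {R S : Type} [CommRing R] [CommRing S] (f : R →+* S) (x : Fin 6 → R) (e : PE) :
    f (ev x e) = ev (fun i => f (x i)) e := by
  induction e with
  | var i => rfl
  | cst z => simp only [ev, map_intCast]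
  | add a b iha ihb => simp only [ev, map_add, iha, ihb]
  | mul a b iha ihb => simp only [ev, map_mul, iha, ihb]
  | neg a iha => simp only [ev, map_neg, iha]
  | pow a n iha => simp only [ev, map_pow, iha]

theorem kron_evK (B D : ℕ) (e : PE) :
    evK B D e = ev (fun i : Fin 6 => (2 : ℤ) ^ (B * D ^ i.val)) e := by
  induction e with
  | var i =>
    show Int.ofNat (Nat.shiftLeft 1 (Nat.mul B (Nat.pow D i.val))) = (2 : ℤ) ^ (B * D ^ i.val)
    have : Nat.shiftLeft 1 (Nat.mul B (Nat.pow D i.val)) = 2 ^ (B * D ^ i.val) := by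
      show 1 <<< (B * D ^ i.val) = _
      rw [Nat.shiftLeft_eq, one_mul]
    rw [this]
    simp
  | cst z => rfl
  | add a b iha ihb =>
    show evK B D a + evK B D b = _
    rw [iha, ihb]; rfl
  | mul a b iha ihb =>
    show evK B D a * evK B D b = _
    rw [iha, ihb]; rfl
  | neg a iha =>
    show - evK B D a = _
    rw [iha]; rfl
  | pow a n iha =>
    show evK B D a ^ n = _
    rw [iha]; rfl

/-- the polynomial of an expression -/
noncomputable def kronP (e : PE) : MvPolynomial (Fin 6) ℤ := ev (fun i => X i) e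

theorem kron_dg_add (j : Fin 6) (a b : PE) : dg j (add a b) = max (dg j a) (dg j b) := by
  show cond (Nat.ble (dg j a) (dg j b)) (dg j b) (dg j a) = _
  by_cases h : dg j a ≤ dg j b
  · rw [Nat.ble_eq_true_of_le h, max_eq_right h]; rfl
  · have : Nat.ble (dg j a) (dg j b) = false := by
      rw [← Bool.not_eq_true, Nat.ble_eq]; exact h
    rw [this, max_eq_left (by omega)]; rfl

theorem kron_deg (j : Fin 6) (e : PE) : degreeOf j (kronP e) ≤ dg j e := by
  induction e with
  | var i =>
    show degreeOf j (X i : MvPolynomial (Fin 6) ℤ) ≤ cond (Nat.beq i.val j.val) 1 0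
    rw [degreeOf_X]
    split_ifs with h
    · subst h
      rw [Nat.beq_refl]; rfl
    · exact Nat.zero_le _
  | cst z =>
    show degreeOf j ((z : ℤ) : MvPolynomial (Fin 6) ℤ) ≤ 0
    rw [← eq_intCast (C : ℤ →+* MvPolynomial (Fin 6) ℤ) z, degreeOf_C]
  | add a b iha ihb =>
    rw [kron_dg_add]
    exact (degreeOf_add_le j (kronP a) (kronP b)).trans (max_le_max iha ihb)
  | mul a b iha ihb =>
    exact (degreeOf_mul_le j (kronP a) (kronP b)).trans (add_le_add iha ihb)
  | neg a iha =>
    show degreeOf j (-kronP a) ≤ dg j a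
    rwa [degreeOf_neg]
  | pow a n iha =>
    exact (degreeOf_pow_le j (kronP a) n).trans (Nat.mul_le_mul_left n iha)

/-- the majorant -/
noncomputable def kronM : PE → MvPolynomial (Fin 6) ℕ
  | var i => X i
  | cst z => C z.natAbs
  | add a b => kronM a + kronM b
  | mul a b => kronM a * kronM b
  | neg a => kronM a
  | pow a n => kronM a ^ n

theorem kron_maj_mul {p q : MvPolynomial (Fin 6) ℤ} {p' q' : MvPolynomial (Fin 6) ℕ}
    (hp : ∀ m, (coeff m p).natAbs ≤ coeff m p') (hq : ∀ m, (coeff m q).natAbs ≤ coeff m q') (m) :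
    (coeff m (p * q)).natAbs ≤ coeff m (p' * q') := by
  rw [coeff_mul, coeff_mul]
  refine (Int.natAbs_sum_le _ _).trans (Finset.sum_le_sum fun y _ => ?_)
  rw [Int.natAbs_mul]
  exact Nat.mul_le_mul (hp _) (hq _)

theorem kron_maj (e : PE) : ∀ m, (coeff m (kronP e)).natAbs ≤ coeff m (kronM e) := by
  induction e with
  | var i =>
    intro m
    show (coeff m (X i : MvPolynomial (Fin 6) ℤ)).natAbs ≤ coeff m (X i : MvPolynomial (Fin 6) ℕ)
    rw [coeff_X, coeff_X]
    split_ifs <;> simp
  | cst z =>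
    intro m
    show (coeff m ((z : ℤ) : MvPolynomial (Fin 6) ℤ)).natAbs ≤
      coeff m (C z.natAbs : MvPolynomial (Fin 6) ℕ)
    rw [← eq_intCast (C : ℤ →+* MvPolynomial (Fin 6) ℤ) z, coeff_C, coeff_C]
    split_ifs <;> simp
  | add a b iha ihb =>
    intro m
    show (coeff m (kronP a + kronP b)).natAbs ≤ coeff m (kronM a + kronM b)
    rw [coeff_add, coeff_add]
    exact (Int.natAbs_add_le _ _).trans (add_le_add (iha m) (ihb m))
  | mul a b iha ihb => exact kron_maj_mul iha ihb
  | neg a iha =>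
    intro m
    show (coeff m (-kronP a)).natAbs ≤ coeff m (kronM a)
    rw [coeff_neg, Int.natAbs_neg]
    exact iha m
  | pow a n iha =>
    show ∀ m, (coeff m (kronP a ^ n)).natAbs ≤ coeff m (kronM a ^ n)
    induction n with
    | zero =>
      intro m
      rw [pow_zero, pow_zero, coeff_one, coeff_one]
      split_ifs <;> simp
    | succ n ih =>
      rw [pow_succ, pow_succ]
      exact kron_maj_mul ih iha

theorem kron_nb (e : PE) : eval (fun _ => 1) (kronM e) = nb e := by
  induction e with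
  | var i => simp only [kronM, eval_X]; rfl
  | cst z => simp only [kronM, eval_C]; rfl
  | add a b iha ihb => simp only [kronM, map_add, iha, ihb]; rfl
  | mul a b iha ihb => simp only [kronM, map_mul, iha, ihb]; rfl
  | neg a iha => simp only [kronM, iha]; rfl
  | pow a n iha => simp only [kronM, map_pow, iha]; rfl

theorem kron_coeff_le (q : MvPolynomial (Fin 6) ℕ) (m) : coeff m q ≤ eval (fun _ => 1) q := by
  rw [eval_eq']
  simp only [one_pow, Finset.prod_const_one, mul_one]
  by_cases h : m ∈ q.support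
  · exact Finset.single_le_sum (f := fun d => coeff d q) (fun _ _ => Nat.zero_le _) h
  · rw [notMem_support_iff.1 h]; exact Nat.zero_le _

theorem kron_coeff (e : PE) (m) : (coeff m (kronP e)).natAbs ≤ nb e :=
  (kron_maj e m).trans ((kron_coeff_le _ m).trans (kron_nb e).le)

theorem kron_zero (B D : ℕ) (p : MvPolynomial (Fin 6) ℤ) (hd : ∀ j, degreeOf j p < D)
    (hc : ∀ m, (coeff m p).natAbs < 2 ^ B)
    (h0 : eval (fun i : Fin 6 => (2 : ℤ) ^ (B * D ^ i.val)) p = 0) : p = 0 := by
  by_contra hp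
  have hne : p.support.Nonempty := support_nonempty.2 hp
  let φ : (Fin 6 →₀ ℕ) → ℕ := fun m => ∑ i : Fin 6, m i * D ^ i.val
  have hlt : ∀ m ∈ p.support, ∀ i, m i < D := fun m hm i =>
    (monomial_le_degreeOf i hm).trans_lt (hd i)
  have hinj : ∀ m ∈ p.support, ∀ m' ∈ p.support, φ m = φ m' → m = m' := by
    intro m hm m' hm' h
    have h1 : finFunctionFinEquiv (fun i : Fin 6 => (⟨m i, hlt m hm i⟩ : Fin D)) =
        finFunctionFinEquiv (fun i : Fin 6 => (⟨m' i, hlt m' hm' i⟩ : Fin D)) := by
      apply Fin.ext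
      rw [finFunctionFinEquiv_apply, finFunctionFinEquiv_apply]
      exact h
    have h2 := finFunctionFinEquiv.injective h1
    ext i
    exact congrArg Fin.val (congrFun h2 i)
  obtain ⟨m0, hm0, hmin⟩ := Finset.exists_min_image p.support φ hne
  have hev : eval (fun i : Fin 6 => (2 : ℤ) ^ (B * D ^ i.val)) p =
      ∑ m ∈ p.support, coeff m p * 2 ^ (B * φ m) := by
    rw [eval_eq']
    refine Finset.sum_congr rfl fun m _ => ?_
    congr 1
    simp only [← pow_mul]
    rw [Finset.prod_pow_eq_pow_sum, Finset.mul_sum]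
    congr 1
    refine Finset.sum_congr rfl fun i _ => ?_
    ring
  rw [hev, ← Finset.add_sum_erase _ _ hm0] at h0
  have hdvd : (2 : ℤ) ^ B * 2 ^ (B * φ m0) ∣ ∑ m ∈ p.support.erase m0, coeff m p * 2 ^ (B * φ m) := by
    apply Finset.dvd_sum
    intro m hm
    have hm' := Finset.mem_of_mem_erase hm
    have h1 : φ m0 < φ m := lt_of_le_of_ne (hmin m hm')
      fun h => (Finset.ne_of_mem_erase hm) (hinj m hm' m0 hm0 h.symm)
    apply Dvd.dvd.mul_left
    rw [← pow_add]
    apply pow_dvd_pow
    have := Nat.mul_le_mul_left B (Nat.succ_le_of_lt h1)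
    rw [Nat.mul_succ] at this
    omega
  have h2 : (2 : ℤ) ^ B * 2 ^ (B * φ m0) ∣ coeff m0 p * 2 ^ (B * φ m0) := by
    rw [eq_neg_of_add_eq_zero_left h0]
    exact hdvd.neg_right
  have h3 : (2 : ℤ) ^ B ∣ coeff m0 p := (mul_dvd_mul_iff_right (by positivity)).1 h2
  have h4 : 2 ^ B ∣ (coeff m0 p).natAbs := by
    have := Int.natAbs_dvd_natAbs.2 h3
    simpa using this
  have h5 : 0 < (coeff m0 p).natAbs := Int.natAbs_pos.2 (mem_support_iff.1 hm0)
  exact absurd (Nat.le_of_dvd h5 h4) (not_le.2 (hc m0))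

/-- Let `p = ev X a - ev X b : MvPolynomial (Fin 6) ℤ`. Then `ev x e = aeval x (ev X e)` (also for `evK`),
`degreeOf j (ev X e) ≤ dg j e`, and `|coeff m (ev X e)| ≤ nb e` (majorise by a polynomial over `ℕ` whose value at `1` is `nb e`,
or bound `∑ m ∈ support, |coeff m p|`). The map `φ m = ∑ i, m i * D^i` is injective on the support of `p`
(`finFunctionFinEquiv`), and `0 = ∑ m ∈ support, coeff m p * 2^(B φ m)`. If `p ≠ 0` take `m` in the support with least `φ m`:
`2^B ∣ coeff m p`, while `0 < |coeff m p| < 2^B`. -/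
theorem sound (B D : ℕ) (a b : PE) (h : chk B D a b = true) (x : Fin 6 → ℝ) : ev x a = ev x b := by
  simp only [chk, Bool.and_eq_true, Nat.blt_eq, Nat.beq_eq] at h
  obtain ⟨⟨⟨⟨⟨⟨⟨h0, h1⟩, h2⟩, h3⟩, h4⟩, h5⟩, hn⟩, hz⟩ := h
  have hd : ∀ j : Fin 6, dg j (add a b) < D := by
    intro j
    fin_cases j
    exacts [h0, h1, h2, h3, h4, h5]
  have hn' : nb a + nb b < 2 ^ B := by
    have e : Nat.shiftLeft 1 B = 2 ^ B := by
      show 1 <<< B = _
      rw [Nat.shiftLeft_eq, one_mul]
    rw [e] at hn
    exact hn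
  have hz' : evK B D a - evK B D b = 0 := Int.natAbs_eq_zero.1 hz
  have hp : kronP a - kronP b = 0 := by
    apply kron_zero B D
    · intro j
      have := hd j
      rw [kron_dg_add] at this
      exact ((degreeOf_sub_le j _ _).trans (max_le_max (kron_deg j a) (kron_deg j b))).trans_lt this
    · intro m
      rw [coeff_sub]
      exact ((Int.natAbs_sub_le _ _).trans (add_le_add (kron_coeff a m) (kron_coeff b m))).trans_lt hn'
    · rw [map_sub]
      unfold kronP
      rw [kron_map, kron_map]
      simp only [eval_X]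
      rw [← kron_evK, ← kron_evK, hz']
  have hq := congrArg (eval₂Hom (Int.castRingHom ℝ) x) (sub_eq_zero.1 hp)
  unfold kronP at hq
  rw [kron_map, kron_map] at hq
  simpa only [eval₂Hom_X'] using hq

end PE

end Crest.Agent.R163
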