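import Crest.Agent.R163.Avg
import Crest.Agent.R163.Kron

/-! R163: the Klein coordinate expressions as syntax. -/

set_option autoImplicit false
set_option linter.unusedVariables false

namespace Crest.Agent.R163.PE

def pS (a b c d e f : PE) : PE := add (add (mul a d) (mul b e)) (mul c f)
def pA (a b c d e f : PE) : PE := add (add a d) (add (mul b f) (mul c e))
def pB (a b c d e f : PE) : PE := add (add b e) (add (mul a f) (mul c d))
def pC (a b c d e f : PE) : PE := add (add c f) (add (mul a e) (mul b d))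
def pH (a b c : PE) : PE := add (add (pow a 2) (pow b 2)) (pow c 2)
def pT (a b c : PE) : PE := mul (cst 6) (mul (mul a b) c)
def pP (a b c : PE) : PE := add (add (mul (pow a 2) (pow b 2)) (mul (pow b 2) (pow c 2))) (mul (pow c 2) (pow a 2))
def qN (a b c d e f : PE) : PE := pH (pA a b c d e f) (pB a b c d e f) (pC a b c d e f)
def qT (a b c d e f : PE) : PE := pT (pA a b c d e f) (pB a b c d e f) (pC a b c d e f)
def qP (a b c d e f : PE) : PE := pP (pA a b c d e f) (pB a b c d e f) (pC a b c d e f)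
def p4 (G : PE → PE → PE → PE) (d e f : PE) : PE :=
  add (add (add (G d e f) (G d (neg e) (neg f))) (G (neg d) e (neg f))) (G (neg d) (neg e) f)
def p24 (G : PE → PE → PE → PE) (d e f : PE) : PE :=
  add (add (add (add (add (p4 G d e f) (p4 G d f e)) (p4 G e d f)) (p4 G e f d)) (p4 G f d e)) (p4 G f e d)
def v0 : PE := var 0
def v1 : PE := var 1
def v2 : PE := var 2
def v3 : PE := var 3
def v4 : PE := var 4
def v5 : PE := var 5
/-- `c * H^i T^j P^k * H'^l T'^m P'^n` -/
def tm (c : ℤ) (i j k l m n : ℕ) : PE :=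
  mul (mul (cst c) (mul (mul (pow (pH v0 v1 v2) i) (pow (pT v0 v1 v2) j)) (pow (pP v0 v1 v2) k)))
    (mul (mul (pow (pH v3 v4 v5) l) (pow (pT v3 v4 v5) m)) (pow (pP v3 v4 v5) n))

section
variable (x : Fin 6 → ℝ) (a b c d e f : PE)

theorem ev_pS : ev x (pS a b c d e f) = kS (ev x a) (ev x b) (ev x c) (ev x d) (ev x e) (ev x f) := rfl
theorem ev_qN : ev x (qN a b c d e f) = kN (ev x a) (ev x b) (ev x c) (ev x d) (ev x e) (ev x f) := rfl
theorem ev_qP : ev x (qP a b c d e f) = kP (ev x a) (ev x b) (ev x c) (ev x d) (ev x e) (ev x f) := rfl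
theorem ev_qT : ev x (qT a b c d e f) = kT (ev x a) (ev x b) (ev x c) (ev x d) (ev x e) (ev x f) := by
  simp only [qT, pT, pA, pB, pC, ev, kT, iT, kA, kB, kC, Int.cast_ofNat]
theorem ev_add : ev x (add a b) = ev x a + ev x b := rfl
theorem ev_mul : ev x (mul a b) = ev x a * ev x b := rfl
theorem ev_neg : ev x (neg a) = -ev x a := rfl
theorem ev_pow (n : ℕ) : ev x (pow a n) = ev x a ^ n := rfl
theorem ev_cst (z : ℤ) : ev x (cst z) = z := rfl

end

variable (a b c d e f : ℝ)
theorem ev_v0 : ev ![a, b, c, d, e, f] v0 = a := rfl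
theorem ev_v1 : ev ![a, b, c, d, e, f] v1 = b := rfl
theorem ev_v2 : ev ![a, b, c, d, e, f] v2 = c := rfl
theorem ev_v3 : ev ![a, b, c, d, e, f] v3 = d := rfl
theorem ev_v4 : ev ![a, b, c, d, e, f] v4 = e := rfl
theorem ev_v5 : ev ![a, b, c, d, e, f] v5 = f := rfl
theorem ev_tm (z : ℤ) (i j k l m n : ℕ) : ev ![a, b, c, d, e, f] (tm z i j k l m n) =
    z * (iH a b c ^ i * iT a b c ^ j * iP a b c ^ k) * (iH d e f ^ l * iT d e f ^ m * iP d e f ^ n) := by
  simp only [tm, pH, pT, pP, ev_add, ev_mul, ev_pow, ev_cst, ev_v0, ev_v1, ev_v2, ev_v3, ev_v4, ev_v5, iH, iT, iP,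
    Int.cast_ofNat]

/-! three states -/

def rH (a b : PE) : PE := add (add (pow a 2) (pow b 2)) (pow (add a b) 2)
def rT (a b : PE) : PE := neg (mul (mul a b) (add a b))
def rS (a b d e : PE) : PE := add (add (mul a d) (mul b e)) (mul (add a b) (add d e))
def rX (a d s : PE) : PE := add (mul (cst 3) (add (add a d) (mul a d))) (neg s)
def rN (a b d e : PE) : PE := rH (rX a d (rS a b d e)) (rX b e (rS a b d e))
def rM (a b d e : PE) : PE := rT (rX a d (rS a b d e)) (rX b e (rS a b d e))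
def rf (d e : PE) : PE := add (neg d) (neg e)
def p6 (G : PE → PE → PE) (d e : PE) : PE :=
  add (add (add (add (add (G d e) (G e d)) (G d (rf d e))) (G (rf d e) d)) (G e (rf d e))) (G (rf d e) e)
def tm3 (c : ℤ) (i j l m : ℕ) : PE :=
  mul (mul (cst c) (mul (pow (rH v0 v1) i) (pow (rT v0 v1) j))) (mul (pow (rH v2 v3) l) (pow (rT v2 v3) m))

section
variable (x : Fin 6 → ℝ) (p q r s : PE)
theorem ev_rS : ev x (rS p q r s) = 3 * jS (ev x p) (ev x q) (ev x r) (ev x s) := by
  simp only [rS, ev, jS]; ring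
theorem ev_rN : ev x (rN p q r s) = 27 * jN (ev x p) (ev x q) (ev x r) (ev x s) := by
  simp only [rN, rH, rX, rS, ev, jN, jH, jS]; push_cast; ring
theorem ev_rM : ev x (rM p q r s) = 27 * jM (ev x p) (ev x q) (ev x r) (ev x s) := by
  simp only [rM, rT, rX, rS, ev, jM, jT, jS]; push_cast; ring
theorem ev_rf : ev x (rf p q) = -ev x p - ev x q := by
  simp only [rf, ev]; ring
end

theorem ev_tm3 (z : ℤ) (i j l m : ℕ) : ev ![a, b, c, d, e, f] (tm3 z i j l m) =
    z * ((3 * jH a b) ^ i * jT a b ^ j) * ((3 * jH c d) ^ l * jT c d ^ m) := by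
  have h : ∀ a b : ℝ, 3 * jH a b = a ^ 2 + b ^ 2 + (a + b) ^ 2 := fun a b => by unfold jH; ring
  simp only [tm3, rH, rT, ev_add, ev_mul, ev_pow, ev_cst, ev_neg, ev_v0, ev_v1, ev_v2, ev_v3, h, jT]

end Crest.Agent.R163.PE
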