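import Crest.Agent.R163.Basic

/-! R163: the advantage on a fixed tree as a value of `sub`. -/

set_option autoImplicit false
set_option linter.unusedVariables false
open Crest.ProbabilityR.Broadcast Crest.ProbabilityR.TreeBroadcast

namespace Crest.Agent.R163

variable {q : ℕ}

/-- `x` is the formal sum of the atoms of the finite experiment `E`. -/
def LevRep (E : Ex q) (x : MonoidAlgebra ℝ (Fin q → ℝ)) : Prop :=
  ∃ _ : Fintype E.ι, x = ∑ o, MonoidAlgebra.of ℝ _ (E.P o)

theorem LevRep.val {E : Ex q} {κ : Type*} [Fintype κ] {u : κ → Fin q → ℝ}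
    (h : LevRep E (∑ o, MonoidAlgebra.of ℝ _ (u o))) (g : (Fin q → ℝ) → ℝ) : val E g = ∑ o, g (u o) := by
  obtain ⟨_, h⟩ := h
  have := congrArg (MonoidAlgebra.liftNC (AddMonoidHom.id ℝ) g) h
  simp only [map_sum, MonoidAlgebra.of_apply, MonoidAlgebra.liftNC_single, AddMonoidHom.id_apply, one_mul] at this
  rw [this, R163.val, tsum_fintype]

theorem LevRep.chan {E : Ex q} {κ : Type*} [Fintype κ] {u : κ → Fin q → ℝ} {lam : ℝ} (hl : LamOK q lam)
    (h : LevRep E (∑ o, MonoidAlgebra.of ℝ _ (u o))) :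
    LevRep (E.chan lam) (∑ o, MonoidAlgebra.of ℝ _ (chL lam (u o))) := by
  obtain ⟨i, h⟩ := h
  have := congrArg (MonoidAlgebra.liftNC (MonoidAlgebra.singleAddHom (1 : Fin q → ℝ))
    fun P => MonoidAlgebra.of ℝ _ (chL lam P)) h
  simp only [map_sum, MonoidAlgebra.of_apply, MonoidAlgebra.liftNC_single, MonoidAlgebra.singleAddHom_apply,
    MonoidAlgebra.single_mul_single, one_mul] at this
  exact ⟨i, this.trans (Finset.sum_congr rfl fun o _ => by rw [chan_P E hl]; rfl)⟩

theorem LevRep.prodL {α : Type*} {E : α → Ex q} {x : α → MonoidAlgebra ℝ (Fin q → ℝ)}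
    (h : ∀ c, LevRep (E c) (x c)) (l : List α) : LevRep (Ex.prodL (l.map E)) (l.map x).prod := by
  induction l with
  | nil =>
    refine ⟨inferInstanceAs (Fintype Unit), ?_⟩
    refine Eq.trans ?_ (Fintype.sum_unique (ι := Unit) _).symm
    refine (map_one (MonoidAlgebra.of ℝ (Fin q → ℝ))).symm.trans ?_
    exact congrArg _ (funext fun i => (max_eq_left zero_le_one).symm)
  | cons a l ih =>
    obtain ⟨_, h1⟩ := ih
    obtain ⟨_, h2⟩ := h a
    refine ⟨inferInstanceAs (Fintype (_ × _)), ?_⟩
    rw [List.map_cons, List.prod_cons, h1, h2, mul_comm, Finset.sum_mul_sum, ← Fintype.sum_prod_type']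
    exact Finset.sum_congr rfl fun o _ => (map_mul _ _ _).symm

universe u

section
variable {V : Type u} [DecidableEq V] (T : LocFinTree V)

/-- Observations at depth `k` below a vertex. -/
def LevI (q : ℕ) : ℕ → V → Type u
  | 0, _ => ULift (Fin q)
  | k + 1, v => ∀ c : T.children v, LevI q k c

noncomputable instance levFin (q : ℕ) : ∀ k v, Fintype (LevI T q k v)
  | 0, _ => ULift.fintype _
  | k + 1, _ => @Pi.instFintype _ _ _ _ fun c => levFin q k c.1

/-- Their likelihoods. -/
noncomputable def levP (lam : ℝ) : ∀ k v, LevI T q k v → Fin q → ℝ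
  | 0, _, o => fun i => if o.down = i then 1 else 0
  | k + 1, v, o => ∏ c : T.children v, chL lam (levP lam k c (o c))

theorem lev_rep {lam : ℝ} (hl : LamOK q lam) (k : ℕ) : ∀ v,
    LevRep (sub T lam (fun _ => Ex.vert) k v) (∑ o, MonoidAlgebra.of ℝ _ (levP (q := q) T lam k v o)) := by
  induction k with
  | zero => exact fun v => ⟨inferInstanceAs (Fintype (Fin q)), Equiv.ulift.sum_comp
      (fun o => MonoidAlgebra.of ℝ (Fin q → ℝ) fun i => if o = i then 1 else 0)⟩
  | succ k ih =>
    intro v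
    have h := LevRep.prodL (fun c => (ih c).chan hl) (T.children v).toList
    rw [Finset.prod_map_toList, ← Finset.prod_coe_sort, Fintype.prod_sum] at h
    simp only [← map_prod] at h
    exact h

theorem lev_child {m : ℕ} {v c : V} (hv : v ∈ T.level m) (hc : c ∈ T.children v) : c ∈ T.level (m + 1) := by
  rw [← (T.mem_level_iff _ _).1 hv]
  exact (Finset.mem_filter.1 hc).1

theorem lev_parent {m : ℕ} {w : V} (hw : w ∈ T.level (m + 1)) :
    T.parent w ∈ T.level m ∧ w ∈ T.children (T.parent w) := by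
  have hd := (T.mem_level_iff _ _).1 hw
  have := T.depth_parent w fun h => by
    have := (T.depth_eq_zero_iff w).2 h
    omega
  exact ⟨(T.mem_level_iff _ _).2 (by omega), Finset.mem_filter.2 ⟨(T.mem_level_iff _ _).2 this.symm, rfl⟩⟩

/-- The next level is fibred over the parents. -/
def levPi (m : ℕ) (β : V → Type*) :
    (∀ w : T.level (m + 1), β w) ≃ ∀ v : T.level m, ∀ c : T.children v, β c where
  toFun o v c := o ⟨c, lev_child T v.2 c.2⟩
  invFun o w := o ⟨_, (lev_parent T w.2).1⟩ ⟨w, (lev_parent T w.2).2⟩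
  left_inv _ := rfl
  right_inv o := by
    funext ⟨v, hv⟩ ⟨c, hc⟩
    obtain rfl : T.parent c = v := (Finset.mem_filter.1 hc).2
    rfl

theorem lev_prod (m : ℕ) (f : T.level m → T.level (m + 1) → ℝ) :
    ∏ w : T.level (m + 1), f ⟨_, (lev_parent T w.2).1⟩ w =
      ∏ v : T.level m, ∏ c : T.children v, f v ⟨c, lev_child T v.2 c.2⟩ := by
  rw [← Fintype.prod_sigma']
  refine Fintype.prod_equiv
    { toFun := fun w => ⟨⟨_, (lev_parent T w.2).1⟩, ⟨w, (lev_parent T w.2).2⟩⟩
      invFun := fun p => ⟨p.2, lev_child T p.1.2 p.2.2⟩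
      left_inv := fun _ => rfl
      right_inv := ?_ } _ _ fun _ => rfl
  rintro ⟨⟨v, hv⟩, c, hc⟩
  obtain rfl : T.parent c = v := (Finset.mem_filter.1 hc).2
  rfl

theorem lev_law (lam : ℝ) (k : ℕ) : ∀ m n, n = m + k →
    ∃ e : (T.level n → Fin q) ≃ ∀ v : T.level m, LevI T q k v, ∀ i τ, levelLaw q T lam n i τ =
      ∑ σ : T.level m → Fin q, levelLaw q T lam m i σ * ∏ v : T.level m, levP T lam k v (e τ v) (σ v) := by
  induction k with
  | zero =>
    intro m n hn
    obtain rfl : m = n := by omega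
    refine ⟨Equiv.piCongrRight fun _ => Equiv.ulift.symm, fun i τ => ?_⟩
    have h : ∀ σ : T.level m → Fin q, ∏ v, (if τ v = σ v then (1 : ℝ) else 0) = if τ = σ then 1 else 0 :=
      fun σ => by simp only [Fintype.prod_boole, funext_iff]
    exact (Finset.sum_congr rfl fun σ _ => congrArg _ (h σ)).trans (by simp) |>.symm
  | succ k ih =>
    intro m n hn
    obtain ⟨e, he⟩ := ih (m + 1) n (by omega)
    refine ⟨e.trans (levPi T m (LevI T q k)), fun i τ => ?_⟩
    rw [he]
    simp only [levelLaw, Finset.sum_mul]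
    rw [Finset.sum_comm]
    refine Finset.sum_congr rfl fun σ _ => ?_
    simp only [mul_assoc, ← Finset.prod_mul_distrib]
    rw [← Finset.mul_sum, ← Fintype.prod_sum fun (w : T.level (m + 1)) (j : Fin q) =>
      channel q lam (σ ⟨_, (lev_parent T w.2).1⟩) j * levP T lam k w (e τ w) j,
      lev_prod T m fun v w => ∑ j, channel q lam (σ v) j * levP T lam k w (e τ w) j]
    simp only [levP, Finset.prod_apply]
    rfl

end

/-- Sketch. For leaf weights `f : V → Fin q → ℝ` put `Z 0 v f i = f v i`,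
`Z (k+1) v f i = ∏ c ∈ children v, ∑ j, channel q lam i j * Z k c f j`.
(1) `Z (k+1) v f = Z k v f'` with `f' w i = ∏ c ∈ children w, ∑ j, channel q lam i j * f c j`.
(2) `∑ τ, levelLaw q T lam n i τ * ∏ v : level n, f v (τ v) = Z n root f i` (induction on `n`, generalising `f`;
`Finset.prod_univ_sum`, and the product over `level (n+1)` is fibred over the parents).
Hence `levelLaw n i τ = Z n root (indicator of τ) i`.
(3) With `D k v` the finset of descendants of `v` at relative depth `k` (`D 0 v = {v}`,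
`D (k+1) v = biUnion of D k c`, disjoint), `Z k v f` depends only on `f` on `D k v`, and
`∑ τ : D k v → Fin q, g (Z k v (ind τ)) = val (sub T lam vert k v) g` for test `g`
(induction on `k`, inner induction over the list of children); `D n root = level n`.
A possible shortcut for (3): prove for every finset `S ⊇ D k v`
`∑ τ : S → Fin q, g (Z k v (ind τ)) = q ^ (card S - card (D k v)) * val …`, or work with `Finset.pi`/`Fintype.piFinset`. -/
theorem link_tree {V : Type*} [DecidableEq V] (T : LocFinTree V) {lam : ℝ} (hl : LamOK q lam) (n : ℕ) :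
    treeAdvantage q T lam n = 1 / (2 * q) * val (sub T lam (fun _ => (Ex.vert : Ex q)) n T.root) advF := by
  obtain ⟨e, he⟩ := lev_law (q := q) T lam n 0 n (zero_add n).symm
  let _ : Unique (T.level 0) :=
    ⟨⟨⟨T.root, (T.mem_level_iff _ _).2 ((T.depth_eq_zero_iff _).2 rfl)⟩⟩, fun v =>
      Subtype.ext ((T.depth_eq_zero_iff _).1 ((T.mem_level_iff _ _).1 v.2))⟩
  have h : ∀ i τ, levelLaw q T lam n i τ = levP T lam n T.root (e τ default) i := fun i τ => by
    rw [he, ← (Equiv.funUnique _ _).symm.sum_comp]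
    simp [levelLaw]
    rfl
  rw [treeAdvantage, (lev_rep T hl n _).val]
  refine congrArg _ (Fintype.sum_equiv (e.trans (Equiv.piUnique _)) _ _ fun τ => ?_)
  simp only [h]
  rfl

end Crest.Agent.R163
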