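import Crest.Agent.R163.Two
import Crest.Agent.R163.Bil

/-! R163: one-point facts about the polynomial test function `psi4`. -/

set_option autoImplicit false
set_option linter.unusedVariables false

namespace Crest.Agent.R163

theorem psi4_def (y : Fin 4 → ℝ) :
    psi4 y = fT y - 31 / 50 * fH y ^ 2 - 1 / 2 * Bil.fP y + 3 / 25 * (fH y * fT y) := rfl

theorem log4_klein {y : Fin 4 → ℝ} (hy : Simp y) :
    ∃ a b c : ℝ, |a| ≤ 1 ∧ |b| ≤ 1 ∧ |c| ≤ 1 ∧ fH y = a ^ 2 + b ^ 2 + c ^ 2 ∧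
      fT y = 6 * (a * b * c) ∧ Bil.fP y = a ^ 2 * b ^ 2 + b ^ 2 * c ^ 2 + c ^ 2 * a ^ 2 := by
  obtain ⟨hn, hs⟩ := hy
  have h0 := hn 0
  have h1 := hn 1
  have h2 := hn 2
  have h3 := hn 3
  rw [Fin.sum_univ_four] at hs
  push_cast at hs
  have e3 : y 3 = 4 - y 0 - y 1 - y 2 := by linarith
  refine ⟨(y 0 + y 1 - y 2 - y 3) / 4, (y 0 - y 1 + y 2 - y 3) / 4, (y 0 - y 1 - y 2 + y 3) / 4,
    abs_le.2 ⟨by linarith, by linarith⟩, abs_le.2 ⟨by linarith, by linarith⟩,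
    abs_le.2 ⟨by linarith, by linarith⟩, ?_, ?_, ?_⟩
  · simp only [fH, Fin.sum_univ_four, e3]; push_cast; ring
  · simp only [fT, Fin.sum_univ_four, e3]; push_cast; ring
  · simp only [Bil.fP, fH, Fin.sum_univ_four, e3]; push_cast; ring

theorem log4_H {y : Fin 4 → ℝ} (hy : Simp y) : 0 ≤ fH y ∧ fH y ≤ 3 := by
  obtain ⟨a, b, c, ha, hb, hc, hH, -, -⟩ := log4_klein hy
  have ha' : a ^ 2 ≤ 1 := by rw [← sq_abs]; nlinarith [abs_nonneg a]
  have hb' : b ^ 2 ≤ 1 := by rw [← sq_abs]; nlinarith [abs_nonneg b]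
  have hc' : c ^ 2 ≤ 1 := by rw [← sq_abs]; nlinarith [abs_nonneg c]
  rw [hH]
  exact ⟨by positivity, by linarith⟩

/-- Klein coordinates `a = (y0+y1-y2-y3)/4` etc. (see `Avg.lean`): `fP = a²b²+b²c²+c²a²`. -/
theorem fP_nonneg {y : Fin 4 → ℝ} (hy : Simp y) : 0 ≤ Bil.fP y := by
  obtain ⟨a, b, c, -, -, -, -, -, hP⟩ := log4_klein hy
  rw [hP]; positivity

/-- `fP ≤ fH²/3 ≤ fH` -/
theorem fP_le {y : Fin 4 → ℝ} (hy : Simp y) : Bil.fP y ≤ fH y := by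
  obtain ⟨a, b, c, ha, hb, hc, hH, -, hP⟩ := log4_klein hy
  have ha' : a ^ 2 ≤ 1 := by rw [← sq_abs]; nlinarith [abs_nonneg a]
  have hb' : b ^ 2 ≤ 1 := by rw [← sq_abs]; nlinarith [abs_nonneg b]
  have hc' : c ^ 2 ≤ 1 := by rw [← sq_abs]; nlinarith [abs_nonneg c]
  rw [hH, hP]
  nlinarith [mul_le_mul_of_nonneg_left hb' (sq_nonneg a), mul_le_mul_of_nonneg_left hc' (sq_nonneg b),
    mul_le_mul_of_nonneg_left ha' (sq_nonneg c)]

/-- `fT = 6abc`, `fH = a²+b²+c²`, `|a|,|b|,|c| ≤ 1` -/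
theorem abs_fT_le4 {y : Fin 4 → ℝ} (hy : Simp y) : |fT y| ≤ 2 * fH y := by
  obtain ⟨a, b, c, ha, hb, hc, hH, hT, -⟩ := log4_klein hy
  rw [hH, hT, abs_mul, abs_mul, abs_mul, ← sq_abs a, ← sq_abs b, ← sq_abs c,
    abs_of_nonneg (by norm_num : (0 : ℝ) ≤ 6)]
  have h0 := abs_nonneg a
  have h1 := abs_nonneg b
  have h2 := abs_nonneg c
  generalize |a| = u at *
  generalize |b| = v at *
  generalize |c| = w at *
  have e1 : u * v * w ≤ u * v := by nlinarith [mul_nonneg h0 h1]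
  have e2 : u * v * w ≤ v * w := by nlinarith [mul_nonneg h1 h2]
  have e3 : u * v * w ≤ u * w := by nlinarith [mul_nonneg h0 h2]
  nlinarith [sq_nonneg (u - v), sq_nonneg (v - w), sq_nonneg (u - w)]

theorem bdd_fP : Bdd Bil.fP := by
  refine ⟨3, fun y hy => abs_le.2 ⟨?_, ?_⟩⟩
  · linarith [fP_nonneg hy]
  · linarith [fP_le hy, (log4_H hy).2]

theorem bdd_psi4' : Bdd psi4 := by
  refine ⟨30, fun y hy => ?_⟩
  obtain ⟨h0, h3⟩ := log4_H hy
  have hT := abs_le.1 (abs_fT_le4 hy)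
  have hP0 := fP_nonneg hy
  have hP1 := fP_le hy
  rw [psi4_def]
  have h9 : fH y ^ 2 ≤ 9 := by nlinarith
  have hHT1 : fH y * fT y ≤ 18 := by nlinarith
  have hHT2 : -18 ≤ fH y * fT y := by nlinarith
  refine abs_le.2 ⟨?_, ?_⟩ <;> nlinarith [sq_nonneg (fH y)]

theorem psi4_one : psi4 (fun _ => 1) = 0 := by
  simp [psi4, fT, fH]

/-- the difference is `lam³ (1-lam) (.62 H² + .5 P - .12 (1+lam) H T)` and `T ≤ 2H`, `P ≥ 0` -/
theorem psi4_chan {lam : ℝ} (h0 : 0 ≤ lam) (h1 : lam ≤ 1) {y : Fin 4 → ℝ} (hy : Simp y) :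
    lam ^ 3 * psi4 y ≤ psi4 fun i => 1 + lam * (y i - 1) := by
  obtain ⟨hH0, -⟩ := log4_H hy
  have hT := (abs_le.1 (abs_fT_le4 hy)).2
  have hP0 := fP_nonneg hy
  have eH : fH (fun i => 1 + lam * (y i - 1)) = lam ^ 2 * fH y := by
    simp only [fH, Fin.sum_univ_four]; ring
  have eT : fT (fun i => 1 + lam * (y i - 1)) = lam ^ 3 * fT y := by
    simp only [fT, Fin.sum_univ_four]; ring
  have eP : Bil.fP (fun i => 1 + lam * (y i - 1)) = lam ^ 4 * Bil.fP y := by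
    simp only [Bil.fP, fH, Fin.sum_univ_four]; ring
  rw [psi4_def, psi4_def, eH, eT, eP]
  generalize fH y = H at *
  generalize fT y = T at *
  generalize Bil.fP y = P at *
  have hHT : H * T ≤ 2 * H ^ 2 := by nlinarith
  have key : 0 ≤ 31 / 50 * H ^ 2 + 1 / 2 * P - 3 / 25 * ((1 + lam) * (H * T)) := by
    have : (1 + lam) * (H * T) ≤ (1 + lam) * (2 * H ^ 2) :=
      mul_le_mul_of_nonneg_left hHT (by linarith)
    nlinarith [sq_nonneg H]
  have := mul_nonneg (mul_nonneg (pow_nonneg h0 3) (sub_nonneg.2 h1)) key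
  nlinarith

theorem psi4_le_fT {y : Fin 4 → ℝ} (hy : Simp y) : psi4 y ≤ fT y := by
  obtain ⟨hH0, -⟩ := log4_H hy
  have hT := (abs_le.1 (abs_fT_le4 hy)).2
  have hP0 := fP_nonneg hy
  rw [psi4_def]
  nlinarith [sq_nonneg (fH y), mul_le_mul_of_nonneg_left hT hH0]

/-- the value is `1.08` -/
theorem psi4_vertex (o : Fin 4) : 1 / 2 ≤ psi4 fun i => if o = i then (4 : ℝ) else 0 := by
  fin_cases o <;> simp [psi4, fT, fH, Fin.sum_univ_four] <;> norm_num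

end Crest.Agent.R163
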